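import Crest.Agent.R227.BottAux

/-!
# R227 / Bott : Böttcher coordinate
-/

set_option autoImplicit false

namespace Crest.Agent.R227

open Filter Topology Crest.LubinTate

variable {p : ℕ} [Fact p.Prime] {C : Type} [NontriviallyNormedField C] [IsUltrametricDist C]
  [CompleteSpace C] [CharP C p] [IsAlgClosed C] {h r : ℕ} (D : Data p C h r)

/-- Solve `γ ∘ g = γ^σ` (`σ` = `P`-th power of coefficients) recursively in `O`:
`γ₁^(P-1) = g₁`, `γ_i` a root of the monic `x^P - g₁^i x - ∑_{j<i} γ_j coeff_i (g^j)`.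
Then `γ ∘ [p]_H = γ^P`; over `C` transport `H` along `γ` (`exists_conj'`) to `H₀` with
`[p] = X^P`, apply `exists_normal`, whose `ε₀` has coefficients in `𝔽_P ⊆ O`
(`map_frob_hom_of_pser`), and replace `γ` by `ε₀⁻¹ ∘ γ`. -/
theorem Data.exists_gamma : ∃ (Gh : FormalGroup (ZMod p)) (_ : Gh.IsComm)
    (γ : PowerSeries (O C)), IsNormal p h Gh ∧ IsFGHom D.H (Gh.map (zO p C)) γ ∧
      PowerSeries.coeff 1 γ ≠ 0 := by
  obtain ⟨γ, hγ0, hγ1, hγ⟩ := bott_exists_fe (bott_two_le (p := p) D.hh) D.g0 D.g1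
  have hXP : PowerSeries.HasSubst (PowerSeries.X ^ p ^ h : PowerSeries (O C)) :=
    PowerSeries.HasSubst.X_pow (pow_ne_zero _ (Fact.out : p.Prime).ne_zero)
  have hfe : γ.subst (mulSeries D.H p) = γ ^ p ^ h := by
    rw [D.hg, ← PowerSeries.subst_comp_subst_apply
      (PowerSeries.HasSubst.of_constantCoeff_zero' D.g0) hXP, pow_eq_subst_X_pow p γ h]
    congr 1
    ext i
    rw [hγ, PowerSeries.coeff_map, iterateFrobenius_def]
  set ρ : O C →+* C := (O C).subtype with hρ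
  have hρi : Function.Injective ρ := Subtype.val_injective
  have h0C : PowerSeries.constantCoeff (γ.map ρ) = 0 := bott_const_map hγ0 ρ
  have h1C : PowerSeries.coeff 1 (γ.map ρ) ≠ 0 := by
    rw [PowerSeries.coeff_map]
    exact fun h => hγ1 (hρi (by rw [h, map_zero]))
  have huC : IsUnit (PowerSeries.coeff 1 (γ.map ρ)) := isUnit_iff_ne_zero.2 h1C
  obtain ⟨H₀, hc₀, hH₀⟩ := exists_conj' (D.H.map ρ) h0C huC
  have hp₀ : mulSeries H₀ p = PowerSeries.X ^ p ^ h := by
    refine subst_right_cancel h0C huC ?_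
    rw [← fgHom_mulSeries_comm hH₀, mulSeries_map,
      ← bott_map_subst (constantCoeff_mulSeries _ _), hfe, map_pow,
      PowerSeries.subst_pow (PowerSeries.HasSubst.of_constantCoeff_zero' h0C),
      PowerSeries.subst_X (PowerSeries.HasSubst.of_constantCoeff_zero' h0C)]
  obtain ⟨Gh, hcG, ε₀, hN, hε1, hε⟩ := exists_normal D.hh H₀ hp₀
  have hu : IsUnit (PowerSeries.coeff 1 ε₀) := by rw [hε1]; exact isUnit_one
  have hδ := fgHom_inv hε hu
  set δ := ε₀.substInvOfIsUnit hu with hδdef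
  have hpG : mulSeries (Gh.map (ZMod.castHom (dvd_refl p) C)) p = PowerSeries.X ^ p ^ h := by
    rw [mulSeries_map, hN.pser, map_pow, PowerSeries.map_X]
  have hδq : ∀ i, PowerSeries.coeff i δ ^ p ^ h = PowerSeries.coeff i δ :=
    map_frob_hom_of_pser p hp₀ hpG hδ
  let δO : PowerSeries (O C) := PowerSeries.mk fun i =>
    ⟨PowerSeries.coeff i δ, norm_le_one_of_pow_eq D.hh (hδq i)⟩
  have hδO : δO.map ρ = δ := by
    ext i
    rw [PowerSeries.coeff_map, PowerSeries.coeff_mk]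
    rfl
  have hmap : PowerSeries.map ρ (δO.subst γ) = δ.subst (γ.map ρ) := by
    rw [bott_map_subst hγ0, hδO]
  refine ⟨Gh, hcG, δO.subst γ, hN, ?_, ?_⟩
  · refine fgHom_of_map hρi ?_
    rw [hmap, fg_map_map, Subsingleton.elim (ρ.comp (zO p C)) (ZMod.castHom (dvd_refl p) C)]
    exact fgHom_comp hH₀ hδ
  · intro h0
    have : PowerSeries.coeff 1 (PowerSeries.map ρ (δO.subst γ)) = 0 := by
      rw [PowerSeries.coeff_map, h0, map_zero]
    rw [hmap, coeff_one_subst h0C, hδdef, PowerSeries.coeff_one_substInvOfIsUnit] at this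
    exact (mul_ne_zero (Units.ne_zero _) h1C) this

theorem bott_exists_C_mul {R : Type} [CommRing R] {ϖ : R} {f : PowerSeries R}
    (hf : f.map (Ideal.Quotient.mk (Ideal.span {ϖ})) = 0) :
    ∃ f' : PowerSeries R, f = PowerSeries.C ϖ * f' := by
  have : ∀ i, ∃ c, PowerSeries.coeff i f = ϖ * c := by
    intro i
    have h1 := congrArg (PowerSeries.coeff i) hf
    rw [PowerSeries.coeff_map, map_zero, Ideal.Quotient.eq_zero_iff_mem,
      Ideal.mem_span_singleton] at h1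
    exact h1
  choose c hc using this
  refine ⟨PowerSeries.mk c, ?_⟩
  ext i
  rw [PowerSeries.coeff_C_mul, PowerSeries.coeff_mk, hc]

omit [CharP C p] [IsAlgClosed C] in
theorem bott_norm_ev1_le {ϖ y : O C} (hy : y ∈ mO C) {w : PowerSeries (O C)} {N : ℕ}
    (hw : PowerSeries.X ^ N ∣ w.map (Ideal.Quotient.mk (Ideal.span {ϖ}))) :
    ‖((ev1 (RingHom.id _) y w : O C) : C)‖ ≤ max ‖(ϖ : C)‖ (‖(y : C)‖ ^ N) := by
  classical
  have : ∀ i, i < N → ∃ c, PowerSeries.coeff i w = ϖ * c := by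
    intro i hi
    have h1 := PowerSeries.X_pow_dvd_iff.1 hw i hi
    rw [PowerSeries.coeff_map, Ideal.Quotient.eq_zero_iff_mem, Ideal.mem_span_singleton] at h1
    exact h1
  choose! c hc using this
  have hd : PowerSeries.X ^ N ∣ w - PowerSeries.C ϖ * PowerSeries.mk c := by
    rw [PowerSeries.X_pow_dvd_iff]
    intro i hi
    rw [map_sub, PowerSeries.coeff_C_mul, PowerSeries.coeff_mk, hc i hi, sub_self]
  have h1 := norm_ev1_le (RingHom.id (O C)) hy hd
  have h2 : ‖((ev1 (RingHom.id _) y (PowerSeries.C ϖ * PowerSeries.mk c) : O C) : C)‖ ≤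
      ‖(ϖ : C)‖ := by
    rw [map_mul, ev1_C, Subring.coe_mul, norm_mul]
    exact mul_le_of_le_one_right (norm_nonneg _) (O.norm_le _)
  have h3 : ((ev1 (RingHom.id _) y w : O C) : C) =
      ((ev1 (RingHom.id _) y (PowerSeries.C ϖ * PowerSeries.mk c) : O C) : C) +
      ((ev1 (RingHom.id _) y (w - PowerSeries.C ϖ * PowerSeries.mk c) : O C) : C) := by
    rw [← Subring.coe_add, ← map_add, add_sub_cancel]
  rw [h3]
  exact (IsUltrametricDist.norm_add_le_max _ _).trans (max_le_max h2 h1)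

/-- a solution of `γ ∘ [p] = γ^P` that vanishes mod `ϖ` vanishes -/
theorem Data.bott_rigid {γ : PowerSeries (O C)} (hγ : γ.subst (mulSeries D.H p) = γ ^ p ^ h)
    (h0 : γ.map (Ideal.Quotient.mk (Ideal.span {D.ϖ})) = 0) : PowerSeries.coeff 1 γ = 0 := by
  have hs : PowerSeries.HasSubst (mulSeries D.H p) :=
    PowerSeries.HasSubst.of_constantCoeff_zero' (constantCoeff_mulSeries _ _)
  have hP := bott_two_le (p := p) D.hh
  have key : ∀ m : ℕ, ∃ δ : PowerSeries (O C), γ = PowerSeries.C (D.ϖ ^ (m + 1)) * δ := by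
    intro m
    induction m with
    | zero => simpa using bott_exists_C_mul h0
    | succ m ih =>
      obtain ⟨δ, hδ⟩ := ih
      have hC : (PowerSeries.C (D.ϖ ^ (m + 1)) : PowerSeries (O C)) ≠ 0 := by
        intro h1
        have := congrArg PowerSeries.constantCoeff h1
        rw [PowerSeries.constantCoeff_C, map_zero] at this
        exact pow_ne_zero _ D.ϖ0 this
      obtain ⟨e, he⟩ : ∃ e, p ^ h = e + 2 := ⟨p ^ h - 2, by omega⟩
      have h1 : δ.subst (mulSeries D.H p) =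
          PowerSeries.C D.ϖ * (PowerSeries.C (D.ϖ ^ m * (D.ϖ ^ (m + 1)) ^ e) * δ ^ p ^ h) := by
        apply mul_left_cancel₀ hC
        have h2 : (PowerSeries.C (D.ϖ ^ (m + 1)) * δ).subst (mulSeries D.H p) =
            PowerSeries.C (D.ϖ ^ (m + 1)) * δ.subst (mulSeries D.H p) := by
          rw [PowerSeries.subst_mul hs, PowerSeries.subst_C]
          rfl
        rw [← h2, ← hδ, hγ, hδ, mul_pow, he]
        simp only [map_pow, map_mul]
        ring
      have h2 : δ.map (Ideal.Quotient.mk (Ideal.span {D.ϖ})) = 0 := by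
        apply subst_X_pow_injective (k := p ^ (h + r))
          (pow_ne_zero _ (Fact.out : p.Prime).ne_zero)
        rw [← D.pser_mod, ← bott_map_subst (constantCoeff_mulSeries _ _), h1, map_mul,
          PowerSeries.map_C, Ideal.Quotient.eq_zero_iff_mem.2 (Ideal.mem_span_singleton_self _),
          map_zero, zero_mul, ← PowerSeries.coe_substAlgHom
            (PowerSeries.HasSubst.of_constantCoeff_zero'
              (bott_const_map (constantCoeff_mulSeries _ _) _)), map_zero]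
      obtain ⟨δ', hδ'⟩ := bott_exists_C_mul h2
      refine ⟨δ', ?_⟩
      rw [hδ, hδ', ← mul_assoc, ← map_mul, ← pow_succ]
  have hle : ∀ m : ℕ, ‖((PowerSeries.coeff 1 γ : O C) : C)‖ ≤ ‖(D.ϖ : C)‖ ^ (m + 1) := by
    intro m
    obtain ⟨δ, hδ⟩ := key m
    rw [hδ, PowerSeries.coeff_C_mul, Subring.coe_mul, norm_mul, Subring.coe_pow, norm_pow]
    exact mul_le_of_le_one_right (by positivity) (O.norm_le _)
  have ht : Tendsto (fun m : ℕ => ‖(D.ϖ : C)‖ ^ (m + 1)) atTop (𝓝 0) :=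
    (tendsto_pow_atTop_nhds_zero_of_lt_one (norm_nonneg _) D.ϖ1).comp (tendsto_add_atTop_nat 1)
  have := ge_of_tendsto' ht hle
  exact Subtype.ext (norm_le_zero_iff.1 this)

/-- the `p`-typical digits of `γ ∘ ε` modulo `ϖ` -/
theorem Data.bott_digits {Gh : FormalGroup (ZMod p)} [Gh.IsComm] (hN : IsNormal p h Gh)
    {γ : PowerSeries (O C)} (hγ : IsFGHom D.H (Gh.map (zO p C)) γ)
    (hγ1 : PowerSeries.coeff 1 γ ≠ 0) :
    ∃ d : ℤ → C, (∀ j, ‖d j‖ ≤ 1) ∧ (∀ j < 0, d j = 0) ∧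
      (∀ j, ‖d (j + r) ^ p ^ h - d j‖ ≤ ‖(D.ϖ : C)‖) ∧ (¬ ∀ j, ‖d j‖ ≤ ‖(D.ϖ : C)‖) ∧
      ∀ y ∈ mO C, ∃ L : PO Gh (zO p C),
        HasSum (fun j : ℕ => pt Gh (zO p C) (d j * (y : C) ^ p ^ j)) L ∧
        ‖((ev1 (RingHom.id _) y (γ.subst D.ε) : O C) : C) - L.c‖ ≤ ‖(D.ϖ : C)‖ := by
  classical
  set mk := Ideal.Quotient.mk (Ideal.span {D.ϖ}) with hmk
  set ι : ZMod p →+* O C ⧸ Ideal.span {D.ϖ} := mk.comp (zO p C) with hι
  set ψ : PowerSeries (O C) := γ.subst D.ε with hψdef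
  have hψm : ψ.map mk = (γ.map mk).subst (D.ε.map mk) := bott_map_subst D.ε0 γ mk
  have hψ : IsFGHom (D.Gn.map ι) (Gh.map ι) (ψ.map mk) := by
    rw [hψm]
    have := fgHom_map hγ mk
    rw [fg_map_map] at this
    exact fgHom_comp D.εhom this
  have htyp : IsTyp Gh ι (Cur.mk Gh ι (ψ.map mk) hψ.1) := isTyp_hom D.normal hψ
  obtain ⟨cb, hcb⟩ := exists_expands hN (hasRoots_O.map mk) htyp
  change Expands Gh ι (ψ.map mk) cb at hcb
  choose c hc using fun j => Ideal.Quotient.mk_surjective (cb j)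
  have hmem : ∀ x : O C, mk x = 0 ↔ ‖(x : C)‖ ≤ ‖(D.ϖ : C)‖ := by
    intro x
    rw [hmk, Ideal.Quotient.eq_zero_iff_mem, Ideal.mem_span_singleton, O.dvd_iff]
  -- the relation between the digits
  have hrel : (ψ.map mk).subst (PowerSeries.X ^ p ^ (h + r) :
      PowerSeries (O C ⧸ Ideal.span {D.ϖ})) = (ψ.map mk) ^ p ^ h := by
    have h1 := fgHom_mulSeries_comm hψ p
    rw [mulSeries_map, mulSeries_map, D.normal.pser, hN.pser, map_pow, map_pow, PowerSeries.map_X,
      PowerSeries.subst_pow (PowerSeries.HasSubst.of_constantCoeff_zero' hψ.1),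
      PowerSeries.subst_X (PowerSeries.HasSubst.of_constantCoeff_zero' hψ.1)] at h1
    exact h1
  have hu := (hcb.subst_X_pow (h + r))
  rw [hrel] at hu
  have huniq := hu.unique (hcb.pow h)
  refine ⟨fun j => if 0 ≤ j then (c j.toNat : C) else 0, fun j => ?_, fun j hj => ?_,
    fun j => ?_, fun hall => ?_, fun y hy => ?_⟩
  · beta_reduce
    split_ifs
    · exact O.norm_le _
    · simp
  · simp [not_le.2 hj]
  · by_cases h1 : 0 ≤ j + r
    · obtain ⟨i, hi⟩ := Int.eq_ofNat_of_zero_le h1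
      have h2 := congrFun huniq (i + h)
      simp only [le_add_iff_nonneg_left, zero_le, if_true, Nat.add_sub_cancel] at h2
      simp only [hi, Nat.cast_nonneg, if_true, Int.toNat_natCast]
      by_cases h3 : 0 ≤ j
      · rw [if_pos h3]
        rw [if_pos (by omega)] at h2
        have h4 : i + h - (h + r) = j.toNat := by omega
        rw [h4, ← hc, ← hc, ← map_pow] at h2
        have := (hmem (c i ^ p ^ h - c j.toNat)).1 (by rw [map_sub, ← h2, sub_self])
        simpa using this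
      · rw [if_neg h3]
        rw [if_neg (by omega), ← hc, ← map_pow] at h2
        have := (hmem (c i ^ p ^ h)).1 h2.symm
        simpa using this
    · have h3 : ¬ 0 ≤ j := by omega
      simp [h1, h3, zero_pow (pow_ne_zero h (Fact.out : p.Prime).ne_zero)]
  · have h1 : cb = 0 := by
      funext j
      rw [← hc, Pi.zero_apply, hmem]
      simpa using hall j
    rw [h1] at hcb
    have h2 := hcb.eq_zero
    have hε0 : PowerSeries.constantCoeff (D.ε.map mk) = 0 := bott_const_map D.ε0 mk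
    have h3 : γ.map mk = 0 := by
      refine subst_right_cancel hε0 ?_ ?_
      · rw [PowerSeries.coeff_map, D.ε1, map_one]; exact isUnit_one
      · rw [← hψm, h2, ← PowerSeries.coe_substAlgHom
          (PowerSeries.HasSubst.of_constantCoeff_zero' hε0), map_zero]
    refine hγ1 (D.bott_rigid ?_ h3)
    rw [fgHom_mulSeries_comm hγ, mulSeries_map, hN.pser, map_pow, PowerSeries.map_X,
      PowerSeries.subst_pow (PowerSeries.HasSubst.of_constantCoeff_zero' hγ.1),
      PowerSeries.subst_X (PowerSeries.HasSubst.of_constantCoeff_zero' hγ.1)]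
  · have hy1 : ‖(y : C)‖ < 1 := hy
    have hp1 : 1 < p := (Fact.out : p.Prime).one_lt
    have hlt : ∀ j : ℕ, ‖(c j : C) * (y : C) ^ p ^ j‖ ≤ ‖(y : C)‖ ^ p ^ j := by
      intro j
      rw [norm_mul, norm_pow]
      exact mul_le_of_le_one_left (by positivity) (O.norm_le _)
    have hlt1 : ∀ j : ℕ, ‖(c j : C) * (y : C) ^ p ^ j‖ < 1 := fun j =>
      (hlt j).trans_lt (pow_lt_one₀ (norm_nonneg _) hy1 (by positivity))
    have ht0 : Tendsto (fun j : ℕ => ‖(y : C)‖ ^ p ^ j) atTop (𝓝 0) :=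
      (tendsto_pow_atTop_nhds_zero_of_lt_one (norm_nonneg _) hy1).comp
        (tendsto_pow_atTop_atTop_of_one_lt hp1)
    simp only [Nat.cast_nonneg, if_true, Int.toNat_natCast]
    have hsum : Summable fun j : ℕ => pt Gh (zO p C) ((c j : C) * (y : C) ^ p ^ j) := by
      rw [Pt.summable_iff, Nat.cofinite_eq_atTop]
      refine squeeze_zero_norm (fun j => ?_) ht0
      rw [pt_c (hlt1 j)]
      exact hlt j
    refine ⟨_, hsum.hasSum, ?_⟩
    let Mq : Cur Gh (zO p C) →+ Cur Gh ι :=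
      Pt.map (PowerSeries.map mk) (by congr 1; exact Subsingleton.elim _ _) (fun f hf => by
        rw [Ideal.mem_span_singleton, PowerSeries.X_dvd_iff] at hf ⊢
        exact bott_const_map hf mk)
    let E : Cur Gh (zO p C) →+ PO Gh (zO p C) :=
      Pt.map (ev1 (RingHom.id (O C)) y) (by congr 1; exact Subsingleton.elim _ _) (fun f hf =>
        ev1_mem (mO C) _ hy (PowerSeries.X_dvd_iff.1 (Ideal.mem_span_singleton.1 hf)))
    have hMq : ∀ j, Mq (mono p Gh (zO p C) (c j) j) = mono p Gh ι (cb j) j := by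
      intro j
      apply Pt.ext
      show PowerSeries.map mk (PowerSeries.C (c j) * PowerSeries.X ^ p ^ j) =
        PowerSeries.C (cb j) * PowerSeries.X ^ p ^ j
      rw [map_mul, map_pow, PowerSeries.map_C, PowerSeries.map_X, hc]
    have hE : ∀ j, E (mono p Gh (zO p C) (c j) j) =
        pt Gh (zO p C) ((c j : C) * (y : C) ^ p ^ j) := by
      intro j
      apply Pt.ext_c
      rw [pt_c (hlt1 j)]
      show ((ev1 (RingHom.id (O C)) y (PowerSeries.C (c j) * PowerSeries.X ^ p ^ j) : O C) : C) = _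
      rw [map_mul, map_pow, ev1_C, ev1_X (mO C) _ hy]
      rfl
    have hJ : ∀ J : ℕ, ‖((ev1 (RingHom.id _) y ψ : O C) : C) -
        (∑ j ∈ Finset.range J, pt Gh (zO p C) ((c j : C) * (y : C) ^ p ^ j)).c‖ ≤
          max ‖(D.ϖ : C)‖ (‖(y : C)‖ ^ p ^ J) := by
      intro J
      set T := ∑ j ∈ Finset.range J, mono p Gh (zO p C) (c j) j with hT
      have h1 : (∑ j ∈ Finset.range J, mono p Gh ι (cb j) j).1 = T.1.map mk := by
        have : Mq T = ∑ j ∈ Finset.range J, mono p Gh ι (cb j) j := by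
          rw [hT, map_sum]; exact Finset.sum_congr rfl fun j _ => hMq j
        rw [← this]; rfl
      have h2 : (∑ j ∈ Finset.range J, pt Gh (zO p C) ((c j : C) * (y : C) ^ p ^ j)).c =
          ((ev1 (RingHom.id _) y T.1 : O C) : C) := by
        have : E T = ∑ j ∈ Finset.range J, pt Gh (zO p C) ((c j : C) * (y : C) ^ p ^ j) := by
          rw [hT, map_sum]; exact Finset.sum_congr rfl fun j _ => hE j
        rw [← this]; rfl
      have h3 := hcb J
      rw [h1, ← map_sub] at h3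
      have h4 := bott_norm_ev1_le hy h3
      rw [h2, ← AddSubgroupClass.coe_sub, ← map_sub]
      exact h4
    have hlim : Tendsto (fun J : ℕ =>
        (∑ j ∈ Finset.range J, pt Gh (zO p C) ((c j : C) * (y : C) ^ p ^ j)).c) atTop
        (𝓝 (∑' j : ℕ, pt Gh (zO p C) ((c j : C) * (y : C) ^ p ^ j)).c) := by
      have := hsum.hasSum.tendsto_sum_nat
      rw [tendsto_iff_dist_tendsto_zero] at this ⊢
      simp only [Pt.dist_def] at this
      simpa only [dist_eq_norm] using this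
    have h5 := ((tendsto_const_nhds (x := ((ev1 (RingHom.id _) y ψ : O C) : C))).sub hlim).norm
    have h6 : Tendsto (fun J : ℕ => max ‖(D.ϖ : C)‖ (‖(y : C)‖ ^ p ^ J)) atTop
        (𝓝 (max ‖(D.ϖ : C)‖ 0)) := tendsto_const_nhds.max ht0
    rw [max_eq_left (norm_nonneg _)] at h6
    exact le_of_tendsto_of_tendsto' h5 h6 hJ

/-- Over `O/ϖ`, `γ ∘ ε : Gn → Gh` is a homomorphism, hence typical: `γ ∘ ε ≡ ∑^G c_j t^(p^j)`
(lift `c_j` to `O`).  From `(γε)^P ≡ (γε)(t^q)`: `c_{j+r}^P ≡ c_j`, and `c_j^P ≡ 0` for `j < r`.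
`φ_j = lim_k c_{j+rk}^(P^k)`, `‖φ_j - c_{j+rk}^(P^k)‖ ≤ ‖ϖ‖^(P^k)`;
`Φ x = lim_k (γ (lev k x))^(P^k)` (or define `Φ` as the sum and prove the estimate
`‖γ (lev k x)^(P^k) - Φ x‖ ≤ ‖ϖ‖^(P^k)`; additivity from `norm_ε_add`).
`φ ≠ 0`: otherwise `γ ≡ 0 mod ϖ`; with `μ = sup ‖γ_i‖ ∈ (0, ‖ϖ‖]`, `γ ∘ g = γ^σ` and
`g ≡ T^(p^r)` give `μ ≤ max (μ^P, ‖ϖ‖ μ) < μ`. -/
theorem Data.exists_bott : Nonempty (Bott D) := by
  obtain ⟨Gh, hcG, γ, hN, hγ, hγ1⟩ := D.exists_gamma
  obtain ⟨d, hd1, hd0, hdr, hdn, hdL⟩ := D.bott_digits hN hγ hγ1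
  set ρ : ℝ := ‖(D.ϖ : C)‖ with hρ
  have hρ0 : 0 ≤ ρ := norm_nonneg _
  have hρ1 : ρ < 1 := D.ϖ1
  have hP := bott_two_le (p := p) D.hh
  have hPk : ∀ k : ℕ, (p ^ h) ^ k ≠ 0 := fun k => pow_ne_zero _ (by omega)
  have htend := bott_tendsto (p := p) D.hh hρ0 hρ1
  have hlim : ∀ j : ℤ, ∃ l : C, ∀ k : ℕ,
      ‖l - d (j + r * k) ^ (p ^ h) ^ k‖ ≤ ρ ^ (p ^ h) ^ k := by
    intro j
    refine bott_exists_lim D.hh hρ0 hρ1 (fun k => d (j + r * k)) fun k => ?_
    have := hdr (j + r * k)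
    rwa [show j + r * k + r = j + r * ((k + 1 : ℕ) : ℤ) by push_cast; ring] at this
  choose φ hφ using hlim
  have hφp : ∀ j, φ (j + r) ^ p ^ h = φ j := by
    intro j
    have h1 : ∀ k : ℕ, ‖φ (j + r) ^ p ^ h - φ j‖ ≤ ρ ^ (p ^ h) ^ (k + 1) := by
      intro k
      have h2 := hφ j (k + 1)
      have h3 := hφ (j + r) k
      rw [show j + r + r * k = j + r * ((k + 1 : ℕ) : ℤ) by push_cast; ring] at h3
      have h4 : ‖φ (j + r) ^ p ^ h - d (j + r * ((k + 1 : ℕ) : ℤ)) ^ (p ^ h) ^ (k + 1)‖ ≤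
          ρ ^ (p ^ h) ^ (k + 1) := by
        rw [pow_succ (p ^ h) k, pow_mul, pow_mul, bott_norm_pow_sub]
        exact pow_le_pow_left₀ (norm_nonneg _) h3 _
      rw [norm_sub_rev] at h2
      have h5 := (IsUltrametricDist.norm_add_le_max _ _).trans (max_le h4 h2)
      rwa [sub_add_sub_cancel] at h5
    have h2 := ge_of_tendsto' (htend.comp (tendsto_add_atTop_nat 1)) h1
    exact sub_eq_zero.1 (norm_le_zero_iff.1 h2)
  have hφneg : ∀ (k : ℕ) (j : ℤ), j + r * k < 0 → ‖φ j‖ ≤ ρ ^ (p ^ h) ^ k := by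
    intro k j hj
    have := hφ j k
    rwa [hd0 _ hj, zero_pow (hPk k), sub_zero] at this
  have hφk : ∀ (k : ℕ) (j : ℤ), φ (j - r * k) = φ j ^ (p ^ h) ^ k := by
    intro k
    induction k with
    | zero => intro j; simp
    | succ k ih =>
      intro j
      rw [← hφp, show j - r * ((k + 1 : ℕ) : ℤ) + r = j - r * k by push_cast; ring, ih, ← pow_mul,
        ← pow_succ]
  have hr : (1 : ℤ) ≤ r := by exact_mod_cast D.hr
  have hφ1 : ∀ j, ‖φ j‖ < 1 := by
    intro j
    have h1 := hφneg 0 (j - r * ((j.toNat + 1 : ℕ) : ℤ)) (by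
      have : j ≤ j.toNat := Int.self_le_toNat j
      have h2 : ((j.toNat + 1 : ℕ) : ℤ) ≤ r * ((j.toNat + 1 : ℕ) : ℤ) :=
        le_mul_of_one_le_left (by positivity) hr
      push_cast at h2 ⊢
      omega)
    rw [hφk, norm_pow, pow_zero, pow_one] at h1
    exact (pow_lt_one_iff_of_nonneg (norm_nonneg _) (hPk _)).1 (h1.trans_lt hρ1)
  have hφ0 : ∃ j, φ j ≠ 0 := by
    by_contra hcon
    push Not at hcon
    refine hdn fun j => ?_
    have := hφ j 0
    simpa [hcon] using this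
  have hFr : ∀ (x : D.PX) (j : ℤ), ‖Fr p j x.c‖ < 1 := fun x j => norm_Fr_lt_one j x.norm_c_lt
  have hlt : ∀ (a : C), ‖a‖ ≤ 1 → ∀ (x : D.PX) (j : ℤ), ‖a * Fr p j x.c‖ < 1 := by
    intro a ha x j
    rw [norm_mul]
    exact mul_lt_one_of_nonneg_of_lt_one_right ha (norm_nonneg _) (hFr x j)
  have hsum : ∀ x : D.PX, Summable fun j : ℤ => pt Gh (zO p C) (φ j * Fr p j x.c) := by
    intro x
    apply Summable.of_nat_of_neg
    · rw [Pt.summable_iff, Nat.cofinite_eq_atTop]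
      refine squeeze_zero_norm (fun j => ?_)
        ((tendsto_pow_atTop_nhds_zero_of_lt_one (norm_nonneg _) x.norm_c_lt).comp
          (tendsto_pow_atTop_atTop_of_one_lt (Fact.out : p.Prime).one_lt))
      rw [pt_c (hlt _ (hφ1 _).le x _), norm_mul, Fr_natCast, norm_pow]
      exact mul_le_of_le_one_left (by positivity) (hφ1 _).le
    · rw [Pt.summable_iff, Nat.cofinite_eq_atTop, NormedAddGroup.tendsto_nhds_zero]
      intro η hη
      obtain ⟨k, hk⟩ := (htend.eventually (gt_mem_nhds hη)).exists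
      refine eventually_atTop.2 ⟨r * k + 1, fun n hn => ?_⟩
      rw [pt_c (hlt _ (hφ1 _).le x _), norm_mul]
      refine lt_of_le_of_lt ?_ hk
      refine (mul_le_of_le_one_right (norm_nonneg _) (hFr x _).le).trans (hφneg k _ ?_)
      have : ((r * k + 1 : ℕ) : ℤ) ≤ n := by exact_mod_cast hn
      push_cast at this
      omega
  set Φ₀ : D.PX → PO Gh (zO p C) := fun x => ∑' j : ℤ, pt Gh (zO p C) (φ j * Fr p j x.c)
    with hΦ₀
  have happr : ∀ (x : D.PX) (k : ℕ) (t : D.PH), ‖t.c - D.lev k x‖ ≤ ρ →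
      ‖((ev1 (RingHom.id _) t.1 γ : O C) : C) ^ (p ^ h) ^ k - (Φ₀ x).c‖ ≤ ρ ^ (p ^ h) ^ k := by
    intro x k t ht
    set y := frP D.Gn (-((h + r : ℕ) * k : ℤ)) x with hy
    obtain ⟨L, hL, hLψ⟩ := hdL y.1 y.2
    have hyε : ev1 (RingHom.id (O C)) y.1 D.ε ∈ mO C := ev1_mem (mO C) _ y.2 D.ε0
    rw [ev1_subst1 (mO C) _ y.2 D.ε0] at hLψ
    have h1 : ‖((ev1 (RingHom.id _) t.1 γ : O C) : C) - L.c‖ ≤ ρ := by
      have h2 := (norm_ev1_sub_ev1_le (RingHom.id (O C)) t.2 hyε γ).trans ht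
      have h3 := (IsUltrametricDist.norm_add_le_max _ _).trans (max_le h2 hLψ)
      rwa [sub_add_sub_cancel] at h3
    set L' := frP Gh ((h * k : ℕ) : ℤ) L with hL'
    have hL'c : L'.c = L.c ^ (p ^ h) ^ k := by
      rw [hL', frP_c, Fr_natCast, pow_mul]
    have h2 : ‖((ev1 (RingHom.id _) t.1 γ : O C) : C) ^ (p ^ h) ^ k - L'.c‖ ≤
        ρ ^ (p ^ h) ^ k := by
      rw [hL'c, bott_norm_pow_sub']
      exact pow_le_pow_left₀ (norm_nonneg _) h1 _
    set G : ℤ → PO Gh (zO p C) := fun j =>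
      pt Gh (zO p C) (d (j + r * k) ^ (p ^ h) ^ k * Fr p j x.c) with hG
    have hdk : ∀ j, ‖d j ^ (p ^ h) ^ k‖ ≤ 1 := fun j => by
      rw [norm_pow]; exact pow_le_one₀ (norm_nonneg _) (hd1 j)
    have hGL : HasSum G L' := by
      have hinj : Function.Injective fun j : ℕ => (j : ℤ) - r * k := by
        intro a b hab
        simpa using hab
      rw [← hinj.hasSum_iff]
      · have h3 := hL.map (frP Gh ((h * k : ℕ) : ℤ)) (continuous_frP Gh _)
        convert h3 using 1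
        funext j
        apply Pt.ext_c
        have hyc : ((y.1 : O C) : C) = Fr p (-((h + r : ℕ) * k : ℤ)) x.c := frP_c _ _ _
        have h4 : ((y.1 : O C) : C) ^ p ^ j = Fr p (j - ((h + r : ℕ) * k : ℤ)) x.c := by
          rw [hyc, ← Fr_natCast, ← Fr_add, sub_eq_add_neg]
        simp only [Function.comp_apply, hG]
        rw [frP_c, h4, pt_c (hlt _ (hdk _) x _), pt_c (hlt _ (hd1 _) x _), map_mul, ← Fr_add,
          Fr_natCast, pow_mul, sub_add_cancel]
        rw [show (j : ℤ) - r * k = ((h * k : ℕ) : ℤ) + (j - ((h + r : ℕ) * k : ℤ)) by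
          push_cast; ring]
      · intro j hj
        have h3 : j + r * k < 0 := by
          by_contra hcon
          obtain ⟨i, hi⟩ := Int.eq_ofNat_of_zero_le (not_lt.1 hcon)
          exact hj ⟨i, by simp only; omega⟩
        simp only [hG]
        rw [hd0 _ h3, zero_pow (hPk k), zero_mul, pt_zero]
    have h3 : ‖L'.c - (Φ₀ x).c‖ ≤ ρ ^ (p ^ h) ^ k := by
      rw [← Pt.norm_sub_c, ← Pt.norm_def, ← (hGL.sub (hsum x).hasSum).tsum_eq]
      refine IsUltrametricDist.norm_tsum_le_of_forall_le fun j => ?_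
      rw [Pt.norm_def, Pt.norm_sub_c]
      simp only [hG]
      rw [pt_c (hlt _ (hdk _) x _), pt_c (hlt _ (hφ1 _).le x _), ← sub_mul, norm_mul,
        norm_sub_rev]
      exact (mul_le_of_le_one_right (norm_nonneg _) (hFr x _).le).trans (hφ j k)
    have h4 := (IsUltrametricDist.norm_add_le_max _ _).trans (max_le h2 h3)
    rwa [sub_add_sub_cancel] at h4
  -- additivity
  let Γ : D.PH →+ PO Gh (zO p C) :=
    (Pt.map (F := Gh.map (zO p C)) (ι := RingHom.id (O C)) (N := mO C) (F' := Gh)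
      (ι' := zO p C) (N' := mO C) (RingHom.id (O C))
      (by rw [fg_map_map]; congr 1) (fun _ hx => hx)).comp
      (Pt.hom (RingHom.id (O C)) (mO C) hγ)
  have hΓ : ∀ t, (Γ t).c = ((ev1 (RingHom.id _) t.1 γ : O C) : C) := fun t => rfl
  have hA : ∀ (x : D.PX) (k : ℕ) (t : D.PH), ‖t.c - D.lev k x‖ ≤ ρ →
      ‖frP Gh ((h * k : ℕ) : ℤ) (Γ t) - Φ₀ x‖ ≤ ρ ^ (p ^ h) ^ k := by
    intro x k t ht
    rw [Pt.norm_def, Pt.norm_sub_c, frP_c, Fr_natCast, pow_mul, hΓ]
    exact happr x k t ht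
  have hlev : ∀ (x : D.PX) (k : ℕ),
      ‖(pt D.H (RingHom.id _) (D.lev k x)).c - D.lev k x‖ ≤ ρ := by
    intro x k
    rw [pt_c (D.norm_lev_lt k x), sub_self, norm_zero]
    exact hρ0
  have hadd : ∀ x y, Φ₀ (x + y) = Φ₀ x + Φ₀ y := by
    intro x y
    have h1 : ∀ k : ℕ, ‖Φ₀ x + Φ₀ y - Φ₀ (x + y)‖ ≤ ρ ^ (p ^ h) ^ k := by
      intro k
      have hx := hA x k _ (hlev x k)
      have hy := hA y k _ (hlev y k)
      have hxy := hA (x + y) k
        (pt D.H (RingHom.id _) (D.lev k x) + pt D.H (RingHom.id _) (D.lev k y)) (by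
          have := D.norm_ε_add (frP D.Gn (-((h + r : ℕ) * k : ℤ)) x)
            (frP D.Gn (-((h + r : ℕ) * k : ℤ)) y)
          rw [← map_add, norm_sub_rev] at this
          exact this)
      rw [map_add, map_add] at hxy
      rw [norm_sub_rev] at hx hy
      have h2 := (IsUltrametricDist.norm_add_le_max _ _).trans
        (max_le ((IsUltrametricDist.norm_add_le_max _ _).trans (max_le hx hy)) hxy)
      refine le_of_eq_of_le ?_ h2
      congr 1
      abel
    have h2 := ge_of_tendsto' htend h1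
    exact (sub_eq_zero.1 (norm_le_zero_iff.1 h2)).symm
  let Φ : D.PX →+ PO Gh (zO p C) := AddMonoidHom.mk' Φ₀ hadd
  have hcont : Continuous Φ := by
    apply continuous_of_continuousAt_zero Φ
    rw [ContinuousAt, map_zero, NormedAddGroup.tendsto_nhds_zero]
    intro η hη
    obtain ⟨k, hk⟩ := (htend.eventually (gt_mem_nhds hη)).exists
    have h1 : Tendsto (frP (C := C) D.Gn (-((h + r : ℕ) * k : ℤ))) (𝓝 0) (𝓝 0) := by
      have := (continuous_frP (C := C) D.Gn (-((h + r : ℕ) * k : ℤ))).tendsto 0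
      rwa [map_zero] at this
    rw [NormedAddGroup.tendsto_nhds_zero] at h1
    filter_upwards [h1 η hη] with x hx
    have h2 := happr x k _ (hlev x k)
    set t := pt D.H (RingHom.id _) (D.lev k x) with ht
    have h3 : ‖((ev1 (RingHom.id _) t.1 γ : O C) : C)‖ ≤ ‖t.c‖ := by
      have := norm_ev1_le (RingHom.id (O C)) t.2 (k := 1) (f := γ)
        (by rw [pow_one]; exact PowerSeries.X_dvd_iff.2 hγ.1)
      rwa [pow_one] at this
    have h4 : ‖t.c‖ ≤ ‖frP (C := C) D.Gn (-((h + r : ℕ) * k : ℤ)) x‖ := by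
      rw [ht, pt_c (D.norm_lev_lt k x)]
      have := norm_ev1_le (RingHom.id (O C)) (frP (C := C) D.Gn (-((h + r : ℕ) * k : ℤ)) x).2
        (k := 1) (f := D.ε) (by rw [pow_one]; exact PowerSeries.X_dvd_iff.2 D.ε0)
      rwa [pow_one] at this
    have h5 : ‖((ev1 (RingHom.id _) t.1 γ : O C) : C) ^ (p ^ h) ^ k‖ < η := by
      rw [norm_pow]
      exact (pow_le_of_le_one (norm_nonneg _) (O.norm_le _) (hPk k)).trans_lt
        ((h3.trans h4).trans_lt hx)
    rw [norm_sub_rev] at h2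
    have h6 := (IsUltrametricDist.norm_add_le_max _ _).trans_lt (max_lt (h2.trans_lt hk) h5)
    rw [sub_add_cancel] at h6
    exact h6
  exact ⟨{
    Gh := Gh, commh := hcG, normal := hN, γ := γ, hom := hγ, γ1 := hγ1, φ := φ, φ1 := hφ1,
    φp := hφp, φ0 := hφ0, Φ := Φ, cont := hcont, sum := fun x => (hsum x).hasSum,
    appr := happr }⟩

end Crest.Agent.R227
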