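import Crest.Agent.R227.Data

/-!
# R227 / BottAux : auxiliary lemmas for the Böttcher coordinate
-/

set_option autoImplicit false

namespace Crest.Agent.R227

open Filter Topology Crest.LubinTate

/-! ### recursion -/

theorem bott_exists_seq {α : Type} (Q : (n : ℕ) → (Fin n → α) → α → Prop)
    (hQ : ∀ n f, ∃ x, Q n f x) : ∃ s : ℕ → α, ∀ n, Q n (fun j => s j) (s n) := by
  classical
  let F : (n : ℕ) → ((m : ℕ) → m < n → α) → α := fun n f =>
    (hQ n (fun j => f j j.2)).choose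
  let s : ℕ → α := (Nat.lt_wfRel.wf).fix F
  refine ⟨s, fun n => ?_⟩
  have : s n = F n (fun m _ => s m) := WellFounded.fix_eq _ _ _
  rw [this]
  exact (hQ n (fun j => s j)).choose_spec

theorem bott_coeff_subst {R : Type} [CommRing R] {g : PowerSeries R}
    (hg : PowerSeries.constantCoeff g = 0) (f : PowerSeries R) (i : ℕ) :
    PowerSeries.coeff i (f.subst g) =
      ∑ j ∈ Finset.range (i + 1), PowerSeries.coeff j f * PowerSeries.coeff i (g ^ j) := by
  rw [PowerSeries.coeff_subst' (PowerSeries.HasSubst.of_constantCoeff_zero' hg),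
    finsum_eq_sum_of_support_subset (s := Finset.range (i + 1))]
  · simp [smul_eq_mul]
  · intro j hj
    simp only [Function.mem_support, ne_eq] at hj
    simp only [Finset.coe_range, Set.mem_Iio]
    by_contra hcon
    apply hj
    have hX : PowerSeries.X ^ j ∣ g ^ j := pow_dvd_pow_of_dvd (PowerSeries.X_dvd_iff.2 hg) j
    rw [PowerSeries.X_pow_dvd_iff.1 hX i (by omega), smul_zero]

theorem bott_map_subst {R S : Type} [CommRing R] [CommRing S] {g : PowerSeries R}
    (hg : PowerSeries.constantCoeff g = 0) (f : PowerSeries R) (ρ : R →+* S) :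
    PowerSeries.map ρ (f.subst g) = (PowerSeries.map ρ f).subst (PowerSeries.map ρ g) :=
  PowerSeries.map_subst (PowerSeries.HasSubst.of_constantCoeff_zero' hg) f

theorem bott_const_map {R S : Type} [CommRing R] [CommRing S] {g : PowerSeries R}
    (hg : PowerSeries.constantCoeff g = 0) (ρ : R →+* S) :
    PowerSeries.constantCoeff (PowerSeries.map ρ g) = 0 := by
  rw [← PowerSeries.coeff_zero_eq_constantCoeff_apply] at hg ⊢
  rw [PowerSeries.coeff_map, hg, map_zero]

variable {C : Type} [NontriviallyNormedField C] [IsUltrametricDist C]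

theorem bott_exists_root [IsAlgClosed C] {P : ℕ} (hP : 2 ≤ P) (a b : O C) :
    ∃ x : O C, x ^ P = a * x + b := by
  have hdeg : (Polynomial.X ^ P - (Polynomial.C (a : C) * Polynomial.X + Polynomial.C (b : C)) :
      Polynomial C).degree = P := by
    rw [Polynomial.degree_sub_eq_left_of_degree_lt] <;> rw [Polynomial.degree_X_pow]
    refine lt_of_le_of_lt Polynomial.degree_linear_le ?_
    exact_mod_cast hP
  obtain ⟨x, hx⟩ := IsAlgClosed.exists_root _ (by rw [hdeg]; exact_mod_cast (by omega : P ≠ 0))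
  simp only [Polynomial.IsRoot.def, Polynomial.eval_sub, Polynomial.eval_pow, Polynomial.eval_X,
    Polynomial.eval_add, Polynomial.eval_mul, Polynomial.eval_C, sub_eq_zero] at hx
  have hx1 : ‖x‖ ≤ 1 := by
    by_contra hcon
    push Not at hcon
    have h1 : ‖(a : C) * x + b‖ ≤ ‖x‖ := by
      refine (IsUltrametricDist.norm_add_le_max _ _).trans (max_le ?_ ?_)
      · rw [norm_mul]; exact mul_le_of_le_one_left (norm_nonneg _) (O.norm_le a)
      · exact (O.norm_le b).trans hcon.le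
    rw [← hx, norm_pow] at h1
    have h2 : ‖x‖ ^ 1 < ‖x‖ ^ P := pow_lt_pow_right₀ hcon (by omega)
    rw [pow_one] at h2
    linarith
  exact ⟨⟨x, hx1⟩, Subtype.ext hx⟩

theorem bott_exists_root1 [IsAlgClosed C] {P : ℕ} (hP : 2 ≤ P) {a : O C} (ha : a ≠ 0) :
    ∃ x : O C, x ≠ 0 ∧ x ^ P = a * x := by
  obtain ⟨x, hx⟩ := IsAlgClosed.exists_pow_nat_eq (a : C) (n := P - 1) (by omega)
  have hx1 : ‖x‖ ≤ 1 := by
    have := O.norm_le a
    rw [← hx, norm_pow] at this
    exact (pow_le_one_iff_of_nonneg (norm_nonneg _) (by omega)).1 this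
  refine ⟨⟨x, hx1⟩, ?_, Subtype.ext ?_⟩
  · intro h0
    have h0' : x = 0 := congrArg Subtype.val h0
    rw [h0', zero_pow (by omega)] at hx
    exact ha (Subtype.ext hx.symm)
  · show x ^ P = (a : C) * x
    rw [← hx, ← pow_succ]; congr 1; omega

/-- the functional equation `γ ∘ g = γ^σ` -/
theorem bott_exists_fe [IsAlgClosed C] {P : ℕ} (hP : 2 ≤ P) {g : PowerSeries (O C)}
    (hg : PowerSeries.constantCoeff g = 0) (hg1 : PowerSeries.coeff 1 g ≠ 0) :
    ∃ γ : PowerSeries (O C), PowerSeries.constantCoeff γ = 0 ∧ PowerSeries.coeff 1 γ ≠ 0 ∧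
      ∀ i, PowerSeries.coeff i (γ.subst g) = PowerSeries.coeff i γ ^ P := by
  obtain ⟨s, hs⟩ := bott_exists_seq (α := O C)
    (fun n f x => (n = 0 → x = 0) ∧ (n = 1 → x ≠ 0 ∧ x ^ P = PowerSeries.coeff 1 g * x) ∧
      (2 ≤ n → x ^ P = PowerSeries.coeff n (g ^ n) * x +
        ∑ j : Fin n, f j * PowerSeries.coeff n (g ^ (j : ℕ)))) (by
      intro n f
      obtain _ | _ | n := n
      · exact ⟨0, fun _ => rfl, by omega, by omega⟩
      · obtain ⟨x, hx⟩ := bott_exists_root1 hP hg1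
        exact ⟨x, by omega, fun _ => hx, by omega⟩
      · obtain ⟨x, hx⟩ := bott_exists_root hP (PowerSeries.coeff (n + 1 + 1) (g ^ (n + 1 + 1)))
          (∑ j : Fin (n + 1 + 1), f j * PowerSeries.coeff (n + 1 + 1) (g ^ (j : ℕ)))
        exact ⟨x, by omega, by omega, fun _ => hx⟩)
  have h0 : s 0 = 0 := (hs 0).1 rfl
  have h1 := (hs 1).2.1 rfl
  refine ⟨PowerSeries.mk s, ?_, ?_, fun i => ?_⟩
  · rw [← PowerSeries.coeff_zero_eq_constantCoeff_apply, PowerSeries.coeff_mk, h0]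
  · rw [PowerSeries.coeff_mk]; exact h1.1
  · rw [bott_coeff_subst hg]
    simp only [PowerSeries.coeff_mk]
    obtain _ | _ | i := i
    · simp [h0, zero_pow (by omega : P ≠ 0)]
    · rw [Finset.sum_range_succ, Finset.sum_range_succ, Finset.sum_range_zero, h0]
      simp only [zero_add, zero_mul, pow_one]
      rw [h1.2, mul_comm]
    · rw [Finset.sum_range_succ, (hs (i + 1 + 1)).2.2 (by omega),
        Finset.sum_range (fun j => s j * PowerSeries.coeff (i + 1 + 1) (g ^ j))]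
      ring

/-! ### limits of Frobenius twisted sequences -/

section lim

variable {p : ℕ} [Fact p.Prime] [CharP C p]

omit [IsUltrametricDist C] in
theorem bott_norm_pow_sub (x y : C) (e : ℕ) :
    ‖x ^ p ^ e - y ^ p ^ e‖ = ‖x - y‖ ^ p ^ e := by
  rw [← sub_pow_char_pow, norm_pow]

omit [IsUltrametricDist C] in
theorem bott_norm_pow_sub' (x y : C) (h k : ℕ) :
    ‖x ^ (p ^ h) ^ k - y ^ (p ^ h) ^ k‖ = ‖x - y‖ ^ (p ^ h) ^ k := by
  rw [← pow_mul, bott_norm_pow_sub]

theorem bott_two_le {h : ℕ} (hh : 1 ≤ h) : 2 ≤ p ^ h :=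
  (Fact.out : p.Prime).two_le.trans (Nat.le_self_pow (by omega) p)

theorem bott_tendsto {h : ℕ} (hh : 1 ≤ h) {ρ : ℝ} (h0 : 0 ≤ ρ) (h1 : ρ < 1) :
    Tendsto (fun k : ℕ => ρ ^ (p ^ h) ^ k) atTop (𝓝 0) :=
  (tendsto_pow_atTop_nhds_zero_of_lt_one h0 h1).comp
    (tendsto_pow_atTop_atTop_of_one_lt (bott_two_le (p := p) hh))

theorem bott_exists_lim [CompleteSpace C] {h : ℕ} (hh : 1 ≤ h) {ρ : ℝ} (h0 : 0 ≤ ρ) (h1 : ρ < 1)
    (a : ℕ → C) (ha : ∀ k, ‖a (k + 1) ^ p ^ h - a k‖ ≤ ρ) :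
    ∃ l : C, ∀ k, ‖l - a k ^ (p ^ h) ^ k‖ ≤ ρ ^ (p ^ h) ^ k := by
  set b : ℕ → C := fun k => a k ^ (p ^ h) ^ k with hb
  have hstep : ∀ k, ‖b (k + 1) - b k‖ ≤ ρ ^ (p ^ h) ^ k := by
    intro k
    have : b (k + 1) = (a (k + 1) ^ p ^ h) ^ (p ^ h) ^ k := by
      simp only [hb]; rw [pow_succ' (p ^ h) k, pow_mul]
    rw [this, hb, bott_norm_pow_sub']
    exact pow_le_pow_left₀ (norm_nonneg _) (ha k) _
  have hmono : ∀ k m, k ≤ m → ρ ^ (p ^ h) ^ m ≤ ρ ^ (p ^ h) ^ k := fun k m hkm =>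
    pow_le_pow_of_le_one h0 h1.le
      (Nat.pow_le_pow_right (by have := bott_two_le (p := p) hh; omega) hkm)
  have hdiff : ∀ k m, k ≤ m → ‖b m - b k‖ ≤ ρ ^ (p ^ h) ^ k := by
    intro k m hkm
    induction m, hkm using Nat.le_induction with
    | base => simp; positivity
    | succ m hkm ih =>
      have : b (m + 1) - b k = (b (m + 1) - b m) + (b m - b k) := by ring
      rw [this]
      exact (IsUltrametricDist.norm_add_le_max _ _).trans
        (max_le ((hstep m).trans (hmono k m hkm)) ih)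
  have hc : CauchySeq b := by
    refine cauchySeq_of_le_tendsto_0' _ (fun n m hnm => ?_) (bott_tendsto (p := p) hh h0 h1)
    rw [dist_comm, dist_eq_norm]
    exact hdiff n m hnm
  obtain ⟨l, hl⟩ := cauchySeq_tendsto_of_complete hc
  refine ⟨l, fun k => ?_⟩
  have ht : Tendsto (fun m => ‖b m - b k‖) atTop (𝓝 ‖l - b k‖) := (hl.sub_const _).norm
  exact le_of_tendsto ht (eventually_atTop.2 ⟨k, fun m hm => hdiff k m hm⟩)

end lim

end Crest.Agent.R227
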