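import Crest.Agent.R227.C0B

/-!
# R227 / C0 : the characteristic zero situation

The structure `C0` and the dimension count are in `C0A`, the tangent vector computation and the
conclusion in `C0B`.
-/

set_option autoImplicit false

namespace Crest.Agent.R227

open MvPowerSeries Crest.LubinTate Filter

variable {p : ℕ} [Fact p.Prime] {k : Type} [Field k] [CharP k p] {O : Type} [CommRing O]
  [IsLocalRing O] {d : ℕ} (S : C0 p k O d)

namespace C0

variable [IsDomain O] [IsNoetherianRing O] [CharZero O]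
  (K : Type) [Field K] [CharZero K] [Algebra O K] [IsFractionRing O K]

/-- **Tangent vector.**  `j = m - c`, `δ_m = p^j τ_m`, `θ = θ₀ + p^j η`,
`H' = H + p^j Θ`, `Θ ≡ ∑ τ_{m,i} dH i mod p^j`.  `λ = log ∘ θ` has `cob H' λ = 0`, and
`λ = log + p^m lg β + p^j ω(θ₀) η + O(p^(2j-1))`, `λ' ≡ ω mod p^j`,
`λ (H') = λ (H) + p^j λ'(H) Θ + O(p^(2j-1))` (`taylor_estimate`).  So
`p^c cob (lg β) + cob ρ_m + ω(H) ∑ τ_{m,i} dH i ≡ 0 mod p^(j-1)`; pass to the limit with
`exists_lim`.  Also `0 = F (δ_m) = p^(je) F_e (τ_m) + O(p^(j(e+1)))`. -/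
theorem exists_tangent {ω : PowerSeries O} (hω : ω * dY S.H = 1) {e : ℕ}
    (he : ∀ α : Fin d →₀ ℕ, α.degree < e → coeff α S.F = 0) {β : PowerSeries O}
    (hβ : S.Lift β) :
    ∃ (τ : Fin d → O) (ρ : PowerSeries O),
      ((p : K) ^ S.c) • cob (S.H.map (algebraMap O K)) (S.lg K β) +
        (cob S.H ρ + ω.subst S.H.toPowerSeries * ∑ i, τ i • S.dH i).map (algebraMap O K) = 0 ∧
      MvPolynomial.eval τ (truncTotal (e + 1) S.F) = 0 :=
  S.exists_tangent' K hω he hβ

omit K in
/-- **Conclusion.**  Let `𝓗 = K⟦X,Y⟧ / cob (Bd)`, `κ : K^d → 𝓗`, `τ ↦ ω(H) ∑ τ_i dH i`.  The map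
`cob : K⟦X⟧ / (Bd + K log) → 𝓗` is injective, so the classes of `cob (lg β)` span `≥ d`
dimensions inside the range of `κ`: `κ` is injective, the set `𝒯` of tangent vectors `τ` of lifts
is closed under addition (`β +_H β'`) and spans `K^d`.  The lowest form `F_e` of `F ≠ 0` vanishes
at all `ℕ`-combinations of a basis in `𝒯`, hence is zero. -/
theorem core : S.F = 0 := S.core'

end C0

end Crest.Agent.R227
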