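import Crest.Agent.R227.C0Aux

/-!
# R227 / C0A : the characteristic zero situation (definitions, dimension count)
-/

set_option autoImplicit false
set_option linter.unusedSectionVars false

namespace Crest.Agent.R227

open MvPowerSeries Crest.LubinTate Filter

/-- A point with values in a finite `W`-algebra `O` of characteristic zero; `HT` is the universal
law expanded at this point, `F` the expansion of an element of a stable prime. -/
structure C0 (p : ℕ) [Fact p.Prime] (k : Type) [Field k] [CharP k p] (O : Type) [CommRing O]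
    [IsLocalRing O] (d : ℕ) where
  card : Nat.card k = p ^ (d + 1)
  Γ : FormalGroup k
  commΓ : Γ.IsComm
  pser : mulSeries Γ p = PowerSeries.X ^ p ^ (d + 1)
  res : O →+* k
  res_surj : Function.Surjective res
  ker_res : RingHom.ker res = IsLocalRing.maximalIdeal O
  teich : k →* O
  res_teich : ∀ a, res (teich a) = a
  fin : Finite (O ⧸ Ideal.span {(p : O)})
  compl : IsAdicComplete (Ideal.span {(p : O)}) O
  c : ℕ
  hc : IsLocalRing.maximalIdeal O ^ c ≤ Ideal.span {(p : O)}
  HT : FormalGroup (MvPowerSeries (Fin d) O)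
  comm : HT.IsComm
  red : (HT.map (constantCoeff : MvPowerSeries (Fin d) O →+* O)).map res = Γ
  F : MvPowerSeries (Fin d) O
  act : ∃ m₀ : ℕ, ∀ m ≥ m₀, ∀ β : PowerSeries O, PowerSeries.constantCoeff β = 0 →
    IsFGHom Γ Γ (β.map res) → ∃ (δ : Fin d → O) (θ : PowerSeries O),
      (∀ i, (p : O) ^ (m - c) ∣ δ i) ∧
      IsFGHom (HT.map (ev (RingHom.id O) δ))
        (HT.map (constantCoeff : MvPowerSeries (Fin d) O →+* O)) θ ∧
      (∀ i, (p : O) ^ (m - c) ∣ PowerSeries.coeff i θ - PowerSeries.coeff i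
        (theta0 (HT.map (constantCoeff : MvPowerSeries (Fin d) O →+* O)) (p ^ m) β)) ∧
      ev (RingHom.id O) δ F = 0

attribute [instance] C0.commΓ C0.comm

variable {p : ℕ} [Fact p.Prime] {k : Type} [Field k] [CharP k p] {O : Type} [CommRing O]
  [IsLocalRing O] {d : ℕ} (S : C0 p k O d)

namespace C0

/-- the law at the point -/
noncomputable abbrev H : FormalGroup O :=
  S.HT.map (constantCoeff : MvPowerSeries (Fin d) O →+* O)

/-- lifts of endomorphisms of `Γ` -/
def Lift (β : PowerSeries O) : Prop :=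
  PowerSeries.constantCoeff β = 0 ∧ IsFGHom S.Γ S.Γ (β.map S.res)

/-- `∂H/∂δ_i` at the point -/
noncomputable def dH (i : Fin d) : MvPowerSeries (Fin 2) O :=
  fun e => coeff (Finsupp.single i 1) (coeff e S.HT.toPowerSeries)

include S in
theorem unit_of_not_dvd (m : ℕ) (hm : ¬ p ∣ m) : IsUnit (m : O) := by
  by_contra h
  have h1 : (m : O) ∈ RingHom.ker S.res := by
    rw [S.ker_res]
    exact h
  rw [RingHom.mem_ker, map_natCast, CharP.cast_eq_zero_iff k p] at h1
  exact hm h1

variable [IsDomain O] [IsNoetherianRing O] [CharZero O]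
  (K : Type) [Field K] [CharZero K] [Algebra O K] [IsFractionRing O K]

/-- `log_H ∘ β` -/
noncomputable def lg (β : PowerSeries O) : PowerSeries K :=
  (logS (S.H.map (algebraMap O K))).subst (β.map (algebraMap O K))

/-- `log_H` is unbounded: if `a log` is integral, the ideal `𝔩` generated by its coefficients
satisfies `𝔩 ≤ 𝔪 𝔩`, because `log ([p] X) = p log X` and `[p] X ≡ X^q mod 𝔪`. -/
theorem log_not_mem : logS (S.H.map (algebraMap O K)) ∉ Bd O K := by
  rintro ⟨c, g, hc, hg⟩
  have hp : p.Prime := Fact.out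
  have hinj := IsFractionRing.injective O K
  have hθ0 := constantCoeff_mulSeries S.H p
  have hq : p ^ (d + 1) ≠ 0 := pow_ne_zero _ hp.ne_zero
  have h1 : g.subst (mulSeries S.H p) = (p : O) • g := by
    apply C0Aux.map_injective hinj
    have h2 : PowerSeries.map (algebraMap O K) (g.subst (mulSeries S.H p)) =
        (g.map (algebraMap O K)).subst ((mulSeries S.H p).map (algebraMap O K)) :=
      PtAux.map_subst1 g hθ0 _
    rw [h2, ← hg, ← mulSeries_map, PowerSeries.subst_smul
      (PowerSeries.HasSubst.of_constantCoeff_zero' (constantCoeff_mulSeries _ _)),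
      logS_subst_mulSeries, smul_comm, hg, PowerSeries.smul_eq_C_mul, PowerSeries.smul_eq_C_mul,
      map_mul, PowerSeries.map_C, map_natCast (algebraMap O K)]
  let 𝔩 : Ideal O := Ideal.span (Set.range fun i => PowerSeries.coeff i g)
  have hg𝔩 : ∀ i, PowerSeries.coeff i g ∈ 𝔩 := fun i => Ideal.subset_span ⟨i, rfl⟩
  have hred : (mulSeries S.H p).map S.res =
      (PowerSeries.X ^ p ^ (d + 1) : PowerSeries O).map S.res := by
    rw [← mulSeries_map, S.red, S.pser, map_pow, PowerSeries.map_X]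
  have hpm : (p : O) ∈ RingHom.ker S.res := by
    rw [RingHom.mem_ker, map_natCast, CharP.cast_eq_zero]
  have hle : 𝔩 ≤ RingHom.ker S.res • 𝔩 := by
    rw [Ideal.span_le]
    rintro _ ⟨i, rfl⟩
    have h3 := C0Aux.coeff_subst_sub_mem S.res hθ0
      (by rw [map_pow, PowerSeries.constantCoeff_X, zero_pow hq]) hred hg𝔩 (i * p ^ (d + 1))
    rw [h1, PowerSeries.coeff_subst_X_pow hq, if_pos (dvd_mul_left _ _),
      Nat.mul_div_cancel _ (Nat.pos_of_ne_zero hq), PowerSeries.coeff_smul, smul_eq_mul] at h3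
    have h4 := sub_mem (Ideal.mul_mem_mul hpm (hg𝔩 (i * p ^ (d + 1)))) h3
    rw [sub_sub_cancel] at h4
    exact h4
  have hbot : 𝔩 = ⊥ := Submodule.eq_bot_of_le_smul_of_le_jacobson_bot _ 𝔩
    (IsNoetherian.noetherian _) hle
    (by rw [S.ker_res]; exact IsLocalRing.maximalIdeal_le_jacobson _)
  have h5 := congrArg (PowerSeries.coeff 1) hg
  have h6 : PowerSeries.coeff 1 g = 0 := by
    have := hg𝔩 1
    rwa [hbot] at this
  rw [PowerSeries.coeff_smul, coeff_one_logS, PowerSeries.coeff_map, h6, map_zero, smul_eq_mul,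
    mul_one] at h5
  exact hc (hinj (h5.trans (map_zero _).symm))

omit [IsDomain O] [IsNoetherianRing O] [CharZero O] [IsFractionRing O K] in
theorem c0_lg_add {β β' : PowerSeries O} (hβ : PowerSeries.constantCoeff β = 0)
    (hβ' : PowerSeries.constantCoeff β' = 0) :
    S.lg K (S.H.toPowerSeries.subst ![β, β']) = S.lg K β + S.lg K β' := by
  have h : PowerSeries.map (algebraMap O K) (S.H.toPowerSeries.subst ![β, β']) =
      (S.H.map (algebraMap O K)).toPowerSeries.subst
        ![β.map (algebraMap O K), β'.map (algebraMap O K)] :=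
    PtAux.map_subst2 (τ := Unit) _ hβ hβ' _
  rw [lg, h]
  exact logS_subst_add (τ := Unit) _ (C0Aux.cc_map _ hβ) (C0Aux.cc_map _ hβ')

/-- lifts of the same endomorphism, resp. of a sum, give the same class (`subst_mem_Bd_of_small`
applied to `β -_H β'`) -/
theorem lg_sub_mem {β β' : PowerSeries O} (h0 : PowerSeries.constantCoeff β = 0)
    (h0' : PowerSeries.constantCoeff β' = 0) (h : β.map S.res = β'.map S.res) :
    S.lg K β - S.lg K β' ∈ Bd O K := by
  have hp : p.Prime := Fact.out
  let γ : Cur S.H (RingHom.id O) := Cur.mk _ _ β h0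
  let γ' : Cur S.H (RingHom.id O) := Cur.mk _ _ β' h0'
  have hz0 : PowerSeries.constantCoeff (γ - γ').1 = 0 := Cur.const _
  have h1 : β = S.H.toPowerSeries.subst ![(γ - γ').1, β'] := by
    have h2 := Cur.add_val (γ - γ') γ'
    rw [sub_add_cancel, fg_map_id] at h2
    exact h2
  have hz : ∀ i, PowerSeries.coeff i (γ - γ').1 ∈ IsLocalRing.maximalIdeal O := by
    intro i
    obtain ⟨c, -, hc⟩ := Pt.sub_val_eq' γ γ'
    have h3 : PowerSeries.map S.res (γ - γ').1 = 0 := by
      rw [hc, map_mul, map_sub]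
      have : PowerSeries.map S.res γ.1 = PowerSeries.map S.res γ'.1 := h
      rw [this, sub_self, zero_mul]
    rw [← S.ker_res, RingHom.mem_ker, ← PowerSeries.coeff_map, h3, map_zero]
  obtain ⟨ω, -, hω⟩ := exists_derivative_logS (K := K) S.H
  have h4 : S.lg K β = S.lg K (γ - γ').1 + S.lg K β' := by
    rw [← S.c0_lg_add K hz0 h0', ← h1]
  rw [h4, add_sub_cancel_right]
  exact subst_mem_Bd_of_small hp S.unit_of_not_dvd S.hc hω hz0 hz

/-- the class of `log ∘ (lift φ)` -/
noncomputable def cl (φ : PowerSeries k) : PowerSeries K ⧸ Bd O K :=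
  Submodule.Quotient.mk (S.lg K (C0Aux.lift S.res_surj φ))

theorem cl_map {β : PowerSeries O} (hβ : PowerSeries.constantCoeff β = 0) :
    S.cl K (β.map S.res) = Submodule.Quotient.mk (S.lg K β) := by
  rw [cl, Submodule.Quotient.eq]
  exact S.lg_sub_mem K (C0Aux.cc_lift _ _) hβ (C0Aux.map_lift _ (C0Aux.cc_map _ hβ))

theorem cl_add {φ ψ : PowerSeries k} (hφ : PowerSeries.constantCoeff φ = 0)
    (hψ : PowerSeries.constantCoeff ψ = 0) :
    S.cl K (S.Γ.toPowerSeries.subst ![φ, ψ]) = S.cl K φ + S.cl K ψ := by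
  have h1 := C0Aux.cc_lift S.res_surj φ
  have h2 := C0Aux.cc_lift S.res_surj ψ
  have h : PowerSeries.map S.res (S.H.toPowerSeries.subst
      ![C0Aux.lift S.res_surj φ, C0Aux.lift S.res_surj ψ]) =
      (S.H.map S.res).toPowerSeries.subst ![(C0Aux.lift S.res_surj φ).map S.res,
        (C0Aux.lift S.res_surj ψ).map S.res] :=
    PtAux.map_subst2 (τ := Unit) _ h1 h2 _
  rw [C0Aux.map_lift _ hφ, C0Aux.map_lift _ hψ, S.red] at h
  rw [← h, S.cl_map K (PtAux.cc_subst2 (τ := Unit) S.H.zero_constantCoeff h1 h2),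
    S.c0_lg_add K h1 h2, Submodule.Quotient.mk_add, cl, cl]

theorem pre_cl {φ ψ : PowerSeries k} (hφ : PowerSeries.constantCoeff φ = 0)
    (hψ : PowerSeries.constantCoeff ψ = 0) :
    C0Aux.pre K (C0Aux.cc_lift S.res_surj ψ) (S.cl K φ) = S.cl K (φ.subst ψ) := by
  have h1 := C0Aux.cc_lift S.res_surj φ
  have h2 := C0Aux.cc_lift S.res_surj ψ
  have h : PowerSeries.map S.res ((C0Aux.lift S.res_surj φ).subst (C0Aux.lift S.res_surj ψ)) =
      ((C0Aux.lift S.res_surj φ).map S.res).subst ((C0Aux.lift S.res_surj ψ).map S.res) :=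
    PtAux.map_subst1 (τ := Unit) _ h2 _
  have h' : PowerSeries.map (algebraMap O K)
      ((C0Aux.lift S.res_surj φ).subst (C0Aux.lift S.res_surj ψ)) =
      ((C0Aux.lift S.res_surj φ).map (algebraMap O K)).subst
        ((C0Aux.lift S.res_surj ψ).map (algebraMap O K)) :=
    PtAux.map_subst1 (τ := Unit) _ h2 _
  rw [C0Aux.map_lift _ hφ, C0Aux.map_lift _ hψ] at h
  rw [← h, S.cl_map K (PtAux.cc_subst1 (τ := Unit) h1 h2), cl, C0Aux.pre_mk, lg, lg, h']
  congr 1
  exact PtAux.subst1_subst1 _ (C0Aux.cc_map _ h1) (C0Aux.cc_map _ h2)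

theorem cl_X : S.cl K PowerSeries.X ≠ 0 := by
  have h := S.cl_map K (β := PowerSeries.X) PowerSeries.constantCoeff_X
  rw [PowerSeries.map_X] at h
  rw [h, lg, PowerSeries.map_X, PowerSeries.X_subst, Ne, Submodule.Quotient.mk_eq_zero]
  exact S.log_not_mem K

/-- **Dimension.** The classes of `log ∘ β` span at least `n = d + 1` dimensions modulo bounded
series.  With `exists_normal_fin` get endomorphisms `â = ε (a ε⁻¹)` (`a ∈ k^×`) and
`Π = ε ((ε⁻¹)^p)` of `Γ`: `â b̂ = (ab)^`, `Π â = (a^p)^ Π`, `Π^n = [p]`, `∑_{ζ^l = 1} ζ̂ = 0` for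
primes `l ∣ q - 1`.  Precomposition with lifts acts linearly on the span `V` of the classes,
depending only on the reduction and additively.  `x_e = ∑_a teich(a)^(-e) [log ∘ â]` is an
eigenvector for the character `teich^e`, `∑_e x_e = (q-1) [log] ≠ 0`, so some `x_e ≠ 0`; then
`gcd (e, q-1) = 1`, and `x_e ∘ Π^i` (`i < n`) are nonzero eigenvectors for the distinct characters
`teich^(e p^i)`. -/
theorem exists_indep : ∃ v : Fin (d + 1) → PowerSeries K ⧸ Bd O K, LinearIndependent K v ∧
    ∀ i, v i ∈ Submodule.span K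
      {x | ∃ β, S.Lift β ∧ x = Submodule.Quotient.mk (S.lg K β)} := by
  have hp : p.Prime := Fact.out
  obtain ⟨G, hG, ε, hN, hε1, hε⟩ := exists_normal_fin (h := d + 1) (by omega) S.card S.Γ S.pser
  set ι := ZMod.castHom (dvd_refl p) k with hι
  have hu : IsUnit (PowerSeries.coeff 1 ε) := by rw [hε1]; exact isUnit_one
  let ε' := ε.substInvOfIsUnit hu
  have hε' : IsFGHom S.Γ (G.map ι) ε' := fgHom_inv hε hu
  have hεε' : ε.subst ε' = PowerSeries.X := PowerSeries.subst_substInvOfIsUnit_right ε hε.1 hu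
  have hε'ε : ε'.subst ε = PowerSeries.X := PowerSeries.subst_substInvOfIsUnit_left ε hε.1 hu
  let cl' : Cur G ι →+ PowerSeries K ⧸ Bd O K :=
    AddMonoidHom.mk' (fun γ => S.cl K (ε.subst γ.1)) (fun γ δ => by
      rw [Cur.add_val, PtAux.hom_subst (τ := Unit) hε γ.const δ.const]
      exact S.cl_add K (PtAux.cc_subst1 (τ := Unit) hε.1 γ.const)
        (PtAux.cc_subst1 (τ := Unit) hε.1 δ.const))
  have hcl' : ∀ γ : Cur G ι, cl' γ = S.cl K (ε.subst γ.1) := fun _ => rfl
  let T : PowerSeries k → (PowerSeries K ⧸ Bd O K) →ₗ[K] (PowerSeries K ⧸ Bd O K) :=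
    fun ψ => C0Aux.pre K (C0Aux.cc_lift S.res_surj ψ)
  have hT : ∀ (γ : Cur G ι) (ψ : PowerSeries k), PowerSeries.constantCoeff ψ = 0 →
      T ψ (cl' γ) = S.cl K (ε.subst (γ.1.subst ψ)) := by
    intro γ ψ hψ
    rw [hcl', S.pre_cl K (PtAux.cc_subst1 (τ := Unit) hε.1 γ.const) hψ,
      PtAux.subst1_subst1 _ γ.const hψ]
  have hmono : ∀ (a : k) (i : ℕ) (ψ : PowerSeries k), PowerSeries.constantCoeff ψ = 0 →
      (mono p G ι a i).1.subst ψ = PowerSeries.C a * ψ ^ p ^ i := by
    intro a i ψ hψ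
    have hs := PowerSeries.HasSubst.of_constantCoeff_zero' hψ
    show (PowerSeries.C a * PowerSeries.X ^ p ^ i : PowerSeries k).subst ψ = _
    rw [PowerSeries.subst_mul hs, PowerSeries.subst_pow hs, PowerSeries.subst_X hs,
      PowerSeries.subst_C]
    rfl
  have hmono' : ∀ (a : k) (i : ℕ),
      (mono p G ι a i).1 = PowerSeries.C a * PowerSeries.X ^ p ^ i := fun _ _ => rfl
  have hfin : Finite k := Nat.finite_of_card_ne_zero
    (by rw [S.card]; exact pow_ne_zero _ hp.ne_zero)
  have hq : ∀ a : k, a ^ p ^ (d + 1) = a := by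
    intro a
    have := Fintype.ofFinite k
    rw [← S.card, Nat.card_eq_fintype_card, FiniteField.pow_card]
  have hCX : ∀ a : k, PowerSeries.constantCoeff (PowerSeries.C a * PowerSeries.X) = 0 :=
    fun a => by simp
  have hXp : PowerSeries.constantCoeff (PowerSeries.X ^ p : PowerSeries k) = 0 := by
    rw [map_pow, PowerSeries.constantCoeff_X, zero_pow hp.ne_zero]
  let χ : kˣ →* K := ((algebraMap O K : O →* K).comp S.teich).comp (Units.coeHom k)
  have hχ : Function.Injective χ := by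
    intro a b hab
    have h1 : S.teich a = S.teich b := IsFractionRing.injective O K hab
    have h2 := congrArg S.res h1
    rw [S.res_teich, S.res_teich] at h2
    exact Units.ext h2
  obtain ⟨w, hw, hws⟩ := C0Aux.abstract_indep (n := d + 1) hp (by omega) S.card χ hχ
    (fun a i => cl' (mono p G ι a i)) (fun b => T (PowerSeries.C (b : k) * PowerSeries.X))
    (T (PowerSeries.X ^ p))
    (fun a b i => by
      rw [hT _ _ (hCX _), hmono _ _ _ (hCX _), hcl', hmono', mul_pow, ← map_pow, ← mul_assoc,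
        ← map_mul, Units.val_mul, Units.val_pow_eq_pow_val])
    (fun a i => by
      rw [hT _ _ hXp, hmono _ _ _ hXp, hcl', hmono', ← pow_mul, ← pow_succ'])
    (fun a => by
      rw [← map_nsmul]
      congr 1
      apply Subtype.ext
      have hs := PowerSeries.HasSubst.of_constantCoeff_zero' (mono p G ι (a : k) 0).const
      rw [Cur.nsmul_val, mulSeries_map, hN.pser, map_pow, PowerSeries.map_X,
        PowerSeries.subst_pow hs, PowerSeries.subst_X hs, hmono', hmono', pow_zero, pow_one,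
        mul_pow, ← map_pow, hq])
    (by
      intro h0
      have h1 := hT (mono p G ι ((1 : kˣ) : k) 0) ε' hε'.1
      rw [h0, map_zero, hmono _ _ _ hε'.1, Units.val_one, map_one, one_mul, pow_zero, pow_one,
        hεε'] at h1
      exact S.cl_X K h1.symm)
    (fun l hl hlp ζ hζ => by
      have h1 := congrArg cl' (hN.typ k ι l hl hlp ζ hζ)
      rw [map_sum, map_zero] at h1
      simpa only [Units.val_pow_eq_pow_val] using h1)
  have hback : ∀ x ∈ Submodule.span K
      {x | ∃ (a : kˣ) (j : ℕ), x = cl' (mono p G ι a j)}, T ε (T ε' x) = x := by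
    intro x hx
    refine LinearMap.eqOn_span' (f := T ε ∘ₗ T ε') (g := LinearMap.id) ?_ hx
    rintro _ ⟨a, j, rfl⟩
    have h1 : PowerSeries.constantCoeff ((mono p G ι (a : k) j).1.subst ε') = 0 :=
      PtAux.cc_subst1 (τ := Unit) (mono p G ι (a : k) j).const hε'.1
    rw [LinearMap.comp_apply, LinearMap.id_apply, hT _ _ hε'.1, S.pre_cl K (PtAux.cc_subst1 (τ := Unit) hε.1 h1) hε.1,
      PtAux.subst1_subst1 _ h1 hε.1, PtAux.subst1_subst1 _ hε'.1 hε.1, hε'ε,
      PowerSeries.X_subst]
    rfl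
  refine ⟨fun i => T ε' (w i), ?_, fun i => ?_⟩
  · refine LinearIndependent.of_comp (T ε) ?_
    have : (T ε) ∘ (fun i => T ε' (w i)) = w := funext fun i => hback _ (hws i)
    rwa [this]
  · refine (Submodule.span_le (p := (Submodule.span K
      {x | ∃ β, S.Lift β ∧ x = Submodule.Quotient.mk (S.lg K β)}).comap (T ε'))).2 ?_ (hws i)
    rintro _ ⟨a, j, rfl⟩
    rw [SetLike.mem_coe, Submodule.mem_comap, hT _ _ hε'.1]
    have hm : IsFGHom (G.map ι) (G.map ι) (mono p G ι (a : k) j).1 := by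
      have h1 := fgHom_comp (fgHom_X_pow G ι j) (hN.scal k ι a (hq a))
      have hs : PowerSeries.HasSubst (PowerSeries.X ^ p ^ j : PowerSeries k) :=
        PowerSeries.HasSubst.X_pow (pow_ne_zero _ hp.ne_zero)
      rw [PowerSeries.subst_mul hs, PowerSeries.subst_X hs, PowerSeries.subst_C] at h1
      exact h1
    have hm' := fgHom_comp (fgHom_comp hε' hm) hε
    refine Submodule.subset_span ⟨_, ⟨C0Aux.cc_lift _ _, ?_⟩, rfl⟩
    rw [C0Aux.map_lift _ hm'.1]
    exact hm'

end C0

end Crest.Agent.R227
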