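import Crest.Agent.R227.NormalDesc

/-!
# R227 / Normal : normal (Honda) form of a law with `[p] = X^(p^h)`
-/

set_option autoImplicit false

namespace Crest.Agent.R227

open MvPowerSeries Crest.LubinTate

variable (p : ℕ) [Fact p.Prime]

/-- the curve `c t^(p^j)` -/
noncomputable def mono {R₀ R : Type} [CommRing R₀] [CommRing R] (G : FormalGroup R₀)
    (ι : R₀ →+* R) (c : R) (j : ℕ) : Cur G ι :=
  Cur.mk G ι (PowerSeries.C c * PowerSeries.X ^ p ^ j) (by
    have : p ^ j ≠ 0 := pow_ne_zero _ (Fact.out : p.Prime).ne_zero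
    rw [map_mul, map_pow, PowerSeries.constantCoeff_X, zero_pow this, mul_zero])

/-- A law over `𝔽_p` in normal form: `[p] = X^(p^h)`, the elements of `𝔽_{p^h}` act linearly, and
the coordinate is `p`-typical. -/
structure IsNormal (h : ℕ) (G : FormalGroup (ZMod p)) [G.IsComm] : Prop where
  pser : mulSeries G p = PowerSeries.X ^ p ^ h
  scal : ∀ (R : Type) [CommRing R] (ι : ZMod p →+* R) (a : R), a ^ p ^ h = a →
    IsFGHom (G.map ι) (G.map ι) (PowerSeries.C a * PowerSeries.X)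
  typ : ∀ (R : Type) [CommRing R] (ι : ZMod p →+* R) (l : ℕ), l.Prime → l ≠ p → ∀ ζ : R,
    ∑ i ∈ Finset.range l, ζ ^ i = 0 → ∑ i ∈ Finset.range l, mono p G ι (ζ ^ i) 0 = 0

variable {p}

/-- Frobenius is an endomorphism of any law over `𝔽_p`. -/
theorem fgHom_X_pow {R : Type} [CommRing R] (G : FormalGroup (ZMod p)) (ι : ZMod p →+* R)
    (j : ℕ) : IsFGHom (G.map ι) (G.map ι) (PowerSeries.X ^ p ^ j) := by
  have h := fgHom_map (fgHom_frob p G j) ι
  rw [Subsingleton.elim (iterateFrobenius (ZMod p) p j) (RingHom.id _), fg_map_id] at h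
  simpa using h

theorem mono_zero_eq_lin {R₀ R : Type} [CommRing R₀] [CommRing R] (G : FormalGroup R₀)
    (ι : R₀ →+* R) (c : R) : mono p G ι c 0 = NormalAux.lin G ι c := by
  apply Pt.ext
  simp [mono, NormalAux.lin, Cur.mk]

/-- **Uniqueness**: two `p`-typical laws over an algebraically closed field with the same
`p`-series `X^(p^h)` are equal.

Induct on the degree: `F ≡ G` mod degree `m` (`m ≥ 2`), `Γ` = degree `m` part of `F - G`.
The monoid ring `ℤ[L]` (multiplicative monoid of `L`) acts on curves of `F` and of `G` through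
`[a] γ (t) = γ (a t)`.  For `x ∈ ℤ[L]` the curves `x·_F t`, `x·_G t` agree mod `t^m`; let `λ x` be
the `t^m` coefficient of the difference: `λ (x+y) = λ x + λ y + Γ (χ x, χ y)` (`χ [a] = a`),
`λ [a] = 0`, `λ (y x) = χ_m (y) λ x` for `χ x = 0` (`χ_m [a] = a^m`), and
`Γ (a,b) = λ ([a]+[b]-[a+b])`.
* `l ∣ m`, `l ≠ p` prime: `N = ∑ [ζ^i]` kills `t`, so `0 = λ (N x) = l λ x`.
* `m = p^j`: for `K = 𝔽_{p^f} ⊆ L`, `p^f > m + 1`, `e = ∑_{a ∈ K^×} n_a [a]`, `n_a ∈ ℕ` lifting
  `-Tr (a⁻¹)`: `e x ∈ p ℤ[L]` for `x = [a]+[b]-[a+b]`, `a b ∈ K`, `λ (p y) = 0` (same `p`-series),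
  `χ_m e = 1`.  So `Γ` vanishes on `K × K`, hence `Γ = 0`.
(The classical Lazard cocycle computation is an equally good route.) -/
theorem normal_unique {L : Type} [Field L] [IsAlgClosed L] [CharP L p] {h : ℕ} (hh : 1 ≤ h)
    (F G : FormalGroup L) [F.IsComm] [G.IsComm]
    (hF : mulSeries F p = PowerSeries.X ^ p ^ h) (hG : mulSeries G p = PowerSeries.X ^ p ^ h)
    (tF : ∀ l : ℕ, l.Prime → l ≠ p → ∀ ζ : L, IsPrimitiveRoot ζ l →
      ∑ i ∈ Finset.range l, mono p F (RingHom.id L) (ζ ^ i) 0 = 0)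
    (tG : ∀ l : ℕ, l.Prime → l ≠ p → ∀ ζ : L, IsPrimitiveRoot ζ l →
      ∑ i ∈ Finset.range l, mono p G (RingHom.id L) (ζ ^ i) 0 = 0) : F = G := by
  simp only [mono_zero_eq_lin] at tF tG
  exact NormalAux.unique_aux hh F G hF hG tF tG

/-- **`p`-typification**: `ε = lim ∏_{l ≤ L} (1 - l⁻¹ N_l) t`, `N_l γ = ∑_{i<l} γ (ζ_l^i t)`
(`N_l γ ≡ 0 mod t^l`; multiplication by `l` is bijective on curves; all operators commute with
each other and with `γ ↦ γ (t^q)`, which agrees with `[p]` on `t`). -/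
theorem exists_typical {L : Type} [Field L] [IsAlgClosed L] [CharP L p] {h : ℕ} (hh : 1 ≤ h)
    (F : FormalGroup L) [F.IsComm] (hF : mulSeries F p = PowerSeries.X ^ p ^ h) :
    ∃ (G : FormalGroup L) (_ : G.IsComm) (ε : PowerSeries L),
      mulSeries G p = PowerSeries.X ^ p ^ h ∧
      (∀ l : ℕ, l.Prime → l ≠ p → ∀ ζ : L, IsPrimitiveRoot ζ l →
        ∑ i ∈ Finset.range l, mono p G (RingHom.id L) (ζ ^ i) 0 = 0) ∧
      PowerSeries.coeff 1 ε = 1 ∧ IsFGHom G F ε := by
  simp only [mono_zero_eq_lin]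
  have _ := hh
  exact NormalAux.typical_aux F hF

/-- **Normal form** over an algebraically closed field: apply `normal_unique` to the Frobenius
twist and to the conjugates by `a X`; descend the coefficients to `ZMod p`; `typ` for a general
ring follows from the universal case `𝔽_p[z]/(1+z+…+z^(l-1))`, a reduced finite ring all of whose
residue fields embed in `L`. -/
theorem exists_normal {L : Type} [Field L] [IsAlgClosed L] [CharP L p] {h : ℕ} (hh : 1 ≤ h)
    (F : FormalGroup L) [F.IsComm] (hF : mulSeries F p = PowerSeries.X ^ p ^ h) :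
    ∃ (G : FormalGroup (ZMod p)) (_ : G.IsComm) (ε : PowerSeries L), IsNormal p h G ∧
      PowerSeries.coeff 1 ε = 1 ∧ IsFGHom (G.map (ZMod.castHom (dvd_refl p) L)) F ε := by
  obtain ⟨G₀, hG₀, ε, h1, h2, h3, h4⟩ := NormalAux.typical_aux F hF
  obtain ⟨h5, h6⟩ := NormalAux.normal_aux hh G₀ h1 h2
  have hinj := (ZMod.castHom (dvd_refl p) L).injective
  obtain ⟨G, hG, rfl⟩ := NormalAux.exists_descend hinj G₀ (fun d => by
    apply NormalAux.mem_range_of_pow_card
    have := congrArg (fun H : FormalGroup L => coeff d H.toPowerSeries) h5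
    simp only [FormalGroup.map_toPowerSeries, coeff_map, frobenius_def] at this
    rw [Nat.card_zmod, this])
  refine ⟨G, hG, ε, ⟨?_, fun R _ ι a ha => NormalAux.scal_univ hh G h6 ι a ha,
    fun R _ ι l hl hlp ζ hζ => ?_⟩, h3, h4⟩
  · apply PowerSeries.map_injective _ hinj
    rw [← mulSeries_map, h1]
    simp
  · simp only [mono_zero_eq_lin]
    exact NormalAux.typ_univ G hl hlp (h2 l hl hlp) ι ζ hζ

/-- **Normal form** over the field with `p^h` elements (`map_frob_hom_of_pser` + descent). -/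
theorem exists_normal_fin {k : Type} [Field k] [CharP k p] {h : ℕ} (hh : 1 ≤ h)
    (hk : Nat.card k = p ^ h) (F : FormalGroup k) [F.IsComm]
    (hF : mulSeries F p = PowerSeries.X ^ p ^ h) :
    ∃ (G : FormalGroup (ZMod p)) (_ : G.IsComm) (ε : PowerSeries k), IsNormal p h G ∧
      PowerSeries.coeff 1 ε = 1 ∧ IsFGHom (G.map (ZMod.castHom (dvd_refl p) k)) F ε := by
  have : Finite k := Nat.finite_of_card_ne_zero (by
    rw [hk]; exact pow_ne_zero _ (Fact.out : p.Prime).ne_zero)
  let L := AlgebraicClosure k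
  let ρ : k →+* L := algebraMap k L
  have hF' : mulSeries (F.map ρ) p = PowerSeries.X ^ p ^ h := by
    rw [mulSeries_map, hF]; simp
  obtain ⟨G, hG, ε, h1, h2, h3⟩ := exists_normal hh (F.map ρ) hF'
  have hG' : mulSeries (G.map (ZMod.castHom (dvd_refl p) L)) p = PowerSeries.X ^ p ^ h := by
    rw [mulSeries_map, h1.pser]; simp
  choose e he using fun i => NormalAux.mem_range_of_pow_card ρ (x := PowerSeries.coeff i ε)
    (by rw [hk]; exact map_frob_hom_of_pser p hG' hF' h3 i)
  have hε : (PowerSeries.mk e).map ρ = ε := by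
    ext i
    rw [PowerSeries.coeff_map, PowerSeries.coeff_mk, he]
  refine ⟨G, hG, PowerSeries.mk e, h1, ?_, fgHom_of_map ρ.injective ?_⟩
  · apply ρ.injective
    rw [PowerSeries.coeff_mk, he, h2, map_one]
  · rw [hε, fg_map_map, Subsingleton.elim (ρ.comp _) (ZMod.castHom (dvd_refl p) L)]
    exact h3

end Crest.Agent.R227
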