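import Crest.Agent.R227.Log
import Crest.Agent.R227.Normal

/-!
# R227 / C0Aux : auxiliary lemmas for `C0`
-/

set_option autoImplicit false

namespace Crest.Agent.R227.C0Aux

open MvPowerSeries Crest.LubinTate

/-- The representation theoretic count: eigenvectors for the characters `χ^(e p^i)`. -/
theorem abstract_indep {k K V : Type} [Field k] [Field K] [CharZero K] [AddCommGroup V]
    [Module K V] {p n : ℕ} (hp : p.Prime) (hn : 1 ≤ n) (hk : Nat.card k = p ^ n)
    (χ : kˣ →* K) (hχ : Function.Injective χ) (y : kˣ → ℕ → V) (D : kˣ → V →ₗ[K] V)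
    (Pi : V →ₗ[K] V) (hD : ∀ a b i, D b (y a i) = y (a * b ^ p ^ i) i)
    (hPi : ∀ a i, Pi (y a i) = y a (i + 1)) (hyn : ∀ a, y a n = p • y a 0) (h1 : y 1 0 ≠ 0)
    (htyp : ∀ l : ℕ, l.Prime → l ≠ p → ∀ ζ : kˣ, ∑ i ∈ Finset.range l, (ζ : k) ^ i = 0 →
      ∑ i ∈ Finset.range l, y (ζ ^ i) 0 = 0) :
    ∃ w : Fin n → V, LinearIndependent K w ∧
      ∀ i, w i ∈ Submodule.span K {x | ∃ a j, x = y a j} := by
  classical
  have hq : 1 < p ^ n := Nat.one_lt_pow (by omega) hp.one_lt
  have hfin : Finite k := Nat.finite_of_card_ne_zero (by omega)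
  have : Fintype kˣ := Fintype.ofFinite _
  set N := p ^ n - 1 with hN
  have hN0 : 0 < N := by omega
  have hcard : Nat.card kˣ = N := by rw [Nat.card_units, hk]
  have hpow : ∀ a : kˣ, a ^ N = 1 := fun a => by rw [← hcard, pow_card_eq_one']
  let x : ℕ → ℕ → V := fun e i => ∑ a : kˣ, χ a⁻¹ ^ e • y a i
  have hx : ∀ e i (c : kˣ), ∑ a : kˣ, χ a⁻¹ ^ e • y (a * c) i = χ c ^ e • x e i := by
    intro e i c
    simp only [x, Finset.smul_sum, smul_smul]
    refine Fintype.sum_equiv (Equiv.mulRight c) _ _ fun a => ?_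
    simp only [Equiv.coe_mulRight]
    rw [← mul_pow, ← map_mul]
    congr 3
    rw [mul_inv_rev, mul_inv_cancel_left]
  have hDx : ∀ e i (b : kˣ), D b (x e i) = χ (b ^ p ^ i) ^ e • x e i := by
    intro e i b
    rw [← hx]
    simp only [x, map_sum, map_smul, hD]
  have hPx : ∀ e i, Pi (x e i) = x e (i + 1) := by
    intro e i
    simp only [x, map_sum, map_smul, hPi]
  have hPx' : ∀ e i j, (Pi ^ j) (x e i) = x e (i + j) := by
    intro e i j
    induction j with
    | zero => simp
    | succ j ih => rw [pow_succ', Module.End.mul_apply, ih, hPx, add_assoc]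
  have hxn : ∀ e, x e n = (p : K) • x e 0 := by
    intro e
    simp only [x, hyn, Finset.smul_sum]
    refine Finset.sum_congr rfl fun a _ => ?_
    rw [smul_comm (p : K), Nat.cast_smul_eq_nsmul]
  have hsum : ∑ e ∈ Finset.range N, x e 0 = (N : K) • y 1 0 := by
    simp only [x]
    rw [Finset.sum_comm, Finset.sum_eq_single 1]
    · simp [Nat.cast_smul_eq_nsmul]
    · intro a _ ha
      rw [← Finset.sum_smul]
      have h2 : χ a⁻¹ - 1 ≠ 0 := by
        rw [sub_ne_zero, ← map_one χ]
        exact fun h => ha (inv_eq_one.1 (hχ h))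
      have h3 := geom_sum_mul (χ a⁻¹) N
      rw [← map_pow, hpow, map_one, sub_self] at h3
      rw [(mul_eq_zero.1 h3).resolve_right h2, zero_smul]
    · simp
  obtain ⟨e, he⟩ : ∃ e, x e 0 ≠ 0 := by
    by_contra h
    push Not at h
    rw [Finset.sum_eq_zero fun e _ => h e] at hsum
    exact smul_ne_zero (Nat.cast_ne_zero.2 hN0.ne') h1 hsum.symm
  obtain ⟨g, hg⟩ := IsCyclic.exists_ofOrder_eq_natCard (α := kˣ)
  rw [hcard] at hg
  have hcop : Nat.Coprime N e := by
    rw [Nat.coprime_iff_gcd_eq_one]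
    by_contra hne
    obtain ⟨l, hl, hlg⟩ := Nat.exists_prime_and_dvd hne
    have hlN : l ∣ N := hlg.trans (Nat.gcd_dvd_left _ _)
    have hle : l ∣ e := hlg.trans (Nat.gcd_dvd_right _ _)
    have hlp : l ≠ p := by
      rintro rfl
      have h2 : l ∣ l ^ n := dvd_pow_self _ (by omega)
      have h3 : l ∣ l ^ n - N := Nat.dvd_sub h2 hlN
      rw [show l ^ n - N = 1 by omega] at h3
      exact hl.one_lt.ne' (Nat.dvd_one.1 h3)
    obtain ⟨r, hr⟩ := hlN
    have hr0 : 0 < r := Nat.pos_of_ne_zero (by rintro rfl; omega)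
    let ζ : kˣ := g ^ r
    have hζl : ζ ^ l = 1 := by rw [← pow_mul, mul_comm, ← hr, hpow]
    have hζ1 : (ζ : k) - 1 ≠ 0 := by
      rw [sub_ne_zero, Ne, Units.val_eq_one]
      intro h
      have h2 := orderOf_dvd_of_pow_eq_one h
      rw [hg] at h2
      have h3 := Nat.le_of_dvd hr0 h2
      have h4 := hl.two_le
      nlinarith
    have hζ : ∑ i ∈ Finset.range l, (ζ : k) ^ i = 0 := by
      have h3 := geom_sum_mul (ζ : k) l
      rw [← Units.val_pow_eq_pow_val, hζl, Units.val_one, sub_self] at h3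
      exact (mul_eq_zero.1 h3).resolve_right hζ1
    have h5 := htyp l hl hlp ζ hζ
    have h6 : ∀ a : kˣ, ∑ i ∈ Finset.range l, y (a * ζ ^ i) 0 = 0 := by
      intro a
      have := congrArg (D a) h5
      rw [map_sum, map_zero] at this
      simpa only [hD, pow_zero, pow_one, mul_comm] using this
    have h7 : ∑ i ∈ Finset.range l, χ (ζ ^ i) ^ e • x e 0 = 0 := by
      simp only [← hx]
      rw [Finset.sum_comm]
      refine Finset.sum_eq_zero fun a _ => ?_
      rw [← Finset.smul_sum, h6, smul_zero]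
    obtain ⟨s, rfl⟩ := hle
    have h8 : ∀ i, χ (ζ ^ i) ^ (l * s) = 1 := by
      intro i
      rw [← map_pow, ← pow_mul, show i * (l * s) = l * (i * s) by ring, pow_mul, hζl, one_pow,
        map_one]
    simp only [h8, one_smul, Finset.sum_const, Finset.card_range] at h7
    rw [← Nat.cast_smul_eq_nsmul K] at h7
    exact smul_ne_zero (Nat.cast_ne_zero.2 hl.ne_zero) he h7
  refine ⟨fun i => x e i, ?_, fun i => ?_⟩
  · refine Module.End.eigenvectors_linearIndependent' (D g) (fun i : Fin n => χ (g ^ p ^ i.1) ^ e)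
      ?_ _ fun i => ⟨?_, ?_⟩
    · intro i j hij
      simp only [← map_pow] at hij
      have h2 := hχ hij
      rw [← pow_mul, ← pow_mul, pow_eq_pow_iff_modEq, hg, mul_comm _ e, mul_comm _ e] at h2
      have h3 := Nat.ModEq.cancel_left_of_coprime hcop h2
      have hi : p ^ i.1 < p ^ n := Nat.pow_lt_pow_right hp.one_lt i.2
      have hj : p ^ j.1 < p ^ n := Nat.pow_lt_pow_right hp.one_lt j.2
      have hi0 : 0 < p ^ i.1 := pow_pos hp.pos _
      have hj0 : 0 < p ^ j.1 := pow_pos hp.pos _
      have h4 : p ^ i.1 = p ^ j.1 := h3.eq_of_abs_lt (by rw [abs_lt]; omega)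
      exact Fin.ext (Nat.pow_right_injective hp.two_le h4)
    · rw [Module.End.mem_eigenspace_iff]
      exact hDx e i g
    · intro h0
      have h2 := hPx' e i (n - i)
      rw [h0, map_zero, show i.1 + (n - i.1) = n by omega, hxn] at h2
      exact smul_ne_zero (Nat.cast_ne_zero.2 hp.ne_zero) he h2.symm
  · exact Submodule.sum_mem _ fun a _ => Submodule.smul_mem _ _ (Submodule.subset_span ⟨a, i, rfl⟩)

/-- substitution of congruent series -/
theorem coeff_subst_sub_mem {R R' : Type} [CommRing R] [CommRing R'] (ρ : R →+* R')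
    {g θ θ' : PowerSeries R} (h0 : PowerSeries.constantCoeff θ = 0)
    (h0' : PowerSeries.constantCoeff θ' = 0) (h : θ.map ρ = θ'.map ρ) {𝔩 : Ideal R}
    (hg : ∀ i, PowerSeries.coeff i g ∈ 𝔩) (n : ℕ) :
    PowerSeries.coeff n (g.subst θ) - PowerSeries.coeff n (g.subst θ') ∈ RingHom.ker ρ * 𝔩 := by
  have hs := PowerSeries.HasSubst.of_constantCoeff_zero' h0
  have hs' := PowerSeries.HasSubst.of_constantCoeff_zero' h0'
  rw [PowerSeries.coeff_subst' hs, PowerSeries.coeff_subst' hs', ← finsum_sub_distrib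
    (PowerSeries.coeff_subst_finite' hs g n) (PowerSeries.coeff_subst_finite' hs' g n)]
  refine finsum_induction (· ∈ RingHom.ker ρ * 𝔩) (zero_mem _) (fun _ _ => add_mem) fun i => ?_
  rw [smul_eq_mul, smul_eq_mul, ← mul_sub, mul_comm (PowerSeries.coeff i g)]
  refine Ideal.mul_mem_mul ?_ (hg i)
  rw [RingHom.mem_ker, map_sub, ← PowerSeries.coeff_map, ← PowerSeries.coeff_map,
    map_pow (PowerSeries.map ρ), map_pow (PowerSeries.map ρ), h, sub_self]

theorem cc_map {R R' : Type} [CommRing R] [CommRing R'] (ρ : R →+* R') {β : PowerSeries R}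
    (hβ : PowerSeries.constantCoeff β = 0) : PowerSeries.constantCoeff (β.map ρ) = 0 := by
  rw [← PowerSeries.coeff_zero_eq_constantCoeff_apply, PowerSeries.coeff_map,
    PowerSeries.coeff_zero_eq_constantCoeff_apply, hβ, map_zero]

theorem map_injective {R R' : Type} [CommRing R] [CommRing R'] {ρ : R →+* R'}
    (hρ : Function.Injective ρ) : Function.Injective (PowerSeries.map ρ) := by
  intro f g h
  ext n
  apply hρ
  rw [← PowerSeries.coeff_map, ← PowerSeries.coeff_map, h]

/-- a lift of a series without constant term -/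
noncomputable def lift {R R' : Type} [CommRing R] [CommRing R'] {ρ : R →+* R'}
    (hρ : Function.Surjective ρ) (φ : PowerSeries R') : PowerSeries R :=
  PowerSeries.mk fun i => if i = 0 then 0 else Function.surjInv hρ (PowerSeries.coeff i φ)

theorem cc_lift {R R' : Type} [CommRing R] [CommRing R'] {ρ : R →+* R'}
    (hρ : Function.Surjective ρ) (φ : PowerSeries R') :
    PowerSeries.constantCoeff (lift hρ φ) = 0 := by
  rw [← PowerSeries.coeff_zero_eq_constantCoeff_apply, lift, PowerSeries.coeff_mk, if_pos rfl]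

theorem map_lift {R R' : Type} [CommRing R] [CommRing R'] {ρ : R →+* R'}
    (hρ : Function.Surjective ρ) {φ : PowerSeries R'} (hφ : PowerSeries.constantCoeff φ = 0) :
    (lift hρ φ).map ρ = φ := by
  ext n
  rw [PowerSeries.coeff_map, lift, PowerSeries.coeff_mk]
  split_ifs with h
  · rw [h, map_zero, PowerSeries.coeff_zero_eq_constantCoeff_apply, hφ]
  · exact Function.surjInv_eq hρ _

/-- precomposition with an integral series, on series modulo bounded series -/
noncomputable def pre {O : Type} [CommRing O] [IsDomain O] (K : Type) [Field K] [Algebra O K]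
    [IsFractionRing O K] {β : PowerSeries O} (hβ : PowerSeries.constantCoeff β = 0) :
    (PowerSeries K ⧸ Bd O K) →ₗ[K] (PowerSeries K ⧸ Bd O K) :=
  (Bd O K).mapQ (Bd O K) (PowerSeries.substAlgHom (R := K)
    (PowerSeries.HasSubst.of_constantCoeff_zero' (cc_map (algebraMap O K) hβ))).toLinearMap
    (fun f hf => by
      rw [Submodule.mem_comap, AlgHom.toLinearMap_apply, PowerSeries.coe_substAlgHom]
      exact subst_mem_Bd hf hβ)

theorem pre_mk {O : Type} [CommRing O] [IsDomain O] (K : Type) [Field K] [Algebra O K]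
    [IsFractionRing O K] {β : PowerSeries O} (hβ : PowerSeries.constantCoeff β = 0)
    (f : PowerSeries K) : pre K hβ (Submodule.Quotient.mk f) =
      Submodule.Quotient.mk (f.subst (β.map (algebraMap O K))) := by
  rw [pre, Submodule.mapQ_apply, AlgHom.toLinearMap_apply, PowerSeries.coe_substAlgHom]

end Crest.Agent.R227.C0Aux
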