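import Crest.Agent.R227.C0A

/-!
# R227 / C0B : the tangent vector of a lift, and the conclusion `F = 0`
-/

set_option autoImplicit false

namespace Crest.Agent.R227

open MvPowerSeries Crest.LubinTate Filter

namespace C0B

section generic

variable {R : Type} [CommRing R]

/-- series with all coefficients divisible by `π` -/
theorem exists_eq_C_mul {σ : Type} (π : R) {f : MvPowerSeries σ R} (h : ∀ e, π ∣ coeff e f) :
    ∃ g : MvPowerSeries σ R, f = C π * g := by
  choose g hg using h
  exact ⟨g, by ext e; rw [coeff_C_mul]; exact hg e⟩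

theorem eval_mul_of_homog {σ : Type} (P : MvPolynomial σ R) (e : ℕ)
    (hP : ∀ α : σ →₀ ℕ, α.degree ≠ e → P.coeff α = 0) (a : R) (τ : σ → R) :
    MvPolynomial.eval (fun i => a * τ i) P = a ^ e * MvPolynomial.eval τ P := by
  rw [MvPolynomial.eval_eq, MvPolynomial.eval_eq, Finset.mul_sum]
  refine Finset.sum_congr rfl fun α hα => ?_
  have hd : α.degree = e := by
    by_contra h
    exact (MvPolynomial.mem_support_iff.1 hα) (hP α h)
  simp only [mul_pow, Finset.prod_mul_distrib, Finset.prod_pow_eq_pow_sum]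
  rw [← hd, Finsupp.degree_apply]
  ring

theorem truncTotal_two {d : ℕ} (f : MvPowerSeries (Fin d) R) :
    truncTotal 2 f = MvPolynomial.C (constantCoeff f) +
      ∑ i, MvPolynomial.monomial (Finsupp.single i 1) (coeff (Finsupp.single i 1) f) := by
  classical
  ext α
  rw [coeff_truncTotal_eq_ite, MvPolynomial.coeff_add, MvPolynomial.coeff_sum,
    MvPolynomial.coeff_C]
  simp only [MvPolynomial.coeff_monomial]
  by_cases h0 : α.degree = 0
  · have : α = 0 := (Finsupp.degree_eq_zero_iff α).1 h0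
    subst this
    simp [Finsupp.single_eq_zero]
  · have hne : (0 : Fin d →₀ ℕ) ≠ α := by
      rintro rfl
      exact h0 (by simp)
    rw [if_neg hne, zero_add]
    by_cases h1 : α.degree = 1
    · have hmem : α ∈ Set.range (fun a : Fin d => Finsupp.single a 1) := by
        rw [Finsupp.range_single_one]
        exact h1
      obtain ⟨i, rfl⟩ := hmem
      rw [if_pos (by simp), Finset.sum_eq_single i]
      · simp
      · intro j _ hj
        rw [if_neg]
        intro h
        exact hj (Finsupp.single_left_injective one_ne_zero h)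
      · simp
    · rw [if_neg (by omega)]
      symm
      refine Finset.sum_eq_zero fun i _ => ?_
      rw [if_neg]
      rintro rfl
      exact h1 (by simp)

theorem eval_truncTotal_two {d : ℕ} (f : MvPowerSeries (Fin d) R) (δ : Fin d → R) :
    MvPolynomial.eval₂ (RingHom.id R) δ (truncTotal 2 f) =
      constantCoeff f + ∑ i, δ i * coeff (Finsupp.single i 1) f := by
  rw [truncTotal_two, MvPolynomial.eval₂_add, MvPolynomial.eval₂_C, MvPolynomial.eval₂_sum]
  congr 1
  refine Finset.sum_congr rfl fun i _ => ?_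
  rw [MvPolynomial.eval₂_monomial]
  simp [mul_comm]

theorem span_range_pow_le {σ : Type} {π : R} {δ : σ → R} (hδ : ∀ i, π ∣ δ i) (k : ℕ) :
    (Ideal.span (Set.range δ)) ^ k ≤ Ideal.span {π ^ k} := by
  rw [← Ideal.span_singleton_pow]
  refine Ideal.pow_right_mono ?_ k
  rw [Ideal.span_le]
  rintro _ ⟨i, rfl⟩
  exact Ideal.mem_span_singleton.2 (hδ i)

theorem derivative_map {R' : Type} [CommRing R'] (ρ : R →+* R') (f : PowerSeries R) :
    PowerSeries.derivative R' (f.map ρ) = (PowerSeries.derivative R f).map ρ := by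
  ext n
  simp [PowerSeries.coeff_derivative]

/-- A polynomial vanishing on an additive submonoid which spans the space is zero. -/
theorem eq_zero_of_vanish {K : Type} [Field K] [CharZero K] {d : ℕ}
    (T : AddSubmonoid (Fin d → K)) (hT : Submodule.span K (T : Set (Fin d → K)) = ⊤)
    (P : MvPolynomial (Fin d) K) (hP : ∀ t ∈ T, MvPolynomial.eval t P = 0) : P = 0 := by
  classical
  obtain ⟨b, hbT, hb, hli⟩ := exists_linearIndependent K (T : Set (Fin d → K))
  have hfin : b.Finite := hli.set_finite_of_isNoetherian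
  have : Fintype b := hfin.fintype
  let Q : MvPolynomial b K :=
    MvPolynomial.aeval (fun i => ∑ j : b, MvPolynomial.C (j.1 i) * MvPolynomial.X j) P
  have hQ : ∀ x : b → K, MvPolynomial.eval x Q =
      MvPolynomial.eval (∑ j : b, x j • j.1) P := by
    intro x
    have : (MvPolynomial.eval x).comp (MvPolynomial.aeval (R := K)
        (fun i => ∑ j : b, MvPolynomial.C (j.1 i) * MvPolynomial.X j :
          Fin d → MvPolynomial b K)).toRingHom = MvPolynomial.eval (∑ j : b, x j • j.1) := by
      apply MvPolynomial.ringHom_ext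
      · intro r
        simp
      · intro i
        simp [Finset.sum_apply, mul_comm]
    exact RingHom.congr_fun this P
  have hQ0 : Q = 0 := by
    refine MvPolynomial.funext_set (fun _ => Set.range (Nat.cast : ℕ → K))
      (fun _ => Set.infinite_range_of_injective Nat.cast_injective) fun x hx => ?_
    rw [hQ, map_zero]
    apply hP
    refine T.sum_mem fun j _ => ?_
    obtain ⟨n, hn⟩ := hx j (Set.mem_univ _)
    rw [← hn, Nat.cast_smul_eq_nsmul]
    exact T.nsmul_mem (hbT j.2) n
  refine MvPolynomial.funext fun y => ?_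
  have hy : y ∈ Submodule.span K (Set.range (Subtype.val : b → Fin d → K)) := by
    rw [Subtype.range_coe, hb, hT]
    trivial
  obtain ⟨x, hx⟩ := (Submodule.mem_span_range_iff_exists_fun K).1 hy
  rw [← hx, ← hQ, hQ0, map_zero, map_zero]

/-- the dimension count -/
theorem dim_count {K V W : Type} [Field K] [AddCommGroup V] [Module K V] [AddCommGroup W]
    [Module K W] {d : ℕ} (Φ : V →ₗ[K] W) (x₀ : V) (hker : LinearMap.ker Φ ≤ K ∙ x₀)
    (v : Fin (d + 1) → V) (hv : LinearIndependent K v) (κ : (Fin d → K) →ₗ[K] W)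
    (U : Submodule K (Fin d → K)) (hU : ∀ i, Φ (v i) ∈ U.map κ) :
    U = ⊤ ∧ Function.Injective κ := by
  let g : (Fin (d + 1) → K) →ₗ[K] V := Fintype.linearCombination K v
  have hg : Function.Injective g := hv.fintypeLinearCombination_injective
  have h1 : Module.finrank K (LinearMap.ker (Φ ∘ₗ g)) ≤ 1 := by
    rw [(Submodule.equivMapOfInjective g hg _).finrank_eq]
    have hle : (LinearMap.ker (Φ ∘ₗ g)).map g ≤ K ∙ x₀ := by
      rintro _ ⟨y, hy, rfl⟩
      exact hker hy
    refine (Submodule.finrank_mono hle).trans ?_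
    exact (finrank_span_le_card ({x₀} : Set V)).trans (by simp)
  have h2 := LinearMap.finrank_range_add_finrank_ker (Φ ∘ₗ g)
  rw [Module.finrank_fin_fun] at h2
  have h3 : LinearMap.range (Φ ∘ₗ g) ≤ U.map κ := by
    rintro _ ⟨y, rfl⟩
    simp only [LinearMap.comp_apply, g, Fintype.linearCombination_apply, map_sum, map_smul]
    exact Submodule.sum_mem _ fun i _ => Submodule.smul_mem _ _ (hU i)
  have h4 : d ≤ Module.finrank K (U.map κ) := by
    have := Submodule.finrank_mono h3
    omega
  constructor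
  · apply Submodule.eq_top_of_finrank_eq
    have h5 := Submodule.finrank_map_le κ U
    have h6 := Submodule.finrank_le U
    rw [Module.finrank_fin_fun] at h6 ⊢
    omega
  · rw [← LinearMap.ker_eq_bot, ← Submodule.finrank_eq_zero]
    have h5 := LinearMap.finrank_range_add_finrank_ker κ
    rw [Module.finrank_fin_fun] at h5
    have h6 : Module.finrank K (U.map κ) ≤ Module.finrank K (LinearMap.range κ) :=
      Submodule.finrank_mono (LinearMap.map_le_range)
    omega

end generic

section step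

variable {K : Type} [Field K] [CharZero K]

theorem logS_subst_theta0 (F : FormalGroup K) [F.IsComm] (m : ℕ) {β : PowerSeries K}
    (hβ : PowerSeries.constantCoeff β = 0) :
    (logS F).subst (theta0 F m β) = logS F + (m : K) • (logS F).subst β := by
  have hs : PowerSeries.HasSubst β := PowerSeries.HasSubst.of_constantCoeff_zero' hβ
  have hm : PowerSeries.HasSubst (mulSeries F m) :=
    PowerSeries.HasSubst.of_constantCoeff_zero' (constantCoeff_mulSeries F m)
  have h1 : constantCoeff ((mulSeries F m).subst β) = 0 :=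
    PowerSeries.constantCoeff_subst_eq_zero hβ _ (constantCoeff_mulSeries F m)
  have h0 : constantCoeff (PowerSeries.X : PowerSeries K) = 0 := PowerSeries.constantCoeff_X
  rw [theta0, logS_subst_add F (τ := Unit) h0 h1, PowerSeries.X_subst,
    ← PowerSeries.subst_comp_subst_apply hm hs, logS_subst_mulSeries, PowerSeries.subst_smul hs]

variable {O : Type} [CommRing O] [IsDomain O] [CharZero O] [Algebra O K] [IsFractionRing O K]

omit [CharZero K] [IsDomain O] [CharZero O] [IsFractionRing O K] in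
theorem hasSubst_map {β : PowerSeries O} (hβ : PowerSeries.constantCoeff β = 0) :
    PowerSeries.HasSubst (β.map (algebraMap O K)) :=
  PowerSeries.HasSubst.of_constantCoeff_zero' (by
    rw [← PowerSeries.coeff_zero_eq_constantCoeff_apply, PowerSeries.coeff_map,
      PowerSeries.coeff_zero_eq_constantCoeff_apply, hβ, map_zero])

theorem constantCoeff_eq_zero_of_pow_mul {p : ℕ} (hp : p.Prime) {τ : Type} {j : ℕ}
    {w : MvPowerSeries τ O} (h : constantCoeff ((p : MvPowerSeries τ O) ^ j * w) = 0) :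
    constantCoeff w = 0 := by
  rw [map_mul, map_pow, map_natCast] at h
  exact (mul_eq_zero.1 h).resolve_left (pow_ne_zero _ (Nat.cast_ne_zero.2 hp.ne_zero))

/-- the first order computation at a fixed level -/
theorem step {p : ℕ} (hp : p.Prime) (hunit : ∀ m : ℕ, ¬ p ∣ m → IsUnit (m : O))
    (H H' : FormalGroup O) [H.IsComm] {ω : PowerSeries O} (hω : ω * dY H = 1)
    {β θ η : PowerSeries O} (hβ : PowerSeries.constantCoeff β = 0) {j c : ℕ} (hj : 1 ≤ j)
    (hθ : IsFGHom H' H θ) (hη : θ = theta0 H (p ^ (j + c)) β + (p : PowerSeries O) ^ j * η)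
    {Θ : MvPowerSeries (Fin 2) O}
    (hΘ : H'.toPowerSeries = H.toPowerSeries + (p : MvPowerSeries (Fin 2) O) ^ j * Θ) :
    ∃ (ρ : PowerSeries O) (W : MvPowerSeries (Fin 2) O),
      (p : K) ^ c • cob (H.map (algebraMap O K))
          ((logS (H.map (algebraMap O K))).subst (β.map (algebraMap O K))) +
        (cob H ρ + ω.subst H.toPowerSeries * Θ +
          (p : MvPowerSeries (Fin 2) O) ^ (j - 1) * W).map (algebraMap O K) = 0 := by
  obtain ⟨ω', h1, h2⟩ := exists_derivative_logS (K := K) H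
  have hωω : ω' = ω := by
    calc ω' = ω' * (ω * dY H) := by rw [hω, mul_one]
      _ = ω * (ω' * dY H) := by ring
      _ = ω := by rw [h1, mul_one]
  subst hωω
  set a := algebraMap O K with ha
  set ℓ := logS (H.map a) with hℓ
  set θ₀ := theta0 H (p ^ (j + c)) β with hθ₀
  have hz : PowerSeries.constantCoeff θ₀ = 0 := constantCoeff_theta0 H _ hβ
  have hη0 : PowerSeries.constantCoeff η = 0 := by
    apply constantCoeff_eq_zero_of_pow_mul (τ := Unit) (j := j) hp
    have h := hθ.1
    rw [hη, map_add, hz, zero_add] at h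
    exact h
  have hΘ0 : constantCoeff Θ = 0 := by
    apply constantCoeff_eq_zero_of_pow_mul (j := j) hp
    have h := H'.zero_constantCoeff
    rw [hΘ, map_add, H.zero_constantCoeff, zero_add] at h
    exact h
  obtain ⟨v, hv⟩ := taylor_estimate hp hunit h2 (τ := Unit) (z := θ₀) (w := η) hz hη0 hj
  obtain ⟨i, rfl⟩ : ∃ i, j = i + 1 := ⟨j - 1, by omega⟩
  have e1 : 2 * (i + 1) - 1 = (i + 1) + i := by omega
  have e2 : i + 1 - 1 = i := by omega
  set ρ : PowerSeries O := ω'.subst θ₀ * η + (p : PowerSeries O) ^ i * v with hρ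
  set lg : PowerSeries K := ℓ.subst (β.map a) with hlg
  set lam : PowerSeries K := ℓ.subst (θ.map a) with hlam
  have hlam1 : lam = ℓ + (p : K) ^ (i + 1 + c) • lg +
      ((p : PowerSeries O) ^ (i + 1) * ρ).map a := by
    have h3 : lam = ℓ.subst (θ₀.map a) + ((p : PowerSeries O) ^ (i + 1) * (ω'.subst θ₀ * η) +
        (p : PowerSeries O) ^ (2 * (i + 1) - 1) * v).map a := by
      rw [hlam, hη]
      exact hv
    have hβ' : PowerSeries.constantCoeff (β.map a) = 0 := by
      rw [← PowerSeries.coeff_zero_eq_constantCoeff_apply, PowerSeries.coeff_map,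
        PowerSeries.coeff_zero_eq_constantCoeff_apply, hβ, map_zero]
    rw [h3, hθ₀, theta0_map H _ hβ, hℓ, logS_subst_theta0 _ _ hβ', Nat.cast_pow, e1]
    congr 2
    rw [hρ]
    ring
  set ζ : PowerSeries O := (p : PowerSeries O) ^ c * (ω'.subst β * PowerSeries.derivative O β) +
    PowerSeries.derivative O ρ with hζ
  have hsβ : PowerSeries.HasSubst β := PowerSeries.HasSubst.of_constantCoeff_zero' hβ
  have hder : PowerSeries.derivative K lam = (ω' + (p : PowerSeries O) ^ (i + 1) * ζ).map a := by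
    have h4 : PowerSeries.derivative K lg =
        PowerSeries.map a (ω'.subst β * PowerSeries.derivative O β) := by
      rw [hlg, PowerSeries.derivative_subst (hasSubst_map hβ), h2, derivative_map, map_mul]
      congr 1
      exact (PowerSeries.map_subst hsβ ω').symm
    have h5 : PowerSeries.derivative O ((p : PowerSeries O) ^ (i + 1) * ρ) =
        (p : PowerSeries O) ^ (i + 1) * PowerSeries.derivative O ρ := by
      have : (p : PowerSeries O) ^ (i + 1) * ρ = ((p : O) ^ (i + 1)) • ρ := by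
        rw [PowerSeries.smul_eq_C_mul, map_pow, map_natCast]
      rw [this, Derivation.map_smul, PowerSeries.smul_eq_C_mul, map_pow, map_natCast]
    rw [hlam1, map_add, map_add, Derivation.map_smul, h2, h4, derivative_map, h5, hζ,
      PowerSeries.smul_eq_C_mul]
    simp only [map_add, map_mul, map_pow, map_natCast]
    ring
  obtain ⟨v', hv'⟩ := taylor_estimate hp hunit hder (z := H.toPowerSeries) (w := Θ)
    H.zero_constantCoeff hΘ0 hj
  have hcob : cob (H'.map a) lam = 0 := cob_logS_subst_hom (fgHom_map hθ a)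
  have hsH : PowerSeries.HasSubst H.toPowerSeries :=
    PowerSeries.HasSubst.of_constantCoeff_zero H.zero_constantCoeff
  have hcob2 : cob (H.map a) lam + ((p : MvPowerSeries (Fin 2) O) ^ (i + 1) *
      ((ω' + (p : PowerSeries O) ^ (i + 1) * ζ).subst H.toPowerSeries * Θ) +
        (p : MvPowerSeries (Fin 2) O) ^ (2 * (i + 1) - 1) * v').map a = 0 := by
    rw [← hcob, cob_apply, cob_apply, FormalGroup.map_toPowerSeries,
      FormalGroup.map_toPowerSeries, hΘ, hv']
    ring
  have hcob3 : cob (H.map a) lam = (p : K) ^ (i + 1 + c) • cob (H.map a) lg +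
      ((p : MvPowerSeries (Fin 2) O) ^ (i + 1) * cob H ρ).map a := by
    have h6 : (p : PowerSeries O) ^ (i + 1) * ρ = ((p : O) ^ (i + 1)) • ρ := by
      rw [PowerSeries.smul_eq_C_mul, map_pow, map_natCast]
    rw [hlam1, map_add, map_add, hℓ, cob_logS, zero_add, map_smul, ← cob_map, h6, map_smul,
      smul_eq_C_mul (cob H ρ), map_pow, map_natCast]
  have hsub : (ω' + (p : PowerSeries O) ^ (i + 1) * ζ).subst H.toPowerSeries =
      ω'.subst H.toPowerSeries +
        (p : MvPowerSeries (Fin 2) O) ^ (i + 1) * ζ.subst H.toPowerSeries := by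
    rw [← PowerSeries.coe_substAlgHom hsH]
    simp only [map_add, map_mul, map_pow, map_natCast]
  refine ⟨ρ, (p : MvPowerSeries (Fin 2) O) * (ζ.subst H.toPowerSeries * Θ) + v', ?_⟩
  have hp0 : ((p : K) ^ (i + 1)) ≠ 0 := pow_ne_zero _ (Nat.cast_ne_zero.2 hp.ne_zero)
  refine (smul_eq_zero_iff_right hp0).1 ?_
  rw [← hcob2, hcob3, hsub, e1, e2, smul_add, smul_smul, ← pow_add, smul_eq_C_mul _ (_ ^ (i + 1))]
  simp only [map_add, map_mul, map_pow, map_natCast]
  ring

end step

section limit

variable {O : Type} [CommRing O]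

theorem eq_zero_of_forall_dvd (π : O) [IsAdicComplete (Ideal.span {π}) O] {x : O}
    (hx : ∀ s : ℕ, π ^ s ∣ x) : x = 0 := by
  refine IsHausdorff.haus' (I := Ideal.span {π}) x fun n => ?_
  rw [SModEq.zero, smul_eq_mul, Ideal.mul_top, Ideal.span_singleton_pow]
  exact Ideal.mem_span_singleton.2 (hx n)

theorem limit (π : O) [IsAdicComplete (Ideal.span {π}) O] [Finite (O ⧸ Ideal.span {π})]
    (H : FormalGroup O) {d : ℕ} (A G : MvPowerSeries (Fin 2) O)
    (D : Fin d → MvPowerSeries (Fin 2) O) (P : MvPolynomial (Fin d) O)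
    (h : ∀ s : ℕ, ∃ (τ : Fin d → O) (ρ : PowerSeries O),
      (∀ e, π ^ s ∣ coeff e (cob H ρ + A * ∑ i, τ i • D i - G)) ∧
        π ^ s ∣ MvPolynomial.eval τ P) :
    ∃ (τ : Fin d → O) (ρ : PowerSeries O),
      cob H ρ + A * ∑ i, τ i • D i = G ∧ MvPolynomial.eval τ P = 0 := by
  choose τ ρ h1 h2 using h
  obtain ⟨L, hL1, hL2⟩ := exists_lim π
  have hL : ∀ x : ℕ → O, (∀ s, π ^ s ∣ x s) → L x = 0 := by
    intro x hx
    refine eq_zero_of_forall_dvd π fun s => hL2 x s ?_
    filter_upwards [eventually_ge_atTop s] with m hm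
    exact (pow_dvd_pow π hm).trans (hx m)
  let cst : O →+* (ℕ → O) := Pi.constRingHom ℕ O
  let ρv : PowerSeries (ℕ → O) := PowerSeries.mk fun n m => PowerSeries.coeff n (ρ m)
  let τv : Fin d → ℕ → O := fun i m => τ m i
  let Av : MvPowerSeries (Fin 2) (ℕ → O) :=
    cob (H.map cst) ρv + A.map cst * ∑ i, τv i • (D i).map cst - G.map cst
  have hAv : ∀ φ : (ℕ → O) →+* O, φ.comp cst = RingHom.id O →
      Av.map φ = cob H (ρv.map φ) + A * ∑ i, φ (τv i) • D i - G := by
    intro φ hφ
    have hm : ∀ f : MvPowerSeries (Fin 2) O, (f.map cst).map φ = f := by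
      intro f
      ext e
      rw [coeff_map, coeff_map]
      exact RingHom.congr_fun hφ _
    simp only [Av, map_sub, map_add, map_mul, map_sum, hm, smul_eq_C_mul, map_C]
    rw [cob_map, fg_map_map, hφ, fg_map_id]
  have hPv : ∀ φ : (ℕ → O) →+* O, φ.comp cst = RingHom.id O →
      φ (MvPolynomial.eval₂ cst τv P) = MvPolynomial.eval (fun i => φ (τv i)) P := by
    intro φ hφ
    rw [MvPolynomial.eval₂_comp_left, hφ]
    rfl
  have hLc : L.comp cst = RingHom.id O := RingHom.ext fun x => hL1 x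
  have hev : ∀ m, (Pi.evalRingHom (fun _ : ℕ => O) m).comp cst = RingHom.id O :=
    fun m => RingHom.ext fun x => rfl
  refine ⟨fun i => L (τv i), ρv.map L, ?_, ?_⟩
  · rw [← sub_eq_zero, ← hAv L hLc]
    ext e
    rw [coeff_map, map_zero]
    refine hL _ fun s => ?_
    have h3 : coeff e Av s = coeff e (Av.map (Pi.evalRingHom (fun _ : ℕ => O) s)) := rfl
    have h4 : ρv.map (Pi.evalRingHom (fun _ : ℕ => O) s) = ρ s := by
      ext n
      simp [ρv]
    rw [h3, hAv _ (hev s), h4]
    exact h1 s e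
  · rw [← hPv L hLc]
    refine hL _ fun s => ?_
    have h3 := hPv _ (hev s)
    rw [Pi.evalRingHom_apply] at h3
    rw [h3]
    exact h2 s

end limit

end C0B

variable {p : ℕ} [Fact p.Prime] {k : Type} [Field k] [CharP k p] {O : Type} [CommRing O]
  [IsLocalRing O] {d : ℕ} (S : C0 p k O d)

namespace C0

open C0B

include S in
theorem c0b_unit (m : ℕ) (hm : ¬ p ∣ m) : IsUnit (m : O) := by
  by_contra h
  have h1 : (m : O) ∈ RingHom.ker S.res := by
    rw [S.ker_res]
    exact h
  rw [RingHom.mem_ker, map_natCast, CharP.cast_eq_zero_iff k p] at h1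
  exact hm h1

/-- expansion of the moved law -/
theorem c0b_law {j : ℕ} (hj : 1 ≤ j) (τ : Fin d → O) :
    ∃ Ξ : MvPowerSeries (Fin 2) O,
      (S.HT.map (ev (RingHom.id O) fun i => (p : O) ^ j * τ i)).toPowerSeries =
        S.H.toPowerSeries + (p : MvPowerSeries (Fin 2) O) ^ j *
          (∑ i, τ i • S.dH i + (p : MvPowerSeries (Fin 2) O) ^ j * Ξ) := by
  have := S.compl
  have := isEv_of_complete (Ideal.span {(p : O)})
  have hδ : ∀ i, (p : O) ^ j * τ i ∈ Ideal.span {(p : O)} := fun i =>
    Ideal.mem_span_singleton.2 ((dvd_pow_self _ (by omega)).mul_right _)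
  obtain ⟨Ξ, hΞ⟩ := exists_eq_C_mul (((p : O) ^ j) ^ 2)
    (f := (S.HT.map (ev (RingHom.id O) fun i => (p : O) ^ j * τ i)).toPowerSeries -
      (S.H.toPowerSeries + C ((p : O) ^ j) * ∑ i, τ i • S.dH i)) (fun e => by
    have h1 := span_range_pow_le (π := (p : O) ^ j) (δ := fun i => (p : O) ^ j * τ i)
      (fun i => dvd_mul_right _ _) 2
      (ev_sub_trunc_mem (Ideal.span {(p : O)}) (RingHom.id O) hδ (coeff e S.HT.toPowerSeries) 2)
    rw [Ideal.mem_span_singleton, eval_truncTotal_two] at h1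
    convert h1 using 1
    have h2 : (p : O) ^ j * coeff e (∑ i, τ i • S.dH i) = ∑ i, (p : O) ^ j * τ i *
        coeff (Finsupp.single i 1) (coeff e S.HT.toPowerSeries) := by
      rw [map_sum, Finset.mul_sum]
      refine Finset.sum_congr rfl fun i _ => ?_
      rw [mul_assoc]
      rfl
    rw [map_sub, map_add, coeff_C_mul, h2]
    rfl)
  refine ⟨Ξ, ?_⟩
  rw [sub_eq_iff_eq_add] at hΞ
  rw [hΞ]
  simp only [map_pow, map_natCast]
  ring

variable [IsDomain O] [IsNoetherianRing O] [CharZero O]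

omit [IsNoetherianRing O] in
/-- the lowest form at the normalised displacement -/
theorem c0b_poly {j : ℕ} (hj : 1 ≤ j) (τ : Fin d → O) {e : ℕ}
    (he : ∀ α : Fin d →₀ ℕ, α.degree < e → coeff α S.F = 0)
    (h : ev (RingHom.id O) (fun i => (p : O) ^ j * τ i) S.F = 0) :
    (p : O) ^ j ∣ MvPolynomial.eval τ (truncTotal (e + 1) S.F) := by
  have := S.compl
  have := isEv_of_complete (Ideal.span {(p : O)})
  have hp : p.Prime := Fact.out
  have hδ : ∀ i, (p : O) ^ j * τ i ∈ Ideal.span {(p : O)} := fun i =>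
    Ideal.mem_span_singleton.2 ((dvd_pow_self _ (by omega)).mul_right _)
  have h1 := span_range_pow_le (π := (p : O) ^ j) (δ := fun i => (p : O) ^ j * τ i)
    (fun i => dvd_mul_right _ _) (e + 1)
    (ev_sub_trunc_mem (Ideal.span {(p : O)}) (RingHom.id O) hδ S.F (e + 1))
  rw [Ideal.mem_span_singleton, h, zero_sub, dvd_neg, MvPolynomial.eval₂_id,
    eval_mul_of_homog _ e, pow_succ] at h1
  · exact (mul_dvd_mul_iff_left (pow_ne_zero _ (pow_ne_zero _
      (Nat.cast_ne_zero.2 hp.ne_zero)))).1 h1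
  · intro α hα
    rw [coeff_truncTotal_eq_ite]
    split_ifs with h2
    · exact he α (by omega)
    · rfl

variable (K : Type) [Field K] [CharZero K] [Algebra O K] [IsFractionRing O K]

omit [IsNoetherianRing O] in
theorem c0b_level {ω : PowerSeries O} (hω : ω * dY S.H = 1) {e : ℕ}
    (he : ∀ α : Fin d →₀ ℕ, α.degree < e → coeff α S.F = 0) {β : PowerSeries O}
    (hβ : S.Lift β) (s : ℕ) :
    ∃ (τ : Fin d → O) (ρ : PowerSeries O) (W : MvPowerSeries (Fin 2) O),
      ((p : K) ^ S.c) • cob (S.H.map (algebraMap O K)) (S.lg K β) +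
        (cob S.H ρ + ω.subst S.H.toPowerSeries * ∑ i, τ i • S.dH i +
          C ((p : O) ^ s) * W).map (algebraMap O K) = 0 ∧
      (p : O) ^ s ∣ MvPolynomial.eval τ (truncTotal (e + 1) S.F) := by
  have hp : p.Prime := Fact.out
  obtain ⟨m₀, hm₀⟩ := S.act
  obtain ⟨δ, θ, hδ, hθ, hη, hF⟩ := hm₀ (s + m₀ + 1 + S.c) (by omega) β hβ.1 hβ.2
  rw [Nat.add_sub_cancel] at hδ hη
  choose τ hτ using hδ
  obtain rfl : δ = fun i => (p : O) ^ (s + m₀ + 1) * τ i := funext hτ
  obtain ⟨Ξ, hΞ⟩ := S.c0b_law (j := s + m₀ + 1) (by omega) τ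
  choose η hη using hη
  have hη' : θ = theta0 S.H (p ^ (s + m₀ + 1 + S.c)) β +
      (p : PowerSeries O) ^ (s + m₀ + 1) * PowerSeries.mk η := by
    ext n
    have : (p : PowerSeries O) ^ (s + m₀ + 1) = PowerSeries.C ((p : O) ^ (s + m₀ + 1)) := by
      rw [map_pow, map_natCast]
    rw [map_add, this, PowerSeries.coeff_C_mul, PowerSeries.coeff_mk, ← hη n]
    ring
  obtain ⟨ρ, W, hW⟩ := step (K := K) hp S.c0b_unit S.H _ hω hβ.1 (by omega) hθ hη' hΞ
  refine ⟨τ, ρ, (p : MvPowerSeries (Fin 2) O) ^ m₀ *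
    ((p : MvPowerSeries (Fin 2) O) * (ω.subst S.H.toPowerSeries * Ξ) + W), ?_, ?_⟩
  · rw [← hW, lg, Nat.add_sub_cancel]
    congr 2
    simp only [map_pow, map_natCast]
    ring
  · exact (pow_dvd_pow _ (by omega)).trans (S.c0b_poly (j := s + m₀ + 1) (by omega) τ he hF)

set_option linter.unusedSectionVars false in
/-- **Tangent vector.** -/
theorem exists_tangent' {ω : PowerSeries O} (hω : ω * dY S.H = 1) {e : ℕ}
    (he : ∀ α : Fin d →₀ ℕ, α.degree < e → coeff α S.F = 0) {β : PowerSeries O}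
    (hβ : S.Lift β) :
    ∃ (τ : Fin d → O) (ρ : PowerSeries O),
      ((p : K) ^ S.c) • cob (S.H.map (algebraMap O K)) (S.lg K β) +
        (cob S.H ρ + ω.subst S.H.toPowerSeries * ∑ i, τ i • S.dH i).map (algebraMap O K) = 0 ∧
      MvPolynomial.eval τ (truncTotal (e + 1) S.F) = 0 := by
  have := S.compl
  have := S.fin
  have hinj : Function.Injective
      (MvPowerSeries.map (σ := Fin 2) (algebraMap O K)) := by
    intro f g hfg
    ext n
    apply IsFractionRing.injective O K
    rw [← coeff_map, ← coeff_map, hfg]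
  obtain ⟨τ₀, ρ₀, W₀, h₀, -⟩ := S.c0b_level K hω he hβ 0
  obtain ⟨τ, ρ, h1, h2⟩ := limit (p : O) S.H (ω.subst S.H.toPowerSeries)
    (cob S.H ρ₀ + ω.subst S.H.toPowerSeries * ∑ i, τ₀ i • S.dH i + C ((p : O) ^ 0) * W₀)
    S.dH (truncTotal (e + 1) S.F) (fun s => by
      obtain ⟨τ, ρ, W, h1, h2⟩ := S.c0b_level K hω he hβ s
      refine ⟨τ, ρ, fun n => ?_, h2⟩
      rw [← hinj (add_left_cancel (h1.trans h₀.symm)), sub_add_cancel_left, map_neg, coeff_C_mul]
      exact (dvd_mul_right _ _).neg_right)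
  exact ⟨τ, ρ, by rw [h1]; exact h₀, h2⟩

omit [IsDomain O] [CharZero O] [IsNoetherianRing O] in
theorem c0b_lift_zero : S.Lift 0 :=
  ⟨map_zero _, by rw [map_zero]; exact fgHom_zero _ _⟩

omit [IsDomain O] [CharZero O] [IsNoetherianRing O] [IsFractionRing O K] in
theorem c0b_lg_zero : S.lg K 0 = 0 := by
  rw [lg, map_zero]
  exact PowerSeries.subst_zero_of_constantCoeff_zero (constantCoeff_logS _)

theorem c0b_map_pair {R R' : Type} [CommRing R] [CommRing R'] (F : FormalGroup R) (ρ : R →+* R')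
    {β β' : PowerSeries R} (hβ : PowerSeries.constantCoeff β = 0)
    (hβ' : PowerSeries.constantCoeff β' = 0) :
    PowerSeries.map ρ (F.toPowerSeries.subst ![β, β']) =
      (F.map ρ).toPowerSeries.subst ![β.map ρ, β'.map ρ] := by
  have hs : HasSubst (![β, β'] : Fin 2 → MvPowerSeries Unit R) :=
    hasSubst_of_constantCoeff_zero fun s => by
      fin_cases s
      · exact hβ
      · exact hβ'
  have h := MvPowerSeries.map_subst hs (h := ρ) F.toPowerSeries
  refine h.trans ?_
  rw [FormalGroup.map_toPowerSeries]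
  congr 1
  funext s
  fin_cases s <;> rfl

omit [IsDomain O] [CharZero O] [IsNoetherianRing O] in
theorem c0b_lift_add {β β' : PowerSeries O} (hβ : S.Lift β) (hβ' : S.Lift β') :
    S.Lift (S.H.toPowerSeries.subst ![β, β']) := by
  constructor
  · have hs : HasSubst (![β, β'] : Fin 2 → MvPowerSeries Unit O) :=
      hasSubst_of_constantCoeff_zero fun s => by
        fin_cases s
        · exact hβ.1
        · exact hβ'.1
    refine MvPowerSeries.constantCoeff_subst_eq_zero hs (fun s => ?_) S.H.zero_constantCoeff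
    fin_cases s
    · exact hβ.1
    · exact hβ'.1
  · rw [c0b_map_pair _ _ hβ.1 hβ'.1, S.red]
    exact fgHom_add hβ.2 hβ'.2

omit [IsDomain O] [CharZero O] [IsNoetherianRing O] [IsFractionRing O K] in
theorem c0b_lg_add {β β' : PowerSeries O} (hβ : PowerSeries.constantCoeff β = 0)
    (hβ' : PowerSeries.constantCoeff β' = 0) :
    S.lg K (S.H.toPowerSeries.subst ![β, β']) = S.lg K β + S.lg K β' := by
  have h0 : ∀ γ : PowerSeries O, PowerSeries.constantCoeff γ = 0 →
      PowerSeries.constantCoeff (γ.map (algebraMap O K)) = 0 := fun γ hγ => by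
    rw [← PowerSeries.coeff_zero_eq_constantCoeff_apply, PowerSeries.coeff_map,
      PowerSeries.coeff_zero_eq_constantCoeff_apply, hγ, map_zero]
  rw [lg, c0b_map_pair _ _ hβ hβ']
  exact logS_subst_add (τ := Unit) _ (h0 β hβ) (h0 β' hβ')

theorem c0b_core (K : Type) [Field K] [CharZero K] [Algebra O K] [IsFractionRing O K] :
    S.F = 0 := by
  classical
  by_contra hF
  have hp : p.Prime := Fact.out
  have hex : ∃ n, ∃ α : Fin d →₀ ℕ, α.degree = n ∧ coeff α S.F ≠ 0 := by
    by_contra h
    push Not at h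
    exact hF (by ext α; exact h _ α rfl)
  have he : ∀ α : Fin d →₀ ℕ, α.degree < Nat.find hex → coeff α S.F = 0 := fun α hα => by
    by_contra h
    exact Nat.find_min hex hα ⟨α, rfl, h⟩
  obtain ⟨α₀, hα₀, hne⟩ := Nat.find_spec hex
  obtain ⟨ω, hω, -⟩ := exists_derivative_logS (K := K) S.H
  let a := algebraMap O K
  let HK := S.H.map a
  let B : Submodule K (MvPowerSeries (Fin 2) K) := (Bd O K).map (cob HK)
  let Φ : (PowerSeries K ⧸ Bd O K) →ₗ[K] (MvPowerSeries (Fin 2) K ⧸ B) :=
    (Bd O K).mapQ B (cob HK) (Submodule.le_comap_map _ _)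
  let κ₀ : (Fin d → K) →ₗ[K] MvPowerSeries (Fin 2) K :=
    Fintype.linearCombination K fun i => (ω.subst S.H.toPowerSeries * S.dH i).map a
  let κ := B.mkQ ∘ₗ κ₀
  let P := truncTotal (Nat.find hex + 1) S.F
  let T : AddSubmonoid (Fin d → K) :=
    { carrier := {t | ∃ β, S.Lift β ∧
        (p : K) ^ S.c • Φ (Submodule.Quotient.mk (S.lg K β)) + κ t = 0}
      zero_mem' := ⟨0, S.c0b_lift_zero, by rw [c0b_lg_zero]; simp⟩
      add_mem' := by
        rintro t t' ⟨β, hβ, h⟩ ⟨β', hβ', h'⟩
        refine ⟨_, S.c0b_lift_add hβ hβ', ?_⟩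
        rw [S.c0b_lg_add K hβ.1 hβ'.1, Submodule.Quotient.mk_add, map_add, map_add, smul_add,
          add_add_add_comm, h, h', add_zero] }
  have htan : ∀ β, S.Lift β → ∃ τ : Fin d → O,
      (p : K) ^ S.c • Φ (Submodule.Quotient.mk (S.lg K β)) + κ (fun i => a (τ i)) = 0 ∧
        MvPolynomial.eval τ P = 0 := by
    intro β hβ
    obtain ⟨τ, ρ, h1, h2⟩ := S.exists_tangent' K hω he hβ
    refine ⟨τ, ?_, h2⟩
    have h3 : κ₀ (fun i => a (τ i)) =
        (ω.subst S.H.toPowerSeries * ∑ i, τ i • S.dH i).map a := by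
      simp only [κ₀, Fintype.linearCombination_apply, Finset.mul_sum, map_sum, smul_eq_C_mul,
        map_mul, map_C]
      refine Finset.sum_congr rfl fun i _ => ?_
      ring
    have h4 : B.mkQ ((cob S.H ρ).map a) = 0 := by
      rw [Submodule.mkQ_apply, Submodule.Quotient.mk_eq_zero, cob_map]
      exact Submodule.mem_map_of_mem (map_mem_Bd ρ)
    have h5 := congrArg B.mkQ h1
    rw [map_add (MvPowerSeries.map _), map_add, map_add, h4, zero_add, map_smul, map_zero] at h5
    rw [← h5, LinearMap.comp_apply, h3]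
    rfl
  have hker : LinearMap.ker Φ ≤ K ∙ (Submodule.Quotient.mk (logS HK)) := by
    intro x hx
    obtain ⟨f, rfl⟩ := Submodule.Quotient.mk_surjective _ x
    rw [LinearMap.mem_ker, Submodule.mapQ_apply, Submodule.Quotient.mk_eq_zero] at hx
    obtain ⟨b, hb, hbf⟩ := hx
    have h1 : cob HK (f - b) = 0 := by rw [map_sub, hbf, sub_self]
    have h2 := eq_smul_logS_of_cob h1
    rw [Submodule.mem_span_singleton]
    refine ⟨PowerSeries.coeff 1 (f - b), ?_⟩
    rw [← Submodule.Quotient.mk_smul, ← h2, Submodule.Quotient.eq]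
    simpa using hb
  obtain ⟨v, hv, hvs⟩ := S.exists_indep K
  have hp0 : ((p : K) ^ S.c) ≠ 0 := pow_ne_zero _ (Nat.cast_ne_zero.2 hp.ne_zero)
  obtain ⟨hT, hκ⟩ := dim_count Φ _ hker v hv κ (Submodule.span K (T : Set (Fin d → K)))
    (fun i => by
      refine (Submodule.span_le (p := ((Submodule.span K (T : Set (Fin d → K))).map κ).comap Φ)).2
        ?_ (hvs i)
      rintro _ ⟨β, hβ, rfl⟩
      obtain ⟨τ, h1, -⟩ := htan β hβ
      have h2 : Φ (Submodule.Quotient.mk (S.lg K β)) =
          κ (-(((p : K) ^ S.c)⁻¹ • fun i => a (τ i))) := by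
        rw [map_neg, map_smul, eq_neg_of_add_eq_zero_right h1, smul_neg, neg_neg, smul_smul,
          inv_mul_cancel₀ hp0, one_smul]
      rw [SetLike.mem_coe, Submodule.mem_comap, h2]
      exact Submodule.mem_map_of_mem (Submodule.neg_mem _ (Submodule.smul_mem _ _
        (Submodule.subset_span ⟨β, hβ, h1⟩))))
  have hP := eq_zero_of_vanish T hT (MvPolynomial.map a P) (by
    rintro t ⟨β, hβ, ht⟩
    obtain ⟨τ, h1, h2⟩ := htan β hβ
    obtain rfl : t = fun i => a (τ i) := hκ (add_left_cancel (ht.trans h1.symm))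
    rw [MvPolynomial.eval_map, ← map_zero a, ← h2, ← MvPolynomial.eval₂_id,
      MvPolynomial.eval₂_comp_left]
    rfl)
  have h6 := congrArg (MvPolynomial.coeff α₀) hP
  rw [MvPolynomial.coeff_map, MvPolynomial.coeff_zero, coeff_truncTotal _ (by omega)] at h6
  exact hne (IsFractionRing.injective O K (h6.trans (map_zero _).symm))

omit K in
/-- **Conclusion.** -/
theorem core' : S.F = 0 := S.c0b_core (FractionRing O)

end C0

end Crest.Agent.R227
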