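import Mathlib

/-!
# R227 / CPAux : auxiliary lemmas for `CP` (Mathlib only)

A one-dimensional quotient `B = A/Q` with `x ≠ 0` is dominated by a valuation ring `V` of an
algebraic closure `Ω` of its fraction field; `Ω = V[1/x]`, so the coarsening
`W = {z | ∀ n, z^n x ∈ V}` has rank one and defines a real absolute value on `Ω`.
-/

set_option autoImplicit false
set_option linter.style.haveILetI false

namespace Crest.Agent.R227.CPAux

open IsLocalRing Polynomial

/-- If a nonzero `x` lies in every nonzero prime of a Noetherian local domain, then the only nonzero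
prime is the maximal ideal. -/
theorem eq_max_of_forall_mem {B : Type} [CommRing B] [IsDomain B] [IsLocalRing B]
    [IsNoetherianRing B] {x : B} (hx : x ≠ 0)
    (hall : ∀ q : Ideal B, q.IsPrime → q ≠ ⊥ → x ∈ q) (q : Ideal B) (hq : q.IsPrime)
    (hq0 : q ≠ ⊥) : q = maximalIdeal B := by
  by_contra hne
  have hxq : Ideal.span {x} ≤ q := (Ideal.span_singleton_le_iff_mem _).2 (hall q hq hq0)
  have hqm : q ≤ maximalIdeal B := le_maximalIdeal hq.ne_top
  have hfin : (Ideal.span {x}).minimalPrimes.Finite :=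
    Ideal.finite_minimalPrimes_of_isNoetherianRing B _
  have hnot : ¬ ((maximalIdeal B : Set B) ⊆ ⋃ p ∈ (Ideal.span {x}).minimalPrimes, (id p : Ideal B)) := by
    intro hsub
    obtain ⟨p, hp, hle⟩ := (Ideal.subset_union_prime_finite hfin (f := id) ⊤ ⊤
      (fun p hp _ _ => hp.isPrime)).1 hsub
    have h1 : p ≤ q := hp.2 ⟨hq, hxq⟩ (hqm.trans hle)
    exact hne (le_antisymm hqm (le_trans hle h1))
  obtain ⟨y, hy, hy'⟩ := Set.not_subset.1 hnot
  simp only [Set.mem_iUnion, id, SetLike.mem_coe, not_exists] at hy'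
  obtain ⟨p₀, hp₀, -⟩ := Ideal.exists_minimalPrimes_le hxq
  have hy0 : y ≠ 0 := fun h => hy' p₀ hp₀ (h ▸ p₀.zero_mem)
  obtain ⟨p', hp', -⟩ := Ideal.exists_minimalPrimes_le
    ((Ideal.span_singleton_le_iff_mem _).2 hy : Ideal.span {y} ≤ maximalIdeal B)
  have hp'p : p'.IsPrime := hp'.isPrime
  have hyp' : y ∈ p' := (Ideal.span_singleton_le_iff_mem _).1 hp'.le
  have hxp' : x ∈ p' := hall p' hp'p fun h => hy0 (by simpa [h] using hyp')
  obtain ⟨p'', hp'', hle⟩ := Ideal.exists_minimalPrimes_le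
    ((Ideal.span_singleton_le_iff_mem _).2 hxp' : Ideal.span {x} ≤ p')
  have hp''p : p''.IsPrime := hp''.isPrime
  have hlt : p'' < p' := lt_of_le_of_ne hle fun h => hy' p'' hp'' (h ▸ hyp')
  have hh := Ideal.height_le_one_of_isPrincipal_of_mem_minimalPrimes _ p' hp'
  have h1 : p''.height < (1 : ℕ) := (Ideal.height_le_iff (n := 1)).1 (by simpa using hh) p'' hp''p hlt
  have h2 : p''.height ≤ (0 : ℕ) := by
    have : p''.height < 1 := by simpa using h1
    simpa using Order.lt_one_iff.1 this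
  have hxp'' : x ∈ p'' := (Ideal.span_singleton_le_iff_mem _).1 hp''.le
  have h3 := (Ideal.height_le_iff (n := 0)).1 h2 ⊥ Ideal.isPrime_bot
    (bot_lt_iff_ne_bot.2 fun h => hx (by simpa [h] using hxp''))
  simp at h3

theorem exists_prime {A : Type} [CommRing A] [IsLocalRing A] [IsNoetherianRing A]
    (P : Ideal A) [hP : P.IsPrime] {x : A} (hxP : x ∉ P) :
    ∃ Q : Ideal A, Q.IsPrime ∧ P ≤ Q ∧ x ∉ Q ∧
      ∀ q : Ideal A, q.IsPrime → Q < q → q = maximalIdeal A := by
  obtain ⟨Q, ⟨hQ, hPQ, hxQ⟩, hmax⟩ := set_has_maximal_iff_noetherian.2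
    (inferInstance : IsNoetherian A A) {Q : Ideal A | Q.IsPrime ∧ P ≤ Q ∧ x ∉ Q} ⟨P, hP, le_rfl, hxP⟩
  have hall : ∀ q : Ideal A, q.IsPrime → Q < q → x ∈ q := fun q hq hlt => by
    by_contra hxq
    exact hmax q ⟨hq, hPQ.trans hlt.le, hxq⟩ hlt
  refine ⟨Q, hQ, hPQ, hxQ, fun q hq hlt => ?_⟩
  haveI : IsLocalRing (A ⧸ Q) :=
    IsLocalRing.of_surjective' (Ideal.Quotient.mk Q) Ideal.Quotient.mk_surjective
  have hker : RingHom.ker (Ideal.Quotient.mk Q) ≤ q := by rw [Ideal.mk_ker]; exact hlt.le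
  have hcm : ∀ r : Ideal A, Q ≤ r → (r.map (Ideal.Quotient.mk Q)).comap (Ideal.Quotient.mk Q) = r :=
    fun r hr => by
      rw [Ideal.comap_map_of_surjective _ Ideal.Quotient.mk_surjective,
        ← RingHom.ker_eq_comap_bot, Ideal.mk_ker, sup_eq_left.2 hr]
  have h1 := eq_max_of_forall_mem (B := A ⧸ Q) (x := Ideal.Quotient.mk Q x)
    (by rwa [Ne, Ideal.Quotient.eq_zero_iff_mem])
    (fun r hr hr0 => by
      have hr' : (r.comap (Ideal.Quotient.mk Q)).IsPrime := Ideal.comap_isPrime _ r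
      refine hall _ hr' (lt_of_le_of_ne ?_ fun h => hr0 ?_)
      · intro a ha
        rw [Ideal.mem_comap, Ideal.Quotient.eq_zero_iff_mem.2 ha]
        exact r.zero_mem
      · rw [eq_bot_iff]
        intro b hb
        obtain ⟨a, rfl⟩ := Ideal.Quotient.mk_surjective b
        have : a ∈ Q := h ▸ hb
        exact Ideal.Quotient.eq_zero_iff_mem.2 this)
    (q.map (Ideal.Quotient.mk Q))
    (Ideal.map_isPrime_of_surjective Ideal.Quotient.mk_surjective hker)
    (fun h => by
      have := hcm q hlt.le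
      rw [h, ← RingHom.ker_eq_comap_bot, Ideal.mk_ker] at this
      exact hlt.ne this)
  have h2 : (q.map (Ideal.Quotient.mk Q)).IsMaximal := h1 ▸ maximalIdeal.isMaximal _
  have h3 := Ideal.comap_isMaximal_of_surjective (Ideal.Quotient.mk Q)
    Ideal.Quotient.mk_surjective (K := q.map (Ideal.Quotient.mk Q))
  rw [hcm q hlt.le] at h3
  exact eq_maximalIdeal h3

theorem pow_le_of_prime {A : Type} [CommRing A] [IsLocalRing A] [IsNoetherianRing A]
    {Q : Ideal A} (hQ : ∀ q : Ideal A, q.IsPrime → Q < q → q = maximalIdeal A) {b : A}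
    (hb : b ∉ Q) : ∃ c : ℕ, maximalIdeal A ^ c ≤ Q ⊔ Ideal.span {b} := by
  refine Ideal.exists_pow_le_of_le_radical_of_fg ?_ (IsNoetherian.noetherian _)
  rw [Ideal.radical_eq_sInf]
  refine le_sInf fun q ⟨hle, hq⟩ => (hQ q hq (lt_of_le_of_ne (le_sup_left.trans hle) ?_)).ge
  rintro rfl
  exact hb (hle (Ideal.mem_sup_right (Ideal.mem_span_singleton_self b)))

theorem isAlgClosed_of_denseRange {K L : Type} [Field K] [NontriviallyNormedField L]
    [CompleteSpace L] [IsUltrametricDist L] [Algebra K L]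
    (hi : DenseRange (algebraMap K L)) [IsAlgClosed K] : IsAlgClosed L := by
  apply IsAlgClosed.of_exists_root
  intro f fmon firr
  have fnatdeg0 : f.natDegree ≠ 0 := (Irreducible.natDegree_pos firr).ne'
  let F := f.SplittingField
  let : NormedField F := spectralNorm.normedField L F
  let : NormedAlgebra L F := spectralNorm.normedAlgebra L F
  let a := rootOfSplits (SplittingField.splits f)
      (by simpa using degree_ne_of_natDegree_ne fnatdeg0)
  have fa0 : f.aeval a = 0 := by
    rw [← eval_map_algebraMap]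
    exact eval_rootOfSplits (Polynomial.SplittingField.splits f)
      (by simpa using degree_ne_of_natDegree_ne fnatdeg0)
  have hcl : IsClosed (Set.range (algebraMap L F)) :=
    (algebraMap_isometry L F).isClosedEmbedding.isClosed_range
  have hmem : a ∈ Set.range (algebraMap L F) := by
    rw [← hcl.closure_eq, Metric.mem_closure_iff]
    intro δ δpos
    have hε : (δ / (max ‖a‖ 1)) ^ f.natDegree / (f.natDegree + 1) > 0 := by positivity
    obtain ⟨g, gmon, gdeg, gcoeff⟩ :=
      exists_monic_and_natDegree_eq_and_norm_map_algebraMap_coeff_sub_lt hi fmon hε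
    let ⟨b, hb, hab⟩ := exists_aroots_norm_sub_lt_of_norm_coeff_sub_lt
        hε fa0 fmon (gmon.map _) (gdeg ▸ (g.natDegree_map _)) gcoeff
        (by simpa [Polynomial.map_map] using (IsAlgClosed.splits g).map ((algebraMap L F).comp _))
    have hab : ‖a - b‖ < δ := by
      rw [← Real.rpow_natCast, ← mul_comm_div, div_self, one_mul,
          ← Real.rpow_mul (div_pos δpos (by positivity)).le, mul_inv_cancel₀] at hab
      · simpa [mul_assoc, div_mul_cancel₀ _ (by positivity : (max ‖a‖ 1) > 0).ne'] using hab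
      · simp [fnatdeg0]
      · positivity
    refine ⟨b, ?_, by rwa [dist_eq_norm]⟩
    rw [Polynomial.aroots_def, Splits.roots_map ((IsAlgClosed.splits g).map _),
        Multiset.mem_map] at hb
    obtain ⟨bCp, _, hbCp⟩ := hb
    exact ⟨bCp, hbCp⟩
  obtain ⟨aCp, haCp⟩ := hmem
  use aCp
  apply_fun algebraMap L F
  · rwa [← Polynomial.aeval_algebraMap_apply_eq_algebraMap_eval, haCp, map_zero]
  · exact RingHom.injective _

/-- the coarsening of `V` at `x` -/
def coarse {Ω : Type} [Field Ω] (V : ValuationSubring Ω) (x : Ω) (hx : x ∈ V) :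
    ValuationSubring Ω where
  carrier := {z | ∀ n : ℕ, V.valuation z ^ n * V.valuation x ≤ 1}
  mul_mem' := fun {a b} ha hb n => by
    rw [map_mul]
    rcases le_total (V.valuation a) (V.valuation b) with h | h
    · refine le_trans ?_ (hb (2 * n))
      rw [pow_mul, sq]
      gcongr
    · refine le_trans ?_ (ha (2 * n))
      rw [pow_mul, sq]
      gcongr
  one_mem' := fun n => by
    rw [map_one, one_pow, one_mul]
    exact (V.valuation_le_one_iff x).2 hx
  add_mem' := fun {a b} ha hb n => by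
    rcases le_max_iff.1 (V.valuation.map_add a b) with h | h
    · refine le_trans ?_ (ha n)
      gcongr
    · refine le_trans ?_ (hb n)
      gcongr
  zero_mem' := fun n => by
    refine mul_le_one' (pow_le_one₀ zero_le (by simp)) ((V.valuation_le_one_iff x).2 hx)
  neg_mem' := fun {a} ha n => by
    rw [Valuation.map_neg]
    exact ha n
  mem_or_inv_mem' := fun z => by
    rcases V.mem_or_inv_mem z with h | h
    · exact Or.inl fun n => mul_le_one' (pow_le_one₀ zero_le ((V.valuation_le_one_iff _).2 h))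
        ((V.valuation_le_one_iff x).2 hx)
    · exact Or.inr fun n => mul_le_one' (pow_le_one₀ zero_le ((V.valuation_le_one_iff _).2 h))
        ((V.valuation_le_one_iff x).2 hx)

theorem exists_rankOne {Ω : Type} [Field Ω] (V : ValuationSubring Ω) {x : Ω} (hx0 : x ≠ 0)
    (hx : V.valuation x < 1) (hN : ∀ z : Ω, ∃ N : ℕ, x ^ N * z ∈ V) :
    ∃ W : ValuationSubring Ω, V ≤ W ∧ W.valuation x < 1 ∧ Nonempty W.valuation.RankOne := by
  have hxV : x ∈ V := (V.valuation_le_one_iff x).1 hx.le
  set W := coarse V x hxV with hW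
  have hmem : ∀ z, z ∈ W ↔ ∀ n : ℕ, V.valuation z ^ n * V.valuation x ≤ 1 := fun z => Iff.rfl
  have hVW : V ≤ W := fun z hz => (hmem z).2 fun n =>
    mul_le_one' (pow_le_one₀ zero_le ((V.valuation_le_one_iff _).2 hz)) hx.le
  have hvx : V.valuation x ≠ 0 := by simpa using hx0
  have hwx : W.valuation x ≠ 0 := by simpa using hx0
  have hinv : x⁻¹ ∉ W := fun h => by
    have := (hmem _).1 h 2
    rw [map_inv₀, sq, mul_assoc, inv_mul_cancel₀ hvx, mul_one,
      inv_le_one₀ (zero_lt_iff.2 hvx)] at this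
    exact absurd hx (not_lt.2 this)
  have hlt : W.valuation x < 1 := by
    by_contra hcon
    apply hinv
    rw [← W.valuation_le_one_iff, map_inv₀, inv_le_one₀ (zero_lt_iff.2 hwx)]
    exact not_lt.1 hcon
  refine ⟨W, hVW, hlt, ?_⟩
  haveI : W.valuation.IsNontrivial := ⟨x, hwx, hlt.ne⟩
  have harch : MulArchimedean W.ValueGroup := ⟨fun a y hy => by
    obtain ⟨a, rfl⟩ := W.valuation_surjective a
    obtain ⟨y, rfl⟩ := W.valuation_surjective y
    have hyW : y ∉ W := fun h => absurd ((W.valuation_le_one_iff y).2 h) (not_le.2 hy)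
    obtain ⟨n, hn⟩ := not_forall.1 (mt (hmem y).2 hyW)
    have h1 : y ^ n * x ∉ V := fun h => hn (by
      have := (V.valuation_le_one_iff _).2 h
      rwa [map_mul, map_pow] at this)
    have h2 : (y ^ n * x)⁻¹ ∈ W := hVW ((V.mem_or_inv_mem _).resolve_left h1)
    have h0 : W.valuation (y ^ n * x) ≠ 0 := by
      rw [Ne, Valuation.zero_iff]
      intro h
      exact h1 (h ▸ V.zero_mem)
    rw [← W.valuation_le_one_iff, map_inv₀, inv_le_one₀ (zero_lt_iff.2 h0), map_mul, map_pow] at h2
    obtain ⟨N, hN'⟩ := hN a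
    have h3 := (W.valuation_le_one_iff _).2 (hVW hN')
    rw [map_mul, map_pow] at h3
    refine ⟨n * N, ?_⟩
    have h4 : W.valuation x ^ N * W.valuation a ≤ W.valuation x ^ N * W.valuation y ^ (n * N) := by
      refine h3.trans ?_
      rw [pow_mul, ← mul_pow, mul_comm]
      exact one_le_pow₀ h2
    exact le_of_mul_le_mul_left h4 (pow_pos (zero_lt_iff.2 hwx) _)⟩
  rw [Valuation.nonempty_rankOne_iff_mulArchimedean]
  exact MulArchimedean.comap MonoidWithZeroHom.ValueGroup₀.embedding.toMonoidHom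
    MonoidWithZeroHom.ValueGroup₀.embedding_strictMono

theorem exists_completion (K : Type) [NontriviallyNormedField K] [IsUltrametricDist K]
    [IsAlgClosed K] :
    ∃ (C : Type) (_ : NontriviallyNormedField C) (_ : IsUltrametricDist C) (_ : CompleteSpace C)
      (_ : IsAlgClosed C) (j : K →+* C), ∀ z, ‖j z‖ = ‖z‖ := by
  let C := UniformSpace.Completion K
  letI : NontriviallyNormedField C :=
    { (inferInstance : NormedField C) with
      non_trivial := by
        obtain ⟨x, hx⟩ := NontriviallyNormedField.non_trivial (α := K)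
        exact ⟨(x : UniformSpace.Completion K), by
          rwa [UniformSpace.Completion.norm_coe]⟩ }
  haveI : IsUltrametricDist C := IsUltrametricDist.of_normedAlgebra K
  haveI : IsAlgClosed C :=
    isAlgClosed_of_denseRange (K := K) UniformSpace.Completion.denseRange_coe
  exact ⟨C, inferInstance, inferInstance, inferInstance, inferInstance, algebraMap K C,
    fun z => UniformSpace.Completion.norm_coe z⟩

theorem exists_normed {Ω Γ : Type} [Field Ω] [IsAlgClosed Ω] [LinearOrderedCommGroupWithZero Γ]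
    (w : Valuation Ω Γ) (hw : Nonempty w.RankOne) :
    ∃ (C : Type) (_ : NontriviallyNormedField C) (_ : IsUltrametricDist C) (_ : CompleteSpace C)
      (_ : IsAlgClosed C) (j : Ω →+* C),
      (∀ z, w z ≤ 1 → ‖j z‖ ≤ 1) ∧ ∀ z, w z < 1 → ‖j z‖ < 1 := by
  obtain ⟨hw⟩ := hw
  letI val : Valued Ω Γ := Valued.mk' w
  letI hv : (val.v).RankOne := hw
  letI : NontriviallyNormedField Ω := Valued.toNontriviallyNormedField Ω Γ
  haveI : IsUltrametricDist Ω := Valued.instIsUltrametricDist Ω Γ
  obtain ⟨C, i1, i2, i3, i4, j, hj⟩ := exists_completion Ω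
  refine ⟨C, i1, i2, i3, i4, j, fun z hz => ?_, fun z hz => ?_⟩
  · rw [hj]; exact Valued.toNormedField.norm_le_one_iff.2 hz
  · rw [hj]; exact Valued.toNormedField.norm_lt_one_iff.2 hz

/-- A point of a prime of a Noetherian local ring in the open unit disc, with `x ≠ 0`. -/
theorem exists_hom {A : Type} [CommRing A] [IsLocalRing A] [IsNoetherianRing A]
    (P : Ideal A) [P.IsPrime] {x : A} (hx : x ∈ maximalIdeal A) (hxP : x ∉ P) :
    ∃ (C : Type) (_ : NontriviallyNormedField C) (_ : IsUltrametricDist C) (_ : CompleteSpace C)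
      (_ : IsAlgClosed C) (u : A →+* C), (∀ a ∈ P, u a = 0) ∧ (∀ a, ‖u a‖ ≤ 1) ∧
      (∀ a ∈ maximalIdeal A, ‖u a‖ < 1) ∧ u x ≠ 0 := by
  obtain ⟨Q, hQ, hPQ, hxQ, hmax⟩ := exists_prime P hxP
  let B := A ⧸ Q
  let Ω := AlgebraicClosure (FractionRing B)
  have hinj : Function.Injective (algebraMap B Ω) := by
    rw [IsScalarTower.algebraMap_eq B (FractionRing B) Ω]
    exact (algebraMap (FractionRing B) Ω).injective.comp (IsFractionRing.injective B _)
  let f : A →+* Ω := (algebraMap B Ω).comp (Ideal.Quotient.mk Q)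
  have hf0 : ∀ a, f a = 0 ↔ a ∈ Q := fun a => by
    rw [← Ideal.Quotient.eq_zero_iff_mem]
    exact map_eq_zero_iff _ hinj
  obtain ⟨V, hV, hloc⟩ := IsLocalRing.exists_factor_valuationRing f
  have hfx0 : f x ≠ 0 := mt (hf0 x).1 hxQ
  have hfx : V.valuation (f x) < 1 := by
    have : ¬ IsUnit (f.codRestrict V.toSubring hV x) := fun h => hx (hloc.map_nonunit x h)
    exact (V.valuation_lt_one_iff ⟨f x, hV x⟩).1 this
  have hBV : ∀ b : B, algebraMap B Ω b ∈ V := fun b => by
    obtain ⟨a, rfl⟩ := Ideal.Quotient.mk_surjective b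
    exact hV a
  have hN : ∀ z : Ω, ∃ N : ℕ, f x ^ N * z ∈ V := fun z => by
    have halg : IsAlgebraic B z :=
      (IsFractionRing.isAlgebraic_iff B (FractionRing B) Ω).2 (Algebra.IsAlgebraic.isAlgebraic z)
    obtain ⟨b, hb0, hint⟩ := halg.exists_integral_multiple
    obtain ⟨b, rfl⟩ := Ideal.Quotient.mk_surjective b
    have hbQ : b ∉ Q := mt Ideal.Quotient.eq_zero_iff_mem.2 hb0
    obtain ⟨c, hc⟩ := pow_le_of_prime hmax hbQ
    obtain ⟨y, hy, w, hw, he⟩ := Submodule.mem_sup.1 (hc (Ideal.pow_mem_pow hx c))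
    obtain ⟨t, rfl⟩ := Ideal.mem_span_singleton'.1 hw
    have hint' : IsIntegral V ((RingHom.id Ω) (Ideal.Quotient.mk Q b • z)) :=
      IsIntegral.map_of_comp_eq ((algebraMap B Ω).codRestrict V.toSubring hBV) (RingHom.id Ω)
        (RingHom.ext fun _ => rfl) hint
    obtain ⟨s, hs⟩ := IsIntegrallyClosed.isIntegral_iff.1 hint'
    refine ⟨c, ?_⟩
    have e : f x ^ c * z = f t * (s : Ω) := by
      rw [← map_pow, ← he, map_add, (hf0 y).2 hy, zero_add, map_mul, mul_assoc]
      congr 1
      refine Eq.trans ?_ hs.symm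
      rw [RingHom.id_apply, Algebra.smul_def]
      rfl
    rw [e]
    exact V.mul_mem _ _ (hV t) s.2
  obtain ⟨W, hVW, hWx, hrk⟩ := exists_rankOne V hfx0 hfx hN
  obtain ⟨C, i1, i2, i3, i4, j, hj1, hj2⟩ := exists_normed W.valuation hrk
  have hle : ∀ a, ‖j (f a)‖ ≤ 1 := fun a => hj1 _ ((W.valuation_le_one_iff _).2 (hVW (hV a)))
  refine ⟨C, i1, i2, i3, i4, j.comp f, fun a ha => ?_, hle, fun a ha => ?_, ?_⟩
  · rw [RingHom.comp_apply, (hf0 a).2 (hPQ ha), map_zero]
  · obtain ⟨c, hc⟩ := pow_le_of_prime hmax hxQ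
    obtain ⟨y, hy, w, hw, he⟩ := Submodule.mem_sup.1 (hc (Ideal.pow_mem_pow ha c))
    obtain ⟨t, rfl⟩ := Ideal.mem_span_singleton'.1 hw
    have e : ‖j (f a)‖ ^ c = ‖j (f t)‖ * ‖j (f x)‖ := by
      rw [← norm_pow, ← map_pow, ← map_pow, ← he, map_add, (hf0 y).2 hy, zero_add, map_mul,
        map_mul, norm_mul]
    have h1 : ‖j (f a)‖ ^ c < 1 := by
      rw [e]
      exact mul_lt_one_of_nonneg_of_lt_one_right (hle t) (norm_nonneg _) (hj2 _ hWx)
    exact lt_of_pow_lt_pow_left₀ c zero_le_one (by rwa [one_pow])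
  · rw [RingHom.comp_apply]
    exact (map_ne_zero j).2 hfx0

end Crest.Agent.R227.CPAux
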