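import Crest.Agent.R227.Data
import Crest.Agent.R227.CPAux

/-!
# R227 / CP : the characteristic `p` situation, existence of a point
-/

set_option autoImplicit false

namespace Crest.Agent.R227

open MvPowerSeries Crest.LubinTate

/-- The height `≥ h` stratum `A = k⟦x_0, …, x_{r-1}⟧` with its law `H` and a prime `P`, not
containing `x_0`, stable under the automorphisms `1 + p^m b`. -/
structure CP (p : ℕ) [Fact p.Prime] (k : Type) [Field k] [CharP k p] (h r : ℕ) where
  hh : 1 ≤ h
  hr : 1 ≤ r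
  card : Nat.card k = p ^ (h + r)
  Γ : FormalGroup k
  commΓ : Γ.IsComm
  pser : mulSeries Γ p = PowerSeries.X ^ p ^ (h + r)
  H : FormalGroup (MvPowerSeries (Fin r) k)
  comm : H.IsComm
  red : H.map (constantCoeff : MvPowerSeries (Fin r) k →+* k) = Γ
  g : PowerSeries (MvPowerSeries (Fin r) k)
  hg : mulSeries H p = g.subst (PowerSeries.X ^ p ^ h : PowerSeries (MvPowerSeries (Fin r) k))
  gX : ∀ i : Fin r, PowerSeries.coeff (p ^ (i : ℕ)) g = X i
  P : Ideal (MvPowerSeries (Fin r) k)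
  prime : P.IsPrime
  x0 : X ⟨0, hr⟩ ∉ P
  act : ∃ m₀ : ℕ, ∀ m ≥ m₀, ∀ b : PowerSeries k, IsFGHom Γ Γ b →
    ∃ (φ : MvPowerSeries (Fin r) k →+* MvPowerSeries (Fin r) k)
      (θ : PowerSeries (MvPowerSeries (Fin r) k)),
      (∀ c, φ (C c) = C c) ∧ (∀ a ∈ P, φ a ∈ P) ∧ IsFGHom (H.map φ) H θ ∧
      (∀ a, φ a - a ∈ Ideal.span (Set.range fun i : Fin r =>
        (X i : MvPowerSeries (Fin r) k) ^ (p ^ h) ^ m)) ∧
      ∀ i, PowerSeries.coeff i θ - PowerSeries.coeff i (theta0 H (p ^ m) (b.map C)) ∈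
        Ideal.span (Set.range fun i : Fin r => (X i : MvPowerSeries (Fin r) k) ^ (p ^ h) ^ m)

attribute [instance] CP.commΓ CP.comm

/-- In a Noetherian local ring, a prime `Q ⊇ P` maximal among the primes avoiding `x ∈ 𝔪` has
`𝔪^c ≤ Q + (x)` (Krull's principal ideal theorem and prime avoidance). -/
theorem exists_prime_avoiding {A : Type} [CommRing A] [IsLocalRing A] [IsNoetherianRing A]
    (P : Ideal A) [P.IsPrime] {x : A} (hx : x ∈ IsLocalRing.maximalIdeal A) (hxP : x ∉ P) :
    ∃ (Q : Ideal A) (c : ℕ), Q.IsPrime ∧ P ≤ Q ∧ x ∉ Q ∧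
      IsLocalRing.maximalIdeal A ^ c ≤ Q ⊔ Ideal.span {x} := by
  obtain ⟨Q, hQ, hPQ, hxQ, hmax⟩ := CPAux.exists_prime P hxP
  obtain ⟨c, hc⟩ := CPAux.pow_le_of_prime hmax hxQ
  exact ⟨Q, c, hQ, hPQ, hxQ, hc⟩

/-- The completion of an algebraically closed ultrametric field is algebraically closed, in any
characteristic: more generally (adapt `IsAlgClosed.of_denseRange`) a root `a` of a monic `f` over
`L` is a limit of roots of approximating polynomials over `K`, so lies in the complete `L`. -/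
theorem isAlgClosed_of_denseRange {K L : Type} [Field K] [NontriviallyNormedField L]
    [CompleteSpace L] [IsUltrametricDist L] [Algebra K L]
    (hi : DenseRange (algebraMap K L)) [IsAlgClosed K] : IsAlgClosed L := by
  exact CPAux.isAlgClosed_of_denseRange hi

/-- A point of `V(P)` with `x ≠ 0`.  `A/Q` is finite over `k⟦t⟧` (`t ↦ x`; complete Nakayama), so
embeds in an algebraic closure of `k((t))`, normed by the spectral norm; complete it. -/
theorem exists_point (p : ℕ) [Fact p.Prime] {k : Type} [Field k] [CharP k p] {σ : Type} [Finite σ]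
    (P : Ideal (MvPowerSeries σ k)) [P.IsPrime] (i₀ : σ) (hx : X i₀ ∉ P) :
    ∃ (C : Type) (_ : NontriviallyNormedField C) (_ : IsUltrametricDist C) (_ : CompleteSpace C)
      (_ : CharP C p) (_ : IsAlgClosed C) (u : MvPowerSeries σ k →+* O C),
      (∀ a ∈ P, u a = 0) ∧ (∀ i, u (X i) ∈ mO C) ∧ u (X i₀) ≠ 0 := by
  have hX : ∀ i, (X i : MvPowerSeries σ k) ∈ IsLocalRing.maximalIdeal (MvPowerSeries σ k) :=
    fun i h => by simpa using h.map (constantCoeff : MvPowerSeries σ k →+* k)
  obtain ⟨C', i1, i2, i3, i4, u, h0, h1, h2, h3⟩ := CPAux.exists_hom P (hX i₀) hx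
  have i5 : CharP C' p := charP_of_injective_ringHom (u.comp C).injective p
  exact ⟨C', i1, i2, i3, i5, i4, u.codRestrict (O C') h1, fun a ha => Subtype.ext (h0 a ha),
    fun i => h2 _ (hX i), fun h => h3 (congrArg Subtype.val h)⟩

end Crest.Agent.R227
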