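import Crest.Agent.R227.SubgpAux

/-!
# R227 / Subgp : a non-dense submonoid of `G(𝔪)^σ` satisfies a linear relation
-/

set_option autoImplicit false

namespace Crest.Agent.R227

open MvPowerSeries Filter Topology Crest.LubinTate

variable {p : ℕ} [Fact p.Prime] {C : Type} [NontriviallyNormedField C] [IsUltrametricDist C]
  [CompleteSpace C] [CharP C p] [IsAlgClosed C] {h : ℕ}

/-- Induct on `card σ`.  `J` = ideal of series over `𝔽_P` vanishing on `S` (radical, no constant
terms as `0 ∈ S`); `S` is stable under `p •` = `P`-th power (`p_smul_c`).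
If the projection of `S` forgetting some coordinate is not dense, use induction (extend `d` by 0).
Otherwise:
* if every `F ∈ J` has zero linear part: for `s ∈ S`, `K (x') = F (s +_G x')` vanishes on `S`, so
  by `ev_lam_eq_zero` all `l (K) ∈ J`, so the linear part of `K`, `∂_i F (s) · dY (s_i)`, is zero;
  thus `∂_i F ∈ J` and `eq_bot_of_pderiv` gives `J = ⊥`, a contradiction;
* if `F ∈ J` has nonzero coefficient of `X i₀`: by `subst_surjective` (`X i₀ ↦ F`, other variables
  fixed) `s i₀ = φ (s')` on `S` with `φ` a series in the other variables, `φ 0 = 0`.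
  `φ (x' +_G x'') - G (φ x', φ x'')` vanishes on `S' × S'`, hence is zero (`ev_lam_eq_zero` and
  density of `S'`, twice).  So `φ` is additive on all points; `d i = φ (0,…,t,…,0)`,
  `d i₀ = negS`. -/
theorem subgp (hh : 1 ≤ h) {G : FormalGroup (ZMod p)} [G.IsComm] (hG : IsNormal p h G)
    {σ : Type} [Fintype σ] (S : AddSubmonoid (σ → PO G (zO p C)))
    (F : MvPowerSeries σ (Fq C p h)) (hF : F ≠ 0)
    (hS : ∀ s ∈ S, ev (FqO hh) (fun i => (s i).1) F = 0) :
    ∃ d : σ → PowerSeries (Fq C p h), (∀ i, IsFGHom (G.map (zF h)) (G.map (zF h)) (d i)) ∧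
      (∃ i, d i ≠ 0) ∧
      ∀ s ∈ S, ∑ i, pt G (zO p C) (ev1 (FqO hh) (s i).1 (d i) : O C) = 0 := by
  classical
  induction hn : Fintype.card σ using Nat.strong_induction_on generalizing σ with
  | _ n ih =>
  -- some relation has a nonzero linear coefficient
  obtain ⟨F₀, hF₀, i₀, hc⟩ : ∃ F₀ : MvPowerSeries σ (Fq C p h),
      (∀ s ∈ S, ev (FqO hh) (fun i => (s i).1) F₀ = 0) ∧
        ∃ j, coeff (Finsupp.single j 1) F₀ ≠ 0 := by
    by_contra hcon
    push Not at hcon
    exact hF (SubgpAux.caseA hh hG S hcon F hS)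
  let π : (σ → PO G (zO p C)) →+ ({i // i ≠ i₀} → PO G (zO p C)) :=
    AddMonoidHom.mk' (fun s i => s i) (fun _ _ => rfl)
  let S' := S.map π
  by_cases hdense : ∀ F' : MvPowerSeries {i // i ≠ i₀} (Fq C p h),
      (∀ s ∈ S', ev (FqO hh) (fun i => (s i).1) F' = 0) → F' = 0
  · have h0 : constantCoeff F₀ = 0 := by
      have := hF₀ 0 S.zero_mem
      simp only [Pi.zero_apply, Pt.zero_val, ev_zero] at this
      exact SubgpAux.FqO_injective hh (by rw [this, map_zero])
    obtain ⟨φ, hφ⟩ := SubgpAux.exists_graph (B := O C) h0 hc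
    have hφS : ∀ s ∈ S, ev (FqO hh) (fun i : {i // i ≠ i₀} => (s i).1) φ = (s i₀).1 :=
      fun s hs => hφ (mO C) (FqO hh) (fun i => (s i).1) (fun i => (s i).2) (hF₀ s hs)
    have hφ0 : constantCoeff φ = 0 := by
      have := hφS 0 S.zero_mem
      simp only [Pi.zero_apply, Pt.zero_val, ev_zero] at this
      exact SubgpAux.FqO_injective hh (by rw [this, map_zero])
    have hu : SubgpAux.udefect (G.map (zF h)) φ = 0 := by
      refine SubgpAux.udefect_eq_zero hh hG S' hdense hφ0 ?_
      rintro _ ⟨s, hs, rfl⟩ _ ⟨t, ht, rfl⟩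
      have h1 := hφS _ (S.add_mem hs ht)
      simp only [Pi.add_apply, SubgpAux.add_val_ad hh] at h1
      unfold SubgpAux.defect
      change ev (FqO hh) (fun i : {i // i ≠ i₀} =>
        SubgpAux.ad (G.map (zF h)) (FqO hh) (s i).1 (t i).1) φ -
          SubgpAux.ad (G.map (zF h)) (FqO hh)
            (ev (FqO hh) (fun i : {i // i ≠ i₀} => (s i).1) φ)
            (ev (FqO hh) (fun i : {i // i ≠ i₀} => (t i).1) φ) = 0
      rw [h1, hφS s hs, hφS t ht, sub_self]
    refine ⟨fun i => if hi : i = i₀ then negS (G.map (zF h)) else SubgpAux.axis φ ⟨i, hi⟩,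
      fun i => ?_, ⟨i₀, ?_⟩, fun s hs => ?_⟩
    · by_cases hi : i = i₀
      · simp only [hi, dif_pos]
        exact fgHom_negS _
      · simp only [hi, dif_neg, not_false_eq_true]
        exact SubgpAux.fgHom_axis _ hφ0 hu _
    · simp only [dif_pos]
      exact SubgpAux.negS_ne_zero _
    · rw [Fintype.sum_eq_add_sum_subtype_ne _ i₀]
      have h2 : ∑ i : {i // i ≠ i₀}, pt G (zO p C) (ev1 (FqO hh) (s i).1
          (if hi : (i : σ) = i₀ then negS (G.map (zF h)) else SubgpAux.axis φ ⟨i, hi⟩) : O C) =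
            s i₀ := by
        apply Pt.ext
        rw [← hφS s hs, ← SubgpAux.sum_axis hh hφ0 hu (fun i => s i)]
        refine congrArg (fun y : PO G (zO p C) => y.1) (Finset.sum_congr rfl fun i _ => ?_)
        rw [dif_neg i.2]
      rw [h2]
      simp only [dif_pos]
      exact SubgpAux.add_neg_pt hh (s i₀)
  · push Not at hdense
    obtain ⟨F', hF', hne⟩ := hdense
    have hlt : Fintype.card {i // i ≠ i₀} < n := by
      rw [← hn]
      exact Fintype.card_subtype_lt (x := i₀) (by simp)
    obtain ⟨d, hd, ⟨j, hj⟩, hsum⟩ := ih _ hlt S' F' hne hF' rfl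
    refine ⟨fun i => if hi : i = i₀ then 0 else d ⟨i, hi⟩, fun i => ?_, ⟨j, ?_⟩, fun s hs => ?_⟩
    · by_cases hi : i = i₀
      · simp only [hi, dif_pos]
        exact fgHom_zero _ _
      · simp only [hi, dif_neg, not_false_eq_true]
        exact hd _
    · simpa only [dif_neg j.2] using hj
    · rw [Fintype.sum_eq_add_sum_subtype_ne _ i₀]
      simp only [dif_pos, map_zero, ZeroMemClass.coe_zero, pt_zero, zero_add]
      rw [← hsum (π s) ⟨s, hs, rfl⟩]
      refine Finset.sum_congr rfl fun i _ => ?_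
      rw [dif_neg i.2]
      rfl

end Crest.Agent.R227
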