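import Crest.Agent.R227.TorsTow

/-!
# R227 / Tors : torsion points
-/

set_option autoImplicit false
set_option linter.unusedSectionVars false

namespace Crest.Agent.R227

open Filter Topology Crest.LubinTate

variable {p : ℕ} [Fact p.Prime] {C : Type} [NontriviallyNormedField C] [IsUltrametricDist C]
  [CompleteSpace C] [CharP C p] [IsAlgClosed C] {h r : ℕ} (D : Data p C h r)

/-- `exists_root` for `g - c`, then a `p^h`-th root -/
theorem Data.p_smul_surjective : Function.Surjective fun x : D.PH => p • x := by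
  exact D.p_smul_surjective'

/-- `g = ∏_{i < p^r} (T - T_i) · unit` (`exists_root`, `exists_eq_sub_mul`); the roots are simple
since `g` is a homomorphism `H^(P) → H` (`exists_frob_factor`, `deriv_hom`, `g1`). -/
theorem Data.card_torsion : Nat.card {x : D.PH // p • x = 0} = p ^ r := by
  exact D.card_torsion'

theorem Data.roots (G : PowerSeries (O C))
    (hG : ∀ x : D.PH, p • x = 0 → ev1 (RingHom.id _) (x.1 ^ p ^ h) G = 0) :
    ∀ l < p ^ r, PowerSeries.coeff l G ∈ mO C := by
  exact D.roots' G hG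

/-- Towers `t` (`t 0 = 0`, `p • t (k+1) = t k`) form a group `T`;
`Y t = lim_k Fr (n k) (ε⁻¹ (t k))` is additive, `‖t k - lev k (Y t)‖ ≤ ‖ϖ‖`, so `‖Y t‖ ≤ ‖ϖ‖`,
`Y (p • t) = Fr n (Y t)`, and `‖Y t‖ ≥ B > 0` uniformly for `t 1 ≠ 0` (`norm_p_smul_sub`: after a
bounded number of steps `‖t k‖ > ‖ϖ‖`).  Hence `{‖Y t‖ : t 1 ≠ 0}` is finite (every tower is
`∑ a_i s_i + p^M t'`).  Among the `r`-tuples of towers whose first levels form an `𝔽_p`-basis of
`H[p]` take one minimising `∏ ‖Y t_i‖`; it is reduced (replace `t_{i₀}`, `(i₀,e₀)` with `a ≠ 0` and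
`e₀` least, by `∑ a_x p^(e_x - e₀) t_{i_x}`). -/
theorem Data.exists_tors : Nonempty (Tors D) := by
  exact D.exists_tors'

end Crest.Agent.R227
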