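import Crest.Agent.R227.ST2
import Crest.Agent.R227.Tors
import Crest.Agent.R227.Bott
import Crest.Agent.R227.Subgp

/-!
# R227 / CharP : assembly of the characteristic `p` case
-/

set_option autoImplicit false

namespace Crest.Agent.R227

open MvPowerSeries Crest.LubinTate

theorem CharP.exists_preimage {k L : Type} [Field k] [Field L] (κ : k →+* L) {q : ℕ}
    (hq : Nat.card k = q) (hq0 : q ≠ 0) {a : L} (ha : a ^ q = a) : ∃ c, κ c = a := by
  classical
  have : Finite k := Nat.finite_of_card_ne_zero (hq ▸ hq0)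
  let : Fintype k := Fintype.ofFinite k
  have hc : Fintype.card k = q := by rw [← hq, Nat.card_eq_fintype_card]
  have h1 : 1 < Fintype.card k := Fintype.one_lt_card
  have hroots := FiniteField.roots_X_pow_card_sub_X k
  have hmon : (Polynomial.X ^ Fintype.card k - Polynomial.X : Polynomial k).Monic := by
    apply Polynomial.monic_X_pow_sub
    rw [Polynomial.degree_X]; exact_mod_cast h1
  have hdeg : (Polynomial.X ^ Fintype.card k - Polynomial.X : Polynomial k).natDegree =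
      Fintype.card k := FiniteField.X_pow_card_sub_X_natDegree_eq k h1
  have hprod := Polynomial.prod_multiset_X_sub_C_of_monic_of_roots_card_eq hmon
    (by rw [hroots, hdeg]; rfl)
  rw [hroots] at hprod
  have := congrArg (Polynomial.eval₂RingHom κ a) hprod
  rw [map_multiset_prod, Multiset.map_map] at this
  simp only [Function.comp_def, map_sub, map_pow, Polynomial.coe_eval₂RingHom,
    Polynomial.eval₂_X, hc, ha, sub_self] at this
  rw [Multiset.prod_eq_zero_iff, Multiset.mem_map] at this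
  obtain ⟨c, -, hc⟩ := this
  rw [Polynomial.eval₂_sub, Polynomial.eval₂_X, Polynomial.eval₂_C] at hc
  exact ⟨c, (sub_eq_zero.1 hc).symm⟩

section

variable {p : ℕ} [Fact p.Prime] {k : Type} [Field k] [CharP k p] {h r : ℕ}
  {C : Type} [NontriviallyNormedField C] [IsUltrametricDist C] [CompleteSpace C] [CharP C p]
  [IsAlgClosed C]

omit [CompleteSpace C] [IsAlgClosed C] in
theorem CP.exists_data (S : CP p k h r) (u : MvPowerSeries (Fin r) k →+* O C)
    (huP : ∀ a ∈ S.P, u a = 0) (huX : ∀ i, u (X i) ∈ mO C) (hu0 : u (X ⟨0, S.hr⟩) ≠ 0) :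
    ∃ D : Data p C h r, Nonempty (AtPt S D) := by
  classical
  have hh := S.hh
  obtain ⟨Gn, _, εk, hGn, hε1, hεhom⟩ :=
    exists_normal_fin (p := p) (h := h + r) (by omega) S.card S.Γ S.pser
  obtain ⟨i₀, -, hi₀⟩ := Finset.exists_max_image Finset.univ (fun i => ‖(u (X i) : C)‖)
    ⟨⟨0, S.hr⟩, Finset.mem_univ _⟩
  have hq0 : p ^ (h + r) ≠ 0 := pow_ne_zero _ (Fact.out : p.Prime).ne_zero
  have : Finite k := Nat.finite_of_card_ne_zero (S.card ▸ hq0)
  let : Fintype k := Fintype.ofFinite k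
  have hc : Fintype.card k = p ^ (h + r) := by rw [← S.card, Nat.card_eq_fintype_card]
  set ϖ := u (X i₀) with hϖ
  have hϖ0 : ϖ ≠ 0 := by
    intro h0
    apply hu0
    have := hi₀ ⟨0, S.hr⟩ (Finset.mem_univ _)
    rw [h0] at this
    simp only [ZeroMemClass.coe_zero, norm_zero, norm_le_zero_iff, ZeroMemClass.coe_eq_zero] at this
    exact this
  have hmk : (Ideal.Quotient.mk (Ideal.span {ϖ})).comp u =
      ((Ideal.Quotient.mk (Ideal.span {ϖ})).comp (u.comp MvPowerSeries.C)).comp constantCoeff := by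
    have hX : ∀ i, (Ideal.Quotient.mk (Ideal.span {ϖ})) (u (X i)) = 0 := fun i => by
      rw [Ideal.Quotient.eq_zero_iff_mem, Ideal.mem_span_singleton, O.dvd_iff]
      exact hi₀ i (Finset.mem_univ _)
    refine hom_ext ⊥ (fun c => by simp) (fun i => by simp [hX]) (fun i => by simp [hX])
  refine ⟨{
    hh := S.hh
    hr := S.hr
    H := S.H.map u
    comm := inferInstance
    Gn := Gn
    commn := inferInstance
    normal := hGn
    ϖ := ϖ
    ϖ0 := hϖ0
    ϖ1 := huX i₀
    ε := εk.map (u.comp MvPowerSeries.C)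
    ε0 := by
      rw [← PowerSeries.coeff_zero_eq_constantCoeff_apply, PowerSeries.coeff_map,
        PowerSeries.coeff_zero_eq_constantCoeff_apply, hεhom.1, map_zero]
    ε1 := by rw [PowerSeries.coeff_map, hε1, map_one]
    εq := fun i => by rw [PowerSeries.coeff_map, ← map_pow, ← hc, FiniteField.pow_card]
    εhom := ?_
    g := S.g.map u
    hg := ?_
    g1 := ?_ }, ⟨{
      u := u
      uP := huP
      uX := fun i => hi₀ i (Finset.mem_univ _)
      u0 := hu0
      hH := rfl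
      hg := rfl
      εk := εk
      εk1 := hε1
      εkhom := hεhom
      hε := rfl }⟩⟩
  · have := fgHom_map hεhom ((Ideal.Quotient.mk (Ideal.span {ϖ})).comp (u.comp MvPowerSeries.C))
    rw [fg_map_map, ← S.red, fg_map_map, ← hmk, ← fg_map_map S.H] at this
    rw [Subsingleton.elim ((Ideal.Quotient.mk (Ideal.span {ϖ})).comp (zO p C))
      (((Ideal.Quotient.mk (Ideal.span {ϖ})).comp (u.comp MvPowerSeries.C)).comp
        (ZMod.castHom (dvd_refl p) k))]
    convert this using 1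
    ext i
    simp
  · have hP : p ^ h ≠ 0 := pow_ne_zero _ (Fact.out : p.Prime).ne_zero
    rw [mulSeries_map, S.hg]
    have := PowerSeries.map_subst (h := u) (PowerSeries.HasSubst.X_pow hP) S.g
    have h2 : MvPowerSeries.map u (PowerSeries.X ^ p ^ h : PowerSeries _) =
        (PowerSeries.X ^ p ^ h : PowerSeries (O C)) := by
      rw [map_pow]; congr 1; exact PowerSeries.map_X u
    rw [h2] at this
    exact this
  · have := S.gX ⟨0, S.hr⟩
    simp only [pow_zero] at this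
    rw [PowerSeries.coeff_map, this]
    exact hu0

variable {S : CP p k h r} {D : Data p C h r}

/-- evaluation of curves over `k` at `y_i` -/
noncomputable def AtPt.evy (U : AtPt S D) (x : D.PX) :
    Cur D.Gn (ZMod.castHom (dvd_refl p) k) →+ D.PX :=
  Pt.map (ev1 (U.u.comp MvPowerSeries.C) x.1) (by congr 1; exact Subsingleton.elim _ _)
    (fun f hf => ev1_mem (mO C) _ x.2
      (PowerSeries.X_dvd_iff.1 (Ideal.mem_span_singleton.1 hf)))

theorem AtPt.zpt_eq (U : AtPt S D) (T : Tors D) (B : Bott D)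
    (γ : Cur D.Gn (ZMod.castHom (dvd_refl p) k)) (i : Fin r) :
    U.zpt T B γ.1 i = B.Φ (U.evy (T.y i) γ) := by
  unfold AtPt.zpt
  congr 1
  exact pt_self (U.evy (T.y i) γ)

/-- the submonoid of all `(Φ (b y_i))_i` -/
def AtPt.mon (U : AtPt S D) (T : Tors D) (B : Bott D) :
    AddSubmonoid (Fin r → PO B.Gh (zO p C)) where
  carrier := {z | ∃ b₀ : PowerSeries k, IsFGHom (D.Gn.map (ZMod.castHom (dvd_refl p) k))
    (D.Gn.map (ZMod.castHom (dvd_refl p) k)) b₀ ∧ z = U.zpt T B b₀}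
  zero_mem' := ⟨0, fgHom_zero _ _, by
    funext i
    have := U.zpt_eq T B 0 i
    rw [map_zero, map_zero] at this
    exact this.symm⟩
  add_mem' := by
    rintro _ _ ⟨b, hb, rfl⟩ ⟨b', hb', rfl⟩
    refine ⟨(Cur.mk D.Gn (ZMod.castHom (dvd_refl p) k) b hb.1 +
      Cur.mk D.Gn (ZMod.castHom (dvd_refl p) k) b' hb'.1).1, ?_, ?_⟩
    · rw [Cur.add_val]; exact fgHom_add hb hb'
    · funext i
      rw [U.zpt_eq, map_add, map_add, ← U.zpt_eq, ← U.zpt_eq]
      rfl

theorem AtPt.false (U : AtPt S D) (T : Tors D) (B : Bott D) {f : MvPowerSeries (Fin r) k}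
    (hf : f ∈ S.P) (hf0 : f ≠ 0) : False := by
  obtain ⟨e, he⟩ := U.st' T B hf hf0
  have hϖ : ‖(D.ϖ : C)‖ < 1 := D.ϖ1
  obtain ⟨G, hG0, hG⟩ := dens (p := p) D.hh e (norm_nonneg _) hϖ
    {s | ∃ z ∈ U.mon T B, s = fun i => (z i).1}
    (by rintro _ ⟨z, -, rfl⟩ i; exact (z i).2)
    (fun N => by
      obtain ⟨F, hF1, hF2⟩ := he N
      refine ⟨F, hF1, ?_⟩
      rintro _ ⟨_, ⟨b, hb, rfl⟩, rfl⟩
      exact hF2 b hb)
  obtain ⟨d, hd, ⟨i₀, hi₀⟩, hrel⟩ := subgp D.hh B.normal (U.mon T B) G hG0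
    (fun s hs => hG _ ⟨s, hs, rfl⟩)
  refine hi₀ (no_rel D.hh D.hr D.normal B.normal B.φ B.φ1 B.φp B.φ0 B.Φ B.cont B.sum T.y T.y0
    T.red d hd (fun a N ha => ?_) i₀)
  have hq0 : p ^ (h + r) ≠ 0 := pow_ne_zero _ (Fact.out : p.Prime).ne_zero
  have hpN : p ^ N ≠ 0 := pow_ne_zero _ (Fact.out : p.Prime).ne_zero
  obtain ⟨c, hc⟩ := CharP.exists_preimage ((O C).subtype.comp (U.u.comp MvPowerSeries.C))
    S.card hq0 ha
  have hcq : c ^ p ^ (h + r) = c := by
    apply ((O C).subtype.comp (U.u.comp MvPowerSeries.C)).injective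
    rw [map_pow, hc, ha]
  have hb := fgHom_comp (fgHom_X_pow D.Gn (ZMod.castHom (dvd_refl p) k) N)
    (D.normal.scal k _ c hcq)
  have := hrel _ ⟨_, hb, rfl⟩
  convert this using 6 with i
  unfold AtPt.zpt
  congr 2
  rw [ev1_subst1 (mO C) _ (T.y i).2 (by rw [map_pow, PowerSeries.constantCoeff_X, zero_pow hpN]), map_mul, ev1_C, map_pow,
    ev1_X (mO C) _ (T.y i).2, ev1_X (mO C) _ (Ideal.pow_mem_of_mem _ (T.y i).2 _
      (Nat.pos_of_ne_zero hpN)), Fr_natCast, ← hc]
  rfl

end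

theorem CP.eq_bot {p : ℕ} [Fact p.Prime] {k : Type} [Field k] [CharP k p] {h r : ℕ}
    (S : CP p k h r) : S.P = ⊥ := by
  by_contra hne
  obtain ⟨f, hf, hf0⟩ := Submodule.exists_mem_ne_zero_of_ne_bot hne
  have := S.prime
  obtain ⟨C, _, _, _, _, _, u, huP, huX, hu0⟩ := exists_point p S.P ⟨0, S.hr⟩ S.x0
  obtain ⟨D, ⟨U⟩⟩ := S.exists_data u huP huX hu0
  obtain ⟨T⟩ := D.exists_tors
  obtain ⟨B⟩ := D.exists_bott
  exact U.false T B hf hf0

end Crest.Agent.R227
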