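import Crest.Agent.R227.Rel

/-!
# R227 / Data : a height `h` deformation over `O` of the height `h + r` normal law
-/

set_option autoImplicit false
set_option linter.unusedSectionVars false

namespace Crest.Agent.R227

open Filter Topology Crest.LubinTate

variable (p : ℕ) [Fact p.Prime] (C : Type) [NontriviallyNormedField C] [IsUltrametricDist C]
  [CompleteSpace C] [CharP C p] [IsAlgClosed C]

/-- A law `H` over `O`, of height `h` over `C`, congruent mod `ϖ` to the normal law of height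
`h + r` via the coordinate change `ε`. -/
structure Data (h r : ℕ) where
  hh : 1 ≤ h
  hr : 1 ≤ r
  H : FormalGroup (O C)
  comm : H.IsComm
  Gn : FormalGroup (ZMod p)
  commn : Gn.IsComm
  normal : IsNormal p (h + r) Gn
  ϖ : O C
  ϖ0 : ϖ ≠ 0
  ϖ1 : ϖ ∈ mO C
  ε : PowerSeries (O C)
  ε0 : PowerSeries.constantCoeff ε = 0
  ε1 : PowerSeries.coeff 1 ε = 1
  εq : ∀ i, PowerSeries.coeff i ε ^ p ^ (h + r) = PowerSeries.coeff i ε
  εhom : IsFGHom (Gn.map ((Ideal.Quotient.mk (Ideal.span {ϖ})).comp (zO p C)))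
    (H.map (Ideal.Quotient.mk (Ideal.span {ϖ}))) (ε.map (Ideal.Quotient.mk (Ideal.span {ϖ})))
  g : PowerSeries (O C)
  hg : mulSeries H p = g.subst (PowerSeries.X ^ p ^ h : PowerSeries (O C))
  g1 : PowerSeries.coeff 1 g ≠ 0

attribute [instance] Data.comm Data.commn

variable {p C} {h r : ℕ} (D : Data p C h r)

namespace Data

/-- points of `H` -/
abbrev PH : Type := PO D.H (RingHom.id (O C))

/-- points of the normal law of height `h + r` -/
abbrev PX : Type := PO D.Gn (zO p C)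

/-- `ε (Fr (-(n k)) x)` -/
noncomputable def lev (k : ℕ) (x : D.PX) : C :=
  (ev1 (RingHom.id (O C)) (frP D.Gn (-((h + r : ℕ) * k : ℤ)) x).1 D.ε : O C)

/-- `map_subst` for one-variable series -/
theorem aux_map_subst {R S : Type} [CommRing R] [CommRing S] (ρ : R →+* S) {a : PowerSeries R}
    (ha : PowerSeries.HasSubst a) (f : PowerSeries R) :
    PowerSeries.map ρ (f.subst a) = (PowerSeries.map ρ f).subst (PowerSeries.map ρ a) :=
  PowerSeries.map_subst ha f

omit [Fact p.Prime] [CompleteSpace C] [CharP C p] [IsAlgClosed C] in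
theorem aux_norm_le_of_mk_eq {ϖ a b : O C}
    (h : Ideal.Quotient.mk (Ideal.span {ϖ}) a = Ideal.Quotient.mk (Ideal.span {ϖ}) b) :
    ‖(a : C) - b‖ ≤ ‖(ϖ : C)‖ := by
  rw [Ideal.Quotient.eq, Ideal.mem_span_singleton, O.dvd_iff] at h
  simpa using h

theorem ε_pow : D.ε ^ p ^ (h + r) =
    D.ε.subst (PowerSeries.X ^ p ^ (h + r) : PowerSeries (O C)) := by
  rw [pow_eq_subst_X_pow p D.ε (h + r)]
  congr 1
  ext i
  rw [PowerSeries.coeff_map, iterateFrobenius_def, D.εq]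

theorem pser_mod : (mulSeries D.H p).map (Ideal.Quotient.mk (Ideal.span {D.ϖ})) =
    PowerSeries.X ^ p ^ (h + r) := by
  have hq : p ^ (h + r) ≠ 0 := pow_ne_zero _ (Fact.out : p.Prime).ne_zero
  set π := Ideal.Quotient.mk (Ideal.span {D.ϖ}) with hπ
  have h0 : PowerSeries.constantCoeff (D.ε.map π) = 0 := D.εhom.1
  have hs : PowerSeries.HasSubst (D.ε.map π) := PowerSeries.HasSubst.of_constantCoeff_zero' h0
  have h1 : IsUnit (PowerSeries.coeff 1 (D.ε.map π)) := by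
    rw [PowerSeries.coeff_map, D.ε1, map_one]; exact isUnit_one
  have key := fgHom_mulSeries_comm D.εhom p
  rw [mulSeries_map, mulSeries_map, D.normal.pser, map_pow, PowerSeries.map_X] at key
  have h2 := congrArg (PowerSeries.map π) D.ε_pow
  rw [aux_map_subst π (PowerSeries.HasSubst.X_pow hq), map_pow, map_pow, PowerSeries.map_X] at h2
  apply subst_right_cancel h0 h1
  rw [← key, ← h2, PowerSeries.subst_pow hs, PowerSeries.subst_X hs]

theorem g_mod : D.g.map (Ideal.Quotient.mk (Ideal.span {D.ϖ})) = PowerSeries.X ^ p ^ r := by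
  have hP : p ^ h ≠ 0 := pow_ne_zero _ (Fact.out : p.Prime).ne_zero
  have h1 := D.pser_mod
  rw [D.hg, aux_map_subst _ (PowerSeries.HasSubst.X_pow hP), map_pow, PowerSeries.map_X] at h1
  apply subst_X_pow_injective hP
  rw [h1, PowerSeries.subst_pow (PowerSeries.HasSubst.X_pow hP),
    PowerSeries.subst_X (PowerSeries.HasSubst.X_pow hP), ← pow_mul, ← pow_add]

theorem g0 : PowerSeries.constantCoeff D.g = 0 := by
  exact constantCoeff_of_pser D.H (pow_ne_zero _ (Fact.out : p.Prime).ne_zero) D.hg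

theorem norm_p_smul_sub (x : D.PH) : ‖(p • x).c - x.c ^ p ^ (h + r)‖ ≤ ‖(D.ϖ : C)‖ * ‖x.c‖ := by
  have hq : p ^ (h + r) ≠ 0 := pow_ne_zero _ (Fact.out : p.Prime).ne_zero
  have hd : PowerSeries.X ∣ mulSeries D.H p - PowerSeries.X ^ p ^ (h + r) := by
    rw [PowerSeries.X_dvd_iff, map_sub, constantCoeff_mulSeries, map_pow,
      PowerSeries.constantCoeff_X, zero_pow hq, sub_zero]
  obtain ⟨E, hE⟩ := hd
  have hm : ∀ d, PowerSeries.coeff d (mulSeries D.H p) -
      PowerSeries.coeff d (PowerSeries.X ^ p ^ (h + r) : PowerSeries (O C)) ∈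
        Ideal.span {D.ϖ} := by
    apply map_mk_eq_iff'.1
    rw [D.pser_mod, map_pow, PowerSeries.map_X]
  have hEm : ∀ d, PowerSeries.coeff d E ∈ Ideal.span {D.ϖ} := by
    intro d
    have := hm (d + 1)
    rwa [← map_sub, hE, PowerSeries.coeff_succ_X_mul] at this
  have hev : ev1 (RingHom.id (O C)) x.1 E ∈ Ideal.span {D.ϖ} := by
    have := ev_sub_mem_of_coeff (σ := Unit) (RingHom.id (O C)) (fun _ => x.1)
      (I := Ideal.span {D.ϖ}) ⟨{D.ϖ}, by simp⟩ (f := E) (g := 0) (fun d => by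
        have hd : d = Finsupp.single () (d ()) := by ext; simp
        rw [hd]
        simpa using hEm (d ()))
    rw [map_zero, sub_zero, Ideal.map_id] at this
    exact this
  rw [Ideal.mem_span_singleton, O.dvd_iff] at hev
  have h1 : (p • x).1 - x.1 ^ p ^ (h + r) = x.1 * ev1 (RingHom.id (O C)) x.1 E := by
    have := congrArg (ev1 (RingHom.id (O C)) x.1) hE
    rw [map_sub, map_mul, map_pow, ev1_X (mO C) _ x.2] at this
    rw [Pt.nsmul_val, this]
  have h2 : (p • x).c - x.c ^ p ^ (h + r) =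
      x.c * ((ev1 (RingHom.id (O C)) x.1 E : O C) : C) := by
    have := congrArg (fun z : O C => (z : C)) h1
    simpa [Pt.c] using this
  rw [h2, norm_mul, mul_comm]
  exact mul_le_mul_of_nonneg_right hev (norm_nonneg _)

/-- `ε` is additive modulo `ϖ` on points -/
theorem norm_ε_add (x y : D.PX) :
    ‖((ev1 (RingHom.id (O C)) (x + y).1 D.ε : O C) : C) -
      (pt D.H (RingHom.id _) (ev1 (RingHom.id (O C)) x.1 D.ε : O C) +
        pt D.H (RingHom.id _) (ev1 (RingHom.id (O C)) y.1 D.ε : O C)).c‖ ≤ ‖(D.ϖ : C)‖ := by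
  set π := Ideal.Quotient.mk (Ideal.span {D.ϖ}) with hπ
  have : IsEv ((mO C).map π) := isEv_map_mO D.ϖ0
  have hN : ∀ z ∈ mO C, π z ∈ (mO C).map π := fun z hz => Ideal.mem_map_of_mem π hz
  have hmem : ∀ z : D.PX, ev1 (RingHom.id (O C)) z.1 D.ε ∈ mO C :=
    fun z => ev1_mem (mO C) _ z.2 D.ε0
  let mX : D.PX →+ Pt (D.Gn.map (π.comp (zO p C))) (RingHom.id _) ((mO C).map π) :=
    Pt.map π (fg_map_id _).symm hN
  let mH : D.PH →+ Pt (D.H.map π) (RingHom.id _) ((mO C).map π) :=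
    Pt.map π (by rw [fg_map_id, RingHom.comp_id]) hN
  have hpt : ∀ z : D.PX, (pt D.H (RingHom.id _) (ev1 (RingHom.id (O C)) z.1 D.ε : O C)).1 =
      ev1 (RingHom.id (O C)) z.1 D.ε := fun z => Subtype.ext (pt_c (hmem z))
  have hc : ∀ z : D.PX, mH (pt D.H (RingHom.id _) (ev1 (RingHom.id (O C)) z.1 D.ε : O C)) =
      Pt.hom (RingHom.id _) ((mO C).map π) D.εhom (mX z) := by
    intro z
    apply Pt.ext
    rw [Pt.hom_val, Pt.map_val, Pt.map_val, hpt]
    exact map_ev1 (mO C) ((mO C).map π) (ρ := π) (by simp) z.2 (hN _ z.2) D.ε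
  apply aux_norm_le_of_mk_eq
  have h1 : mH (pt D.H (RingHom.id _) (ev1 (RingHom.id (O C)) (x + y).1 D.ε : O C)) =
      mH (pt D.H (RingHom.id _) (ev1 (RingHom.id (O C)) x.1 D.ε : O C) +
        pt D.H (RingHom.id _) (ev1 (RingHom.id (O C)) y.1 D.ε : O C)) := by
    rw [map_add, hc, hc, hc, map_add, map_add]
  have h2 := congrArg Subtype.val h1
  rw [Pt.map_val, Pt.map_val, hpt] at h2
  exact h2

theorem lev_succ_pow (k : ℕ) (x : D.PX) : D.lev (k + 1) x ^ p ^ (h + r) = D.lev k x := by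
  have h1 := Fr_ev1 (p := p) (RingHom.id (O C)) (n := h + r) (f := D.ε) D.εq 1
    (x := (frP D.Gn (-((h + r : ℕ) * (k + 1 : ℕ) : ℤ)) x).1)
    (y := (frP D.Gn (-((h + r : ℕ) * k : ℤ)) x).1) (frP D.Gn _ x).2 (by
      change (frP D.Gn _ x).c = Fr p _ (frP D.Gn _ x).c
      rw [frP_c, frP_c, ← Fr_add]
      congr 2
      push_cast
      ring)
  rw [mul_one, Fr_natCast] at h1
  exact h1.symm

theorem norm_lev_lt (k : ℕ) (x : D.PX) : ‖D.lev k x‖ < 1 := by
  exact ev1_mem (mO C) _ (frP D.Gn _ x).2 D.ε0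

end Data

/-- A basis of the Tate module of `H` and its image in the universal cover. -/
structure Tors where
  t : Fin r → ℕ → D.PH
  t0 : ∀ i, t i 0 = 0
  tsucc : ∀ i k, p • t i (k + 1) = t i k
  y : Fin r → D.PX
  y0 : ∀ i, y i ≠ 0
  red : Red p (h + r) fun i => (y i).c
  appr : ∀ i k, ‖(t i k).c - D.lev k (y i)‖ ≤ ‖(D.ϖ : C)‖
  gen : ∀ x : D.PH, p • x = 0 → x ∈ AddSubmonoid.closure (Set.range fun i => t i 1)
  roots : ∀ G : PowerSeries (O C),
    (∀ x : D.PH, p • x = 0 → ev1 (RingHom.id _) (x.1 ^ p ^ h) G = 0) →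
      ∀ l < p ^ r, PowerSeries.coeff l G ∈ mO C

/-- The Böttcher coordinate `γ` and the induced map `Φ` of universal covers. -/
structure Bott where
  Gh : FormalGroup (ZMod p)
  commh : Gh.IsComm
  normal : IsNormal p h Gh
  γ : PowerSeries (O C)
  hom : IsFGHom D.H (Gh.map (zO p C)) γ
  γ1 : PowerSeries.coeff 1 γ ≠ 0
  φ : ℤ → C
  φ1 : ∀ j, ‖φ j‖ < 1
  φp : ∀ j, φ (j + r) ^ p ^ h = φ j
  φ0 : ∃ j, φ j ≠ 0
  Φ : D.PX →+ PO Gh (zO p C)
  cont : Continuous Φ
  sum : ∀ x, HasSum (fun j : ℤ => pt Gh (zO p C) (φ j * Fr p j x.c)) (Φ x)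
  appr : ∀ (x : D.PX) (k : ℕ) (t : D.PH), ‖t.c - D.lev k x‖ ≤ ‖(D.ϖ : C)‖ →
    ‖((ev1 (RingHom.id _) t.1 γ : O C) : C) ^ (p ^ h) ^ k - (Φ x).c‖ ≤ ‖(D.ϖ : C)‖ ^ (p ^ h) ^ k

attribute [instance] Bott.commh

end Crest.Agent.R227
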