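import Crest.Agent.R227.Exp

/-!
# R227 / Dens : Frobenius independence; formal subgroups
-/

set_option autoImplicit false

namespace Crest.Agent.R227

open MvPowerSeries Filter Topology Crest.LubinTate

variable {p : ℕ} [Fact p.Prime] {C : Type} [NontriviallyNormedField C] [IsUltrametricDist C]
  [CompleteSpace C] [CharP C p] [IsAlgClosed C] {h : ℕ}

omit [IsUltrametricDist C] [CompleteSpace C] [CharP C p] [IsAlgClosed C] in
theorem Dens.single (hh : 1 ≤ h) {c w : C} (hc : c ≠ 0) {η C₀ : ℝ} (hη : 0 ≤ η) {m₀ : ℕ}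
    (H : ∀ m ≥ m₀, ‖c * w ^ (p ^ h) ^ m‖ ≤ C₀ * η ^ (p ^ h) ^ m) : ‖w‖ ≤ η := by
  by_contra hlt
  rw [not_le] at hlt
  have hw : 0 < ‖w‖ := hη.trans_lt hlt
  have hP : 1 < p ^ h := Nat.one_lt_pow (by omega) (Fact.out : p.Prime).one_lt
  have h1 : Tendsto (fun m : ℕ => (p ^ h) ^ m) atTop atTop := tendsto_pow_atTop_atTop_of_one_lt hP
  have h2 : Tendsto (fun n : ℕ => (η / ‖w‖) ^ n) atTop (𝓝 0) :=
    tendsto_pow_atTop_nhds_zero_of_lt_one (div_nonneg hη hw.le) ((div_lt_one hw).2 hlt)
  have h3 := (h2.comp h1).const_mul C₀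
  rw [mul_zero] at h3
  have h4 : ‖c‖ ≤ 0 := ge_of_tendsto h3 ((eventually_ge_atTop m₀).mono fun m hm => by
    have := H m hm
    rw [norm_mul, norm_pow] at this
    simp only [Function.comp_apply]
    rw [div_pow, ← mul_div_assoc, le_div_iff₀ (pow_pos hw _)]
    exact this)
  exact hc (norm_le_zero_iff.1 h4)

omit [IsUltrametricDist C] [CompleteSpace C] [IsAlgClosed C] in
theorem Dens.coe_pow (a : Fq C p h) (m : ℕ) : (a : C) ^ (p ^ h) ^ m = a := by
  induction m with
  | zero => simp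
  | succ m ih => rw [pow_succ, pow_mul, ih, mem_Fq.1 a.2]

omit [IsUltrametricDist C] [CompleteSpace C] [IsAlgClosed C] in
theorem Dens.sum_pow {κ : Type} (s : Finset κ) (f : κ → C) (m : ℕ) :
    (∑ i ∈ s, f i) ^ (p ^ h) ^ m = ∑ i ∈ s, f i ^ (p ^ h) ^ m := by
  rw [← pow_mul]
  exact sum_pow_char_pow p (h * m) s f

omit [IsUltrametricDist C] [CompleteSpace C] [IsAlgClosed C] in
theorem Dens.indep (hh : 1 ≤ h) {κ : Type} (w : κ → C) {η : ℝ} (hη : 0 ≤ η) (s : Finset κ) :
    ∀ (c : κ → C) (C₀ : ℝ) (m₀ : ℕ),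
      (∀ a : κ → Fq C p h, ∑ i ∈ s, (a i : C) * c i = 0 → ∀ i ∈ s, a i = 0) →
      (∀ m ≥ m₀, ‖∑ i ∈ s, c i * w i ^ (p ^ h) ^ m‖ ≤ C₀ * η ^ (p ^ h) ^ m) →
      ∀ i ∈ s, ‖w i‖ ≤ η := by
  classical
  induction s using Finset.induction_on with
  | empty => intro _ _ _ _ _ i hi; simp at hi
  | insert j s hj ih =>
    intro c C₀ m₀ hind H
    have hcj : c j ≠ 0 := by
      intro h0
      have := hind (fun i => if i = j then 1 else 0) (by
        rw [Finset.sum_insert hj, h0, mul_zero, zero_add]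
        refine Finset.sum_eq_zero fun i hi => ?_
        have : i ≠ j := fun e => hj (e ▸ hi)
        simp [this]) j (Finset.mem_insert_self _ _)
      simp at this
    have hs : ∀ i ∈ s, ‖w i‖ ≤ η := by
      refine ih (fun i => c j * c i ^ p ^ h - c j ^ p ^ h * c i)
        (‖c j‖ * |C₀| ^ p ^ h + ‖c j‖ ^ p ^ h * |C₀|) (m₀ + 1) (fun a ha => ?_) (fun m hm => ?_)
      · set y : C := ∑ i ∈ s, (a i : C) * c i with hy
        have hyP : y ^ p ^ h = ∑ i ∈ s, (a i : C) * c i ^ p ^ h := by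
          have := Dens.sum_pow (p := p) (h := h) s (fun i => (a i : C) * c i) 1
          rw [pow_one] at this
          rw [hy, this]
          refine Finset.sum_congr rfl fun i _ => ?_
          rw [mul_pow, mem_Fq.1 (a i).2]
        have h1 : c j * y ^ p ^ h = c j ^ p ^ h * y := by
          rw [← sub_eq_zero, ← ha, hyP, hy, Finset.mul_sum, Finset.mul_sum,
            ← Finset.sum_sub_distrib]
          exact Finset.sum_congr rfl fun i _ => by ring
        have h2 : y / c j ∈ Fq C p h := by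
          rw [mem_Fq, div_pow, div_eq_div_iff (pow_ne_zero _ hcj) hcj]
          linear_combination h1
        have h3 := hind (fun i => if i = j then -⟨_, h2⟩ else a i) (by
          rw [Finset.sum_insert hj]
          have : ∑ i ∈ s, (((if i = j then -⟨_, h2⟩ else a i : Fq C p h)) : C) * c i = y := by
            refine Finset.sum_congr rfl fun i hi => ?_
            have : i ≠ j := fun e => hj (e ▸ hi)
            simp [this]
          rw [this]
          simp only [if_true, Subfield.coe_neg]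
          field_simp
          ring)
        intro i hi
        have hij : i ≠ j := fun e => hj (e ▸ hi)
        simpa [hij] using h3 i (Finset.mem_insert_of_mem hi)
      · obtain ⟨n, rfl⟩ : ∃ n, m = n + 1 := ⟨m - 1, by omega⟩
        have hn : n ≥ m₀ := by omega
        have e : ∑ i ∈ s, (c j * c i ^ p ^ h - c j ^ p ^ h * c i) * w i ^ (p ^ h) ^ (n + 1) =
            c j * (∑ i ∈ insert j s, c i * w i ^ (p ^ h) ^ n) ^ p ^ h -
              c j ^ p ^ h * ∑ i ∈ insert j s, c i * w i ^ (p ^ h) ^ (n + 1) := by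
          have := Dens.sum_pow (p := p) (h := h) (insert j s)
            (fun i => c i * w i ^ (p ^ h) ^ n) 1
          rw [pow_one] at this
          rw [this, Finset.mul_sum, Finset.mul_sum, ← Finset.sum_sub_distrib,
            Finset.sum_insert hj]
          have e1 : ∀ i, c j * (c i * w i ^ (p ^ h) ^ n) ^ p ^ h -
              c j ^ p ^ h * (c i * w i ^ (p ^ h) ^ (n + 1)) =
              (c j * c i ^ p ^ h - c j ^ p ^ h * c i) * w i ^ (p ^ h) ^ (n + 1) := fun i => by
            rw [mul_pow, ← pow_mul (w i), ← pow_succ]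
            ring
          simp only [e1]
          rw [show c j * c j ^ p ^ h - c j ^ p ^ h * c j = 0 by ring, zero_mul, zero_add]
        have b1 : ‖∑ i ∈ insert j s, c i * w i ^ (p ^ h) ^ n‖ ≤ |C₀| * η ^ (p ^ h) ^ n :=
          (H n hn).trans (mul_le_mul_of_nonneg_right (le_abs_self _) (pow_nonneg hη _))
        have b2 : ‖∑ i ∈ insert j s, c i * w i ^ (p ^ h) ^ (n + 1)‖ ≤
            |C₀| * η ^ (p ^ h) ^ (n + 1) :=
          (H (n + 1) (by omega)).trans
            (mul_le_mul_of_nonneg_right (le_abs_self _) (pow_nonneg hη _))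
        have b3 := pow_le_pow_left₀ (norm_nonneg _) b1 (p ^ h)
        rw [mul_pow, ← pow_mul η, ← pow_succ] at b3
        rw [e]
        refine (norm_sub_le _ _).trans ?_
        rw [norm_mul, norm_mul, norm_pow, norm_pow, add_mul, mul_assoc, mul_assoc]
        exact add_le_add (mul_le_mul_of_nonneg_left b3 (norm_nonneg _))
          (mul_le_mul_of_nonneg_left b2 (pow_nonneg (norm_nonneg _) _))
    have hjw : ‖w j‖ ≤ η := by
      refine Dens.single (p := p) hh hcj hη (C₀ := C₀ + ∑ i ∈ s, ‖c i‖) (m₀ := m₀)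
        fun m hm => ?_
      have e : c j * w j ^ (p ^ h) ^ m = ∑ i ∈ insert j s, c i * w i ^ (p ^ h) ^ m -
          ∑ i ∈ s, c i * w i ^ (p ^ h) ^ m := by
        rw [Finset.sum_insert hj]; ring
      rw [e, add_mul, Finset.sum_mul]
      refine (norm_sub_le _ _).trans (add_le_add (H m hm) ((norm_sum_le _ _).trans
        (Finset.sum_le_sum fun i hi => ?_)))
      rw [norm_mul, norm_pow]
      exact mul_le_mul_of_nonneg_left (pow_le_pow_left₀ (norm_nonneg _) (hs i hi) _)
        (norm_nonneg _)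
    intro i hi
    rcases Finset.mem_insert.1 hi with rfl | hi
    · exact hjw
    · exact hs i hi

theorem Dens.eval₂_trunc {σ R B : Type} [Finite σ] [CommRing R] [CommRing B] (ι : R →+* B)
    (a : σ → B) (f : MvPowerSeries σ R) (k : ℕ) :
    MvPolynomial.eval₂ ι a (truncTotal k f) =
      ∑ d ∈ (Finsupp.finite_of_degree_lt (σ := σ) k).toFinset,
        ι (coeff d f) * d.prod fun i n => a i ^ n := by
  rw [truncTotal, truncFinset_apply, MvPolynomial.eval₂_sum]
  exact Finset.sum_congr rfl fun d _ => MvPolynomial.eval₂_monomial _ _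

omit [CompleteSpace C] [CharP C p] [IsAlgClosed C] in
theorem Dens.exists_rho {σ : Type} [Finite σ] {s : σ → O C} (hs : ∀ i, s i ∈ mO C) :
    ∃ ρ : ℝ, 0 ≤ ρ ∧ ρ < 1 ∧ ∀ i, ‖(s i : C)‖ ≤ ρ := by
  cases nonempty_fintype σ
  obtain ⟨ϖ, hϖ, h⟩ := Nrm.exists_max Finset.univ s fun i _ => hs i
  exact ⟨_, norm_nonneg _, mem_mO.1 hϖ, fun i => h i (Finset.mem_univ i)⟩

omit [IsUltrametricDist C] [CompleteSpace C] [IsAlgClosed C] in
theorem Dens.finite_Fq (hh : 1 ≤ h) : Finite (Fq C p h) := by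
  classical
  have hp : 1 < p := (Fact.out : p.Prime).one_lt
  have h0 := FiniteField.X_pow_card_pow_sub_X_ne_zero C (n := h) (by omega) hp
  have h1 := Polynomial.rootSet_finite (Polynomial.X ^ p ^ h - Polynomial.X : Polynomial C) C
  refine (h1.subset (t := (Fq C p h : Set C)) fun x hx => ?_).to_subtype
  rw [Polynomial.mem_rootSet_of_ne h0]
  simpa [sub_eq_zero] using mem_Fq.1 hx

omit [CompleteSpace C] [CharP C p] [IsAlgClosed C] in
theorem Dens.eq_zero_of_le {x : O C} {ρ : ℝ} (hρ0 : 0 ≤ ρ) (hρ : ρ < 1)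
    (hx : ∀ k : ℕ, ‖(x : C)‖ ≤ ρ ^ k) : x = 0 := by
  have : ‖(x : C)‖ ≤ 0 :=
    ge_of_tendsto' (tendsto_pow_atTop_nhds_zero_of_lt_one hρ0 hρ) hx
  exact Subtype.ext (norm_le_zero_iff.1 this)

omit [CompleteSpace C] [IsAlgClosed C] in
/-- **Frobenius independence.**  First for `c` linearly independent over `𝔽_P` (conclusion
`‖w i‖ ≤ η`), by induction on the number of terms:
`c₁ E_m^P - c₁^P E_{m+1} = ∑_{i ≠ 1} (c₁ c_i^P - c₁^P c_i) w_i^(P^(m+1))` and the new coefficients
are again independent.  In general expand the `c i` in a basis of their span. -/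
theorem frob_indep (hh : 1 ≤ h) {κ : Type} (s : Finset κ) (c w : κ → C) {η C₀ : ℝ} (hη : 0 ≤ η)
    {m₀ : ℕ} (H : ∀ m ≥ m₀, ‖∑ i ∈ s, c i * w i ^ (p ^ h) ^ m‖ ≤ C₀ * η ^ (p ^ h) ^ m)
    (l : C →ₗ[Fq C p h] Fq C p h) : ‖∑ i ∈ s, (l (c i) : C) * w i‖ ≤ η := by
  classical
  let b := Module.Basis.ofVectorSpace (Fq C p h) C
  let T := s.biUnion fun i => (b.repr (c i)).support
  have hc : ∀ i ∈ s, c i = ∑ j ∈ T, b.repr (c i) j • b j := fun i hi => by
    conv_lhs => rw [← b.linearCombination_repr (c i), Finsupp.linearCombination_apply]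
    exact Finsupp.sum_of_support_subset _ (Finset.subset_biUnion_of_mem
      (fun i => (b.repr (c i)).support) hi) (fun j a => a • b j) (fun j _ => zero_smul _ _)
  have hW := Dens.indep hh (fun j => ∑ i ∈ s, (b.repr (c i) j : C) * w i) hη T b C₀ m₀
    (fun a ha => linearIndependent_iff'.1 b.linearIndependent T a ha) (fun m hm => by
      refine le_of_eq_of_le (congrArg _ ?_) (H m hm)
      simp only [Dens.sum_pow, mul_pow, Dens.coe_pow, Finset.mul_sum]
      rw [Finset.sum_comm]
      refine Finset.sum_congr rfl fun i hi => ?_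
      conv_rhs => rw [hc i hi, Finset.sum_mul]
      refine Finset.sum_congr rfl fun j _ => ?_
      change _ = (b.repr (c i) j : C) * b j * _
      ring)
  have e : ∑ i ∈ s, (l (c i) : C) * w i =
      ∑ j ∈ T, (l (b j) : C) * ∑ i ∈ s, (b.repr (c i) j : C) * w i := by
    simp only [Finset.mul_sum]
    rw [Finset.sum_comm]
    refine Finset.sum_congr rfl fun i hi => ?_
    conv_lhs => rw [hc i hi, map_sum]
    simp only [map_smul, smul_eq_mul]
    push_cast
    rw [Finset.sum_mul]
    exact Finset.sum_congr rfl fun j _ => by ring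
  rw [e]
  refine IsUltrametricDist.norm_sum_le_of_forall_le_of_nonneg hη fun j hj => ?_
  rw [norm_mul]
  exact (mul_le_of_le_one_left (norm_nonneg _)
    (norm_le_one_of_pow_eq hh (mem_Fq.1 (l (b j)).2))).trans (hW j hj)

omit [CompleteSpace C] [IsAlgClosed C] in
/-- `frob_indep` for truncations of power series -/
theorem Dens.trunc_le (hh : 1 ≤ h) {σ : Type} [Finite σ] (F : MvPowerSeries σ C) (s : σ → O C)
    (k : ℕ) {η C₀ : ℝ} (hη : 0 ≤ η) {m₀ : ℕ}
    (H : ∀ m ≥ m₀, ‖MvPolynomial.eval (fun i => (s i : C) ^ (p ^ h) ^ m) (truncTotal k F)‖ ≤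
      C₀ * η ^ (p ^ h) ^ m) (l : C →ₗ[Fq C p h] Fq C p h)
    (G : MvPowerSeries σ (Fq C p h)) (hG : ∀ d, coeff d G = l (coeff d F)) :
    ‖((MvPolynomial.eval₂ (FqO hh) s (truncTotal k G) : O C) : C)‖ ≤ η := by
  have h1 := frob_indep hh (Finsupp.finite_of_degree_lt (σ := σ) k).toFinset
    (fun d => coeff d F) (fun d => d.prod fun i n => (s i : C) ^ n) hη (C₀ := C₀) (m₀ := m₀)
    (fun m hm => by
      refine le_of_eq_of_le (congrArg _ ?_) (H m hm)
      rw [← MvPolynomial.eval₂_id, Dens.eval₂_trunc]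
      refine Finset.sum_congr rfl fun d _ => ?_
      simp only [RingHom.id_apply, Finsupp.prod, ← Finset.prod_pow, ← pow_mul]
      congr 1
      exact Finset.prod_congr rfl fun i _ => by rw [mul_comm]) l
  refine le_of_eq_of_le (congrArg _ ?_) h1
  rw [Dens.eval₂_trunc]
  push_cast
  refine Finset.sum_congr rfl fun d _ => ?_
  simp only [Finsupp.prod, hG]
  push_cast
  rfl

omit [IsAlgClosed C] in
/-- A series over `O` vanishing at all `s^(P^m)` yields series over `𝔽_P` vanishing at `s`. -/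
theorem ev_lam_eq_zero (hh : 1 ≤ h) {σ : Type} [Finite σ] (K : MvPowerSeries σ (O C))
    {s : σ → O C} (hs : ∀ i, s i ∈ mO C)
    (hK : ∀ m : ℕ, ev (RingHom.id _) (fun i => s i ^ (p ^ h) ^ m) K = 0)
    (l : C →ₗ[Fq C p h] Fq C p h) :
    ev (FqO hh) s (fun d => l ((coeff d K : O C) : C) : MvPowerSeries σ (Fq C p h)) = 0 := by
  obtain ⟨ρ, hρ0, hρ, hsρ⟩ := Dens.exists_rho hs
  obtain ⟨G, hG, hG'⟩ : ∃ G : MvPowerSeries σ (Fq C p h),
      G = (fun d => l ((coeff d K : O C) : C) : MvPowerSeries σ (Fq C p h)) ∧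
      ∀ d, coeff d G = l (coeff d (K.map (O C).subtype)) := ⟨_, rfl, fun _ => rfl⟩
  change ev (FqO hh) s (id _ : MvPowerSeries σ (Fq C p h)) = 0
  rw [← hG, id]
  refine Dens.eq_zero_of_le hρ0 hρ fun k => ?_
  have h1 := Dens.trunc_le hh (K.map (O C).subtype) s k (pow_nonneg hρ0 k) (C₀ := 1) (m₀ := 0)
    (fun m _ => by
      have hP : (p ^ h) ^ m ≠ 0 := pow_ne_zero _ (pow_ne_zero _ (Fact.out : p.Prime).ne_zero)
      have h2 := norm_ev_sub_trunc_le (RingHom.id (O C)) (a := fun i => s i ^ (p ^ h) ^ m)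
        (pow_nonneg hρ0 ((p ^ h) ^ m)) (pow_lt_one₀ hρ0 hρ hP) (fun i => by
          rw [SubmonoidClass.coe_pow, norm_pow]
          exact pow_le_pow_left₀ (norm_nonneg _) (hsρ i) _) K k
      rw [hK m, zero_sub, Subring.coe_neg, norm_neg, ← pow_mul ρ, mul_comm _ k, pow_mul ρ] at h2
      rw [one_mul]
      refine le_of_eq_of_le (congrArg _ ?_) h2
      rw [← MvPolynomial.eval₂_id, Dens.eval₂_trunc, Dens.eval₂_trunc]
      push_cast
      refine Finset.sum_congr rfl fun d _ => ?_
      simp only [Finsupp.prod]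
      push_cast
      rfl) l G hG'
  have h2 := norm_ev_sub_trunc_le (FqO hh) hρ0 hρ hsρ G k
  rw [AddSubgroupClass.coe_sub] at h2
  rw [← sub_add_cancel ((ev (FqO hh) s G : O C) : C)
    ((MvPolynomial.eval₂ (FqO hh) s (truncTotal k G) : O C) : C)]
  exact (IsUltrametricDist.norm_add_le_max _ _).trans (max_le h2 h1)

omit [IsAlgClosed C] in
/-- From approximate relations over `C` to an exact relation over `𝔽_P`.  For each `D` choose `l_D`
with `l_D (coeff α_D F_D) = 1`, `G_D = l_D (trunc F_D)`; `frob_indep` gives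
`‖G_D (s)‖ ≤ ρ^(D+1)`.  Take the coefficientwise limit `G` along `hyperfilter ℕ` (`𝔽_P` is finite,
and there are finitely many `α` of degree `≤ e`). -/
theorem dens (hh : 1 ≤ h) {σ : Type} [Finite σ] (e : ℕ) {ρ : ℝ} (hρ0 : 0 ≤ ρ) (hρ : ρ < 1)
    (S : Set (σ → O C)) (hS : ∀ s ∈ S, ∀ i, s i ∈ mO C)
    (hF : ∀ D : ℕ, ∃ F : MvPowerSeries σ C, (∃ α : σ →₀ ℕ, α.degree ≤ e ∧ coeff α F ≠ 0) ∧
      ∀ s ∈ S, ∃ (C₀ : ℝ) (m₀ : ℕ), ∀ m ≥ m₀,
        ‖MvPolynomial.eval (fun i => (s i : C) ^ (p ^ h) ^ m) (truncTotal (D + 1) F)‖ ≤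
          C₀ * (ρ ^ (D + 1)) ^ (p ^ h) ^ m) :
    ∃ G : MvPowerSeries σ (Fq C p h), G ≠ 0 ∧ ∀ s ∈ S, ev (FqO hh) s G = 0 := by
  choose F hα hF using hF
  choose α hαe hα0 using hα
  have hl : ∀ D, ∃ l : C →ₗ[Fq C p h] Fq C p h, l (coeff (α D) (F D)) = 1 := fun D =>
    Module.Projective.exists_dual_eq_one (Fq C p h) (hα0 D)
  choose l hl using hl
  have := Dens.finite_Fq (C := C) (p := p) hh
  let U : Ultrafilter ℕ := hyperfilter ℕ
  have hG : ∀ d : σ →₀ ℕ, ∃ a : Fq C p h, ∀ᶠ D in U, l D (coeff d (F D)) = a := fun d =>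
    Ultrafilter.eventually_exists_iff.1 (Eventually.of_forall fun D => ⟨_, rfl⟩)
  choose G₀ hG using hG
  obtain ⟨G, hG₀⟩ : ∃ G : MvPowerSeries σ (Fq C p h), ∀ d, coeff d G = G₀ d := ⟨G₀, fun _ => rfl⟩
  simp only [← hG₀] at hG
  obtain ⟨β, -, hβ⟩ := (Ultrafilter.eventually_exists_mem_iff (f := U)
    (P := fun β D => α D = β) (Finsupp.finite_of_degree_le (σ := σ) e)).1
    (Eventually.of_forall fun D => ⟨α D, hαe D, rfl⟩)
  refine ⟨G, fun h0 => ?_, fun s hs => ?_⟩
  · obtain ⟨D, h1, h2⟩ := (hβ.and (hG β)).exists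
    rw [← h1, hl D, h1] at h2
    rw [h0, map_zero] at h2
    exact one_ne_zero h2
  · obtain ⟨r, hr0, hr, hsr⟩ := Dens.exists_rho (hS s hs)
    have hm0 : 0 ≤ max ρ r := le_max_of_le_left hρ0
    have hm1 : max ρ r < 1 := max_lt hρ hr
    have hsm : ∀ i, ‖(s i : C)‖ ≤ max ρ r := fun i => le_max_of_le_right (hsr i)
    refine Dens.eq_zero_of_le hm0 hm1 fun k => ?_
    have h1 : ∀ᶠ D in U, ∀ d ∈ {d : σ →₀ ℕ | d.degree < k}, l D (coeff d (F D)) = coeff d G :=
      (eventually_all_finite (Finsupp.finite_of_degree_lt k)).2 fun d _ => hG d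
    have h2 : ∀ᶠ D in U, k ≤ D :=
      Nat.hyperfilter_le_atTop (eventually_ge_atTop k)
    obtain ⟨D, h1, h2⟩ := (h1.and h2).exists
    obtain ⟨C₀, m₀, H⟩ := hF D s hs
    obtain ⟨GD, hGD⟩ : ∃ GD : MvPowerSeries σ (Fq C p h), ∀ d, coeff d GD = l D (coeff d (F D)) :=
      ⟨fun d => l D (coeff d (F D)), fun _ => rfl⟩
    have e : truncTotal k G = truncTotal k GD := by
      ext1 d
      rw [coeff_truncTotal_eq_ite, coeff_truncTotal_eq_ite]
      split_ifs with hd
      · rw [hGD, h1 d hd]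
      · rfl
    have hpow : (max ρ r) ^ (D + 1) ≤ (max ρ r) ^ k :=
      pow_le_pow_of_le_one hm0 hm1.le (by omega)
    have b1 := norm_ev_sub_trunc_le (FqO hh) hm0 hm1 hsm G k
    have b2 := norm_ev_sub_trunc_le (FqO hh) hm0 hm1 hsm GD k
    have b3 := (norm_ev_sub_trunc_le (FqO hh) hm0 hm1 hsm GD (D + 1)).trans hpow
    have b4 := ((Dens.trunc_le hh (F D) s (D + 1) (pow_nonneg hρ0 _) H (l D) GD hGD).trans
      (pow_le_pow_left₀ hρ0 (le_max_left ρ r) _)).trans hpow
    rw [e] at b1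
    rw [AddSubgroupClass.coe_sub] at b1 b2 b3
    set x1 := ((ev (FqO hh) s G : O C) : C)
    set x2 := ((MvPolynomial.eval₂ (FqO hh) s (truncTotal k GD) : O C) : C)
    set x3 := ((ev (FqO hh) s GD : O C) : C)
    set x4 := ((MvPolynomial.eval₂ (FqO hh) s (truncTotal (D + 1) GD) : O C) : C)
    rw [norm_sub_rev] at b2
    rw [show x1 = ((x1 - x2) + (x2 - x3)) + ((x3 - x4) + x4) by ring]
    exact (IsUltrametricDist.norm_add_le_max _ _).trans (max_le
      ((IsUltrametricDist.norm_add_le_max _ _).trans (max_le b1 b2))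
      ((IsUltrametricDist.norm_add_le_max _ _).trans (max_le b3 b4)))

theorem Dens.coeff_X_mul_pderiv {k σ : Type} [CommRing k] (f : MvPowerSeries σ k) (i : σ)
    (d : σ →₀ ℕ) : coeff d (X i * pderiv k i f) = (d i : k) * coeff d f := by
  classical
  rw [X_def, coeff_monomial_mul]
  split_ifs with hd
  · have hd' : 1 ≤ d i := by simpa using hd
    rw [one_mul, coeff_pderiv, tsub_add_cancel_of_le hd, mul_comm]
    congr 1
    rw [Finsupp.tsub_apply, Finsupp.single_eq_same, ← Nat.cast_add_one, Nat.sub_add_cancel hd']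
  · have hd' : d i = 0 := by simpa using hd
    rw [hd', Nat.cast_zero, zero_mul]

open Classical in
theorem Dens.proj_mem {k σ : Type} [Field k] [CharP k p] (J : Ideal (MvPowerSeries σ k))
    (hD : ∀ f ∈ J, ∀ i, pderiv k i f ∈ J) {f : MvPowerSeries σ k} (hf : f ∈ J) (T : Finset σ) :
    ∃ g ∈ J, ∀ d, coeff d g = if ∀ i ∈ T, p ∣ d i then coeff d f else 0 := by
  have hθ : ∀ (i : σ) (n : ℕ), ∀ g ∈ J, ∃ g' ∈ J, ∀ d, coeff d g' = (d i : k) ^ n * coeff d g := by
    intro i n
    induction n with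
    | zero => exact fun g hg => ⟨g, hg, fun d => by simp⟩
    | succ n ih =>
      intro g hg
      obtain ⟨g', hg', e⟩ := ih g hg
      refine ⟨X i * pderiv k i g', J.mul_mem_left _ (hD g' hg' i), fun d => ?_⟩
      rw [Dens.coeff_X_mul_pderiv, e, pow_succ]
      ring
  induction T using Finset.induction_on with
  | empty => exact ⟨f, hf, fun d => by simp⟩
  | insert i T hi ih =>
    obtain ⟨g, hg, e⟩ := ih
    obtain ⟨g', hg', e'⟩ := hθ i (p - 1) g hg
    refine ⟨g - g', J.sub_mem hg hg', fun d => ?_⟩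
    have hp : p.Prime := Fact.out
    rw [map_sub, e', e]
    simp only [Finset.forall_mem_insert]
    by_cases hdi : p ∣ d i
    · rw [(CharP.cast_eq_zero_iff k p _).2 hdi, zero_pow (by have := hp.two_le; omega)]
      simp [hdi]
    · have h1 : (d i : k) ^ (p - 1) = 1 := by
        have h2 : ((d i : ℕ) : ZMod p) ^ (p - 1) = 1 :=
          ZMod.pow_card_sub_one_eq_one (by rwa [Ne, ZMod.natCast_eq_zero_iff])
        have := congrArg (ZMod.castHom (dvd_refl p) k) h2
        simpa using this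
      rw [h1]
      simp [hdi]

/-- A radical ideal of `k⟦X⟧` (`k` perfect of characteristic `p`), contained in `(X)` and stable
under all partial derivatives, is zero: write `f = ∑_{a ∈ [0,p)^σ} X^a f_a^p`; the operators
`∏ (1 - (X_i ∂_i - a_i)^(p-1))` and `∂^a` give `f_a ∈ J`; look at an element of least order. -/
theorem eq_bot_of_pderiv {k σ : Type} [Field k] [CharP k p] [PerfectRing k p] [Finite σ]
    (J : Ideal (MvPowerSeries σ k)) (hrad : J.IsRadical) (h0 : ∀ f ∈ J, constantCoeff f = 0)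
    (hD : ∀ f ∈ J, ∀ i, pderiv k i f ∈ J) : J = ⊥ := by
  classical
  cases nonempty_fintype σ
  have hp : p.Prime := Fact.out
  have key : ∀ n : ℕ, ∀ d : σ →₀ ℕ, d.degree = n → ∀ f ∈ J, coeff d f = 0 := by
    intro n
    induction n using Nat.strong_induction_on with
    | _ n ih =>
      intro d hd f hf
      by_cases hdiv : ∀ i, p ∣ d i
      · by_cases hd0 : d = 0
        · subst hd0
          simpa using h0 f hf
        obtain ⟨g, hg, e⟩ := Dens.proj_mem (p := p) J hD hf Finset.univ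
        let u : MvPowerSeries σ k := fun a => (frobeniusEquiv k p).symm (coeff (p • a) f)
        have hu : ∀ a, coeff a u = (frobeniusEquiv k p).symm (coeff (p • a) f) := fun _ => rfl
        have hsm : ∀ a : σ →₀ ℕ, (∀ i, p ∣ a i) → ∃ a' : σ →₀ ℕ, a = p • a' := fun a ha =>
          ⟨a.mapRange (· / p) (by simp), by
            ext i
            simp [Nat.mul_div_cancel' (ha i)]⟩
        have hup : u ^ p = g := by
          rw [← map_frobenius_expand p hp.ne_zero]
          ext a
          rw [coeff_map, e]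
          by_cases ha : ∀ i, p ∣ a i
          · obtain ⟨a', rfl⟩ := hsm a ha
            rw [if_pos fun i _ => ha i, coeff_expand_smul, hu]
            exact frobenius_apply_frobeniusEquiv_symm k p _
          · rw [if_neg fun h' => ha fun i => h' i (Finset.mem_univ i)]
            push Not at ha
            obtain ⟨i, hi⟩ := ha
            rw [coeff_expand_of_not_dvd p hp.ne_zero u hi, map_zero]
        have huJ : u ∈ J := hrad ⟨p, hup ▸ hg⟩
        obtain ⟨d', rfl⟩ := hsm d hdiv
        have hd' : d'.degree ≠ 0 := by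
          rw [Ne, Finsupp.degree_eq_zero_iff]
          rintro rfl
          simp at hd0
        have hlt : d'.degree < n := by
          rw [← hd, map_nsmul, smul_eq_mul]
          have := hp.two_le
          nlinarith [Nat.pos_of_ne_zero hd']
        have := ih _ hlt d' rfl u huJ
        rwa [hu, map_eq_zero_iff _ (frobeniusEquiv k p).symm.injective] at this
      · push Not at hdiv
        obtain ⟨i, hi⟩ := hdiv
        have hi1 : Finsupp.single i 1 ≤ d := by
          rw [Finsupp.single_le_iff]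
          rcases Nat.eq_zero_or_pos (d i) with h | h
          · exact absurd (h ▸ dvd_zero p) hi
          · exact h
        obtain ⟨d', rfl⟩ := exists_add_of_le hi1
        have hlt : d'.degree < n := by
          rw [← hd, map_add, Finsupp.degree_single]
          omega
        have := ih _ hlt d' rfl _ (hD f hf i)
        rw [coeff_pderiv, add_comm d', mul_eq_zero] at this
        refine this.resolve_right fun h' => hi ?_
        rw [← CharP.cast_eq_zero_iff k p, Finsupp.add_apply, Finsupp.single_eq_same, add_comm,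
          Nat.cast_add_one]
        exact h'
  rw [eq_bot_iff]
  intro f hf
  rw [Ideal.mem_bot]
  ext d
  rw [key _ d rfl f hf, map_zero]

end Crest.Agent.R227
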