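import Crest.Prelude.Def_LubinTate

/-!
# R227 / EvAux : auxiliary lemmas for `Ev` (adic completeness of power series rings)
-/

set_option autoImplicit false

namespace Crest.Agent.R227.EvAux

open MvPowerSeries

variable {σ τ R R' B B' : Type} [CommRing R] [CommRing R'] [CommRing B] [CommRing B']

theorem smodEq_iff (I : Ideal B) (n : ℕ) (x y : B) :
    x ≡ y [SMOD (I ^ n • ⊤ : Submodule B B)] ↔ x - y ∈ I ^ n := by
  rw [SModEq.sub_mem, smul_eq_mul, Ideal.mul_top]

theorem eq_zero_of_mem_pow (I : Ideal B) [h : IsHausdorff I B] {x : B} (hx : ∀ n, x ∈ I ^ n) :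
    x = 0 :=
  h.haus x fun n => by rw [smodEq_iff, sub_zero]; exact hx n

theorem isHausdorff_of_le {I J : Ideal B} (h : I ≤ J) [IsHausdorff J B] : IsHausdorff I B :=
  ⟨fun x hx => eq_zero_of_mem_pow J fun n => by
    have := hx n
    rw [smodEq_iff, sub_zero] at this
    exact Ideal.pow_right_mono h n this⟩

theorem isPrecomplete_of_seq (I : Ideal B)
    (h : ∀ f : ℕ → B, (∀ m n, m ≤ n → f m - f n ∈ I ^ m) → ∃ L, ∀ n, f n - L ∈ I ^ n) :
    IsPrecomplete I B :=
  ⟨fun f hf => by
    obtain ⟨L, hL⟩ := h f fun m n hmn => (smodEq_iff I m _ _).1 (hf hmn)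
    exact ⟨L, fun n => (smodEq_iff I n _ _).2 (hL n)⟩⟩

theorem exists_lim (I : Ideal B) [h : IsPrecomplete I B] (f : ℕ → B)
    (hf : ∀ m n, m ≤ n → f m - f n ∈ I ^ m) : ∃ L, ∀ n, f n - L ∈ I ^ n := by
  obtain ⟨L, hL⟩ := h.prec (f := f) fun {m n} hmn => (smodEq_iff I m _ _).2 (hf m n hmn)
  exact ⟨L, fun n => (smodEq_iff I n _ _).1 (hL n)⟩

theorem isAdicComplete_of_pow_eq_bot (I : Ideal B) {n : ℕ} (hn : I ^ n = ⊥) :
    IsAdicComplete I B where
  haus' x hx := by
    have := hx n
    rw [smodEq_iff, sub_zero, hn] at this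
    simpa using this
  prec' := (isPrecomplete_of_seq I fun f hf => ⟨f n, fun m => by
    rcases le_total m n with h | h
    · exact hf m n h
    · have := hf n m h
      rw [hn, Ideal.mem_bot, sub_eq_zero] at this
      rw [this, sub_self]
      exact zero_mem _⟩).prec'

/-- the ideal of series whose coefficients of degree `d` lie in `I ^ (k - degree d)` -/
def filt (τ : Type) (I : Ideal B) (k : ℕ) : Ideal (MvPowerSeries τ B) where
  carrier := {f | ∀ d : τ →₀ ℕ, coeff d f ∈ I ^ (k - d.degree)}
  add_mem' {f g} hf hg d := by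
    rw [map_add]
    exact add_mem (hf d) (hg d)
  zero_mem' d := by simp
  smul_mem' c f hf d := by
    classical
    rw [smul_eq_mul, coeff_mul]
    refine Ideal.sum_mem _ fun p hp => Ideal.mul_mem_left _ _ ?_
    have h1 : p.1 + p.2 = d := Finset.HasAntidiagonal.mem_antidiagonal.1 hp
    have h2 : p.2.degree ≤ d.degree := by rw [← h1, map_add]; omega
    exact Ideal.pow_le_pow_right (by omega) (hf p.2)

theorem mem_filt {I : Ideal B} {k : ℕ} {f : MvPowerSeries τ B} :
    f ∈ filt τ I k ↔ ∀ d : τ →₀ ℕ, coeff d f ∈ I ^ (k - d.degree) := Iff.rfl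

theorem mul_mem_filt {I : Ideal B} {j k : ℕ} {f g : MvPowerSeries τ B} (hf : f ∈ filt τ I j)
    (hg : g ∈ filt τ I k) : f * g ∈ filt τ I (j + k) := by
  classical
  intro d
  rw [coeff_mul]
  refine Ideal.sum_mem _ fun p hp => ?_
  have h1 : p.1 + p.2 = d := Finset.HasAntidiagonal.mem_antidiagonal.1 hp
  have h2 : p.1.degree + p.2.degree = d.degree := by rw [← h1, map_add]
  have := Ideal.mul_mem_mul (hf p.1) (hg p.2)
  rw [← pow_add] at this
  exact Ideal.pow_le_pow_right (by omega) this

theorem comap_le_filt (I : Ideal B) :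
    I.comap (constantCoeff : MvPowerSeries τ B →+* B) ≤ filt τ I 1 := by
  intro f hf d
  by_cases hd : d = 0
  · subst hd
    simpa using hf
  · have : d.degree ≠ 0 := by rwa [Ne, Finsupp.degree_eq_zero_iff]
    rw [show 1 - d.degree = 0 by omega]
    simp

theorem comap_pow_le_filt (I : Ideal B) (k : ℕ) :
    (I.comap (constantCoeff : MvPowerSeries τ B →+* B)) ^ k ≤ filt τ I k := by
  induction k with
  | zero => intro f _ d; simp
  | succ k ih =>
    rw [pow_succ]
    refine Ideal.mul_le.2 fun f hf g hg => mul_mem_filt (ih hf) (comap_le_filt I hg)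

/-- decomposition `f = ∑ X i * g i` lowering the order by one -/
theorem exists_sum_X_mul [Fintype σ] {f : MvPowerSeries σ R} {k : ℕ}
    (hf : ∀ d : σ →₀ ℕ, d.degree < k + 1 → coeff d f = 0) :
    ∃ g : σ → MvPowerSeries σ R, (∀ i, ∀ d : σ →₀ ℕ, d.degree < k → coeff d (g i) = 0) ∧
      f = ∑ i, X i * g i := by
  classical
  rcases isEmpty_or_nonempty σ with hσ | hσ
  · refine ⟨fun _ => 0, fun i => isEmptyElim i, ?_⟩
    ext e
    rw [hf e (by rw [Subsingleton.elim e 0]; simp)]
    simp
  have hc : ∀ d : σ →₀ ℕ, d ≠ 0 → ∃ i, d i ≠ 0 := fun d hd => by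
    by_contra h
    push Not at h
    exact hd (Finsupp.ext h)
  choose! c hc using hc
  refine ⟨fun i => fun d => if c (d + Finsupp.single i 1) = i then
    coeff (d + Finsupp.single i 1) f else 0, fun i d hd => ?_, ?_⟩
  · change (if c (d + Finsupp.single i 1) = i then coeff (d + Finsupp.single i 1) f else 0) = 0
    split_ifs
    · apply hf
      rw [map_add, Finsupp.degree_single]
      omega
    · rfl
  · ext e
    rw [map_sum]
    by_cases he : e = 0
    · subst he
      rw [hf 0 (by simp)]
      simp [coeff_zero_X_mul]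
    · rw [Finset.sum_eq_single (c e)]
      · have h1 : Finsupp.single (c e) 1 ≤ e := by
          rw [Finsupp.single_le_iff]
          exact Nat.one_le_iff_ne_zero.2 (hc e he)
        rw [X, coeff_monomial_mul, if_pos h1, one_mul]
        change _ = if c (e - Finsupp.single (c e) 1 + Finsupp.single (c e) 1) = c e then
          coeff (e - Finsupp.single (c e) 1 + Finsupp.single (c e) 1) f else 0
        rw [tsub_add_cancel_of_le h1, if_pos rfl]
      · intro i _ hi
        rw [X, coeff_monomial_mul]
        split_ifs with h1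
        · rw [one_mul]
          change (if c (e - Finsupp.single i 1 + Finsupp.single i 1) = i then
            coeff (e - Finsupp.single i 1 + Finsupp.single i 1) f else 0) = 0
          rw [tsub_add_cancel_of_le h1, if_neg (Ne.symm hi)]
        · rfl
      · intro h
        exact absurd (Finset.mem_univ _) h

theorem span_X_le_comap (I : Ideal R) :
    Ideal.span (Set.range (X : σ → MvPowerSeries σ R)) ≤
      I.comap (constantCoeff : MvPowerSeries σ R →+* R) := by
  rw [Ideal.span_le]
  rintro _ ⟨i, rfl⟩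
  simp

theorem mem_span_X_pow [Finite σ] {f : MvPowerSeries σ R} {k : ℕ} :
    f ∈ (Ideal.span (Set.range (X : σ → MvPowerSeries σ R))) ^ k ↔
      ∀ d : σ →₀ ℕ, d.degree < k → coeff d f = 0 := by
  constructor
  · intro hf d hd
    have := comap_pow_le_filt (⊥ : Ideal R) k
      (Ideal.pow_right_mono (span_X_le_comap ⊥) k hf) d
    obtain ⟨m, hm⟩ : ∃ m, k - d.degree = m + 1 := ⟨k - d.degree - 1, by omega⟩
    rw [hm, pow_succ, Ideal.mul_bot] at this
    simpa using this
  · cases nonempty_fintype σ
    induction k generalizing f with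
    | zero => intro _; simp
    | succ k ih =>
      intro hf
      obtain ⟨g, hg, rfl⟩ := exists_sum_X_mul hf
      refine Ideal.sum_mem _ fun i _ => ?_
      rw [pow_succ']
      exact Ideal.mul_mem_mul (Ideal.subset_span ⟨i, rfl⟩) (ih (hg i))

theorem sub_trunc_mem [Finite σ] (f : MvPowerSeries σ R) (k : ℕ) :
    f - (truncTotal k f : MvPolynomial σ R) ∈
      (Ideal.span (Set.range (X : σ → MvPowerSeries σ R))) ^ k := by
  rw [mem_span_X_pow]
  intro d hd
  rw [map_sub, MvPolynomial.coeff_coe, coeff_truncTotal _ hd, sub_self]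

theorem monomial_one_mem (d : σ →₀ ℕ) :
    (monomial d (1 : R) : MvPowerSeries σ R) ∈
      (Ideal.span (Set.range (X : σ → MvPowerSeries σ R))) ^ d.degree := by
  induction d using Finsupp.induction_linear with
  | zero => simp
  | add f g hf hg =>
    rw [map_add, pow_add, ← one_mul (1 : R), ← monomial_mul_monomial]
    exact Ideal.mul_mem_mul hf hg
  | single i n =>
    rw [Finsupp.degree_single, ← X_pow_eq]
    exact Ideal.pow_mem_pow (Ideal.subset_span (Set.mem_range_self i)) n

theorem filt_le_comap_pow [Finite τ] (I : Ideal B) (k : ℕ) :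
    filt τ I k ≤ (I.comap (constantCoeff : MvPowerSeries τ B →+* B)) ^ k := by
  classical
  intro f hf
  have h1 := Ideal.pow_right_mono (span_X_le_comap (σ := τ) I) k (sub_trunc_mem f k)
  have h2 : ((truncTotal k f : MvPolynomial τ B) : MvPowerSeries τ B) ∈
      (I.comap (constantCoeff : MvPowerSeries τ B →+* B)) ^ k := by
    rw [(truncTotal k f).as_sum, ← MvPolynomial.coeToMvPowerSeries.ringHom_apply, map_sum]
    refine Ideal.sum_mem _ fun d hd => ?_
    have hdk : d.degree < k := by
      by_contra h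
      exact (MvPolynomial.mem_support_iff.1 hd) (coeff_truncTotal_eq_zero _ (not_lt.1 h))
    rw [MvPolynomial.coeToMvPowerSeries.ringHom_apply, MvPolynomial.coe_monomial,
      coeff_truncTotal _ hdk]
    have e : (monomial d (coeff d f) : MvPowerSeries τ B) = C (coeff d f) * monomial d 1 := by
      rw [← monomial_zero_eq_C_apply, monomial_mul_monomial, zero_add, mul_one]
    rw [e, show k = (k - d.degree) + d.degree by omega, pow_add]
    refine Ideal.mul_mem_mul ?_
      (Ideal.pow_right_mono (span_X_le_comap (σ := τ) I) _ (monomial_one_mem d))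
    have h3 : I.map (C : B →+* MvPowerSeries τ B) ≤
        I.comap (constantCoeff : MvPowerSeries τ B →+* B) := by
      rw [Ideal.map_le_iff_le_comap]
      intro x hx
      simpa using hx
    have h4 := Ideal.mem_map_of_mem (C : B →+* MvPowerSeries τ B) (hf d)
    rw [Ideal.map_pow] at h4
    exact Ideal.pow_right_mono h3 _ h4
  simpa using add_mem h1 h2

theorem mem_comap_pow [Finite τ] {I : Ideal B} {k : ℕ} {f : MvPowerSeries τ B} :
    f ∈ (I.comap (constantCoeff : MvPowerSeries τ B →+* B)) ^ k ↔
      ∀ d : τ →₀ ℕ, coeff d f ∈ I ^ (k - d.degree) :=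
  ⟨fun h => comap_pow_le_filt I k h, fun h => filt_le_comap_pow I k h⟩

theorem isAdicComplete_comap [Finite τ] (I : Ideal B) [IsAdicComplete I B] :
    IsAdicComplete (I.comap (constantCoeff : MvPowerSeries τ B →+* B)) (MvPowerSeries τ B) where
  haus' f hf := by
    ext d
    rw [map_zero]
    refine eq_zero_of_mem_pow I fun n => ?_
    have := hf (n + d.degree)
    rw [smodEq_iff, sub_zero, mem_comap_pow] at this
    simpa using this d
  prec' := (isPrecomplete_of_seq _ fun f hf => by
    have key : ∀ d : τ →₀ ℕ, ∃ L : B, ∀ n, coeff d (f (n + d.degree)) - L ∈ I ^ n := fun d =>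
      exists_lim I (fun n => coeff d (f (n + d.degree))) fun m n hmn => by
        have := (mem_comap_pow.1 (hf (m + d.degree) (n + d.degree) (by omega))) d
        simpa using this
    choose L hL using key
    refine ⟨L, fun n => mem_comap_pow.2 fun d => ?_⟩
    rcases le_total d.degree n with h | h
    · have := hL d (n - d.degree)
      rw [Nat.sub_add_cancel h] at this
      rw [map_sub]
      exact this
    · rw [show n - d.degree = 0 by omega]
      simp).prec'

theorem ringHom_coe (φ : MvPowerSeries σ R →+* B) (p : MvPolynomial σ R) :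
    φ (p : MvPowerSeries σ R) = MvPolynomial.eval₂ (φ.comp C) (fun i => φ (X i)) p := by
  induction p using MvPolynomial.induction_on with
  | C a => simp
  | add p q hp hq => simp [hp, hq]
  | mul_X p i hp => simp [hp]

theorem map_mem_pow [Finite σ] (φ : MvPowerSeries σ R →+* B) {f : MvPowerSeries σ R} {k : ℕ}
    (hf : f ∈ (Ideal.span (Set.range (X : σ → MvPowerSeries σ R))) ^ k) :
    φ f ∈ (Ideal.span (Set.range fun i => φ (X i))) ^ k := by
  have := Ideal.mem_map_of_mem φ hf
  rwa [Ideal.map_pow, Ideal.map_span, ← Set.range_comp] at this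

theorem hom_ext [Finite σ] (I : Ideal B) [IsHausdorff I B] {f g : MvPowerSeries σ R →+* B}
    (hC : ∀ r, f (C r) = g (C r)) (hX : ∀ i, f (X i) = g (X i)) (hN : ∀ i, f (X i) ∈ I) :
    f = g := by
  ext1 p
  rw [← sub_eq_zero]
  refine eq_zero_of_mem_pow I fun k => ?_
  have hle : Ideal.span (Set.range fun i => f (X i)) ≤ I := by
    rw [Ideal.span_le]
    rintro _ ⟨i, rfl⟩
    exact hN i
  have h1 := Ideal.pow_right_mono hle k (map_mem_pow f (sub_trunc_mem p k))
  have h2 := map_mem_pow g (sub_trunc_mem p k)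
  simp only [← hX] at h2
  have h3 := Ideal.pow_right_mono hle k h2
  have h4 : f ((truncTotal k p : MvPolynomial σ R) : MvPowerSeries σ R) =
      g ((truncTotal k p : MvPolynomial σ R) : MvPowerSeries σ R) := by
    rw [ringHom_coe, ringHom_coe]
    congr 1
    · ext r; exact hC r
    · ext i; exact hX i
  have := sub_mem h1 h3
  rw [map_sub, map_sub, h4] at this
  simpa using this

theorem exists_ev [Finite σ] (I : Ideal B) [IsAdicComplete I B] (ι : R →+* B) {a : σ → B}
    (ha : ∀ i, a i ∈ I) :
    ∃ φ : MvPowerSeries σ R →+* B, (∀ r, φ (C r) = ι r) ∧ ∀ i, φ (X i) = a i := by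
  have hle : ∀ n, MvPolynomial.idealOfVars σ R ^ n ≤
      (I ^ n).comap (MvPolynomial.eval₂Hom ι a) := fun n => by
    refine le_trans (Ideal.pow_right_mono ?_ n) (Ideal.le_comap_pow _ n)
    rw [MvPolynomial.idealOfVars, Ideal.span_le]
    rintro _ ⟨i, rfl⟩
    simpa using ha i
  let F : (n : ℕ) → MvPowerSeries σ R →+* B ⧸ I ^ n := fun n =>
    (Ideal.quotientMap (I ^ n) (MvPolynomial.eval₂Hom ι a) (hle n)).comp
      (truncTotalAlgHom σ R n).toRingHom
  have hF : ∀ n p, F n p = Ideal.Quotient.mk (I ^ n)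
      (MvPolynomial.eval₂Hom ι a (truncTotal n p)) := fun n p => rfl
  have hF' : ∀ {m n : ℕ} (hle : m ≤ n),
      (Ideal.Quotient.factorPow I hle).comp (F n) = F m := fun {m n} hmn => by
    ext p
    rw [RingHom.comp_apply, hF, hF]
    simp only [Ideal.Quotient.factorPow, Ideal.Quotient.factor_mk]
    rw [Ideal.Quotient.eq, ← map_sub]
    exact hle m (truncTotal_sub_truncTotal_mem_pow_idealOfVars hmn le_rfl p)
  have hpoly : ∀ p : MvPolynomial σ R,
      IsAdicComplete.liftRingHom I F hF' (p : MvPowerSeries σ R) =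
        MvPolynomial.eval₂Hom ι a p := fun p => by
    rw [← sub_eq_zero]
    refine eq_zero_of_mem_pow I fun n => ?_
    rw [← Ideal.Quotient.eq, IsAdicComplete.mk_liftRingHom, hF, Ideal.Quotient.eq, ← map_sub]
    refine hle n ((MvPolynomial.mem_pow_idealOfVars_iff' _ _).2 fun x hx => ?_)
    rw [MvPolynomial.coeff_sub, coeff_truncTotal _ hx, MvPolynomial.coeff_coe, sub_self]
  refine ⟨IsAdicComplete.liftRingHom I F hF', fun r => ?_, fun i => ?_⟩
  · simpa using hpoly (MvPolynomial.C r)
  · simpa using hpoly (MvPolynomial.X i)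

theorem isPrecomplete_map {S : Type} [CommRing S] (J : Ideal S) [IsPrecomplete J S]
    (φ : S →+* B) (hφ : Function.Surjective φ) : IsPrecomplete (J.map φ) B := by
  let _ := φ.toAlgebra
  have h : IsPrecomplete J B := by
    rw [← AdicCompletion.of_surjective_iff]
    intro y
    obtain ⟨x', hx'⟩ := AdicCompletion.map_surjective J
      (f := (Algebra.ofId S B).toLinearMap) hφ y
    obtain ⟨x, rfl⟩ := AdicCompletion.of_surjective J S x'
    exact ⟨_, by rw [← hx', AdicCompletion.map_of]⟩
  exact IsPrecomplete.map_algebraMap_iff.2 h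

/-- Stacks 090T: a finitely generated ideal inside an ideal of completeness. -/
theorem isAdicComplete_span (J : Ideal B) [IsAdicComplete J B] (s : Finset B)
    (hs : ∀ x ∈ s, x ∈ J) : IsAdicComplete (Ideal.span (s : Set B)) B := by
  have hle : Ideal.span (s : Set B) ≤ J := Ideal.span_le.2 fun x hx => hs x hx
  obtain ⟨φ, hC, hX⟩ := exists_ev (σ := s) J (RingHom.id B) (a := fun x => (x : B))
    fun x => hs x x.2
  have h1 := isPrecomplete_map (Ideal.span (Set.range (X : s → MvPowerSeries s B))) φ
    fun b => ⟨C b, hC b⟩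
  have h2 : (Ideal.span (Set.range (X : s → MvPowerSeries s B))).map φ =
      Ideal.span (s : Set B) := by
    rw [Ideal.map_span, ← Set.range_comp]
    congr 1
    ext x
    simp [hX]
  rw [h2] at h1
  have h3 := isHausdorff_of_le hle
  exact ⟨⟩

end Crest.Agent.R227.EvAux
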