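import Crest.Prelude.Def_LubinTate
import Crest.Agent.R227.EvAux

/-!
# R227 / Ev : evaluation of power series without topology

`ev ι a : R⟦X_σ⟧ →+* B` is *the* ring map with `C r ↦ ι r`, `X i ↦ a i`; it exists and is unique
as soon as the `a i` lie in an ideal `N` with `IsEv N`.  Every compatibility statement follows from
the uniqueness lemma `hom_ext`.
-/

set_option autoImplicit false

namespace Crest.Agent.R227

open MvPowerSeries

/-- Every finite subset of `N` lies in an ideal `I ≤ N` for which `B` is adically complete. -/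
class IsEv {B : Type} [CommRing B] (N : Ideal B) : Prop where
  out : ∀ s : Finset B, (∀ x ∈ s, x ∈ N) →
    ∃ I : Ideal B, I ≤ N ∧ (∀ x ∈ s, x ∈ I) ∧ IsAdicComplete I B

open Classical in
/-- Evaluation of power series at `a` along `ι` (junk if no such ring map exists). -/
noncomputable def ev {σ R B : Type} [CommRing R] [CommRing B] (ι : R →+* B) (a : σ → B) :
    MvPowerSeries σ R →+* B :=
  if h : ∃ φ : MvPowerSeries σ R →+* B, (∀ r, φ (C r) = ι r) ∧ ∀ i, φ (X i) = a i then h.choose
  else ι.comp constantCoeff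

/-- One-variable evaluation. -/
noncomputable def ev1 {R B : Type} [CommRing R] [CommRing B] (ι : R →+* B) (x : B) :
    PowerSeries R →+* B :=
  ev ι (fun _ : Unit => x)

/-- The ideal of series whose constant coefficient lies in `N`. -/
noncomputable abbrev cc (τ : Type) {B : Type} [CommRing B] (N : Ideal B) : Ideal (MvPowerSeries τ B) :=
  N.comap (constantCoeff : MvPowerSeries τ B →+* B)

variable {σ τ R R' B B' : Type} [CommRing R] [CommRing R'] [CommRing B] [CommRing B']

/-! ### instances -/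

theorem isEv_of_complete (I : Ideal B) [IsAdicComplete I B] : IsEv I := by
  exact ⟨fun s hs => ⟨I, le_rfl, hs, inferInstance⟩⟩

theorem isEv_of_le {N N' : Ideal B} [IsEv N'] (h : N ≤ N') : IsEv N := by
  refine ⟨fun s hs => ?_⟩
  obtain ⟨I, -, hI, _⟩ := IsEv.out (N := N') s fun x hx => h (hs x hx)
  exact ⟨Ideal.span (s : Set B), Ideal.span_le.2 fun x hx => hs x hx,
    fun x hx => Ideal.subset_span hx, EvAux.isAdicComplete_span I s hI⟩

/-- Nil ideals (a finitely generated nil ideal is nilpotent). -/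
theorem isEv_of_nil (N : Ideal B) (h : ∀ x ∈ N, IsNilpotent x) : IsEv N := by
  refine ⟨fun s hs => ⟨Ideal.span (s : Set B), Ideal.span_le.2 fun x hx => hs x hx,
    fun x hx => Ideal.subset_span hx, ?_⟩⟩
  have hfg : (Ideal.span (s : Set B)).FG := ⟨s, rfl⟩
  obtain ⟨n, hn⟩ := hfg.isNilpotent_iff_le_nilradical.2
    (Ideal.span_le.2 fun x hx => mem_nilradical.2 (h x (hs x hx)))
  exact EvAux.isAdicComplete_of_pow_eq_bot _ hn

instance isEv_bot : IsEv (⊥ : Ideal B) := isEv_of_nil _ (by simp)

/-- If `B` is `I`-adically complete then `B⟦τ⟧` is complete for `cc τ I = I + (X)`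
(`f ∈ (cc τ I)^k ↔ ∀ d, coeff d f ∈ I^(k - degree d)`). -/
theorem isAdicComplete_cc [Finite τ] (I : Ideal B) [IsAdicComplete I B] :
    IsAdicComplete (cc τ I) (MvPowerSeries τ B) := by
  exact EvAux.isAdicComplete_comap I

instance isEv_cc [Finite τ] (N : Ideal B) [IsEv N] : IsEv (cc τ N) := by
  classical
  refine ⟨fun s hs => ?_⟩
  obtain ⟨I, hIN, hI, _⟩ := IsEv.out (N := N)
    (s.image (constantCoeff : MvPowerSeries τ B →+* B)) fun x hx => by
      obtain ⟨y, hy, rfl⟩ := Finset.mem_image.1 hx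
      exact hs y hy
  exact ⟨cc τ I, Ideal.comap_mono hIN, fun x hx => hI _ (Finset.mem_image_of_mem _ hx),
    isAdicComplete_cc I⟩

instance isEv_spanX : IsEv (Ideal.span {(PowerSeries.X : PowerSeries B)}) :=
  isEv_of_complete _

/-! ### membership in powers of the ideal of variables -/

theorem mem_span_X_pow [Finite σ] {f : MvPowerSeries σ R} {k : ℕ} :
    f ∈ (Ideal.span (Set.range (X : σ → MvPowerSeries σ R))) ^ k ↔
      ∀ d : σ →₀ ℕ, d.degree < k → coeff d f = 0 := by
  exact EvAux.mem_span_X_pow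

theorem cc_bot [Finite σ] :
    cc σ (⊥ : Ideal R) = Ideal.span (Set.range (X : σ → MvPowerSeries σ R)) := by
  refine le_antisymm (fun f hf => ?_) (EvAux.span_X_le_comap ⊥)
  rw [← pow_one (Ideal.span _), mem_span_X_pow]
  intro d hd
  have : d = 0 := by rw [← Finsupp.degree_eq_zero_iff]; omega
  subst this
  simpa using hf

/-- series with coefficients in a finitely generated ideal -/
theorem mem_map_C_of_fg {I : Ideal R} (hI : I.FG) {f : MvPowerSeries σ R}
    (hf : ∀ d, coeff d f ∈ I) : f ∈ I.map (C : R →+* MvPowerSeries σ R) := by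
  obtain ⟨s, rfl⟩ := hI
  have h : ∀ d, ∃ c : s → R, ∑ x : s, c x * (x : R) = coeff d f := fun d => by
    have := (Submodule.mem_span_finset' (R := R)).1 (hf d)
    simpa using this
  choose c hc using h
  have e : f = ∑ x : s, (show MvPowerSeries σ R from fun d => c d x) * C (x : R) := by
    ext d
    rw [map_sum, ← hc d]
    refine Finset.sum_congr rfl fun x _ => ?_
    rw [coeff_mul_C]
    rfl
  rw [e]
  exact Ideal.sum_mem _ fun x _ => Ideal.mul_mem_left _ _
    (Ideal.mem_map_of_mem _ (Ideal.subset_span x.2))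

theorem map_mk_eq_iff {I : Ideal R} {f g : MvPowerSeries σ R} :
    f.map (Ideal.Quotient.mk I) = g.map (Ideal.Quotient.mk I) ↔
      ∀ d, coeff d f - coeff d g ∈ I := by
  rw [MvPowerSeries.ext_iff]
  simp only [coeff_map, Ideal.Quotient.eq]

theorem map_mk_eq_iff' {I : Ideal R} {f g : PowerSeries R} :
    f.map (Ideal.Quotient.mk I) = g.map (Ideal.Quotient.mk I) ↔
      ∀ d, PowerSeries.coeff d f - PowerSeries.coeff d g ∈ I := by
  rw [PowerSeries.ext_iff]
  simp only [PowerSeries.coeff_map, Ideal.Quotient.eq]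

/-! ### existence and uniqueness -/

/-- Uniqueness of ring maps out of a power series ring. -/
theorem hom_ext [Finite σ] (N : Ideal B) [IsEv N] {f g : MvPowerSeries σ R →+* B}
    (hC : ∀ r, f (C r) = g (C r)) (hX : ∀ i, f (X i) = g (X i)) (hN : ∀ i, f (X i) ∈ N) :
    f = g := by
  classical
  cases nonempty_fintype σ
  obtain ⟨I, -, hI, _⟩ := IsEv.out (N := N) (Finset.univ.image fun i => f (X i)) fun x hx => by
    obtain ⟨i, -, rfl⟩ := Finset.mem_image.1 hx
    exact hN i
  exact EvAux.hom_ext I hC hX fun i => hI _ (Finset.mem_image_of_mem _ (Finset.mem_univ i))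

theorem exists_ev [Finite σ] (N : Ideal B) [IsEv N] (ι : R →+* B) {a : σ → B}
    (ha : ∀ i, a i ∈ N) :
    ∃ φ : MvPowerSeries σ R →+* B, (∀ r, φ (C r) = ι r) ∧ ∀ i, φ (X i) = a i := by
  classical
  cases nonempty_fintype σ
  obtain ⟨I, -, hI, _⟩ := IsEv.out (N := N) (Finset.univ.image a) fun x hx => by
    obtain ⟨i, -, rfl⟩ := Finset.mem_image.1 hx
    exact ha i
  exact EvAux.exists_ev I ι fun i => hI _ (Finset.mem_image_of_mem _ (Finset.mem_univ i))

theorem ev_C (ι : R →+* B) (a : σ → B) (r : R) : ev ι a (C r) = ι r := by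
  unfold ev
  split_ifs with h
  · exact h.choose_spec.1 r
  · simp

theorem ev_X [Finite σ] (N : Ideal B) [IsEv N] (ι : R →+* B) {a : σ → B} (ha : ∀ i, a i ∈ N)
    (i : σ) : ev ι a (X i) = a i := by
  have h := exists_ev N ι ha
  unfold ev
  rw [dif_pos h]
  exact h.choose_spec.2 i

/-- Any ring map with the right values is `ev`. -/
theorem eq_ev [Finite σ] (N : Ideal B) [IsEv N] (ι : R →+* B) {a : σ → B} (ha : ∀ i, a i ∈ N)
    {f : MvPowerSeries σ R →+* B} (hC : ∀ r, f (C r) = ι r) (hX : ∀ i, f (X i) = a i) :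
    f = ev ι a := by
  exact hom_ext N (fun r => by rw [hC, ev_C]) (fun i => by rw [hX, ev_X N ι ha])
    fun i => by rw [hX]; exact ha i

theorem ev_coe [Finite σ] (N : Ideal B) [IsEv N] (ι : R →+* B) {a : σ → B} (ha : ∀ i, a i ∈ N)
    (f : MvPolynomial σ R) : ev ι a (f : MvPowerSeries σ R) = MvPolynomial.eval₂ ι a f := by
  rw [EvAux.ringHom_coe]
  congr 1
  · ext r; exact ev_C ι a r
  · ext i; exact ev_X N ι ha i

theorem ev_mem_pow [Finite σ] (N : Ideal B) [IsEv N] (ι : R →+* B) {a : σ → B}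
    (ha : ∀ i, a i ∈ N) {f : MvPowerSeries σ R} {k : ℕ}
    (hf : ∀ d : σ →₀ ℕ, d.degree < k → coeff d f = 0) :
    ev ι a f ∈ (Ideal.span (Set.range a)) ^ k := by
  have := EvAux.map_mem_pow (ev ι a) (mem_span_X_pow.2 hf)
  simpa only [ev_X N ι ha] using this

theorem ev_sub_trunc_mem [Finite σ] (N : Ideal B) [IsEv N] (ι : R →+* B) {a : σ → B}
    (ha : ∀ i, a i ∈ N) (f : MvPowerSeries σ R) (k : ℕ) :
    ev ι a f - MvPolynomial.eval₂ ι a (truncTotal k f) ∈ (Ideal.span (Set.range a)) ^ k := by
  rw [← ev_coe N ι ha, ← map_sub]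
  exact ev_mem_pow N ι ha (mem_span_X_pow.1 (EvAux.sub_trunc_mem f k))

theorem ev_mem [Finite σ] (N : Ideal B) [IsEv N] (ι : R →+* B) {a : σ → B} (ha : ∀ i, a i ∈ N)
    {f : MvPowerSeries σ R} (hf : constantCoeff f = 0) : ev ι a f ∈ N := by
  have h := ev_mem_pow N ι ha (f := f) (k := 1) fun d hd => by
    have : d = 0 := by rw [← Finsupp.degree_eq_zero_iff]; omega
    subst this
    simpa using hf
  rw [pow_one] at h
  refine (Ideal.span_le.2 ?_ : Ideal.span (Set.range a) ≤ N) h
  rintro _ ⟨i, rfl⟩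
  exact ha i

theorem ev_zero [Finite σ] (ι : R →+* B) (f : MvPowerSeries σ R) :
    ev ι (fun _ : σ => (0 : B)) f = ι (constantCoeff f) := by
  have := eq_ev (⊥ : Ideal B) ι (a := fun _ : σ => (0 : B)) (fun _ => Ideal.zero_mem _)
    (f := ι.comp constantCoeff) (fun r => by simp) (fun i => by simp)
  rw [← this]
  rfl

/-- Functoriality in the target ring (and the coefficient ring). -/
theorem map_ev [Finite σ] (N : Ideal B) [IsEv N] (N' : Ideal B') [IsEv N'] {ι : R →+* B}
    {ι' : R' →+* B'} {ρ : R →+* R'} {ψ : B →+* B'} (h : ψ.comp ι = ι'.comp ρ) {a : σ → B}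
    (ha : ∀ i, a i ∈ N) (ha' : ∀ i, ψ (a i) ∈ N') (f : MvPowerSeries σ R) :
    ψ (ev ι a f) = ev ι' (fun i => ψ (a i)) (f.map ρ) := by
  have := hom_ext N' (f := ψ.comp (ev ι a))
    (g := (ev ι' (fun i => ψ (a i))).comp (MvPowerSeries.map ρ))
    (fun r => by
      simp only [RingHom.comp_apply, ev_C, map_C]
      exact RingHom.congr_fun h r)
    (fun i => by simp only [RingHom.comp_apply, map_X, ev_X N ι ha, ev_X N' ι' ha'])
    (fun i => by simpa only [RingHom.comp_apply, ev_X N ι ha] using ha' i)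
  exact RingHom.congr_fun this f

theorem ev_map [Finite σ] (N : Ideal B) [IsEv N] (ι : R' →+* B) (ρ : R →+* R') {a : σ → B}
    (ha : ∀ i, a i ∈ N) (f : MvPowerSeries σ R) :
    ev ι a (f.map ρ) = ev (ι.comp ρ) a f := by
  exact (map_ev N N (ι := ι.comp ρ) (ι' := ι) (ρ := ρ) (ψ := RingHom.id B) rfl ha ha f).symm

/-- Evaluation of a substitution. -/
theorem ev_subst [Finite σ] [Finite τ] (N : Ideal B) [IsEv N] (ι : R →+* B) {a : τ → B}
    (ha : ∀ i, a i ∈ N) {b : σ → MvPowerSeries τ R} (hb : ∀ i, constantCoeff (b i) = 0)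
    (f : MvPowerSeries σ R) :
    ev ι a (f.subst b) = ev ι (fun i => ev ι a (b i)) f := by
  have hs : HasSubst b := hasSubst_of_constantCoeff_zero hb
  have := eq_ev N ι (a := fun i => ev ι a (b i)) (fun i => ev_mem N ι ha (hb i))
    (f := (ev ι a).comp (substAlgHom hs).toRingHom)
    (fun r => by
      change ev ι a (substAlgHom hs (C r)) = ι r
      rw [substAlgHom_apply, subst_C, ev_C])
    (fun i => by
      change ev ι a (substAlgHom hs (X i)) = ev ι a (b i)
      rw [substAlgHom_X])
  rw [← this, ← substAlgHom_apply hs]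
  rfl

/-- In a power series ring, `ev` at series without constant term is substitution. -/
theorem ev_eq_subst [Finite σ] [Finite τ] (ρ : R →+* R') {b : σ → MvPowerSeries τ R'}
    (hb : ∀ i, constantCoeff (b i) = 0) (f : MvPowerSeries σ R) :
    ev ((C : R' →+* MvPowerSeries τ R').comp ρ) b f = (f.map ρ).subst b := by
  have hs : HasSubst b := hasSubst_of_constantCoeff_zero hb
  have := eq_ev (cc τ (⊥ : Ideal R')) ((C : R' →+* MvPowerSeries τ R').comp ρ) (a := b)
    (fun i => by simpa using hb i)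
    (f := (substAlgHom (R := R') hs).toRingHom.comp (MvPowerSeries.map ρ))
    (fun r => by
      change substAlgHom hs (MvPowerSeries.map ρ (C r)) = C (ρ r)
      rw [map_C, substAlgHom_apply, subst_C])
    (fun i => by
      change substAlgHom hs (MvPowerSeries.map ρ (X i)) = b i
      rw [map_X, substAlgHom_X])
  rw [← this, ← substAlgHom_apply hs]
  rfl

theorem ev_sub_ev_mem [Finite σ] (N : Ideal B) [IsEv N] (ι : R →+* B) {a b : σ → B}
    (ha : ∀ i, a i ∈ N) (hb : ∀ i, b i ∈ N) (f : MvPowerSeries σ R) :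
    ev ι a f - ev ι b f ∈ Ideal.span (Set.range fun i => a i - b i) := by
  have hδ : ∀ i, a i - b i ∈ N := fun i => sub_mem (ha i) (hb i)
  have hT : ∀ i, (C (b i) + X i : MvPowerSeries σ B) ∈ cc σ N := fun i => by simpa using hb i
  set T := ev ((C : B →+* MvPowerSeries σ B).comp ι) (fun i => C (b i) + X i) with hTdef
  have hTC : ∀ r, T (C r) = C (ι r) := fun r => ev_C _ _ r
  have hTX : ∀ i, T (X i) = C (b i) + X i := fun i => ev_X (cc σ N) _ hT i
  have h1 : (ev (RingHom.id B) fun i => a i - b i).comp T = ev ι a :=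
    eq_ev N ι ha (fun r => by rw [RingHom.comp_apply, hTC, ev_C]; rfl) fun i => by
      rw [RingHom.comp_apply, hTX, map_add, ev_C, ev_X N _ hδ]
      simp
  have h2 : (constantCoeff : MvPowerSeries σ B →+* B).comp T = ev ι b :=
    eq_ev N ι hb (fun r => by rw [RingHom.comp_apply, hTC, constantCoeff_C]) fun i => by
      rw [RingHom.comp_apply, hTX]
      simp
  have h3 := ev_mem_pow N (RingHom.id B) hδ (f := T f - C (constantCoeff (T f))) (k := 1)
    fun d hd => by
      have : d = 0 := by rw [← Finsupp.degree_eq_zero_iff]; omega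
      subst this
      simp
  rw [pow_one, map_sub, ev_C] at h3
  rw [← h1, ← h2]
  exact h3

/-- congruent coefficients modulo a finitely generated ideal -/
theorem ev_sub_mem_of_coeff [Finite σ] (ι : R →+* B) (a : σ → B) {I : Ideal R} (hI : I.FG)
    {f g : MvPowerSeries σ R} (h : ∀ d, coeff d f - coeff d g ∈ I) :
    ev ι a f - ev ι a g ∈ I.map ι := by
  have h1 : f - g ∈ I.map (C : R →+* MvPowerSeries σ R) :=
    mem_map_C_of_fg hI fun d => by rw [map_sub]; exact h d
  have h2 := Ideal.mem_map_of_mem (ev ι a) h1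
  have h3 : (ev ι a).comp C = ι := RingHom.ext fun r => ev_C ι a r
  rwa [Ideal.map_map, h3, map_sub] at h2

/-! ### one variable versions -/

theorem ev1_C (ι : R →+* B) (x : B) (r : R) : ev1 ι x (PowerSeries.C r) = ι r := ev_C ι _ r

theorem ev1_X (N : Ideal B) [IsEv N] (ι : R →+* B) {x : B} (hx : x ∈ N) :
    ev1 ι x PowerSeries.X = x := ev_X N ι (fun _ => hx) ()

theorem ev1_mem (N : Ideal B) [IsEv N] (ι : R →+* B) {x : B} (hx : x ∈ N) {f : PowerSeries R}
    (hf : PowerSeries.constantCoeff f = 0) : ev1 ι x f ∈ N := ev_mem N ι (fun _ => hx) hf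

theorem ev1_dvd (N : Ideal B) [IsEv N] (ι : R →+* B) {x : B} (hx : x ∈ N) {f : PowerSeries R}
    {k : ℕ} (hf : PowerSeries.X ^ k ∣ f) : x ^ k ∣ ev1 ι x f := by
  obtain ⟨g, rfl⟩ := hf
  rw [map_mul, map_pow, ev1_X N ι hx]
  exact dvd_mul_right _ _

theorem map_ev1 (N : Ideal B) [IsEv N] (N' : Ideal B') [IsEv N'] {ι : R →+* B}
    {ι' : R' →+* B'} {ρ : R →+* R'} {ψ : B →+* B'} (h : ψ.comp ι = ι'.comp ρ) {x : B}
    (hx : x ∈ N) (hx' : ψ x ∈ N') (f : PowerSeries R) :
    ψ (ev1 ι x f) = ev1 ι' (ψ x) (f.map ρ) :=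
  map_ev N N' h (fun _ => hx) (fun _ => hx') f

theorem ev1_map (N : Ideal B) [IsEv N] (ι : R' →+* B) (ρ : R →+* R') {x : B}
    (hx : x ∈ N) (f : PowerSeries R) : ev1 ι x (f.map ρ) = ev1 (ι.comp ρ) x f :=
  ev_map N ι ρ (fun _ => hx) f

/-- `f(b)` evaluated at `a`, `f` in one variable. -/
theorem ev_subst1 [Finite τ] (N : Ideal B) [IsEv N] (ι : R →+* B) {a : τ → B}
    (ha : ∀ i, a i ∈ N) {b : MvPowerSeries τ R} (hb : constantCoeff b = 0) (f : PowerSeries R) :
    ev ι a (f.subst b) = ev1 ι (ev ι a b) f :=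
  ev_subst N ι ha (fun _ => hb) f

theorem ev1_subst1 (N : Ideal B) [IsEv N] (ι : R →+* B) {x : B} (hx : x ∈ N)
    {b : PowerSeries R} (hb : PowerSeries.constantCoeff b = 0) (f : PowerSeries R) :
    ev1 ι x (f.subst b) = ev1 ι (ev1 ι x b) f :=
  ev_subst N ι (fun _ => hx) (fun _ => hb) f

theorem ev1_eq_subst [Finite τ] (ρ : R →+* R') {b : MvPowerSeries τ R'}
    (hb : constantCoeff b = 0) (f : PowerSeries R) :
    ev1 ((C : R' →+* MvPowerSeries τ R').comp ρ) b f = (f.map ρ).subst b :=
  ev_eq_subst ρ (fun _ => hb) f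

theorem ev1_sub_ev1_dvd (N : Ideal B) [IsEv N] (ι : R →+* B) {x y : B} (hx : x ∈ N)
    (hy : y ∈ N) (f : PowerSeries R) : x - y ∣ ev1 ι x f - ev1 ι y f := by
  have := ev_sub_ev_mem N ι (a := fun _ : Unit => x) (b := fun _ : Unit => y) (fun _ => hx)
    (fun _ => hy) f
  rwa [Set.range_const, Ideal.mem_span_singleton] at this

/-! ### formal inverse function theorem, Taylor map, chain rule -/

/-- If the Jacobian at the origin is invertible, substitution is surjective
(`surjective_of_mk_map_comp_surjective` + Nakayama-type induction). -/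
theorem subst_surjective [Fintype σ] [DecidableEq σ] {z : σ → MvPowerSeries σ R}
    (hz : ∀ i, constantCoeff (z i) = 0)
    (hJ : IsUnit (Matrix.of fun i j => coeff (Finsupp.single j 1) (z i))) :
    Function.Surjective (fun f : MvPowerSeries σ R => f.subst z) := by
  have hs : HasSubst z := hasSubst_of_constantCoeff_zero hz
  set I : Ideal (MvPowerSeries σ R) := Ideal.span (Set.range X) with hI
  let φ : MvPowerSeries σ R →+* MvPowerSeries σ R := (substAlgHom (R := R) hs).toRingHom
  have hφ : ∀ f, φ f = f.subst z := fun f => substAlgHom_apply hs f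
  have hmap : I.map φ = Ideal.span (Set.range z) := by
    rw [hI, Ideal.map_span, ← Set.range_comp]
    congr 2
    ext1 i
    rw [Function.comp_apply, hφ, subst_X hs]
  have hzI : Ideal.span (Set.range z) ≤ I := by
    rw [Ideal.span_le]
    rintro _ ⟨i, rfl⟩
    rw [hI, ← cc_bot]
    simpa using hz i
  set J : Matrix σ σ R := Matrix.of fun i j => coeff (Finsupp.single j 1) (z i) with hJdef
  have hlin : ∀ i, z i - ∑ j, C (J i j) * X j ∈ I ^ 2 := fun i => by
    rw [hI, mem_span_X_pow]
    intro d hd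
    rw [map_sub, map_sum]
    simp only [coeff_C_mul, coeff_X]
    by_cases h0 : d = 0
    · subst h0
      have : ∀ j : σ, (0 : σ →₀ ℕ) ≠ Finsupp.single j 1 := fun j h => by
        simpa using congrArg Finsupp.degree h
      simp [this, hz i]
    · have h1 : d.degree = 1 := by
        have : d.degree ≠ 0 := by rwa [Ne, Finsupp.degree_eq_zero_iff]
        omega
      obtain ⟨j, rfl⟩ : ∃ j, d = Finsupp.single j 1 := by
        have : d ∈ Set.range fun i : σ => Finsupp.single i 1 := by
          rw [Finsupp.range_single_one]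
          exact h1
        obtain ⟨j, hj⟩ := this
        exact ⟨j, hj.symm⟩
      rw [Finset.sum_eq_single j]
      · simp [hJdef]
      · intro k _ hk
        rw [if_neg, mul_zero]
        intro h
        exact hk ((Finsupp.single_left_injective one_ne_zero) h).symm
      · intro h
        exact absurd (Finset.mem_univ _) h
  have hIz : I ≤ Ideal.span (Set.range z) := by
    refine Submodule.le_of_le_smul_of_le_jacobson_bot (I := I)
      (Submodule.fg_span (Set.finite_range _)) (IsAdicComplete.le_jacobson_bot I) ?_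
    conv_lhs => rw [hI]
    rw [Ideal.span_le]
    rintro _ ⟨k, rfl⟩
    obtain ⟨u, hu⟩ := hJ
    have e1 : (X k : MvPowerSeries σ R) =
        ∑ i, C ((↑u⁻¹ : Matrix σ σ R) k i) * ∑ j, C (J i j) * X j := by
      simp only [Finset.mul_sum, ← mul_assoc, ← map_mul]
      rw [Finset.sum_comm]
      simp only [← Finset.sum_mul, ← map_sum, ← Matrix.mul_apply, ← hu, Units.inv_mul]
      rw [Finset.sum_eq_single k]
      · simp
      · intro j _ hj
        rw [Matrix.one_apply_ne (Ne.symm hj)]
        simp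
      · intro h
        exact absurd (Finset.mem_univ _) h
    rw [SetLike.mem_coe, e1]
    refine Ideal.sum_mem _ fun i _ => Ideal.mul_mem_left _ _ ?_
    have e2 : ∑ j, C (J i j) * X j = z i - (z i - ∑ j, C (J i j) * X j) := by ring
    rw [e2]
    refine sub_mem (Submodule.mem_sup_left (Ideal.subset_span ⟨i, rfl⟩))
      (Submodule.mem_sup_right ?_)
    rw [smul_eq_mul, ← pow_two]
    exact hlin i
  have hmapI : I.map φ = I := by rw [hmap]; exact le_antisymm hzI hIz
  have hH : IsHausdorff (I.map φ) (MvPowerSeries σ R) := by rw [hmapI]; infer_instance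
  have := surjective_of_mk_map_comp_surjective (I := I) φ fun y => by
    obtain ⟨g, rfl⟩ := Ideal.Quotient.mk_surjective y
    refine ⟨C (constantCoeff g), ?_⟩
    rw [RingHom.comp_apply, Ideal.Quotient.eq, hφ, subst_C, hmapI, hI, ← cc_bot]
    simp
  intro y
  obtain ⟨x, hx⟩ := this y
  exact ⟨x, by rw [← hx, hφ]⟩

/-- The Taylor expansion map at the point `a`: `X i ↦ a i + δ i`. -/
noncomputable def tay (ι : R →+* B) (a : σ → B) : MvPowerSeries σ R →+* MvPowerSeries σ B :=
  ev ((C : B →+* MvPowerSeries σ B).comp ι) (fun i => C (a i) + X i)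

theorem tay_C (ι : R →+* B) (a : σ → B) (r : R) : tay ι a (C r) = C (ι r) := ev_C _ _ r

theorem tay_X [Finite σ] (N : Ideal B) [IsEv N] (ι : R →+* B) {a : σ → B} (ha : ∀ i, a i ∈ N)
    (i : σ) : tay ι a (X i) = C (a i) + X i :=
  ev_X (cc σ N) _ (fun i => by simpa using ha i) i

/-- compose with `δ i ↦ X i - a i` to get back `map ι`. -/
theorem tay_injective [Finite σ] (N : Ideal B) [IsEv N] {ι : R →+* B}
    (hι : Function.Injective ι) {a : σ → B} (ha : ∀ i, a i ∈ N) :
    Function.Injective (tay ι a) := by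
  have hb : ∀ i, (X i - C (a i) : MvPowerSeries σ B) ∈ cc σ N := fun i => by
    simpa using ha i
  have h1 : (ev (C : B →+* MvPowerSeries σ B) fun i => X i - C (a i)).comp (tay ι a) =
      MvPowerSeries.map ι :=
    hom_ext (cc σ N) (fun r => by rw [RingHom.comp_apply, tay_C, ev_C, map_C])
      (fun i => by
        rw [RingHom.comp_apply, tay_X N ι ha, map_add, ev_C, ev_X (cc σ N) _ hb, map_X]
        ring)
      (fun i => by
        rw [RingHom.comp_apply, tay_X N ι ha, map_add, ev_C, ev_X (cc σ N) _ hb]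
        simp)
  intro f g hfg
  have h2 : MvPowerSeries.map ι f = MvPowerSeries.map ι g := by
    rw [← h1, RingHom.comp_apply, RingHom.comp_apply, hfg]
  ext d
  apply hι
  simpa using congrArg (coeff d) h2

/-- `f(a + δ)` is the Taylor series at `a` evaluated at `δ`. -/
theorem ev_comp_tay [Finite σ] (N : Ideal B) [IsEv N] (ι : R →+* B) {a δ : σ → B}
    (ha : ∀ i, a i ∈ N) (hδ : ∀ i, δ i ∈ N) :
    (ev (RingHom.id B) δ).comp (tay ι a) = ev ι (fun i => a i + δ i) := by
  exact eq_ev N ι (fun i => add_mem (ha i) (hδ i))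
    (fun r => by rw [RingHom.comp_apply, tay_C, ev_C]; rfl)
    fun i => by rw [RingHom.comp_apply, tay_X N ι ha, map_add, ev_C, ev_X N _ hδ]; rfl

theorem constantCoeff_comp_tay [Finite σ] (N : Ideal B) [IsEv N] (ι : R →+* B) {a : σ → B}
    (ha : ∀ i, a i ∈ N) :
    (constantCoeff : MvPowerSeries σ B →+* B).comp (tay ι a) = ev ι a := by
  exact eq_ev N ι ha (fun r => by rw [RingHom.comp_apply, tay_C, constantCoeff_C])
    fun i => by rw [RingHom.comp_apply, tay_X N ι ha]; simp

/-- Chain rule (prove it for polynomials, then truncate). -/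
theorem pderiv_subst [Fintype σ] [Finite τ] {b : σ → MvPowerSeries τ R}
    (hb : ∀ i, constantCoeff (b i) = 0) (f : MvPowerSeries σ R) (j : τ) :
    pderiv R j (f.subst b) = ∑ i, (pderiv R i f).subst b * pderiv R j (b i) := by
  classical
  have hs : HasSubst b := hasSubst_of_constantCoeff_zero hb
  let φ : MvPowerSeries σ R →+* MvPowerSeries τ R := (substAlgHom (R := R) hs).toRingHom
  have hφ : ∀ f : MvPowerSeries σ R, f.subst b = φ f := fun f => (substAlgHom_apply hs f).symm
  have hφX : ∀ i, φ (X i) = b i := fun i => by rw [← hφ, subst_X hs]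
  have hφC : ∀ r, φ (C r) = C r := fun r => by rw [← hφ, subst_C]
  simp only [hφ]
  have hpoly : ∀ p : MvPolynomial σ R, pderiv R j (φ p) =
      ∑ i, φ (pderiv R i (p : MvPowerSeries σ R)) * pderiv R j (b i) := fun p => by
    induction p using MvPolynomial.induction_on with
    | C a => simp [hφC]
    | add p q hp hq =>
      simp only [MvPolynomial.coe_add, map_add, hp, hq, add_mul, Finset.sum_add_distrib]
    | mul_X p i hp =>
      simp only [MvPolynomial.coe_mul, MvPolynomial.coe_X, map_mul, Derivation.leibniz, hp,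
        smul_eq_mul, hφX, map_add, add_mul, Finset.sum_add_distrib, Finset.mul_sum, mul_assoc]
      congr 1
      rw [Finset.sum_eq_single i]
      · simp
      · intro k _ hk
        rw [pderiv_X_of_ne (Ne.symm hk)]
        simp
      · intro h
        exact absurd (Finset.mem_univ _) h
  have hbI : Ideal.span (Set.range fun i => φ (X i)) ≤
      Ideal.span (Set.range (X : τ → MvPowerSeries τ R)) := by
    rw [Ideal.span_le]
    rintro _ ⟨i, rfl⟩
    rw [← cc_bot]
    simpa [hφX] using hb i
  have hφm : ∀ {g : MvPowerSeries σ R} {k : ℕ},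
      g ∈ (Ideal.span (Set.range (X : σ → MvPowerSeries σ R))) ^ k →
      φ g ∈ (Ideal.span (Set.range (X : τ → MvPowerSeries τ R))) ^ k := fun {g k} hg =>
    Ideal.pow_right_mono hbI k (EvAux.map_mem_pow φ hg)
  have hD : ∀ {ρ : Type} [Finite ρ] (i : ρ) {g : MvPowerSeries ρ R} {k : ℕ},
      g ∈ (Ideal.span (Set.range (X : ρ → MvPowerSeries ρ R))) ^ (k + 1) →
      pderiv R i g ∈ (Ideal.span (Set.range (X : ρ → MvPowerSeries ρ R))) ^ k := by
    intro ρ _ i g k hg
    rw [mem_span_X_pow] at hg ⊢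
    intro d hd
    rw [coeff_pderiv, hg, zero_mul]
    rw [map_add, Finsupp.degree_single]
    omega
  rw [← sub_eq_zero]
  refine EvAux.eq_zero_of_mem_pow (Ideal.span (Set.range (X : τ → MvPowerSeries τ R)))
    fun k => ?_
  have hr := EvAux.sub_trunc_mem f (k + 1)
  set p : MvPolynomial σ R := truncTotal (k + 1) f
  have e : f = (f - p) + p := by ring
  rw [e]
  simp only [map_add, add_mul, Finset.sum_add_distrib, hpoly p, add_sub_add_right_eq_sub]
  exact sub_mem (hD j (hφm hr))
    (Ideal.sum_mem _ fun i _ => Ideal.mul_mem_right _ _ (hφm (hD i hr)))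

end Crest.Agent.R227
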