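import Crest.Agent.R227.FG

/-!
# R227 / Nrm : points in the open unit disc of a complete nonarchimedean field
-/

set_option autoImplicit false

namespace Crest.Agent.R227

open MvPowerSeries Crest.LubinTate Filter Topology

variable (C : Type) [NontriviallyNormedField C] [IsUltrametricDist C]

/-- The ring of integers. -/
def O : Subring C where
  carrier := {x | ‖x‖ ≤ 1}
  mul_mem' := fun {a b} ha hb => by
    have ha' : ‖a‖ ≤ 1 := ha
    have hb' : ‖b‖ ≤ 1 := hb
    show ‖a * b‖ ≤ 1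
    rw [norm_mul]; exact mul_le_one₀ ha' (norm_nonneg _) hb'
  one_mem' := by show ‖(1 : C)‖ ≤ 1; simp
  add_mem' := fun {a b} ha hb =>
    (IsUltrametricDist.norm_add_le_max a b).trans (max_le ha hb)
  zero_mem' := by show ‖(0 : C)‖ ≤ 1; simp
  neg_mem' := fun {a} ha => by show ‖-a‖ ≤ 1; rw [norm_neg]; exact ha

/-- Its maximal ideal. -/
def mO : Ideal (O C) where
  carrier := {x | ‖(x : C)‖ < 1}
  add_mem' := fun {a b} ha hb =>
    (IsUltrametricDist.norm_add_le_max (a : C) b).trans_lt (max_lt ha hb)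
  zero_mem' := by show ‖((0 : O C) : C)‖ < 1; simp
  smul_mem' := fun c x hx => by
    have hx' : ‖(x : C)‖ < 1 := hx
    have hc : ‖(c : C)‖ ≤ 1 := c.2
    show ‖((c * x : O C) : C)‖ < 1
    rw [Subring.coe_mul, norm_mul]
    exact mul_lt_one_of_nonneg_of_lt_one_right hc (norm_nonneg _) hx'

variable {C}

theorem mem_O {x : C} : x ∈ O C ↔ ‖x‖ ≤ 1 := Iff.rfl

theorem mem_mO {x : O C} : x ∈ mO C ↔ ‖(x : C)‖ < 1 := Iff.rfl

theorem O.norm_le (x : O C) : ‖(x : C)‖ ≤ 1 := x.2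

theorem O.dvd_iff {x y : O C} : x ∣ y ↔ ‖(y : C)‖ ≤ ‖(x : C)‖ := by
  constructor
  · rintro ⟨c, rfl⟩
    rw [Subring.coe_mul, norm_mul]
    exact mul_le_of_le_one_right (norm_nonneg _) (O.norm_le c)
  · intro h
    by_cases hx : (x : C) = 0
    · rw [hx, norm_zero, norm_le_zero_iff] at h
      have : y = 0 := Subtype.ext h
      rw [this]
      exact dvd_zero _
    · refine ⟨⟨(y : C) / x, ?_⟩, Subtype.ext ?_⟩
      · rw [mem_O, norm_div]
        exact div_le_one_of_le₀ h (norm_nonneg _)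
      · change (y : C) = x * (y / x)
        field_simp

theorem O.isUnit_iff {x : O C} : IsUnit x ↔ ‖(x : C)‖ = 1 := by
  rw [isUnit_iff_dvd_one, O.dvd_iff]
  simp only [OneMemClass.coe_one, norm_one]
  exact ⟨fun h => le_antisymm (O.norm_le x) h, fun h => h.ge⟩

theorem O.norm_le_of_mem_span_pow {σ : Type} {a : σ → O C} {ρ : ℝ} (hρ : 0 ≤ ρ)
    (ha : ∀ i, ‖(a i : C)‖ ≤ ρ) {k : ℕ} {x : O C} (hx : x ∈ (Ideal.span (Set.range a)) ^ k) :
    ‖(x : C)‖ ≤ ρ ^ k := by
  have hle : ∀ {r : ℝ} (hr : 0 ≤ r), ∃ J : Ideal (O C), ∀ y : O C, y ∈ J ↔ ‖(y : C)‖ ≤ r :=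
    fun {r} hr => ⟨{
      carrier := {y | ‖(y : C)‖ ≤ r}
      add_mem' := fun {a b} ha hb =>
        (IsUltrametricDist.norm_add_le_max (a : C) b).trans (max_le ha hb)
      zero_mem' := by simpa using hr
      smul_mem' := fun c y hy => by
        change ‖((c * y : O C) : C)‖ ≤ r
        rw [Subring.coe_mul, norm_mul]
        exact (mul_le_of_le_one_left (norm_nonneg _) (O.norm_le c)).trans hy },
      fun _ => Iff.rfl⟩
  induction k generalizing x with
  | zero => simpa using O.norm_le x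
  | succ k ih =>
    obtain ⟨J, hJ⟩ := hle (pow_nonneg hρ (k + 1))
    obtain ⟨J₁, hJ₁⟩ := hle hρ
    have h1 : Ideal.span (Set.range a) ≤ J₁ := by
      rw [Ideal.span_le]
      rintro _ ⟨i, rfl⟩
      exact (hJ₁ _).2 (ha i)
    rw [pow_succ] at hx
    refine (hJ x).1 ((Ideal.mul_le.2 fun u hu v hv => (hJ _).2 ?_ : _ ≤ J) hx)
    rw [Subring.coe_mul, norm_mul, pow_succ]
    exact mul_le_mul (ih hu) ((hJ₁ v).1 (h1 hv)) (norm_nonneg _) (pow_nonneg hρ k)

theorem O.isAdicComplete [CompleteSpace C] {ϖ : O C} (h : ϖ ∈ mO C) :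
    IsAdicComplete (Ideal.span {ϖ}) (O C) := by
  have hmem : ∀ (x : O C) (n : ℕ),
      x ∈ Ideal.span {ϖ} ^ n ↔ ‖(x : C)‖ ≤ ‖(ϖ : C)‖ ^ n := fun x n => by
    rw [Ideal.span_singleton_pow, Ideal.mem_span_singleton, O.dvd_iff, SubmonoidClass.coe_pow,
      norm_pow]
  have hlim : Tendsto (fun n : ℕ => ‖(ϖ : C)‖ ^ n) atTop (𝓝 0) :=
    tendsto_pow_atTop_nhds_zero_of_lt_one (norm_nonneg _) h
  have h1 : IsHausdorff (Ideal.span {ϖ}) (O C) := ⟨fun x hx => by
    have : ‖(x : C)‖ ≤ 0 := ge_of_tendsto' hlim fun n => by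
      have := hx n
      rw [EvAux.smodEq_iff, sub_zero] at this
      exact (hmem x n).1 this
    exact Subtype.ext (norm_le_zero_iff.1 this)⟩
  have h2 : IsPrecomplete (Ideal.span {ϖ}) (O C) := EvAux.isPrecomplete_of_seq _ fun f hf => by
    have hf' : ∀ m n, m ≤ n → ‖(f m : C) - f n‖ ≤ ‖(ϖ : C)‖ ^ m := fun m n hmn =>
      (hmem _ m).1 (hf m n hmn)
    have hc : CauchySeq fun n => (f n : C) :=
      cauchySeq_of_le_tendsto_0' _ (fun m n hmn => by rw [dist_eq_norm]; exact hf' m n hmn) hlim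
    obtain ⟨L, hL⟩ := cauchySeq_tendsto_of_complete hc
    have hL1 : ‖L‖ ≤ 1 := le_of_tendsto' hL.norm fun n => O.norm_le (f n)
    refine ⟨⟨L, hL1⟩, fun n => (hmem _ n).2 ?_⟩
    change ‖(f n : C) - L‖ ≤ _
    exact le_of_tendsto ((tendsto_const_nhds.sub hL).norm)
      ((eventually_ge_atTop n).mono fun m hm => hf' n m hm)
  exact ⟨⟩

theorem Nrm.exists_max {κ : Type} (s : Finset κ) (f : κ → O C) (hs : ∀ i ∈ s, f i ∈ mO C) :
    ∃ ϖ ∈ mO C, ∀ i ∈ s, ‖(f i : C)‖ ≤ ‖(ϖ : C)‖ := by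
  rcases s.eq_empty_or_nonempty with rfl | hne
  · exact ⟨0, zero_mem _, by simp⟩
  · obtain ⟨i, hi, h⟩ := s.exists_max_image (fun i => ‖(f i : C)‖) hne
    exact ⟨f i, hs i hi, h⟩

theorem Nrm.ev1_coe {R B : Type} [CommRing R] [CommRing B] (N : Ideal B) [IsEv N] (ι : R →+* B)
    {x : B} (hx : x ∈ N) (r : Polynomial R) :
    ev1 ι x (r : PowerSeries R) = Polynomial.eval₂ ι x r := by
  induction r using Polynomial.induction_on' with
  | add p q hp hq => rw [Polynomial.coe_add, map_add, hp, hq, Polynomial.eval₂_add]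
  | monomial n a =>
    rw [Polynomial.eval₂_monomial, ← Polynomial.C_mul_X_pow_eq_monomial, Polynomial.coe_mul,
      Polynomial.coe_pow, Polynomial.coe_C, Polynomial.coe_X, map_mul, map_pow, ev1_C,
      ev1_X N ι hx]

instance isEv_mO [CompleteSpace C] : IsEv (mO C) := by
  refine ⟨fun s hs => ?_⟩
  obtain ⟨ϖ, hϖ, h⟩ := Nrm.exists_max s id hs
  exact ⟨Ideal.span {ϖ}, (Ideal.span_singleton_le_iff_mem _).2 hϖ,
    fun x hx => Ideal.mem_span_singleton.2 (O.dvd_iff.2 (h x hx)), O.isAdicComplete hϖ⟩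

/-- the image of `mO` in `O/ϖ` (`ϖ ≠ 0`) is a nil ideal -/
theorem isEv_map_mO {ϖ : O C} (h : ϖ ≠ 0) :
    IsEv ((mO C).map (Ideal.Quotient.mk (Ideal.span {ϖ}))) := by
  refine isEv_of_nil _ fun y hy => ?_
  obtain ⟨x, hx, rfl⟩ := (Ideal.mem_map_iff_of_surjective _ Ideal.Quotient.mk_surjective).1 hy
  have h0 : 0 < ‖(ϖ : C)‖ := norm_pos_iff.2 fun h' => h (Subtype.ext h')
  obtain ⟨n, hn⟩ := exists_pow_lt_of_lt_one h0 (mem_mO.1 hx)
  refine ⟨n, ?_⟩
  rw [← map_pow, Ideal.Quotient.eq_zero_iff_mem, Ideal.mem_span_singleton, O.dvd_iff,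
    SubmonoidClass.coe_pow, norm_pow]
  exact hn.le

section ev

variable [CompleteSpace C] {σ R : Type} [CommRing R] (ι : R →+* O C)

theorem norm_ev_sub_trunc_le [Finite σ] {a : σ → O C} {ρ : ℝ} (hρ0 : 0 ≤ ρ) (hρ : ρ < 1)
    (ha : ∀ i, ‖(a i : C)‖ ≤ ρ) (f : MvPowerSeries σ R) (k : ℕ) :
    ‖((ev ι a f - MvPolynomial.eval₂ ι a (truncTotal k f) : O C) : C)‖ ≤ ρ ^ k := by
  exact O.norm_le_of_mem_span_pow hρ0 ha
    (ev_sub_trunc_mem (mO C) ι (fun i => (ha i).trans_lt hρ) f k)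

theorem norm_ev_sub_ev_le [Finite σ] {a b : σ → O C} (ha : ∀ i, a i ∈ mO C)
    (hb : ∀ i, b i ∈ mO C) {ρ : ℝ} (hρ0 : 0 ≤ ρ) (h : ∀ i, ‖(a i : C) - b i‖ ≤ ρ)
    (f : MvPowerSeries σ R) : ‖(ev ι a f : C) - ev ι b f‖ ≤ ρ := by
  have h1 := ev_sub_ev_mem (mO C) ι ha hb f
  rw [← pow_one (Ideal.span _)] at h1
  simpa using O.norm_le_of_mem_span_pow hρ0 (a := fun i => a i - b i) h h1

theorem norm_ev1_sub_ev1_le {x y : O C} (hx : x ∈ mO C) (hy : y ∈ mO C) (f : PowerSeries R) :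
    ‖(ev1 ι x f : C) - ev1 ι y f‖ ≤ ‖(x : C) - y‖ := by
  exact O.dvd_iff.1 (ev1_sub_ev1_dvd (mO C) ι hx hy f)

theorem norm_ev1_le {x : O C} (hx : x ∈ mO C) {f : PowerSeries R} {k : ℕ}
    (hf : PowerSeries.X ^ k ∣ f) : ‖(ev1 ι x f : C)‖ ≤ ‖(x : C)‖ ^ k := by
  have := O.dvd_iff.1 (ev1_dvd (mO C) ι hx hf)
  rwa [SubmonoidClass.coe_pow, norm_pow] at this

/-- coefficientwise congruence -/
theorem norm_ev_sub_le_of_coeff [Finite σ] {a : σ → O C} (ha : ∀ i, a i ∈ mO C)
    {f g : MvPowerSeries σ (O C)} {ϖ : O C}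
    (h : ∀ d, ‖((coeff d f : O C) : C) - ((coeff d g : O C) : C)‖ ≤ ‖(ϖ : C)‖) :
    ‖(ev (RingHom.id _) a f : C) - ev (RingHom.id _) a g‖ ≤ ‖(ϖ : C)‖ := by
  have h1 := ev_sub_mem_of_coeff (RingHom.id (O C)) a (I := Ideal.span {ϖ}) (f := f) (g := g)
    ⟨{ϖ}, by simp⟩ fun d => Ideal.mem_span_singleton.2 (O.dvd_iff.2 (h d))
  rw [Ideal.map_id, Ideal.mem_span_singleton] at h1
  exact O.dvd_iff.1 h1

/-- strict series preserve norms -/
theorem norm_ev1_eq {x : O C} (hx : x ∈ mO C) {f : PowerSeries R}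
    (h0 : PowerSeries.constantCoeff f = 0) (h1 : IsUnit (PowerSeries.coeff 1 f)) :
    ‖(ev1 ι x f : C)‖ = ‖(x : C)‖ := by
  obtain ⟨g, rfl⟩ := PowerSeries.X_dvd_iff.2 h0
  have hg : IsUnit g := by
    rw [PowerSeries.isUnit_iff_constantCoeff, ← PowerSeries.coeff_zero_eq_constantCoeff_apply,
      ← PowerSeries.coeff_succ_X_mul]
    exact h1
  rw [map_mul, ev1_X (mO C) ι hx, Subring.coe_mul, norm_mul,
    O.isUnit_iff.1 (hg.map (ev1 ι x)), mul_one]

/-- `G (T) - G (a) = (T - a) E (T)` -/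
theorem exists_eq_sub_mul {G : PowerSeries (O C)} {a : O C} (ha : a ∈ mO C)
    (hG : ev1 (RingHom.id _) a G = 0) :
    ∃ E : PowerSeries (O C), G = (PowerSeries.X - PowerSeries.C a) * E := by
  have hX : (PowerSeries.X : PowerSeries (O C)) ∈ cc Unit (mO C) := by
    change PowerSeries.constantCoeff PowerSeries.X ∈ mO C
    simp
  have hC : (PowerSeries.C a : PowerSeries (O C)) ∈ cc Unit (mO C) := by
    change PowerSeries.constantCoeff (PowerSeries.C a) ∈ mO C
    simpa using ha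
  have h1 := ev1_sub_ev1_dvd (B := PowerSeries (O C)) (cc Unit (mO C))
    (PowerSeries.C : O C →+* PowerSeries (O C)) hX hC G
  have h2 : RingHom.id (PowerSeries (O C)) =
      ev1 (PowerSeries.C : O C →+* PowerSeries (O C)) PowerSeries.X :=
    eq_ev (B := PowerSeries (O C)) (cc Unit (mO C)) _ (fun _ => hX) (fun _ => rfl) fun _ => rfl
  have h3 := map_ev1 (B' := PowerSeries (O C)) (mO C) (cc Unit (mO C)) (ι := RingHom.id (O C))
    (ι' := (PowerSeries.C : O C →+* PowerSeries (O C))) (ρ := RingHom.id (O C))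
    (ψ := (PowerSeries.C : O C →+* PowerSeries (O C))) rfl ha hC G
  rw [hG, map_zero, PowerSeries.map_id, id] at h3
  rw [← h2, ← h3, sub_zero] at h1
  exact h1

theorem ev1_derivative_mul {G E : PowerSeries (O C)} {a : O C} (ha : a ∈ mO C)
    (h : G = (PowerSeries.X - PowerSeries.C a) * E) :
    ev1 (RingHom.id _) a (PowerSeries.derivative _ G) = ev1 (RingHom.id _) a E := by
  rw [h, Derivation.leibniz, smul_eq_mul, smul_eq_mul, map_sub (PowerSeries.derivative _),
    PowerSeries.derivative_X, PowerSeries.derivative_C]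
  simp only [map_add, map_mul, map_sub, ev1_X (mO C) _ ha, ev1_C]
  simp

/-- A series whose reduction has order `N ≥ 1` has a root in the open disc
(Weierstrass division at the ideal `(ϖ)`, `ϖ` the largest coefficient below `N`). -/
theorem exists_root [IsAlgClosed C] {G : PowerSeries (O C)} {N : ℕ} (hN : 1 ≤ N)
    (hlt : ∀ i < N, PowerSeries.coeff i G ∈ mO C) (hu : IsUnit (PowerSeries.coeff N G)) :
    ∃ a ∈ mO C, ev1 (RingHom.id _) a G = 0 := by
  obtain ⟨ϖ, hϖ, hmax⟩ := Nrm.exists_max (Finset.range N) (fun i => PowerSeries.coeff i G)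
    fun i hi => hlt i (Finset.mem_range.1 hi)
  set I : Ideal (O C) := Ideal.span {ϖ} with hI
  have : IsAdicComplete I (O C) := O.isAdicComplete hϖ
  have hIm : I ≤ mO C := (Ideal.span_singleton_le_iff_mem _).2 hϖ
  have hnu : ∀ x ∈ mO C, ¬ IsUnit x := fun x hx h => (mem_mO.1 hx).ne (O.isUnit_iff.1 h)
  have hord : (G.map (Ideal.Quotient.mk I)).order = N := by
    rw [PowerSeries.order_eq_nat]
    refine ⟨?_, fun i hi => ?_⟩
    · rw [PowerSeries.coeff_map, Ne, Ideal.Quotient.eq_zero_iff_mem]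
      exact fun h => hnu _ (hIm h) hu
    · rw [PowerSeries.coeff_map, Ideal.Quotient.eq_zero_iff_mem]
      exact Ideal.mem_span_singleton.2 (O.dvd_iff.2 (hmax i (Finset.mem_range.2 hi)))
  have hord' : (G.map (Ideal.Quotient.mk I)).order.toNat = N := by rw [hord]; rfl
  have H : G.IsWeierstrassDivisorAt I := by
    rw [PowerSeries.IsWeierstrassDivisorAt, hord']
    exact hu
  have HD := H.isWeierstrassDivisionAt_div_mod (PowerSeries.X ^ N)
  set q := H.div (PowerSeries.X ^ N)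
  set r := H.mod (PowerSeries.X ^ N)
  have hdeg : r.degree < N := by
    have := HD.degree_lt
    rwa [hord'] at this
  have hr : ∀ i < N, ‖((r.coeff i : O C) : C)‖ ≤ ‖(ϖ : C)‖ := fun i hi => by
    have := HD.coeff_f_sub_r_mem (i := i) (by rw [hord']; exact hi)
    rw [map_sub, PowerSeries.coeff_X_pow, if_neg hi.ne, zero_sub, neg_mem_iff,
      Polynomial.coeff_coe] at this
    exact O.dvd_iff.1 (Ideal.mem_span_singleton.1 this)
  have hq : IsUnit q := by
    rw [PowerSeries.isUnit_iff_constantCoeff, ← PowerSeries.coeff_zero_eq_constantCoeff_apply]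
    by_contra hq
    have hq' : PowerSeries.coeff 0 q ∈ mO C :=
      mem_mO.2 (lt_of_le_of_ne (O.norm_le _) fun h => hq (O.isUnit_iff.2 h))
    have h1 := congrArg (PowerSeries.coeff N) HD.eq_mul_add
    rw [PowerSeries.coeff_X_pow_self, map_add, Polynomial.coeff_coe,
      Polynomial.coeff_eq_zero_of_degree_lt hdeg, add_zero, PowerSeries.coeff_mul] at h1
    refine hnu 1 ?_ isUnit_one
    rw [h1]
    refine Ideal.sum_mem _ fun ij hij => ?_
    have h2 : ij.1 + ij.2 = N := Finset.HasAntidiagonal.mem_antidiagonal.1 hij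
    rcases Nat.eq_zero_or_pos ij.2 with h3 | h3
    · rw [h3]
      exact Ideal.mul_mem_left _ _ hq'
    · exact Ideal.mul_mem_right _ _ (hlt _ (by omega))
  set r' : Polynomial C := r.map (O C).subtype with hr'
  have hdeg' : r'.degree < (Polynomial.X ^ N : Polynomial C).degree := by
    rw [Polynomial.degree_X_pow]
    exact (Polynomial.degree_map_le).trans_lt hdeg
  obtain ⟨a, ha⟩ := IsAlgClosed.exists_root (Polynomial.X ^ N - r') (by
    rw [Polynomial.degree_sub_eq_left_of_degree_lt hdeg', Polynomial.degree_X_pow]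
    exact_mod_cast (by omega : N ≠ 0))
  rw [Polynomial.IsRoot, Polynomial.eval_sub, Polynomial.eval_pow, Polynomial.eval_X,
    sub_eq_zero] at ha
  have hnat : r'.natDegree < N := by
    by_cases h0 : r' = 0
    · rw [h0, Polynomial.natDegree_zero]; omega
    · rw [Polynomial.natDegree_lt_iff_degree_lt h0]
      rwa [Polynomial.degree_X_pow] at hdeg'
  have ha1 : ‖a‖ < 1 := by
    by_contra hge
    rw [not_lt] at hge
    have h1 : ‖a ^ N‖ ≤ ‖(ϖ : C)‖ * ‖a‖ ^ N := by
      rw [ha, Polynomial.eval_eq_sum_range' hnat]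
      refine IsUltrametricDist.norm_sum_le_of_forall_le_of_nonneg (by positivity) fun i hi => ?_
      have hi' := Finset.mem_range.1 hi
      rw [norm_mul, norm_pow, hr', Polynomial.coeff_map]
      exact mul_le_mul (hr i hi') (pow_le_pow_right₀ hge hi'.le) (by positivity) (norm_nonneg _)
    rw [norm_pow] at h1
    have h2 : 0 < ‖a‖ ^ N := by positivity
    have h3 : ‖(ϖ : C)‖ < 1 := hϖ
    nlinarith
  let a' : O C := ⟨a, ha1.le⟩
  have ha' : a' ∈ mO C := ha1
  refine ⟨a', ha', ?_⟩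
  have h1 := congrArg (ev1 (RingHom.id (O C)) a') HD.eq_mul_add
  rw [map_pow, ev1_X (mO C) _ ha', map_add, map_mul, Nrm.ev1_coe (mO C) _ ha'] at h1
  have h2 : a' ^ N = Polynomial.eval₂ (RingHom.id (O C)) a' r := by
    apply Subtype.ext
    rw [SubmonoidClass.coe_pow, Polynomial.eval₂_id]
    change a ^ N = (O C).subtype (Polynomial.eval a' r)
    rw [ha, hr', ← Polynomial.eval₂_hom, Polynomial.eval_map]
    rfl
  rw [← h2, right_eq_add] at h1
  exact ((hq.map (ev1 (RingHom.id (O C)) a')).mul_left_eq_zero).1 h1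

end ev

/-! ### the normed group of points -/

section PO

variable {R : Type} [CommRing R]

/-- points in the open unit disc -/
abbrev PO (F : FormalGroup R) (ι : R →+* O C) : Type := Pt F ι (mO C)

/-- the coordinate of a point, in `C` -/
def Pt.c {F : FormalGroup R} {ι : R →+* O C} (x : PO F ι) : C := (x.1 : C)

open Classical in
/-- the point with coordinate `x` (junk `0` if `‖x‖ ≥ 1`) -/
noncomputable def pt (F : FormalGroup R) (ι : R →+* O C) (x : C) : PO F ι :=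
  if h : ‖x‖ < 1 then ⟨⟨x, h.le⟩, h⟩ else 0

variable {F : FormalGroup R} {ι : R →+* O C}

theorem Pt.norm_c_lt (x : PO F ι) : ‖x.c‖ < 1 := x.2

theorem Pt.ext_c {x y : PO F ι} (h : x.c = y.c) : x = y := Subtype.ext (Subtype.ext h)

theorem pt_c {x : C} (h : ‖x‖ < 1) : (pt F ι x).c = x := by
  simp [pt, h, Pt.c]

@[simp] theorem pt_self (x : PO F ι) : pt F ι x.c = x := Pt.ext_c (pt_c x.norm_c_lt)

@[simp] theorem Pt.zero_c : (0 : PO F ι).c = 0 := rfl

@[simp] theorem pt_zero : pt F ι (0 : C) = 0 := Pt.ext_c (pt_c (by simp))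

variable [CompleteSpace C]

theorem Pt.norm_sub_c [F.IsComm] (x y : PO F ι) : ‖(x - y).c‖ = ‖x.c - y.c‖ := by
  obtain ⟨c, hc, h⟩ := Pt.sub_val_eq' x y
  have h1 : ‖(1 : C) + (c : C)‖ = 1 := by
    have hc' : ‖(c : C)‖ < 1 := hc
    rw [IsUltrametricDist.norm_add_eq_max_of_norm_ne_norm (by rw [norm_one]; exact hc'.ne'),
      norm_one, max_eq_left hc'.le]
  have h2 : (x - y).c = (x.c - y.c) * (1 + (c : C)) := congrArg Subtype.val h
  rw [h2, norm_mul, h1, mul_one]

theorem Pt.norm_add_c_sub (x y : PO F ι) : ‖(x + y).c - (x.c + y.c)‖ ≤ ‖x.c‖ * ‖y.c‖ := by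
  obtain ⟨c, h⟩ := Pt.add_val_eq x y
  have h2 : (x + y).c = x.c + y.c + x.c * y.c * (c : C) := congrArg Subtype.val h
  rw [h2, add_sub_cancel_left, norm_mul, norm_mul]
  exact mul_le_of_le_one_right (by positivity) (O.norm_le c)

noncomputable instance [F.IsComm] : NormedAddCommGroup (PO F ι) where
  norm x := ‖x.c‖
  dist x y := ‖x.c - y.c‖
  dist_self x := by simp
  dist_comm x y := norm_sub_rev _ _
  dist_triangle x y z := by
    simpa [dist_eq_norm] using dist_triangle x.c y.c z.c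
  eq_of_dist_eq_zero h := Pt.ext_c (sub_eq_zero.1 (norm_eq_zero.1 h))
  dist_eq x y := by
    show ‖x.c - y.c‖ = ‖(-x + y).c‖
    rw [neg_add_eq_sub, Pt.norm_sub_c, norm_sub_rev]

theorem Pt.norm_def [F.IsComm] (x : PO F ι) : ‖x‖ = ‖x.c‖ := rfl

theorem Pt.dist_def [F.IsComm] (x y : PO F ι) : dist x y = ‖x.c - y.c‖ := rfl

instance [F.IsComm] : IsUltrametricDist (PO F ι) := by
  exact ⟨fun x y z => by
    simpa only [Pt.dist_def, ← dist_eq_norm] using IsUltrametricDist.dist_triangle_max x.c y.c z.c⟩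

instance [F.IsComm] : CompleteSpace (PO F ι) := by
  have hiso : Isometry (Pt.c : PO F ι → C) :=
    Isometry.of_dist_eq fun x y => by rw [Pt.dist_def, dist_eq_norm]
  rw [completeSpace_iff_isComplete_range hiso.isUniformInducing]
  have : Set.range (Pt.c : PO F ι → C) = Metric.ball 0 1 := by
    ext x
    rw [mem_ball_zero_iff]
    exact ⟨fun ⟨y, hy⟩ => hy ▸ y.norm_c_lt, fun hx => ⟨pt F ι x, pt_c hx⟩⟩
  rw [this]
  exact (IsUltrametricDist.isClosed_ball 0 1).isComplete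

theorem Pt.summable_iff [F.IsComm] {κ : Type} {f : κ → PO F ι} :
    Summable f ↔ Tendsto (fun i => (f i).c) cofinite (𝓝 0) := by
  rw [NonarchimedeanAddGroup.summable_iff_tendsto_cofinite_zero,
    tendsto_zero_iff_norm_tendsto_zero,
    tendsto_zero_iff_norm_tendsto_zero (f := fun i => (f i).c)]
  rfl

/-- a group sum is the ordinary sum up to `ρ²` -/
theorem Pt.norm_sum_c_sub [F.IsComm] {κ : Type} (s : Finset κ) (f : κ → PO F ι) {ρ : ℝ}
    (hρ0 : 0 ≤ ρ) (h : ∀ i ∈ s, ‖(f i).c‖ ≤ ρ) :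
    ‖(∑ i ∈ s, f i).c - ∑ i ∈ s, (f i).c‖ ≤ ρ ^ 2 := by
  classical
  induction s using Finset.induction_on with
  | empty => simpa using pow_nonneg hρ0 2
  | insert a s ha ih =>
    rw [Finset.sum_insert ha, Finset.sum_insert ha]
    have h1 := ih fun i hi => h i (Finset.mem_insert_of_mem hi)
    have h2 : ‖∑ i ∈ s, f i‖ ≤ ρ :=
      IsUltrametricDist.norm_sum_le_of_forall_le_of_nonneg hρ0
        fun i hi => h i (Finset.mem_insert_of_mem hi)
    have h3 := (Pt.norm_add_c_sub (f a) (∑ i ∈ s, f i)).trans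
      (mul_le_mul (h a (Finset.mem_insert_self a s)) h2 (norm_nonneg _) hρ0)
    have e : (f a + ∑ i ∈ s, f i).c - ((f a).c + ∑ i ∈ s, (f i).c) =
        ((f a + ∑ i ∈ s, f i).c - ((f a).c + (∑ i ∈ s, f i).c)) +
          ((∑ i ∈ s, f i).c - ∑ i ∈ s, (f i).c) := by ring
    rw [e]
    exact (IsUltrametricDist.norm_add_le_max _ _).trans (max_le (by rwa [pow_two]) h1)

theorem Pt.norm_nsmul_c_sub [F.IsComm] (m : ℕ) (x : PO F ι) :
    ‖(m • x).c - m * x.c‖ ≤ ‖x.c‖ ^ 2 := by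
  simpa using Pt.norm_sum_c_sub (Finset.range m) (fun _ => x) (norm_nonneg x.c) fun _ _ => le_rfl

/-- additive maps that do not increase norms are continuous; in particular `Pt.hom` -/
theorem Pt.continuous_hom {G : FormalGroup R} [F.IsComm] [G.IsComm] {θ : PowerSeries R}
    (hθ : IsFGHom F G θ) : Continuous (Pt.hom ι (mO C) hθ) := by
  refine (LipschitzWith.of_dist_le_mul (K := 1) fun x y => ?_).continuous
  rw [NNReal.coe_one, one_mul]
  exact norm_ev1_sub_ev1_le ι x.2 y.2 θ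

end PO

/-! ### Frobenius -/

section Frob

variable (p : ℕ) [Fact p.Prime] [CharP C p] [IsAlgClosed C]

/-- the prime field inside `O` -/
noncomputable abbrev zO (C : Type) [NontriviallyNormedField C] [IsUltrametricDist C] [CharP C p] :
    ZMod p →+* O C := ZMod.castHom (dvd_refl p) (O C)

/-- `x ↦ x^(p^j)`, `j ∈ ℤ`. -/
noncomputable def Fr (j : ℤ) : C ≃+* C := ((frobeniusEquiv C p : RingAut C) ^ j : RingAut C)

variable {p}

omit [IsUltrametricDist C] in
theorem Fr_add (i j : ℤ) (x : C) : Fr p (i + j) x = Fr p i (Fr p j x) := by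
  rw [Fr, zpow_add]
  rfl

omit [IsUltrametricDist C] in
@[simp] theorem Fr_zero (x : C) : Fr p 0 x = x := by
  rw [Fr, zpow_zero]
  rfl

omit [IsUltrametricDist C] in
theorem Fr_natCast (j : ℕ) (x : C) : Fr p (j : ℤ) x = x ^ p ^ j := by
  induction j generalizing x with
  | zero => simp
  | succ j ih =>
    rw [Nat.cast_succ, Fr_add, ih, pow_succ', pow_mul]
    congr 1

omit [IsUltrametricDist C] in
theorem norm_Fr (j : ℤ) (x : C) : ‖Fr p j x‖ = ‖x‖ ^ ((p : ℝ) ^ j) := by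
  obtain ⟨n, rfl | rfl⟩ := j.eq_nat_or_neg
  · rw [Fr_natCast, norm_pow, zpow_natCast, ← Nat.cast_pow, Real.rpow_natCast]
  · have h : x = (Fr p (-(n : ℤ)) x) ^ p ^ n := by
      rw [← Fr_natCast, ← Fr_add, add_neg_cancel, Fr_zero]
    have hp : p ^ n ≠ 0 := pow_ne_zero _ (Fact.out : p.Prime).ne_zero
    conv_rhs => rw [h]
    rw [norm_pow, zpow_neg, zpow_natCast, ← Nat.cast_pow,
      Real.pow_rpow_inv_natCast (norm_nonneg _) hp]

omit [IsUltrametricDist C] in
theorem norm_Fr_lt_one (j : ℤ) {x : C} (hx : ‖x‖ < 1) : ‖Fr p j x‖ < 1 := by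
  rw [norm_Fr]
  exact Real.rpow_lt_one (norm_nonneg _) hx
    (zpow_pos (Nat.cast_pos.2 (Fact.out : p.Prime).pos) _)

omit [IsUltrametricDist C] in
theorem Nrm.Fr_mul_eq {n : ℕ} {a : C} (ha : a ^ p ^ n = a) (k : ℤ) : Fr p (n * k) a = a := by
  have h1 : Fr p (n : ℤ) a = a := by rw [Fr_natCast, ha]
  have h2 : Fr p (-(n : ℤ)) a = a := by
    conv_lhs => rw [← h1]
    rw [← Fr_add, neg_add_cancel, Fr_zero]
  induction k using Int.induction_on with
  | zero => simp
  | succ k ih => rw [mul_add, mul_one, Fr_add, h1, ih]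
  | pred k ih => rw [mul_sub, mul_one, sub_eq_add_neg, Fr_add, h2, ih]

variable (p) in
/-- `Fr` restricted to the ring of integers -/
noncomputable def Nrm.FrO (j : ℤ) : O C →+* O C :=
  ((Fr p j : C ≃+* C) : C →+* C).restrict (O C) (O C) fun x hx => by
    rw [mem_O] at hx ⊢
    change ‖Fr p j x‖ ≤ 1
    rw [norm_Fr]
    exact Real.rpow_le_one (norm_nonneg _) hx (zpow_nonneg (Nat.cast_nonneg _) _)

theorem Nrm.FrO_val (j : ℤ) (x : O C) : ((Nrm.FrO p j x : O C) : C) = Fr p j (x : C) := rfl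

omit [IsUltrametricDist C] in
/-- elements of `𝔽_{p^n}` -/
theorem Fr_eq_of_modEq {n : ℕ} {a : C} (ha : a ^ p ^ n = a) {i j : ℤ} (h : i ≡ j [ZMOD n]) :
    Fr p i a = Fr p j a := by
  obtain ⟨k, hk⟩ := h.dvd
  rw [show j = i + n * k by omega, Fr_add, Nrm.Fr_mul_eq ha]

omit [IsUltrametricDist C] [IsAlgClosed C] [CharP C p] in
theorem norm_le_one_of_pow_eq {n : ℕ} (hn : 1 ≤ n) {a : C} (ha : a ^ p ^ n = a) : ‖a‖ ≤ 1 := by
  by_contra h
  rw [not_le] at h
  have h1 : 1 < p ^ n := Nat.one_lt_pow (by omega) (Fact.out : p.Prime).one_lt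
  have h2 := pow_lt_pow_right₀ h h1
  rw [← norm_pow, ← norm_pow, ha, pow_one] at h2
  exact lt_irrefl _ h2

omit [IsUltrametricDist C] [IsAlgClosed C] [CharP C p] in
theorem norm_eq_one_of_pow_eq {n : ℕ} (hn : 1 ≤ n) {a : C} (ha : a ^ p ^ n = a) (h0 : a ≠ 0) :
    ‖a‖ = 1 := by
  refine le_antisymm (norm_le_one_of_pow_eq hn ha) ?_
  by_contra h
  rw [not_le] at h
  have h1 : 1 < p ^ n := Nat.one_lt_pow (by omega) (Fact.out : p.Prime).one_lt
  have h2 := pow_lt_pow_right_of_lt_one₀ (norm_pos_iff.2 h0) h h1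
  rw [← norm_pow, ← norm_pow, ha, pow_one] at h2
  exact lt_irrefl _ h2

variable [CompleteSpace C]

theorem frP_add (G : FormalGroup (ZMod p)) [G.IsComm] (j : ℤ) (x y : PO G (zO p C)) :
    pt G (zO p C) (Fr p j (x + y).c) = pt G (zO p C) (Fr p j x.c) + pt G (zO p C) (Fr p j y.c) := by
  have hN : ∀ z ∈ mO C, Nrm.FrO p j z ∈ mO C := fun z hz => norm_Fr_lt_one j hz
  have h := Pt.map_add_aux (F := G) (F' := G) (ι := zO p C) (ι' := zO p C) (N := mO C)
    (N' := mO C) (ψ := Nrm.FrO p j) (by congr 1; exact RingHom.ext_zmod _ _) hN x y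
  have e : ∀ z : PO G (zO p C), (pt G (zO p C) (Fr p j z.c)).1 = Nrm.FrO p j z.1 := fun z =>
    Subtype.ext (pt_c (F := G) (ι := zO p C) (norm_Fr_lt_one j z.norm_c_lt))
  apply Pt.ext
  rw [Pt.add_val, e, e, e, h]

/-- Frobenius powers act on the points of a law defined over `𝔽_p`. -/
noncomputable def frP (G : FormalGroup (ZMod p)) [G.IsComm] (j : ℤ) :
    PO G (zO p C) →+ PO G (zO p C) :=
  AddMonoidHom.mk' (fun x => pt G (zO p C) (Fr p j x.c)) (frP_add G j)

theorem frP_c (G : FormalGroup (ZMod p)) [G.IsComm] (j : ℤ) (x : PO G (zO p C)) :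
    (frP G j x).c = Fr p j x.c := pt_c (norm_Fr_lt_one j x.norm_c_lt)

theorem continuous_frP (G : FormalGroup (ZMod p)) [G.IsComm] (j : ℤ) :
    Continuous (frP (C := C) G j) := by
  refine continuous_of_continuousAt_zero (frP (C := C) G j) ?_
  rw [ContinuousAt, map_zero, tendsto_zero_iff_norm_tendsto_zero]
  have hp : (0 : ℝ) < (p : ℝ) ^ j := zpow_pos (Nat.cast_pos.2 (Fact.out : p.Prime).pos) _
  have h1 : (fun x : PO G (zO p C) => ‖frP G j x‖) = fun x => ‖x‖ ^ ((p : ℝ) ^ j) := by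
    funext x
    rw [Pt.norm_def, frP_c, norm_Fr, Pt.norm_def]
  rw [h1]
  have h2 := (continuous_norm (E := PO G (zO p C))).rpow_const (p := (p : ℝ) ^ j)
    fun _ => Or.inr hp.le
  have h3 := h2.tendsto 0
  rwa [norm_zero, Real.zero_rpow hp.ne'] at h3

/-- a series with coefficients in `𝔽_{p^n}` commutes with `Fr (n k)` -/
theorem Fr_ev1 {R : Type} [CommRing R] (ι : R →+* O C) {n : ℕ} {f : PowerSeries R}
    (hf : ∀ i, ι (PowerSeries.coeff i f) ^ p ^ n = ι (PowerSeries.coeff i f)) (k : ℤ)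
    {x y : O C} (hx : x ∈ mO C) (hy : (y : C) = Fr p (n * k) (x : C)) :
    ((ev1 ι y f : O C) : C) = Fr p (n * k) ((ev1 ι x f : O C) : C) := by
  have hy' : y = Nrm.FrO p (n * k) x := Subtype.ext hy
  have hym : Nrm.FrO p (n * k) x ∈ mO C := norm_Fr_lt_one _ hx
  have h1 := map_ev1 (mO C) (mO C) (ι := ι) (ι' := RingHom.id (O C))
    (ρ := (Nrm.FrO p (n * k)).comp ι) (ψ := Nrm.FrO p (n * k)) rfl hx hym f
  have h2 : f.map ((Nrm.FrO p (n * k)).comp ι) = f.map ι := by
    ext1 i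
    rw [PowerSeries.coeff_map, PowerSeries.coeff_map]
    apply Subtype.ext
    exact Nrm.Fr_mul_eq (congrArg Subtype.val (hf i)) k
  rw [h2, ev1_map (mO C) _ _ hym, RingHom.id_comp] at h1
  rw [hy', ← h1]
  rfl

variable (p C)

/-- the field with `p^h` elements inside `C` -/
def Fq (h : ℕ) : Subfield C := RingHom.eqLocusField (iterateFrobenius C p h) (RingHom.id C)

variable {p C}

omit [IsUltrametricDist C] [IsAlgClosed C] [CompleteSpace C] in
theorem mem_Fq {h : ℕ} {x : C} : x ∈ Fq C p h ↔ x ^ p ^ h = x := by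
  simp [Fq, RingHom.mem_eqLocusField, iterateFrobenius_def]

omit [IsUltrametricDist C] [CompleteSpace C] in
theorem card_Fq {h : ℕ} (hh : 1 ≤ h) : Nat.card (Fq C p h) = p ^ h := by
  classical
  have hp : 1 < p := (Fact.out : p.Prime).one_lt
  have hsep : (Polynomial.X ^ p ^ h - Polynomial.X : Polynomial C).Separable :=
    galois_poly_separable p _ (dvd_pow_self p (by omega))
  have h1 := Polynomial.card_rootSet_eq_natDegree (K := C) hsep (IsAlgClosed.splits _)
  rw [FiniteField.X_pow_card_pow_sub_X_natDegree_eq C (by omega) hp,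
    ← Nat.card_eq_fintype_card] at h1
  rw [← h1]
  refine Nat.card_congr (Equiv.subtypeEquivRight fun x => ?_)
  rw [mem_Fq, Polynomial.mem_rootSet_of_ne
    (FiniteField.X_pow_card_pow_sub_X_ne_zero C (by omega) hp)]
  simp [sub_eq_zero]

/-- the inclusion `𝔽_{p^h} → O` -/
noncomputable def FqO {h : ℕ} (hh : 1 ≤ h) : Fq C p h →+* O C :=
  (Fq C p h).subtype.codRestrict (O C) fun x => norm_le_one_of_pow_eq hh (mem_Fq.1 x.2)

/-- the prime field inside `𝔽_{p^h}` -/
noncomputable abbrev zF (h : ℕ) : ZMod p →+* Fq C p h := ZMod.castHom (dvd_refl p) (Fq C p h)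

omit [IsUltrametricDist C] [CompleteSpace C] in
/-- character sums over `𝔽_{p^n}` -/
theorem sum_inv_mul_Fr {n : ℕ} (hn : 1 ≤ n) [Fintype (Fq C p n)] (i j : ℤ) :
    ∑ a : Fq C p n, (Fr p i (a : C))⁻¹ * Fr p j (a : C) = if i ≡ j [ZMOD n] then -1 else 0 := by
  classical
  have hp : 1 < p := (Fact.out : p.Prime).one_lt
  split_ifs with hij
  · have h1 : ∀ a : Fq C p n, (Fr p i (a : C))⁻¹ * Fr p j (a : C) =
        1 - if a = 0 then 1 else 0 := fun a => by
      rw [Fr_eq_of_modEq (mem_Fq.1 a.2) hij]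
      split_ifs with h
      · simp [h]
      · rw [inv_mul_cancel₀, sub_zero]
        simpa using h
    simp only [h1, Finset.sum_sub_distrib, Finset.sum_const, Finset.card_univ,
      Finset.sum_ite_eq', Finset.mem_univ, if_true, nsmul_eq_mul, mul_one]
    rw [← Nat.card_eq_fintype_card, card_Fq hn, Nat.cast_pow, CharP.cast_eq_zero,
      zero_pow (by omega), zero_sub]
  · have hex : ∃ b : Fq C p n, Fr p i (b : C) ≠ Fr p j (b : C) := by
      by_contra hall
      push Not at hall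
      have hn' : (0 : ℤ) < n := by exact_mod_cast hn
      obtain ⟨d, hd⟩ := Int.eq_ofNat_of_zero_le (Int.emod_nonneg (j - i) hn'.ne')
      have hdn : d < n := by
        have := Int.emod_lt_of_pos (j - i) hn'
        omega
      have hd1 : 1 ≤ d := by
        by_contra h0
        have h0' : d = 0 := by omega
        rw [h0'] at hd
        exact hij (Int.modEq_iff_dvd.2 (Int.dvd_of_emod_eq_zero hd))
      have hle : Fq C p n ≤ Fq C p d := fun b hb => by
        rw [mem_Fq, ← Fr_natCast, ← hd,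
          Fr_eq_of_modEq (mem_Fq.1 hb) (Int.mod_modEq (j - i) n)]
        apply (Fr p i).injective
        rw [← Fr_add, add_sub_cancel]
        exact (hall ⟨b, hb⟩).symm
      have hfin : Finite (Fq C p d) := Nat.finite_of_card_ne_zero (by
        rw [card_Fq hd1]; positivity)
      have h1 := Nat.card_le_card_of_injective (Subfield.inclusion hle)
        (Subfield.inclusion hle).injective
      rw [card_Fq hn, card_Fq hd1] at h1
      exact absurd h1 (not_le.2 (Nat.pow_lt_pow_right hp hdn))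
    obtain ⟨b, hb⟩ := hex
    have hb0 : b ≠ 0 := by
      rintro rfl
      simp at hb
    have hb1 : Fr p i (b : C) ≠ 0 := by simpa using hb0
    have h1 := Equiv.sum_comp (Equiv.mulLeft₀ b hb0)
      fun a : Fq C p n => (Fr p i (a : C))⁻¹ * Fr p j (a : C)
    have h2 : ∀ a : Fq C p n, (Fr p i ((Equiv.mulLeft₀ b hb0 a : Fq C p n) : C))⁻¹ *
        Fr p j ((Equiv.mulLeft₀ b hb0 a : Fq C p n) : C) =
        ((Fr p i (b : C))⁻¹ * Fr p j (b : C)) * ((Fr p i (a : C))⁻¹ * Fr p j (a : C)) := fun a => by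
      rw [Equiv.mulLeft₀_apply, Subfield.coe_mul, map_mul, map_mul, mul_inv]
      ring
    simp only [h2, ← Finset.mul_sum] at h1
    have h3 : (Fr p i (b : C))⁻¹ * Fr p j (b : C) ≠ 1 := fun h => by
      rw [inv_mul_eq_one₀ hb1] at h
      exact hb h
    exact (mul_left_eq_self₀.1 h1).resolve_left h3

end Frob

end Crest.Agent.R227
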