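import Crest.Agent.R227.Normal
import Crest.Agent.R227.Nrm

/-!
# R227 / ExpAux : auxiliary lemmas for `Exp`
-/

set_option autoImplicit false

namespace Crest.Agent.R227.ExpAux

open MvPowerSeries Crest.LubinTate Filter Topology PtAux

variable {p : ℕ} [Fact p.Prime] {R R' B : Type} [CommRing R] [CommRing R'] [CommRing B]

section gen

variable {R₀ : Type} [CommRing R₀] {F : FormalGroup R₀} [F.IsComm] {ι : R₀ →+* R}

theorem dvd_sub_iff (γ δ : Cur F ι) (a : PowerSeries R) :
    a ∣ γ.1 - δ.1 ↔ a ∣ (γ - δ).1 := by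
  constructor
  · intro h
    obtain ⟨c, -, hc⟩ := Pt.sub_val_eq' γ δ
    rw [hc]
    exact h.mul_right _
  · intro h
    obtain ⟨c, -, hc⟩ := Pt.sub_val_eq γ δ
    rw [hc]
    exact h.mul_right _

/-- the filtration of the group of curves -/
def fil (F : FormalGroup R₀) [F.IsComm] (ι : R₀ →+* R) (k : ℕ) : AddSubgroup (Cur F ι) where
  carrier := {γ | PowerSeries.X ^ k ∣ γ.1}
  zero_mem' := dvd_zero _
  add_mem' := by
    intro a b ha hb
    obtain ⟨c, hc⟩ := Pt.add_val_eq a b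
    show PowerSeries.X ^ k ∣ (a + b).1
    rw [hc]
    exact dvd_add (dvd_add ha hb) ((Dvd.dvd.mul_right ha _).mul_right _)
  neg_mem' := by
    intro a ha
    show PowerSeries.X ^ k ∣ (-a).1
    rw [← zero_sub, ← dvd_sub_iff, Pt.zero_val, zero_sub]
    exact (dvd_neg).2 ha

theorem mem_fil {k : ℕ} {γ : Cur F ι} : γ ∈ fil F ι k ↔ PowerSeries.X ^ k ∣ γ.1 := Iff.rfl

omit [F.IsComm] in
theorem coeff_add_of_dvd {k : ℕ} (γ δ : Cur F ι) (hδ : PowerSeries.X ^ k ∣ δ.1) :
    PowerSeries.coeff k (γ + δ).1 = PowerSeries.coeff k γ.1 + PowerSeries.coeff k δ.1 := by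
  obtain ⟨c, hc⟩ := Pt.add_val_eq γ δ
  have h : (PowerSeries.X : PowerSeries R) ^ (k + 1) ∣ γ.1 * δ.1 * c := by
    rw [pow_succ']
    exact (mul_dvd_mul (Ideal.mem_span_singleton.1 γ.2) hδ).mul_right _
  rw [hc, map_add, map_add, PowerSeries.X_pow_dvd_iff.1 h k (Nat.lt_succ_self k), add_zero]

theorem coeff_sum_of_mem {κ : Type} (s : Finset κ) (f : κ → Cur F ι) {k : ℕ}
    (hf : ∀ i ∈ s, f i ∈ fil F ι k) :
    PowerSeries.coeff k (∑ i ∈ s, f i).1 = ∑ i ∈ s, PowerSeries.coeff k (f i).1 := by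
  classical
  induction s using Finset.induction_on with
  | empty => simp
  | insert a s ha ih =>
    rw [Finset.sum_insert ha, Finset.sum_insert ha,
      coeff_add_of_dvd _ _ (mem_fil.1 (sum_mem fun i hi => hf i (Finset.mem_insert_of_mem hi))),
      ih fun i hi => hf i (Finset.mem_insert_of_mem hi)]

omit [F.IsComm] in
theorem mono_val (c : R) (j : ℕ) :
    (mono p F ι c j).1 = PowerSeries.C c * PowerSeries.X ^ p ^ j := rfl

omit [F.IsComm] in
theorem mono_zero (j : ℕ) : mono p F ι (0 : R) j = 0 :=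
  Pt.ext (by rw [mono_val, map_zero, zero_mul, Pt.zero_val])

end gen

section zmod

variable {G G' : FormalGroup (ZMod p)} [G.IsComm] [G'.IsComm] {ι : ZMod p →+* R}

theorem sum_pow_p (ι : ZMod p →+* R) {κ : Type} (s : Finset κ) (f : κ → R) (j : ℕ) :
    (∑ i ∈ s, f i) ^ p ^ j = ∑ i ∈ s, f i ^ p ^ j := by
  rcases subsingleton_or_nontrivial R with hR | hR
  · exact Subsingleton.elim _ _
  · have : CharP R p := (CharP.charP_iff_prime_eq_zero Fact.out).2 (by
      rw [← map_natCast ι, ZMod.natCast_self, map_zero])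
    exact sum_pow_char_pow p j s f

/-- any ring map acts on points of a law over `𝔽_p` -/
noncomputable def rmap (G : FormalGroup (ZMod p)) [G.IsComm] {B B' : Type} [CommRing B]
    [CommRing B'] (ι : ZMod p →+* B) (ι' : ZMod p →+* B') (N : Ideal B) [IsEv N] (N' : Ideal B')
    [IsEv N'] (ψ : B →+* B') (hN : ∀ x ∈ N, ψ x ∈ N') : Pt G ι N →+ Pt G ι' N' :=
  Pt.map ψ (by congr 1; exact Subsingleton.elim _ _) hN

theorem rmap_val {B B' : Type} [CommRing B] [CommRing B'] {ι : ZMod p →+* B}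
    {ι' : ZMod p →+* B'} {N : Ideal B} [IsEv N] {N' : Ideal B'} [IsEv N'] {ψ : B →+* B'}
    (hN : ∀ x ∈ N, ψ x ∈ N') (x : Pt G ι N) : (rmap G ι ι' N N' ψ hN x).1 = ψ x.1 := rfl

/-- a homomorphism of laws defined over `R` acts on points in an `R`-algebra -/
noncomputable def homPt (ι' : ZMod p →+* B) (N : Ideal B) [IsEv N] (κ : R →+* B)
    {θ : PowerSeries R} (hθ : IsFGHom (G'.map ι) (G.map ι) θ) : Pt G' ι' N →+ Pt G ι' N :=
  (Pt.map (F := G.map ι) (ι := κ) (F' := G) (ι' := ι') (RingHom.id B)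
    (by rw [fg_map_map]; congr 1; exact Subsingleton.elim _ _) (fun _ h => h)).comp
  ((Pt.hom κ N hθ).comp
    (Pt.map (F := G') (ι := ι') (F' := G'.map ι) (ι' := κ) (RingHom.id B)
      (by rw [fg_map_map]; congr 1; exact Subsingleton.elim _ _) (fun _ h => h)))

theorem homPt_val {ι' : ZMod p →+* B} {N : Ideal B} [IsEv N] (κ : R →+* B)
    {θ : PowerSeries R} (hθ : IsFGHom (G'.map ι) (G.map ι) θ) (x : Pt G' ι' N) :
    (homPt ι' N κ hθ x).1 = ev1 κ x.1 θ := rfl

theorem ev1_C_mul_X (N : Ideal B) [IsEv N] (κ : R →+* B) {x : B} (hx : x ∈ N) (a : R) :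
    ev1 κ x (PowerSeries.C a * PowerSeries.X) = κ a * x := by
  rw [map_mul, ev1_C, ev1_X N κ hx]

theorem ev1_mono (N : Ideal B) [IsEv N] (κ : R →+* B) {x : B} (hx : x ∈ N) (a : R) (k : ℕ) :
    ev1 κ x (PowerSeries.C a * PowerSeries.X ^ k) = κ a * x ^ k := by
  rw [map_mul, map_pow, ev1_C, ev1_X N κ hx]

theorem mem_spanX {f : PowerSeries R} :
    f ∈ Ideal.span {(PowerSeries.X : PowerSeries R)} ↔ PowerSeries.constantCoeff f = 0 := by
  rw [Ideal.mem_span_singleton, PowerSeries.X_dvd_iff]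

theorem map_mem_spanX {ψ : PowerSeries R →+* B} {N : Ideal B} (h : ψ PowerSeries.X ∈ N)
    (f : PowerSeries R) (hf : f ∈ Ideal.span {(PowerSeries.X : PowerSeries R)}) : ψ f ∈ N := by
  obtain ⟨g, rfl⟩ := Ideal.mem_span_singleton.1 hf
  rw [map_mul]
  exact N.mul_mem_right _ h

theorem rescale_eq_ev1 (a : R) (f : PowerSeries R) :
    PowerSeries.rescale a f = ev1 PowerSeries.C (PowerSeries.C a * PowerSeries.X) f := by
  have hm : (PowerSeries.C a * PowerSeries.X : PowerSeries R) ∈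
      Ideal.span {(PowerSeries.X : PowerSeries R)} := mem_spanX.2 (by simp)
  have := eq_ev (σ := Unit) (Ideal.span {(PowerSeries.X : PowerSeries R)}) PowerSeries.C
    (a := fun _ => PowerSeries.C a * PowerSeries.X) (fun _ => hm) (f := PowerSeries.rescale a)
    (fun r => by
      change PowerSeries.rescale a (PowerSeries.C r) = _
      ext n
      rw [PowerSeries.coeff_rescale, PowerSeries.coeff_C]
      split_ifs with h
      · simp [h]
      · simp)
    (fun _ => PowerSeries.rescale_X a)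
  rw [this]
  rfl

theorem rescale_mono (a c : R) (k : ℕ) :
    PowerSeries.rescale a (PowerSeries.C c * PowerSeries.X ^ k) =
      PowerSeries.C (c * a ^ k) * PowerSeries.X ^ k := by
  have hm : (PowerSeries.C a * PowerSeries.X : PowerSeries R) ∈
      Ideal.span {(PowerSeries.X : PowerSeries R)} := mem_spanX.2 (by simp)
  rw [rescale_eq_ev1, ev1_mono _ _ hm, map_mul, map_pow]
  ring

end zmod

end Crest.Agent.R227.ExpAux
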