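import Crest.Agent.R227.Normal
import Crest.Agent.R227.Nrm
import Crest.Agent.R227.ExpAux

/-!
# R227 / Exp : `p`-typical expansions `γ = ∑^G c_j t^(p^j)`, carries
-/

set_option autoImplicit false

namespace Crest.Agent.R227

open MvPowerSeries Crest.LubinTate Filter Topology PtAux ExpAux

variable (p : ℕ) [Fact p.Prime] {R R' : Type} [CommRing R] [CommRing R']

/-- `R` contains primitive `l`-th roots of unity for all primes `l ≠ p` -/
def HasRoots (R : Type) [CommRing R] : Prop :=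
  ∀ l : ℕ, l.Prime → l ≠ p → ∃ ζ : R, ∑ i ∈ Finset.range l, ζ ^ i = 0

variable {p}

/-- `γ (t) ↦ γ (a t)` -/
noncomputable def Cur.resc (G : FormalGroup (ZMod p)) [G.IsComm] (ι : ZMod p →+* R) (a : R) :
    Cur G ι →+ Cur G ι :=
  Pt.map (PowerSeries.rescale a) (by congr 1; exact Subsingleton.elim _ _) (fun f hf => by
    rw [Ideal.mem_span_singleton, PowerSeries.X_dvd_iff] at hf ⊢
    rw [← PowerSeries.coeff_zero_eq_constantCoeff_apply] at hf ⊢
    simp [PowerSeries.coeff_rescale, hf])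

/-- `p`-typical curves -/
def IsTyp (G : FormalGroup (ZMod p)) [G.IsComm] (ι : ZMod p →+* R) (γ : Cur G ι) : Prop :=
  ∀ l : ℕ, l.Prime → l ≠ p → ∀ ζ : R, ∑ i ∈ Finset.range l, ζ ^ i = 0 →
    ∑ i ∈ Finset.range l, Cur.resc G ι (ζ ^ i) γ = 0

/-- `γ = ∑^G_j c_j t^(p^j)` -/
def Expands (G : FormalGroup (ZMod p)) [G.IsComm] (ι : ZMod p →+* R) (γ : PowerSeries R)
    (c : ℕ → R) : Prop :=
  ∀ J : ℕ, PowerSeries.X ^ p ^ J ∣ γ - (∑ j ∈ Finset.range J, mono p G ι (c j) j).1

theorem HasRoots.map (h : HasRoots p R) (ψ : R →+* R') : HasRoots p R' := by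
  intro l hl hlp
  obtain ⟨ζ, hζ⟩ := h l hl hlp
  refine ⟨ψ ζ, ?_⟩
  simpa only [map_sum, map_pow, map_zero] using congrArg ψ hζ

theorem hasRoots_O {C : Type} [NontriviallyNormedField C] [IsUltrametricDist C] [CharP C p]
    [IsAlgClosed C] : HasRoots p (O C) := by
  intro l hl _
  have : Fact l.Prime := ⟨hl⟩
  obtain ⟨ζ, hζ⟩ := IsAlgClosed.exists_root (Polynomial.cyclotomic l C)
    (Polynomial.degree_cyclotomic_pos l C hl.pos).ne'
  rw [Polynomial.cyclotomic_prime, Polynomial.IsRoot.def, Polynomial.eval_finsetSum] at hζ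
  simp only [Polynomial.eval_pow, Polynomial.eval_X] at hζ
  have h1 : ζ ^ l = 1 := by
    have := geom_sum_mul ζ l
    rw [hζ, zero_mul] at this
    exact (sub_eq_zero.1 this.symm)
  have h2 : ‖ζ‖ = 1 := by
    have h3 : ‖ζ‖ ^ l = 1 := by rw [← norm_pow, h1, norm_one]
    exact (pow_eq_one_iff_of_nonneg (norm_nonneg _) hl.ne_zero).1 h3
  refine ⟨⟨ζ, h2.le⟩, Subtype.ext ?_⟩
  simpa using hζ

section

variable {G : FormalGroup (ZMod p)} [G.IsComm] {ι : ZMod p →+* R} {h : ℕ}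

theorem Cur.resc_val (a : R) (γ : Cur G ι) :
    (Cur.resc G ι a γ).1 = PowerSeries.rescale a γ.1 := rfl

theorem isTyp_add {γ δ : Cur G ι} (hγ : IsTyp G ι γ) (hδ : IsTyp G ι δ) : IsTyp G ι (γ + δ) := by
  intro l hl hlp ζ hζ
  simp only [map_add, Finset.sum_add_distrib, hγ l hl hlp ζ hζ, hδ l hl hlp ζ hζ, add_zero]

theorem isTyp_neg {γ : Cur G ι} (hγ : IsTyp G ι γ) : IsTyp G ι (-γ) := by
  intro l hl hlp ζ hζ
  simp only [map_neg, Finset.sum_neg_distrib, hγ l hl hlp ζ hζ, neg_zero]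

theorem isTyp_mono (hG : IsNormal p h G) (c : R) (j : ℕ) : IsTyp G ι (mono p G ι c j) := by
  intro l hl hlp ζ hζ
  have hζ' : ∑ i ∈ Finset.range l, (ζ ^ p ^ j) ^ i = 0 := by
    have := sum_pow_p ι (Finset.range l) (fun i => ζ ^ i) j
    rw [hζ, zero_pow (pow_ne_zero _ (Fact.out : p.Prime).ne_zero)] at this
    rw [this]
    exact Finset.sum_congr rfl fun i _ => by rw [← pow_mul, ← pow_mul, mul_comm]
  have hm := (mono p G ι c j).2
  have h1 := congrArg (rmap G _ ((PowerSeries.C : R →+* PowerSeries R).comp ι) _ _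
    (ev1 PowerSeries.C (mono p G ι c j).1)
    (map_mem_spanX (by rw [ev1_X _ _ hm]; exact hm))) (hG.typ R ι l hl hlp _ hζ')
  rw [map_sum, map_zero] at h1
  rw [← h1]
  refine Finset.sum_congr rfl fun i _ => Pt.ext ?_
  rw [rmap_val, Cur.resc_val, mono_val ((ζ ^ p ^ j) ^ i), ev1_mono _ _ hm, mono_val,
    rescale_mono, pow_zero, pow_one, map_mul, ← pow_mul, ← pow_mul, mul_comm i]
  ring

/-- a homomorphism from a normal law is a typical curve -/
theorem isTyp_hom {G' : FormalGroup (ZMod p)} [G'.IsComm] {h' : ℕ} (hG' : IsNormal p h' G')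
    {γ : Cur G ι} (hγ : IsFGHom (G'.map ι) (G.map ι) γ.1) : IsTyp G ι γ := by
  intro l hl hlp ζ hζ
  have h1 := congrArg (homPt ((PowerSeries.C : R →+* PowerSeries R).comp ι) _ PowerSeries.C hγ)
    (hG'.typ R ι l hl hlp _ hζ)
  rw [map_sum, map_zero] at h1
  rw [← h1]
  refine Finset.sum_congr rfl fun i _ => Pt.ext ?_
  rw [homPt_val, Cur.resc_val, mono_val, rescale_eq_ev1, pow_zero, pow_one]

theorem expAux_coeff_eq_zero (hR : HasRoots p R) {γ : Cur G ι} (hγ : IsTyp G ι γ) {m : ℕ}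
    (hm : γ ∈ fil G ι m) {l : ℕ} (hl : l.Prime) (hlp : l ≠ p) (hlm : l ∣ m) :
    PowerSeries.coeff m γ.1 = 0 := by
  obtain ⟨ζ, hζ⟩ := hR l hl hlp
  have h1 : ζ ^ l = 1 := by
    have := geom_sum_mul ζ l
    rw [hζ, zero_mul] at this
    exact (sub_eq_zero.1 this.symm)
  have h2 := coeff_sum_of_mem (Finset.range l) (fun i => Cur.resc G ι (ζ ^ i) γ) (k := m)
    fun i _ => by
      rw [mem_fil, PowerSeries.X_pow_dvd_iff]
      intro n hn
      rw [Cur.resc_val, PowerSeries.coeff_rescale, PowerSeries.X_pow_dvd_iff.1 hm n hn, mul_zero]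
  rw [hγ l hl hlp ζ hζ, Pt.zero_val, map_zero] at h2
  have h3 : ∀ i, PowerSeries.coeff m (Cur.resc G ι (ζ ^ i) γ).1 = PowerSeries.coeff m γ.1 := by
    intro i
    obtain ⟨k, rfl⟩ := hlm
    rw [Cur.resc_val, PowerSeries.coeff_rescale, ← pow_mul, mul_left_comm, pow_mul, h1, one_pow,
      one_mul]
  simp only [h3, Finset.sum_const, Finset.card_range, nsmul_eq_mul] at h2
  have hu : IsUnit (l : R) := by
    have h4 : (l : ZMod p) ≠ 0 := by
      rw [Ne, ZMod.natCast_eq_zero_iff, Nat.prime_dvd_prime_iff_eq Fact.out hl]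
      exact fun h => hlp h.symm
    simpa using (Ne.isUnit h4).map ι
  exact (hu.mul_right_eq_zero).1 h2.symm

theorem expAux_step (hR : HasRoots p R) {γ : Cur G ι} (hγ : IsTyp G ι γ) {J : ℕ}
    (hm : γ ∈ fil G ι (p ^ J + 1)) : γ ∈ fil G ι (p ^ (J + 1)) := by
  have hp : p.Prime := Fact.out
  have key : ∀ m, m ≤ p ^ (J + 1) → γ ∈ fil G ι m := by
    intro m
    induction m with
    | zero => intro _; rw [mem_fil, pow_zero]; exact one_dvd _
    | succ m ih =>
      intro hle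
      by_cases hmJ : m ≤ p ^ J
      · exact (pow_dvd_pow _ (by omega)).trans (mem_fil.1 hm)
      have ih' := ih (by omega)
      have hex : ∃ l, l.Prime ∧ l ≠ p ∧ l ∣ m := by
        by_contra hcon
        push Not at hcon
        have hm0 : m ≠ 0 := by
          have := Nat.pos_of_ne_zero (pow_ne_zero J hp.ne_zero)
          omega
        have h1 : m = p ^ m.primeFactorsList.length :=
          Nat.eq_prime_pow_of_unique_prime_dvd hm0 fun {d} hd hdm => by
            by_contra hne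
            exact hcon d hd hne hdm
        set k := m.primeFactorsList.length
        have h2 : J < k := (Nat.pow_lt_pow_iff_right hp.one_lt).1 (by omega)
        have h3 : k < J + 1 := (Nat.pow_lt_pow_iff_right hp.one_lt).1 (by omega)
        omega
      obtain ⟨l, hl, hlp, hlm⟩ := hex
      have h0 := expAux_coeff_eq_zero hR hγ ih' hl hlp hlm
      rw [mem_fil, PowerSeries.X_pow_dvd_iff] at ih' ⊢
      intro n hn
      rcases (Nat.lt_succ_iff.1 hn).lt_or_eq with h | rfl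
      · exact ih' n h
      · exact h0
  exact key _ le_rfl

/-- existence: the lowest term `c t^m` of a typical curve has `m` a power of `p`, since for a prime
`l ∣ m`, `l ≠ p`, one gets `l c = 0` and `l` is a unit -/
theorem exists_expands (hG : IsNormal p h G) (hR : HasRoots p R) {γ : Cur G ι}
    (hγ : IsTyp G ι γ) : ∃ c : ℕ → R, Expands G ι γ.1 c := by
  let δ : ℕ → Cur G ι := fun J => Nat.rec γ
    (fun J d => d - mono p G ι (PowerSeries.coeff (p ^ J) d.1) J) J
  have hδ : ∀ J, δ (J + 1) = δ J - mono p G ι (PowerSeries.coeff (p ^ J) (δ J).1) J :=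
    fun J => rfl
  have h1 : ∀ J, δ J = γ - ∑ j ∈ Finset.range J,
      mono p G ι (PowerSeries.coeff (p ^ j) (δ j).1) j := by
    intro J
    induction J with
    | zero => simp [δ]
    | succ J ih => rw [Finset.sum_range_succ, ← sub_sub, ← ih, hδ]
  have h2 : ∀ J, IsTyp G ι (δ J) := by
    intro J
    induction J with
    | zero => exact hγ
    | succ J ih =>
      rw [hδ, sub_eq_add_neg]
      exact isTyp_add ih (isTyp_neg (isTyp_mono hG _ _))
  have h3 : ∀ J, δ J ∈ fil G ι (p ^ J) := by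
    intro J
    induction J with
    | zero =>
      rw [mem_fil, pow_zero, pow_one]
      exact Ideal.mem_span_singleton.1 (δ 0).2
    | succ J ih =>
      refine expAux_step (J := J) hR (h2 (J + 1)) ?_
      rw [hδ, mem_fil, ← dvd_sub_iff, PowerSeries.X_pow_dvd_iff]
      intro n hn
      rw [map_sub, mono_val, PowerSeries.coeff_C_mul, PowerSeries.coeff_X_pow]
      split_ifs with h
      · rw [h, mul_one, sub_self]
      · rw [mul_zero, sub_zero]
        exact PowerSeries.X_pow_dvd_iff.1 ih n (by omega)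
  refine ⟨fun j => PowerSeries.coeff (p ^ j) (δ j).1, fun J => ?_⟩
  rw [dvd_sub_iff, ← h1]
  exact h3 J

theorem Expands.unique {γ : PowerSeries R} {c c' : ℕ → R} (h₁ : Expands G ι γ c)
    (h₂ : Expands G ι γ c') : c = c' := by
  funext J
  induction J using Nat.strong_induction_on with
  | _ J ih =>
    have e : ∑ j ∈ Finset.range J, mono p G ι (c j) j = ∑ j ∈ Finset.range J, mono p G ι (c' j) j :=
      Finset.sum_congr rfl fun j hj => by rw [ih j (Finset.mem_range.1 hj)]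
    have h3 := dvd_sub (h₂ (J + 1)) (h₁ (J + 1))
    rw [sub_sub_sub_cancel_left, dvd_sub_iff, Finset.sum_range_succ, Finset.sum_range_succ, e,
      add_sub_add_left_eq_sub, ← dvd_sub_iff, PowerSeries.X_pow_dvd_iff] at h3
    have h4 := h3 (p ^ J) (Nat.pow_lt_pow_right (Fact.out : p.Prime).one_lt (Nat.lt_succ_self J))
    simpa [mono_val, sub_eq_zero] using h4

theorem Expands.coeff_one {γ : PowerSeries R} {c : ℕ → R} (h₁ : Expands G ι γ c) :
    PowerSeries.coeff 1 γ = c 0 := by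
  have h4 := PowerSeries.X_pow_dvd_iff.1 (h₁ 1) 1 (by simpa using (Fact.out : p.Prime).one_lt)
  simpa [mono_val, sub_eq_zero] using h4

theorem Expands.eq_zero {γ : PowerSeries R} (h₁ : Expands G ι γ 0) : γ = 0 := by
  ext n
  have h4 := PowerSeries.X_pow_dvd_iff.1 (h₁ n) n (Nat.lt_pow_self (Fact.out : p.Prime).one_lt)
  simpa [mono_zero] using h4

theorem expands_zero : Expands G ι 0 0 := by
  intro J
  simp [mono_zero]

theorem Expands.const {γ : PowerSeries R} {c : ℕ → R} (h₁ : Expands G ι γ c) :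
    PowerSeries.constantCoeff γ = 0 := by
  have h := h₁ 0
  rw [pow_zero, pow_one, Finset.range_zero, Finset.sum_empty, Pt.zero_val, sub_zero] at h
  exact PowerSeries.X_dvd_iff.1 h

theorem expAux_transport {ι' : ZMod p →+* R'} (Φ : Cur G ι →+ Cur G ι') (e : ℕ)
    (hΦ : ∀ k γ, γ ∈ fil G ι k → Φ γ ∈ fil G ι' (k * p ^ e)) {γ : Cur G ι} {c : ℕ → R}
    (h₁ : Expands G ι γ.1 c) {c' : ℕ → R'} (h0 : ∀ j < e, c' j = 0)
    (hc : ∀ j, Φ (mono p G ι (c j) j) = mono p G ι' (c' (e + j)) (e + j)) :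
    Expands G ι' (Φ γ).1 c' := by
  have hp : p.Prime := Fact.out
  intro J
  have hz : ∀ J ≤ e, ∑ j ∈ Finset.range J, mono p G ι' (c' j) j = 0 := fun J hJ =>
    Finset.sum_eq_zero fun j hj => by
      rw [h0 j (lt_of_lt_of_le (Finset.mem_range.1 hj) hJ), mono_zero]
  rcases le_total J e with hJ | hJ
  · rw [hz J hJ, Pt.zero_val, sub_zero]
    have h1 := hΦ 1 γ (by rw [mem_fil, pow_one]; exact Ideal.mem_span_singleton.1 γ.2)
    rw [one_mul] at h1
    exact (pow_dvd_pow _ (Nat.pow_le_pow_right hp.pos hJ)).trans h1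
  · obtain ⟨J, rfl⟩ := Nat.exists_eq_add_of_le hJ
    have h1 := h₁ J
    rw [dvd_sub_iff] at h1
    have h2 := hΦ _ _ h1
    rw [map_sub, map_sum, ← pow_add, add_comm J] at h2
    rw [Finset.sum_range_add, hz e le_rfl, zero_add, dvd_sub_iff]
    simp only [hc] at h2
    exact h2

theorem expAux_ring {ι' : ZMod p →+* R'} (ψ : PowerSeries R →+* PowerSeries R') (e : ℕ)
    (hψ : PowerSeries.X ^ p ^ e ∣ ψ PowerSeries.X) {γ : PowerSeries R} {c : ℕ → R}
    (h₁ : Expands G ι γ c) {c' : ℕ → R'} (h0 : ∀ j < e, c' j = 0)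
    (hc : ∀ j, ψ (PowerSeries.C (c j) * PowerSeries.X ^ p ^ j) =
      PowerSeries.C (c' (e + j)) * PowerSeries.X ^ p ^ (e + j)) :
    Expands G ι' (ψ γ) c' := by
  have hX : ψ PowerSeries.X ∈ Ideal.span {(PowerSeries.X : PowerSeries R')} :=
    Ideal.mem_span_singleton.2
      ((dvd_pow_self _ (pow_ne_zero e (Fact.out : p.Prime).ne_zero)).trans hψ)
  exact expAux_transport (rmap G _ _ _ _ ψ (map_mem_spanX hX)) e (fun k γ hγ => by
      obtain ⟨g, hg⟩ := mem_fil.1 hγ
      rw [mem_fil, rmap_val, hg, map_mul, map_pow, mul_comm k, pow_mul]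
      exact (pow_dvd_pow_of_dvd hψ k).mul_right _)
    (γ := Cur.mk G ι γ h₁.const) h₁ h0 fun j => Pt.ext (hc j)

theorem Expands.map {γ : PowerSeries R} {c : ℕ → R} (h₁ : Expands G ι γ c) (ψ : R →+* R')
    (ι' : ZMod p →+* R') : Expands G ι' (γ.map ψ) (fun j => ψ (c j)) := by
  refine expAux_ring (PowerSeries.map ψ) 0 (by simp) h₁ (by simp) fun j => ?_
  simp

theorem expAux_expands_mono (c : R) :
    Expands G ι (mono p G ι c 0).1 (fun j => if j = 0 then c else 0) := by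
  intro J
  rcases J with _ | J
  · rw [pow_zero, pow_one, Finset.range_zero, Finset.sum_empty, Pt.zero_val, sub_zero]
    exact Ideal.mem_span_singleton.1 (mono p G ι c 0).2
  · rw [Finset.sum_range_succ']
    simp [mono_zero]

theorem Expands.rescale {γ : PowerSeries R} {c : ℕ → R} (h₁ : Expands G ι γ c) (a : R) :
    Expands G ι (PowerSeries.rescale a γ) (fun j => c j * a ^ p ^ j) := by
  refine expAux_ring (PowerSeries.rescale a) 0 ?_ h₁ (by simp) fun j => ?_
  · rw [pow_zero, pow_one, PowerSeries.rescale_X]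
    exact dvd_mul_left _ _
  · rw [rescale_mono, zero_add]

theorem Expands.smul (hG : IsNormal p h G) {γ : PowerSeries R} {c : ℕ → R}
    (h₁ : Expands G ι γ c) {a : R} (ha : a ^ p ^ h = a) :
    Expands G ι (PowerSeries.C a * γ) (fun j => a * c j) := by
  have hv : ∀ δ : Cur G ι, (homPt ((PowerSeries.C : R →+* PowerSeries R).comp ι) _ PowerSeries.C
      (hG.scal R ι a ha) δ).1 = PowerSeries.C a * δ.1 := fun δ => by
    rw [homPt_val, ev1_C_mul_X _ _ δ.2]
  have := expAux_transport (homPt ((PowerSeries.C : R →+* PowerSeries R).comp ι) _ PowerSeries.C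
      (hG.scal R ι a ha)) 0 (fun k γ hγ => by
      rw [mem_fil, hv, pow_zero, mul_one]
      exact (mem_fil.1 hγ).mul_left _)
    (γ := Cur.mk G ι γ h₁.const) h₁ (c' := fun j => a * c j) (by simp) fun j => Pt.ext (by
      rw [hv, mono_val, mono_val, zero_add, map_mul, mul_assoc])
  rwa [hv] at this

theorem Expands.pow {γ : PowerSeries R} {c : ℕ → R} (h₁ : Expands G ι γ c) (e : ℕ) :
    Expands G ι (γ ^ p ^ e) (fun j => if e ≤ j then c (j - e) ^ p ^ e else 0) := by
  rcases subsingleton_or_nontrivial R with hR | hR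
  · intro J
    rw [Subsingleton.elim (_ - _ : PowerSeries R) 0]
    exact dvd_zero _
  have : CharP (PowerSeries R) p := (CharP.charP_iff_prime_eq_zero Fact.out).2 (by
      rw [← map_natCast ((PowerSeries.C : R →+* PowerSeries R).comp ι), ZMod.natCast_self,
        map_zero])
  refine expAux_ring (iterateFrobenius (PowerSeries R) p e) e dvd_rfl h₁
    (fun j hj => if_neg (by omega)) fun j => ?_
  rw [iterateFrobenius_def, if_pos (Nat.le_add_right e j), Nat.add_sub_cancel_left, mul_pow,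
    map_pow, ← pow_mul, ← pow_add, add_comm j]

theorem Expands.subst_X_pow {γ : PowerSeries R} {c : ℕ → R} (h₁ : Expands G ι γ c) (e : ℕ) :
    Expands G ι (γ.subst (PowerSeries.X ^ p ^ e : PowerSeries R))
      (fun j => if e ≤ j then c (j - e) else 0) := by
  have h0 : PowerSeries.constantCoeff (PowerSeries.X ^ p ^ e : PowerSeries R) = 0 := by
    rw [map_pow, PowerSeries.constantCoeff_X, zero_pow (pow_ne_zero e (Fact.out : p.Prime).ne_zero)]
  have hm := mem_spanX.2 h0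
  have e1 : γ.subst (PowerSeries.X ^ p ^ e : PowerSeries R) =
      ev1 PowerSeries.C (PowerSeries.X ^ p ^ e : PowerSeries R) γ := by
    have := ev1_eq_subst (RingHom.id R) (b := (PowerSeries.X ^ p ^ e : PowerSeries R)) h0 γ
    rw [PowerSeries.map_id] at this
    exact this.symm
  rw [e1]
  refine expAux_ring _ e (by rw [ev1_X _ _ hm]) h₁ (fun j hj => if_neg (by omega)) fun j => ?_
  rw [ev1_mono _ _ hm, if_pos (Nat.le_add_right e j), Nat.add_sub_cancel_left, ← pow_mul,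
    ← pow_add]

end

section points

variable {C : Type} [NontriviallyNormedField C] [IsUltrametricDist C] [CompleteSpace C]
  [CharP C p] [IsAlgClosed C] {G : FormalGroup (ZMod p)} [G.IsComm] {h : ℕ}

/-- evaluation of curves at a point of the open disc -/
noncomputable def expAuxEv (G : FormalGroup (ZMod p)) [G.IsComm] {x : O C} (hx : x ∈ mO C) :
    Cur G (zO p C) →+ PO G (zO p C) :=
  rmap G _ _ _ _ (ev1 (RingHom.id _) x) (map_mem_spanX (by rw [ev1_X _ _ hx]; exact hx))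

omit [IsAlgClosed C] in
theorem expAuxEv_val {x : O C} (hx : x ∈ mO C) (γ : Cur G (zO p C)) :
    (expAuxEv G hx γ).1 = ev1 (RingHom.id _) x γ.1 := rfl

omit [IsAlgClosed C] in
theorem expAuxEv_mono {x : O C} (hx : x ∈ mO C) (c : O C) (j : ℕ) :
    expAuxEv G hx (mono p G (zO p C) c j) = pt G (zO p C) ((c : C) * (x : C) ^ p ^ j) := by
  rw [← pt_self (expAuxEv G hx _), Pt.c, expAuxEv_val, mono_val, ev1_mono _ _ hx]
  rfl

omit [IsAlgClosed C] [CompleteSpace C] [G.IsComm] in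
theorem expAux_norm_pt_le (x : C) : ‖(pt G (zO p C) x).c‖ ≤ ‖x‖ := by
  by_cases hx : ‖x‖ < 1
  · rw [pt_c hx]
  · simp [pt, hx]

omit [IsAlgClosed C] in
theorem Expands.hasSum {γ : PowerSeries (O C)} {c : ℕ → O C} (h₁ : Expands G (zO p C) γ c)
    {x : O C} (hx : x ∈ mO C) :
    HasSum (fun j : ℕ => pt G (zO p C) ((c j : C) * (x : C) ^ p ^ j))
      (pt G (zO p C) (ev1 (RingHom.id _) x γ : O C)) := by
  have hp : p.Prime := Fact.out
  have hx1 : ‖(x : C)‖ < 1 := hx
  have hpow : Tendsto (fun j : ℕ => ‖(x : C)‖ ^ p ^ j) atTop (𝓝 0) :=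
    (tendsto_pow_atTop_nhds_zero_of_lt_one (norm_nonneg _) hx1).comp
      (tendsto_pow_atTop_atTop_of_one_lt hp.one_lt)
  have hs : Summable (fun j : ℕ => pt G (zO p C) ((c j : C) * (x : C) ^ p ^ j)) := by
    rw [Pt.summable_iff, Nat.cofinite_eq_atTop]
    refine squeeze_zero_norm (fun j => (expAux_norm_pt_le _).trans ?_) hpow
    rw [norm_mul, norm_pow]
    exact mul_le_of_le_one_left (by positivity) (c j).2
  rw [hs.hasSum_iff_tendsto_nat, tendsto_iff_dist_tendsto_zero]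
  refine squeeze_zero (fun _ => dist_nonneg) (fun J => ?_) hpow
  have e1 : pt G (zO p C) (ev1 (RingHom.id _) x γ : O C) =
      expAuxEv G hx (Cur.mk G _ γ h₁.const) := pt_self (expAuxEv G hx (Cur.mk G _ γ h₁.const))
  simp only [← expAuxEv_mono hx]
  rw [e1, ← map_sum, dist_comm, Pt.dist_def, Pt.c, Pt.c, expAuxEv_val, expAuxEv_val,
    ← AddSubgroupClass.coe_sub, ← map_sub]
  exact norm_ev1_le _ hx (h₁ J)

omit [IsAlgClosed C] in
theorem expAux_scl (hG : IsNormal p h G) (hh : 1 ≤ h) {a : C} (ha : a ^ p ^ h = a) :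
    ∃ Φ : PO G (zO p C) →+ PO G (zO p C), ∀ x, (Φ x).c = a * x.c := by
  let a' : O C := ⟨a, norm_le_one_of_pow_eq hh ha⟩
  have ha' : a' ^ p ^ h = a' := Subtype.ext ha
  refine ⟨homPt _ _ (RingHom.id _) (hG.scal (O C) (zO p C) a' ha'), fun x => ?_⟩
  rw [Pt.c, homPt_val, ev1_C_mul_X _ _ x.2]
  rfl

omit [IsAlgClosed C] in
theorem sclP_add (hG : IsNormal p h G) (hh : 1 ≤ h) {a : C} (ha : a ^ p ^ h = a)
    (x y : PO G (zO p C)) :
    pt G (zO p C) (a * (x + y).c) = pt G (zO p C) (a * x.c) + pt G (zO p C) (a * y.c) := by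
  obtain ⟨Φ, hΦ⟩ := expAux_scl hG hh ha
  rw [← hΦ, ← hΦ, ← hΦ, pt_self, pt_self, pt_self, map_add]

/-- multiplication of the coordinate by `a ∈ 𝔽_{p^h}` is additive -/
noncomputable def sclP (hG : IsNormal p h G) (hh : 1 ≤ h) {a : C} (ha : a ^ p ^ h = a) :
    PO G (zO p C) →+ PO G (zO p C) :=
  AddMonoidHom.mk' (fun x => pt G (zO p C) (a * x.c)) (sclP_add hG hh ha)

omit [IsAlgClosed C] in
theorem sclP_c (hG : IsNormal p h G) (hh : 1 ≤ h) {a : C} (ha : a ^ p ^ h = a)
    (x : PO G (zO p C)) : (sclP hG hh ha x).c = a * x.c := by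
  obtain ⟨Φ, hΦ⟩ := expAux_scl hG hh ha
  change (pt G (zO p C) (a * x.c)).c = _
  rw [← hΦ, pt_self]

omit [IsAlgClosed C] in
theorem continuous_sclP (hG : IsNormal p h G) (hh : 1 ≤ h) {a : C} (ha : a ^ p ^ h = a) :
    Continuous (sclP hG hh ha) := by
  refine AddMonoidHomClass.continuous_of_bound (sclP hG hh ha) 1 fun x => ?_
  rw [Pt.norm_def, Pt.norm_def, sclP_c, norm_mul]
  exact mul_le_mul_of_nonneg_right (norm_le_one_of_pow_eq hh ha) (norm_nonneg _)

omit [IsAlgClosed C] in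
theorem p_smul_c (hG : IsNormal p h G) (x : PO G (zO p C)) : (p • x).c = x.c ^ p ^ h := by
  rw [Pt.c, Pt.nsmul_val, hG.pser, map_pow, ev1_X _ _ x.2]
  rfl

theorem p_smul_eq_frP (hG : IsNormal p h G) (x : PO G (zO p C)) : p • x = frP G (h : ℤ) x := by
  exact Pt.ext_c (by rw [p_smul_c hG, frP_c, Fr_natCast])

omit [IsUltrametricDist C] [CompleteSpace C] in
theorem expAux_exists_ne (hh : 1 ≤ h) {e : ℤ} (he : ¬ (h : ℤ) ∣ e) :
    ∃ a : Fq C p h, a ≠ 0 ∧ Fr p e (a : C) ≠ a := by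
  have : Finite (Fq C p h) := Nat.finite_of_card_ne_zero (by
    rw [card_Fq hh]; exact pow_ne_zero _ (Fact.out : p.Prime).ne_zero)
  have := Fintype.ofFinite (Fq C p h)
  by_contra hcon
  push Not at hcon
  have h1 := sum_inv_mul_Fr (C := C) (p := p) hh 0 e
  have h2 := sum_inv_mul_Fr (C := C) (p := p) hh 0 0
  rw [if_neg (by rwa [Int.modEq_iff_dvd, sub_zero])] at h1
  rw [if_pos (Int.ModEq.refl _)] at h2
  have h3 : ∀ a : Fq C p h, Fr p e (a : C) = Fr p 0 (a : C) := fun a => by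
    by_cases ha : a = 0
    · simp [ha]
    · rw [hcon a ha, Fr_zero]
  simp only [h3] at h1
  rw [h1] at h2
  simp at h2

/-- `∑_{ζ ∈ 𝔽_{p^h}^×} [ζ⁻¹ ζ^(p^e)]` is `p^h - 1` or `0` (the sum `s` is fixed by `[ζ₀⁻¹ ζ₀^(p^e)]`). -/
theorem sum_char_pt (hG : IsNormal p h G) (hh : 1 ≤ h) [Fintype (Fq C p h)ˣ] (e : ℤ) {w : C}
    (hw : ‖w‖ < 1) :
    ∑ ζ : (Fq C p h)ˣ, pt G (zO p C) (((ζ : Fq C p h) : C)⁻¹ * Fr p e ((ζ : Fq C p h) : C) * w) =
      if (h : ℤ) ∣ e then (p ^ h - 1) • pt G (zO p C) w else 0 := by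
  split_ifs with he
  · have h1 : ∀ ζ : (Fq C p h)ˣ,
        ((ζ : Fq C p h) : C)⁻¹ * Fr p e ((ζ : Fq C p h) : C) * w = w := fun ζ => by
      rw [Fr_eq_of_modEq (mem_Fq.1 ζ.1.2) (j := 0) (Int.modEq_zero_iff_dvd.2 he), Fr_zero,
        inv_mul_cancel₀ (by simp), one_mul]
    simp only [h1, Finset.sum_const, Finset.card_univ]
    rw [← Nat.card_eq_fintype_card, Nat.card_units, card_Fq hh]
  · obtain ⟨a, ha0, ha⟩ := expAux_exists_ne (C := C) (p := p) hh he
    have hχ : ∀ b : Fq C p h, ((b : C)⁻¹ * Fr p e (b : C)) ^ p ^ h = (b : C)⁻¹ * Fr p e (b : C) :=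
      fun b => by rw [mul_pow, inv_pow, ← map_pow, mem_Fq.1 b.2]
    have hn : ∀ b : Fq C p h, ‖(b : C)⁻¹ * Fr p e (b : C) * w‖ < 1 := fun b => by
      rw [norm_mul]
      exact mul_lt_one_of_nonneg_of_lt_one_right (norm_le_one_of_pow_eq hh (hχ b))
        (norm_nonneg _) hw
    set s := ∑ ζ : (Fq C p h)ˣ,
      pt G (zO p C) (((ζ : Fq C p h) : C)⁻¹ * Fr p e ((ζ : Fq C p h) : C) * w) with hs
    have h1 : sclP hG hh (hχ a) s = s := by
      rw [hs, map_sum]
      refine Fintype.sum_equiv (Equiv.mulLeft (Units.mk0 a ha0)) _ _ fun ζ => Pt.ext_c ?_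
      rw [sclP_c, pt_c (hn _), pt_c (hn _)]
      simp only [Equiv.coe_mulLeft, Units.val_mul, Units.val_mk0, MulMemClass.coe_mul, map_mul,
        mul_inv]
      ring
    have h2 := congrArg Pt.c h1
    rw [sclP_c] at h2
    have ha0' : (a : C) ≠ 0 := by simpa using ha0
    have h3 : (a : C)⁻¹ * Fr p e (a : C) - 1 ≠ 0 := by
      rw [sub_ne_zero]
      intro h4
      exact ha ((inv_mul_eq_one₀ ha0').1 h4).symm
    refine Pt.ext_c ?_
    rw [Pt.zero_c]
    exact (mul_eq_zero.1 (by linear_combination h2 :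
      ((a : C)⁻¹ * Fr p e (a : C) - 1) * s.c = 0)).resolve_left h3

omit [IsAlgClosed C] in
theorem norm_nsmul_of_not_dvd {m : ℕ} (hm : ¬ p ∣ m) (x : PO G (zO p C)) : ‖m • x‖ = ‖x‖ := by
  rw [Pt.norm_def, Pt.norm_def, Pt.c, Pt.c, Pt.nsmul_val]
  refine norm_ev1_eq _ x.2 (constantCoeff_mulSeries G m) ?_
  rw [coeff_one_mulSeries]
  exact Ne.isUnit (by rwa [Ne, ZMod.natCast_eq_zero_iff])

/-- **Carries.** `[a x] + [a y] = ∑_l [a^(P^l) S_l]`, `P = p^h`.  Write `x = ϖ x'`, `y = ϖ y'` with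
`ϖ` the larger of `x, y`; expand the typical curve `x' t +_G y' t` over `O`; only `h ∣ j` occurs
(equivariance under a generator of `𝔽_P^×`); `S'_l ≡ 0 mod y'` for `l ≥ 1` by uniqueness over
`O / y'`. -/
theorem exists_carry (hG : IsNormal p h G) (hh : 1 ≤ h) {x y : C} {w : ℝ} (hw : w < 1)
    (hx : ‖x‖ ≤ w) (hy : ‖y‖ ≤ w) :
    ∃ S : ℕ → C, S 0 = x + y ∧ (∀ l, 1 ≤ l → ‖S l‖ ≤ ‖y‖ * w ^ ((p ^ h) ^ l - 1)) ∧
      ∀ a : C, ‖a‖ ≤ 1 → HasSum (fun l : ℕ => pt G (zO p C) (a ^ (p ^ h) ^ l * S l))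
        (pt G (zO p C) (a * x) + pt G (zO p C) (a * y)) := by
  have hp : p.Prime := Fact.out
  obtain ⟨ϖ, x', y', hϖ, rfl, rfl⟩ : ∃ ϖ x' y' : O C, ‖(ϖ : C)‖ ≤ w ∧
      x = (x' : C) * ϖ ∧ y = (y' : C) * ϖ := by
    let x₀ : O C := ⟨x, (hx.trans hw.le :)⟩
    let y₀ : O C := ⟨y, (hy.trans hw.le :)⟩
    rcases le_total ‖x‖ ‖y‖ with hxy | hxy
    · obtain ⟨k, hk⟩ := (O.dvd_iff (x := y₀) (y := x₀)).2 hxy
      exact ⟨y₀, k, 1, hy, by rw [mul_comm]; exact congrArg Subtype.val hk, by simp [y₀]⟩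
    · obtain ⟨k, hk⟩ := (O.dvd_iff (x := x₀) (y := y₀)).2 hxy
      exact ⟨x₀, 1, k, hx, by simp [x₀], by rw [mul_comm]; exact congrArg Subtype.val hk⟩
  obtain ⟨c, hc⟩ := exists_expands hG hasRoots_O
    (isTyp_add (isTyp_mono (ι := zO p C) hG x' 0) (isTyp_mono hG y' 0))
  -- only multiples of `h` occur
  have h1 : ∀ j, ¬ h ∣ j → c j = 0 := by
    intro j hj
    obtain ⟨a, -, ha⟩ := expAux_exists_ne (C := C) (p := p) hh (e := j) (by exact_mod_cast hj)
    have ha' : FqO hh a ^ p ^ h = FqO hh a := Subtype.ext (mem_Fq.1 a.2)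
    have hv : ∀ δ : Cur G (zO p C), (homPt ((PowerSeries.C : O C →+* PowerSeries (O C)).comp
        (zO p C)) _ PowerSeries.C (hG.scal _ (zO p C) _ ha') δ).1 =
        PowerSeries.C (FqO hh a) * δ.1 := fun δ => by
      rw [homPt_val, ev1_C_mul_X _ _ δ.2]
    have hm : ∀ z : O C, Cur.resc G (zO p C) (FqO hh a) (mono p G (zO p C) z 0) =
        homPt ((PowerSeries.C : O C →+* PowerSeries (O C)).comp
        (zO p C)) _ PowerSeries.C (hG.scal _ (zO p C) _ ha') (mono p G (zO p C) z 0) := fun z =>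
      Pt.ext (by rw [hv, Cur.resc_val, mono_val, rescale_mono, pow_zero, pow_one, map_mul]; ring)
    have h2 := hc.rescale (FqO hh a)
    rw [← Cur.resc_val, map_add, hm, hm, ← map_add, hv] at h2
    have h3 := congrArg Subtype.val (congrFun (h2.unique (hc.smul hG ha')) j)
    have h4 : (c j : C) * (Fr p j (a : C) - a) = 0 := by
      rw [Fr_natCast]
      change (c j : C) * (a : C) ^ p ^ j = (a : C) * (c j : C) at h3
      linear_combination h3
    exact Subtype.ext ((mul_eq_zero.1 h4).resolve_right (sub_ne_zero.2 ha))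
  -- the higher coefficients are divisible by `y'`
  have h2 : ∀ j, j ≠ 0 → y' ∣ c j := by
    intro j hj
    let π := Ideal.Quotient.mk (Ideal.span {y'})
    let Φ : Cur G (zO p C) →+ Cur G (π.comp (zO p C)) :=
      rmap G _ _ _ _ (PowerSeries.map π) (map_mem_spanX (mem_spanX.2 (by simp)))
    have hΦ : ∀ z, Φ (mono p G (zO p C) z 0) = mono p G _ (π z) 0 := fun z =>
      Pt.ext (by rw [rmap_val, mono_val, mono_val]; simp)
    have h3 : Expands G (π.comp (zO p C)) (Φ (mono p G (zO p C) x' 0 + mono p G (zO p C) y' 0)).1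
        (fun j => π (c j)) := hc.map π _
    rw [map_add, hΦ, hΦ, show π y' = 0 from
      Ideal.Quotient.eq_zero_iff_mem.2 (Ideal.mem_span_singleton_self _), mono_zero,
      add_zero] at h3
    have h4 := congrFun (h3.unique (expAux_expands_mono _)) j
    rw [if_neg hj] at h4
    exact Ideal.mem_span_singleton.1 (Ideal.Quotient.eq_zero_iff_mem.1 h4)
  have h0 : c 0 = x' + y' := by
    rw [← hc.coeff_one, coeff_add_of_dvd _ _ (by
      rw [pow_one]; exact Ideal.mem_span_singleton.1 (mono p G (zO p C) y' 0).2)]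
    simp [mono_val]
  refine ⟨fun l => (c (h * l) : C) * (ϖ : C) ^ (p ^ h) ^ l, ?_, fun l hl => ?_, fun a ha => ?_⟩
  · simp [h0, add_mul]
  · have h3 := O.dvd_iff.1 (h2 (h * l) (Nat.mul_ne_zero (by omega) (by omega)))
    obtain ⟨k, hk⟩ : ∃ k, (p ^ h) ^ l = k + 1 :=
      Nat.exists_eq_succ_of_ne_zero (pow_ne_zero _ (pow_ne_zero _ hp.ne_zero))
    beta_reduce
    rw [hk, Nat.add_sub_cancel, norm_mul, norm_mul, norm_pow, pow_succ', mul_assoc]
    gcongr
  · let a' : O C := ⟨a, ha⟩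
    have hm : a' * ϖ ∈ mO C := (mO C).mul_mem_left _ (hϖ.trans_lt hw :)
    have h3 := hc.hasSum hm
    have e1 : pt G (zO p C) (ev1 (RingHom.id _) (a' * ϖ)
        (mono p G (zO p C) x' 0 + mono p G (zO p C) y' 0).1 : O C) =
        expAuxEv G hm (mono p G (zO p C) x' 0 + mono p G (zO p C) y' 0) :=
      pt_self (expAuxEv G hm (mono p G (zO p C) x' 0 + mono p G (zO p C) y' 0))
    rw [e1, map_add, expAuxEv_mono, expAuxEv_mono] at h3
    have hinj : Function.Injective fun l : ℕ => h * l := mul_right_injective₀ (by omega)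
    have h4 := (hinj.hasSum_iff (fun j hj => by
      rw [h1 j (fun ⟨l, hl⟩ => hj ⟨l, hl.symm⟩)]
      simp)).2 h3
    convert h4 using 3
    · simp only [Function.comp, MulMemClass.coe_mul, a', ← pow_mul]
      congr 1
      ring
    · simp only [MulMemClass.coe_mul, a', pow_zero, pow_one]
      ring
    · simp only [MulMemClass.coe_mul, a', pow_zero, pow_one]
      ring

/-- endomorphisms defined over `𝔽_P` have expansions with coefficients in `𝔽_P` -/
theorem exists_expands_end (hG : IsNormal p h G) (hh : 1 ≤ h) {d : PowerSeries (Fq C p h)}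
    (hd : IsFGHom (G.map (zF h)) (G.map (zF h)) d) :
    ∃ c : ℕ → C, (∀ j, c j ^ p ^ h = c j) ∧ ((∀ j, c j = 0) → d = 0) ∧
      ∀ x : PO G (zO p C), HasSum (fun j : ℕ => pt G (zO p C) (c j * Fr p j x.c))
        (pt G (zO p C) (ev1 (FqO hh) x.1 d : O C)) := by
  have hd' : IsFGHom (G.map (zO p C)) (G.map (zO p C)) (d.map (FqO hh)) := by
    have := fgHom_map hd (FqO hh)
    rwa [fg_map_map, Subsingleton.elim ((FqO hh).comp (zF h)) (zO p C)] at this
  obtain ⟨c, hc⟩ := exists_expands hG hasRoots_O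
    (isTyp_hom (γ := Cur.mk G (zO p C) _ hd'.1) hG hd')
  change Expands G (zO p C) (d.map (FqO hh)) c at hc
  refine ⟨fun j => c j, fun j => ?_, fun h0 => ?_, fun x => ?_⟩
  · have h1 := hc.map (iterateFrobenius (O C) p h) (zO p C)
    have h2 : (d.map (FqO hh)).map (iterateFrobenius (O C) p h) = d.map (FqO hh) := by
      ext n
      rw [PowerSeries.coeff_map, PowerSeries.coeff_map, iterateFrobenius_def]
      exact mem_Fq.1 (PowerSeries.coeff n d).2
    rw [h2] at h1
    exact congrArg Subtype.val (congrFun (h1.unique hc) j)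
  · have h1 : c = 0 := funext fun j => Subtype.ext (h0 j)
    rw [h1] at hc
    have h2 := hc.eq_zero
    ext n
    have h3 := congrArg (fun f => ((PowerSeries.coeff n f : O C) : C)) h2
    simpa [FqO] using h3
  · have h1 := hc.hasSum x.2
    rw [ev1_map _ _ _ x.2, RingHom.id_comp] at h1
    simpa only [Fr_natCast, Pt.c] using h1

end points

end Crest.Agent.R227
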