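import Crest.Agent.R227.Pt

/-!
# R227 / FG : Frobenius factorisation, invariant differential, rigidity, the series `θ₀`
-/

set_option autoImplicit false

namespace Crest.Agent.R227

open MvPowerSeries Crest.LubinTate

variable {σ τ R R' B : Type} [CommRing R] [CommRing R'] [CommRing B]

/-! ### auxiliary lemmas -/

theorem FG_hs {a : MvPowerSeries τ R} (h : constantCoeff a = 0) : PowerSeries.HasSubst a :=
  PowerSeries.HasSubst.of_constantCoeff_zero h

theorem FG_c2 {a b : MvPowerSeries τ R} (ha : constantCoeff a = 0) (hb : constantCoeff b = 0) :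
    ∀ i, constantCoeff (![a, b] i) = 0 := by
  intro i; fin_cases i <;> simpa

theorem FG_hs2 {a b : MvPowerSeries τ R} (ha : constantCoeff a = 0) (hb : constantCoeff b = 0) :
    HasSubst ![a, b] := hasSubst_of_constantCoeff_zero (FG_c2 ha hb)

theorem FG_cc2 {a b : MvPowerSeries τ R} (ha : constantCoeff a = 0) (hb : constantCoeff b = 0)
    (F : FormalGroup R) : constantCoeff (F.toPowerSeries.subst ![a, b]) = 0 :=
  constantCoeff_subst_eq_zero (FG_hs2 ha hb) (FG_c2 ha hb) F.zero_constantCoeff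

theorem FG_cc1 {a : MvPowerSeries τ R} (ha : constantCoeff a = 0) {f : PowerSeries R}
    (hf : PowerSeries.constantCoeff f = 0) : constantCoeff (f.subst a) = 0 :=
  PowerSeries.constantCoeff_subst_eq_zero ha f hf

theorem FG_subst2 (f : MvPowerSeries (Fin 2) R) {a b : MvPowerSeries σ R}
    {c : σ → MvPowerSeries τ R} (ha : constantCoeff a = 0) (hb : constantCoeff b = 0)
    (hc : HasSubst c) : subst c (subst ![a, b] f) = subst ![subst c a, subst c b] f := by
  rw [subst_comp_subst_apply (FG_hs2 ha hb) hc]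
  congr 1
  funext i; fin_cases i <;> rfl

theorem FG_subst1 (f : PowerSeries R) {a : MvPowerSeries σ R} {c : σ → MvPowerSeries τ R}
    (ha : constantCoeff a = 0) (hc : HasSubst c) :
    subst c (f.subst a) = f.subst (subst c a) :=
  subst_comp_subst_apply (FG_hs ha).const hc f

theorem FG_subst21 (f : MvPowerSeries (Fin 2) R) {a b : PowerSeries R} {c : MvPowerSeries τ R}
    (ha : PowerSeries.constantCoeff a = 0) (hb : PowerSeries.constantCoeff b = 0)
    (hc : constantCoeff c = 0) :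
    PowerSeries.subst c (subst ![a, b] f : PowerSeries R) = subst ![a.subst c, b.subst c] f :=
  FG_subst2 f ha hb (FG_hs hc).const

theorem FG_subst11 (f : PowerSeries R) {a : PowerSeries R} {c : MvPowerSeries τ R}
    (ha : PowerSeries.constantCoeff a = 0) (hc : constantCoeff c = 0) :
    PowerSeries.subst c (f.subst a : PowerSeries R) = f.subst (a.subst c) :=
  FG_subst1 f ha (FG_hs hc).const

theorem FG_subst_zero (c : σ → MvPowerSeries τ R) (hc : HasSubst c) :
    subst c (0 : MvPowerSeries σ R) = 0 := by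
  rw [← coe_substAlgHom hc, map_zero]

theorem FG_map2 (f : MvPowerSeries (Fin 2) R) {a b : MvPowerSeries σ R} (ha : constantCoeff a = 0)
    (hb : constantCoeff b = 0) (ρ : R →+* R') :
    (subst ![a, b] f).map ρ = subst ![a.map ρ, b.map ρ] (f.map ρ) := by
  rw [map_subst (FG_hs2 ha hb)]
  congr 1
  funext i; fin_cases i <;> rfl

theorem FG_d2 [Finite τ] (f : MvPowerSeries (Fin 2) R) {a b : MvPowerSeries τ R}
    (ha : constantCoeff a = 0) (hb : constantCoeff b = 0) (j : τ) :
    pderiv R j (subst ![a, b] f) = (pderiv R 0 f).subst ![a, b] * pderiv R j a +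
      (pderiv R 1 f).subst ![a, b] * pderiv R j b := by
  rw [pderiv_subst (FG_c2 ha hb), Fin.sum_univ_two]; rfl

theorem FG_d1 [Finite τ] (f : PowerSeries R) {a : MvPowerSeries τ R} (ha : constantCoeff a = 0)
    (j : τ) : pderiv R j (f.subst a) = (PowerSeries.derivative R f).subst a * pderiv R j a := by
  rw [PowerSeries.subst_def, pderiv_subst (fun _ => ha), Fintype.sum_unique]; rfl

theorem FG_coeff_mul {I J : Ideal R} {f g : MvPowerSeries τ R} (hf : ∀ d, coeff d f ∈ I)
    (hg : ∀ d, coeff d g ∈ J) (d : τ →₀ ℕ) : coeff d (f * g) ∈ I * J := by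
  classical
  rw [coeff_mul]
  exact Ideal.sum_mem _ fun x _ => Ideal.mul_mem_mul (hf _) (hg _)

theorem FG_coeff_mul' {I : Ideal R} {f : MvPowerSeries τ R} (hf : ∀ d, coeff d f ∈ I)
    (g : MvPowerSeries τ R) (d : τ →₀ ℕ) : coeff d (f * g) ∈ I := by
  simpa using FG_coeff_mul (J := ⊤) hf (fun _ => trivial) d

theorem FG_X_pow {k : ℕ} {c : MvPowerSeries τ R} (hc : constantCoeff c = 0) :
    (PowerSeries.X ^ k : PowerSeries R).subst c = c ^ k := by
  rw [PowerSeries.subst_pow (FG_hs hc), PowerSeries.subst_X (FG_hs hc)]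

theorem FG_cX {k : ℕ} (hk : k ≠ 0) :
    PowerSeries.constantCoeff (PowerSeries.X ^ k : PowerSeries R) = 0 := by simp [hk]

/-! ### invariant differential -/

/-- `∂F/∂Y (X, 0)`. -/
noncomputable def dY (F : FormalGroup R) : PowerSeries R :=
  PowerSeries.mk fun i => coeff (Finsupp.single 0 i + Finsupp.single 1 1) F.toPowerSeries

theorem constantCoeff_dY (F : FormalGroup R) : PowerSeries.constantCoeff (dY F) = 1 := by
  simp [dY, ← PowerSeries.coeff_zero_eq_constantCoeff_apply, F.lin_coeff_Y]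

theorem dY_map (F : FormalGroup R) (ρ : R →+* R') : dY (F.map ρ) = (dY F).map ρ := by
  ext i; simp [dY]

theorem dY_eq (F : FormalGroup R) :
    dY F = (pderiv R 1 F.toPowerSeries).subst ![(PowerSeries.X : PowerSeries R), 0] := by
  ext i
  have hs : HasSubst ![(PowerSeries.X : PowerSeries R), 0] := HasSubst.X_zero
  rw [PowerSeries.coeff, coeff_subst hs, finsum_eq_single _ (Finsupp.single 0 i)]
  · simp [dY, coeff_pderiv, ← PowerSeries.coeff_def, PowerSeries.coeff_X_pow]
  · intro d hd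
    by_cases hd₁ : d 1 = 0
    · have : i ≠ d 0 := fun h => hd (by ext j; fin_cases j <;> simp [h, hd₁])
      simp [hd₁, PowerSeries.coeff_X_pow, this]
    · simp [hd₁]

theorem FG_dY_subst (F : FormalGroup R) {c : MvPowerSeries τ R} (hc : constantCoeff c = 0) :
    (dY F).subst c = (pderiv R 1 F.toPowerSeries).subst ![c, 0] := by
  rw [dY_eq, FG_subst21 _ (by simp) (by simp) hc, PowerSeries.subst_X (FG_hs hc),
    PowerSeries.subst_def, FG_subst_zero _ (FG_hs hc).const]

/-- differentiate `f (F (X,Y)) = G (f X, f Y)` in `Y` at `Y = 0` -/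
theorem deriv_hom {F G : FormalGroup R} {f : PowerSeries R} (h : IsFGHom F G f) :
    PowerSeries.derivative R f * dY F =
      PowerSeries.C (PowerSeries.coeff 1 f) * (dY G).subst f := by
  have hs : HasSubst ![(PowerSeries.X : PowerSeries R), 0] := HasSubst.X_zero
  have h0 (i : Fin 2) : constantCoeff (X i : MvPowerSeries (Fin 2) R) = 0 := by simp
  have h1 := congrArg (fun g => subst ![(PowerSeries.X : PowerSeries R), 0] (pderiv R 1 g)) h.2
  simp only [FG_d1 _ F.zero_constantCoeff, FG_d2 _ (FG_cc1 (h0 0) h.1) (FG_cc1 (h0 1) h.1),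
    FG_d1 _ (h0 _), pderiv_X_self, pderiv_X_of_ne (show (0 : Fin 2) ≠ 1 by decide), mul_zero,
    zero_add, mul_one, subst_mul hs, FG_subst1 _ F.zero_constantCoeff hs, FG_subst1 _ (h0 _) hs,
    FG_subst2 _ (FG_cc1 (h0 0) h.1) (FG_cc1 (h0 1) h.1) hs, subst_X hs, Matrix.cons_val_zero,
    Matrix.cons_val_one, F.add_zero PowerSeries.HasSubst.X', PowerSeries.X_subst, ← dY_eq] at h1
  rw [h1, FG_dY_subst G h.1, mul_comm, PowerSeries.subst_zero_of_constantCoeff_zero h.1,
    PowerSeries.subst_zero_eq_C_constantCoeff]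
  congr 1
  simp [← PowerSeries.coeff_zero_eq_constantCoeff_apply, PowerSeries.coeff_derivative]
  rfl

/-- invariance: `dY (F (X,Y)) = ∂F/∂X (X,Y) · dY X` (differentiate associativity and use
commutativity) -/
theorem dY_subst (F : FormalGroup R) [F.IsComm] :
    (dY F).subst F.toPowerSeries =
      pderiv R 0 F.toPowerSeries * (dY F).subst (X 0 : MvPowerSeries (Fin 2) R) := by
  have h0 (i : Fin 3) : constantCoeff (X i : MvPowerSeries (Fin 3) R) = 0 := by simp
  have h0' (i : Fin 2) : constantCoeff (X i : MvPowerSeries (Fin 2) R) = 0 := by simp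
  have hs : HasSubst (![X 0, X 1, 0] : Fin 3 → MvPowerSeries (Fin 2) R) :=
    hasSubst_of_constantCoeff_zero fun i => by fin_cases i <;> simp
  have hX : (![X 0, X 1] : Fin 2 → MvPowerSeries (Fin 2) R) = X := by
    funext i; fin_cases i <;> rfl
  have h1 : F.toPowerSeries.subst ![F.toPowerSeries.subst ![X 0, X 1], X 2] =
      F.toPowerSeries.subst ![F.toPowerSeries.subst ![X 0, X 2], (X 1 : MvPowerSeries (Fin 3) R)] := by
    rw [F.assoc' (FG_hs (h0 _)) (FG_hs (h0 _)) (FG_hs (h0 _)),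
      F.assoc' (FG_hs (h0 _)) (FG_hs (h0 _)) (FG_hs (h0 _)), F.comm' (FG_hs (h0 1)) (FG_hs (h0 2))]
  have h2 := congrArg (fun g => subst (![X 0, X 1, 0] : Fin 3 → MvPowerSeries (Fin 2) R)
    (pderiv R 2 g)) h1
  simp only [FG_d2 _ (FG_cc2 (h0 _) (h0 _) F) (h0 _), FG_d2 _ (h0 _) (h0 _), pderiv_X_self,
    pderiv_X_of_ne (show (0 : Fin 3) ≠ 2 by decide), pderiv_X_of_ne (show (1 : Fin 3) ≠ 2 by decide),
    mul_zero, zero_add, add_zero, mul_one, subst_mul hs, FG_subst2 _ (FG_cc2 (h0 _) (h0 _) F) (h0 _) hs,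
    FG_subst2 _ (h0 _) (h0 _) hs, subst_X hs, Matrix.cons_val_zero, Matrix.cons_val_one,
    Matrix.cons_val, F.add_zero (FG_hs (h0' 0)), hX, subst_self, id] at h2
  rw [FG_dY_subst F F.zero_constantCoeff, FG_dY_subst F (h0' 0), h2]

/-! ### Frobenius -/

section Frob

variable (p : ℕ) [Fact p.Prime] [CharP R p]

theorem FG_ne (j : ℕ) : p ^ j ≠ 0 := pow_ne_zero _ (Fact.out : p.Prime).ne_zero

theorem FG_pow (f : MvPowerSeries σ R) (j : ℕ) :
    f ^ p ^ j = expand (p ^ j) (FG_ne p j) (f.map (iterateFrobenius R p j)) := by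
  rw [← map_expand, map_iterateFrobenius_expand p (Fact.out : p.Prime).ne_zero]

theorem FG_expand_inj {k : ℕ} (hk : k ≠ 0) {f g : MvPowerSeries σ R'}
    (h : expand k hk f = expand k hk g) : f = g := by
  ext d
  rw [← coeff_expand_smul k hk f, h, coeff_expand_smul]

theorem FG_expand2 {k : ℕ} (hk : k ≠ 0) (f : MvPowerSeries (Fin 2) R') :
    expand k hk f = f.subst ![X 0 ^ k, (X 1 ^ k : MvPowerSeries (Fin 2) R')] := by
  rw [expand, substAlgHom_apply]
  congr 1
  funext i; fin_cases i <;> rfl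

theorem fgHom_frob (F : FormalGroup R) (j : ℕ) :
    IsFGHom F (F.map (iterateFrobenius R p j)) (PowerSeries.X ^ p ^ j) := by
  refine ⟨FG_cX (FG_ne p j), ?_⟩
  rw [FG_X_pow F.zero_constantCoeff, FG_X_pow (by simp), FG_X_pow (by simp), FG_pow, FG_expand2]
  rfl

theorem pow_eq_subst_X_pow (f : PowerSeries R) (j : ℕ) :
    f ^ p ^ j = (f.map (iterateFrobenius R p j)).subst (PowerSeries.X ^ p ^ j : PowerSeries R) := by
  rw [← PowerSeries.expand_apply _ (FG_ne p j)]
  exact FG_pow p f j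

theorem subst_X_pow_injective {k : ℕ} (hk : k ≠ 0) {f g : PowerSeries R'}
    (h : f.subst (PowerSeries.X ^ k : PowerSeries R') = g.subst (PowerSeries.X ^ k)) : f = g := by
  rw [← PowerSeries.expand_apply _ hk, ← PowerSeries.expand_apply _ hk] at h
  exact FG_expand_inj hk h

theorem FG_factor {F G : FormalGroup R} {g : PowerSeries R} (j : ℕ)
    (h : IsFGHom F G (g.subst (PowerSeries.X ^ p ^ j : PowerSeries R))) :
    IsFGHom (F.map (iterateFrobenius R p j)) G g := by
  have hq := FG_ne p j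
  have h0 (i : Fin 2) : constantCoeff (X i : MvPowerSeries (Fin 2) R) = 0 := by simp
  have hg : PowerSeries.constantCoeff g = 0 := by
    rw [← PowerSeries.constantCoeff_expand _ hq, PowerSeries.expand_apply]; exact h.1
  refine ⟨hg, FG_expand_inj hq ?_⟩
  have h2 := h.2
  rw [FG_subst11 _ (FG_cX hq) F.zero_constantCoeff, FG_subst11 _ (FG_cX hq) (h0 0),
    FG_subst11 _ (FG_cX hq) (h0 1), FG_X_pow F.zero_constantCoeff, FG_X_pow (h0 0),
    FG_X_pow (h0 1), FG_pow] at h2
  rw [PowerSeries.expand_subst _ _ (FG_hs (F.map _).zero_constantCoeff), FormalGroup.map_toPowerSeries,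
    h2, expand, substAlgHom_apply, FG_subst2 _ (FG_cc1 (h0 0) hg) (FG_cc1 (h0 1) hg) (HasSubst.X_pow hq),
    FG_subst1 _ (h0 0) (HasSubst.X_pow hq), FG_subst1 _ (h0 1) (HasSubst.X_pow hq),
    subst_X (HasSubst.X_pow hq), subst_X (HasSubst.X_pow hq)]

theorem FG_unit {n : ℕ} (hn : ¬ p ∣ n) : IsUnit (n : R) := by
  obtain ⟨a, b, h⟩ := Nat.isCoprime_iff_coprime.2
    (((Fact.out : p.Prime).coprime_iff_not_dvd).2 hn)
  have := congrArg (Int.cast : ℤ → R) h
  push_cast at this
  rw [CharP.cast_eq_zero, mul_zero, zero_add] at this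
  exact IsUnit.of_mul_eq_one_right _ this

/-- A homomorphism whose coefficients of `X^(p^i)`, `i < j`, vanish factors through the `j`-fold
Frobenius (induction on `j`; if `f'(0) = 0` then `f' = 0` by `deriv_hom`). -/
theorem exists_frob_factor {F G : FormalGroup R} {f : PowerSeries R} (h : IsFGHom F G f) (j : ℕ)
    (hf : ∀ i < j, PowerSeries.coeff (p ^ i) f = 0) :
    ∃ g : PowerSeries R, f = g.subst (PowerSeries.X ^ p ^ j : PowerSeries R) ∧
      IsFGHom (F.map (iterateFrobenius R p j)) G g := by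
  suffices ∃ g : PowerSeries R, f = g.subst (PowerSeries.X ^ p ^ j : PowerSeries R) by
    obtain ⟨g, hg⟩ := this
    exact ⟨g, hg, FG_factor p j (hg ▸ h)⟩
  induction j with
  | zero => exact ⟨f, by simp [PowerSeries.X_subst]⟩
  | succ j ih =>
    obtain ⟨g, hg⟩ := ih fun i hi => hf i (by omega)
    have h1 : PowerSeries.coeff 1 g = 0 := by
      rw [← PowerSeries.coeff_expand_mul _ (FG_ne p j), PowerSeries.expand_apply, ← hg, mul_one]
      exact hf j (by omega)
    have h2 := deriv_hom (FG_factor p j (hg ▸ h))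
    rw [h1, map_zero, zero_mul, (PowerSeries.isUnit_iff_constantCoeff.2
      (by rw [constantCoeff_dY]; exact isUnit_one)).mul_left_eq_zero] at h2
    have hp := (Fact.out : p.Prime).ne_zero
    have h3 : g = PowerSeries.expand p hp (PowerSeries.mk fun i => PowerSeries.coeff (p * i) g) := by
      ext n
      rw [PowerSeries.coeff_expand]
      split_ifs with hn
      · rw [PowerSeries.coeff_mk, Nat.mul_div_cancel' hn]
      · obtain ⟨n, rfl⟩ : ∃ k, n = k + 1 := ⟨n - 1, by
          have : n ≠ 0 := by rintro rfl; simp at hn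
          omega⟩
        have := congrArg (PowerSeries.coeff n) h2
        rw [PowerSeries.coeff_derivative, map_zero, ← Nat.cast_succ] at this
        exact (FG_unit p hn).mul_left_eq_zero.1 this
    refine ⟨PowerSeries.mk fun i => PowerSeries.coeff (p * i) g, ?_⟩
    rw [← PowerSeries.expand_apply _ (FG_ne p (j + 1)), hg, ← PowerSeries.expand_apply _ (FG_ne p j)]
    conv_lhs => rw [h3]
    rw [← PowerSeries.expand_mul]
    rfl

theorem FG_map_eq {F : FormalGroup R} {j : ℕ} (h : IsFGHom F F (PowerSeries.X ^ p ^ j)) :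
    F.map (iterateFrobenius R p j) = F := by
  have h1 := (FG_factor p j (g := PowerSeries.X) (G := F) (F := F)
    (by rwa [PowerSeries.subst_X (PowerSeries.HasSubst.X_pow (FG_ne p j))])).2
  have hX : (![X 0, X 1] : Fin 2 → MvPowerSeries (Fin 2) R) = X := by
    funext i; fin_cases i <;> rfl
  rw [PowerSeries.subst_X (FG_hs (F.map _).zero_constantCoeff), PowerSeries.subst_X (FG_hs (by simp)),
    PowerSeries.subst_X (FG_hs (by simp)), hX, subst_self] at h1
  exact FormalGroup.ext h1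

/-- If `[p]_F = X^(p^n)` then the coefficients of `F` are fixed by the `n`-fold Frobenius. -/
theorem map_frob_eq_of_pser (F : FormalGroup R) [F.IsComm] {n : ℕ}
    (hF : mulSeries F p = PowerSeries.X ^ p ^ n) : F.map (iterateFrobenius R p n) = F :=
  FG_map_eq p (hF ▸ fgHom_mulSeries F p)

/-- ... and so are the coefficients of homomorphisms between two such laws. -/
theorem map_frob_hom_of_pser {F G : FormalGroup R} {n : ℕ}
    (hF : mulSeries F p = PowerSeries.X ^ p ^ n) (hG : mulSeries G p = PowerSeries.X ^ p ^ n)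
    {f : PowerSeries R} (h : IsFGHom F G f) (i : ℕ) :
    PowerSeries.coeff i f ^ p ^ n = PowerSeries.coeff i f := by
  have h1 := fgHom_mulSeries_comm h p
  rw [hF, hG, FG_X_pow h.1, pow_eq_subst_X_pow p f] at h1
  have := congrArg (PowerSeries.coeff i) (subst_X_pow_injective (FG_ne p n) h1)
  rw [PowerSeries.coeff_map, iterateFrobenius_def] at this
  exact this.symm

theorem mulSeries_pow_of_pser (F : FormalGroup R) [F.IsComm] {n : ℕ}
    (hF : mulSeries F p = PowerSeries.X ^ p ^ n) (m : ℕ) :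
    mulSeries F (p ^ m) = PowerSeries.X ^ (p ^ n) ^ m := by
  induction m with
  | zero => simp [mulSeries_one]
  | succ m ih =>
    rw [pow_succ, mulSeries_mul, ih, hF, FG_X_pow (FG_cX (FG_ne p n)), ← pow_mul, ← pow_succ']

theorem FG_cc_pser (F : FormalGroup R') {m k : ℕ} (hk : k ≠ 0) {g : PowerSeries R'}
    (hg : mulSeries F m = g.subst (PowerSeries.X ^ k : PowerSeries R')) :
    PowerSeries.constantCoeff g = 0 := by
  rw [← PowerSeries.constantCoeff_expand _ hk, PowerSeries.expand_apply, ← hg,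
    constantCoeff_mulSeries]

/-- `[p^k] = g_k (X^(P^k))` when `[p] = g (X^P)`, `P = p^h`; the linear coefficient of `g_k` is a
power of that of `g`. -/
theorem exists_pser_pow (F : FormalGroup R) [F.IsComm] {h : ℕ} {g : PowerSeries R}
    (hg : mulSeries F p = g.subst (PowerSeries.X ^ p ^ h : PowerSeries R)) (k : ℕ) :
    ∃ (gk : PowerSeries R) (e : ℕ),
      mulSeries F (p ^ k) = gk.subst (PowerSeries.X ^ (p ^ h) ^ k : PowerSeries R) ∧
      PowerSeries.constantCoeff gk = 0 ∧
      PowerSeries.coeff 1 gk = PowerSeries.coeff 1 g ^ e := by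
  induction k with
  | zero => exact ⟨PowerSeries.X, 0, by simp [mulSeries_one, PowerSeries.X_subst], by simp, by simp⟩
  | succ k ih =>
    obtain ⟨gk, e, h1, h2, h3⟩ := ih
    have hq := pow_ne_zero k (FG_ne p h)
    have h4 : PowerSeries.constantCoeff (gk.map (iterateFrobenius R p h)) = 0 := by
      rw [← PowerSeries.coeff_zero_eq_constantCoeff_apply, PowerSeries.coeff_map,
        PowerSeries.coeff_zero_eq_constantCoeff_apply, h2, map_zero]
    refine ⟨g.subst (gk.map (iterateFrobenius R p h)), 1 + e * p ^ h, ?_,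
      FG_cc1 h4 (FG_cc_pser F (FG_ne p h) hg), ?_⟩
    · rw [pow_succ', mulSeries_mul, hg, FG_subst11 _ (FG_cX (FG_ne p h)) (constantCoeff_mulSeries _ _),
        FG_X_pow (constantCoeff_mulSeries _ _), h1, ← PowerSeries.subst_pow (FG_hs (FG_cX hq)),
        pow_eq_subst_X_pow p gk, FG_subst11 _ (FG_cX (FG_ne p h)) (FG_cX hq), FG_X_pow (FG_cX hq),
        ← pow_mul, ← pow_succ, FG_subst11 _ h4 (FG_cX (pow_ne_zero _ (FG_ne p h)))]
    · rw [coeff_one_subst h4, PowerSeries.coeff_map, iterateFrobenius_def, h3]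
      ring

theorem constantCoeff_of_pser (F : FormalGroup R') {m k : ℕ} (hk : k ≠ 0) {g : PowerSeries R'}
    (hg : mulSeries F m = g.subst (PowerSeries.X ^ k : PowerSeries R')) :
    PowerSeries.constantCoeff g = 0 := FG_cc_pser F hk hg

/-- An endomorphism of `Γ` (`[p] = X^q`, `q = p^n`) divisible by `X^(q^m)` is divisible by `p^m`. -/
theorem exists_eq_pser_subst (F : FormalGroup R) [F.IsComm] {n : ℕ}
    (hF : mulSeries F p = PowerSeries.X ^ p ^ n) {e : PowerSeries R} (he : IsFGHom F F e) (m : ℕ)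
    (hm : ∀ i < (p ^ n) ^ m, PowerSeries.coeff i e = 0) :
    ∃ b : PowerSeries R, IsFGHom F F b ∧ e = (mulSeries F (p ^ m)).subst b := by
  have h1 := mulSeries_pow_of_pser p F hF m
  rw [← pow_mul] at hm h1
  obtain ⟨g, h2, h3⟩ := exists_frob_factor p he (n * m) fun i hi =>
    hm _ (Nat.pow_lt_pow_right (Fact.out : p.Prime).one_lt hi)
  rw [FG_map_eq p (h1 ▸ fgHom_mulSeries F (p ^ m))] at h3
  exact ⟨g, h3, by rw [← fgHom_mulSeries_comm h3, h1, h2]⟩

end Frob

/-! ### `[p]` contracts, rigidity -/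

/-- `[m]_F z ≡ m z` modulo `c²` if `z` has coefficients in `c`. -/
theorem coeff_mulSeries_subst_sub_mem [Finite τ] (F : FormalGroup R) (m : ℕ) (c : Ideal R)
    {z : MvPowerSeries τ R} (hz0 : constantCoeff z = 0) (hz : ∀ d, coeff d z ∈ c) (d : τ →₀ ℕ) :
    coeff d ((mulSeries F m).subst z) - m * coeff d z ∈ c ^ 2 := by
  obtain ⟨K, hK⟩ : PowerSeries.X ^ 2 ∣ mulSeries F m - (m : R) • PowerSeries.X := by
    rw [PowerSeries.X_pow_dvd_iff]
    intro i hi
    interval_cases i
    · simp [constantCoeff_mulSeries]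
    · simp [coeff_one_mulSeries]
  have := congrArg (PowerSeries.subst z) hK
  rw [PowerSeries.subst_sub (FG_hs hz0), PowerSeries.subst_smul (FG_hs hz0),
    PowerSeries.subst_X (FG_hs hz0), PowerSeries.subst_mul (FG_hs hz0), FG_X_pow hz0] at this
  rw [← coeff_smul, ← map_sub, this, pow_two, pow_two]
  exact FG_coeff_mul' (FG_coeff_mul hz hz) _ d

theorem FG_step [Finite τ] (F : FormalGroup R) {m : ℕ} {c 𝔪 : Ideal R} (hm : (m : R) ∈ 𝔪)
    (hc : c ≤ 𝔪) {z : MvPowerSeries τ R} (hz0 : constantCoeff z = 0) (hz : ∀ d, coeff d z ∈ c)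
    (d : τ →₀ ℕ) : coeff d ((mulSeries F m).subst z) ∈ c * 𝔪 := by
  have h1 := coeff_mulSeries_subst_sub_mem F m c hz0 hz d
  rw [pow_two] at h1
  have := add_mem (Ideal.mul_mono_right hc h1) (Ideal.mul_mem_mul (hz d) hm)
  rwa [mul_comm (coeff d z), sub_add_cancel] at this

theorem FG_subst_sub {I J : Ideal R} {ψ : PowerSeries R} (hψ : ∀ i, PowerSeries.coeff i ψ ∈ I)
    {a b : PowerSeries R} (ha : PowerSeries.constantCoeff a = 0)
    (hb : PowerSeries.constantCoeff b = 0)
    (h : a.map (Ideal.Quotient.mk J) = b.map (Ideal.Quotient.mk J)) (d : ℕ) :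
    PowerSeries.coeff d (ψ.subst a) - PowerSeries.coeff d (ψ.subst b) ∈ I * J := by
  rw [PowerSeries.coeff_subst' (FG_hs ha), PowerSeries.coeff_subst' (FG_hs hb),
    ← finsum_sub_distrib (PowerSeries.coeff_subst_finite' (FG_hs ha) _ _)
      (PowerSeries.coeff_subst_finite' (FG_hs hb) _ _)]
  refine finsum_induction (· ∈ I * J) (zero_mem _) (fun _ _ => add_mem) fun i => ?_
  rw [← smul_sub, smul_eq_mul]
  exact Ideal.mul_mem_mul (hψ i) (map_mk_eq_iff'.1 (by rw [map_pow, map_pow, h]) d)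

/-- Rigidity of `⋆`-isomorphisms: `ψ = θ -_F θ'` has coefficients in `𝔪^j`; then
`ψ (X^q) ≡ ψ ∘ [p]_G = [p]_F ∘ ψ ≡ 0` mod `𝔪^(j+1)`. -/
theorem rigid {p q : ℕ} (hq : q ≠ 0) (𝔪 : Ideal R) [IsHausdorff 𝔪 R] (hp : (p : R) ∈ 𝔪)
    {G F : FormalGroup R} [F.IsComm]
    (hG : (mulSeries G p).map (Ideal.Quotient.mk 𝔪) = PowerSeries.X ^ q)
    {θ θ' : PowerSeries R} (h : IsFGHom G F θ) (h' : IsFGHom G F θ')
    (hθ : θ.map (Ideal.Quotient.mk 𝔪) = θ'.map (Ideal.Quotient.mk 𝔪)) : θ = θ' := by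
  set x := Cur.mk F (RingHom.id R) θ h.1
  set y := Cur.mk F (RingHom.id R) θ' h'.1
  have h1 : IsFGHom G (F.map (RingHom.id R)) (x - y).1 :=
    (homSub G F (RingHom.id R)).sub_mem (x := x) (y := y)
      (show IsFGHom G (F.map (RingHom.id R)) θ by rwa [fg_map_id])
      (show IsFGHom G (F.map (RingHom.id R)) θ' by rwa [fg_map_id])
  rw [fg_map_id] at h1
  obtain ⟨c, -, hc⟩ := Pt.sub_val_eq' x y
  have h2 (j : ℕ) : ∀ i, PowerSeries.coeff i (x - y).1 ∈ 𝔪 ^ (j + 1) := by
    induction j with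
    | zero =>
      intro i
      rw [hc, zero_add, pow_one]
      exact PowerSeries.coeff_mul_mem_ideal_of_coeff_left_mem_ideal' (fun i => by
        rw [map_sub]; exact map_mk_eq_iff'.1 hθ i) _
    | succ j ih =>
      intro i
      have h3 := FG_subst_sub ih (constantCoeff_mulSeries G p) (FG_cX hq) (J := 𝔪) (by simpa) (q * i)
      have h4 := FG_step (τ := Unit) F hp (Ideal.pow_le_self (Nat.succ_ne_zero j)) h1.1
        (fun d => by rw [Finsupp.unique_single d]; exact ih _) (Finsupp.single () (q * i))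
      rw [fgHom_mulSeries_comm h1, ← PowerSeries.expand_apply _ hq,
        PowerSeries.coeff_expand_mul] at h3
      rw [pow_succ]
      have h5 := sub_mem h4 h3
      rwa [← PowerSeries.coeff_def (n := q * i) Finsupp.single_eq_same, sub_sub_cancel] at h5
  have h3 : x - y = 0 := by
    ext i
    refine IsHausdorff.haus ‹_› _ fun j => ?_
    rw [SModEq.zero, smul_eq_mul, Ideal.mul_top]
    exact Ideal.pow_le_pow_right (Nat.le_succ j) (h2 j i)
  have h4 : x = y := sub_eq_zero.1 h3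
  exact congrArg (fun u : Cur F (RingHom.id R) => u.1) h4

/-- `θ₀ = X +_H [m]_H (β X)`. -/
noncomputable def theta0 (H : FormalGroup R) (m : ℕ) (β : PowerSeries R) : PowerSeries R :=
  H.toPowerSeries.subst ![PowerSeries.X, (mulSeries H m).subst β]

theorem constantCoeff_theta0 (H : FormalGroup R) (m : ℕ) {β : PowerSeries R}
    (hβ : PowerSeries.constantCoeff β = 0) : PowerSeries.constantCoeff (theta0 H m β) = 0 :=
  FG_cc2 (a := (PowerSeries.X : PowerSeries R)) PowerSeries.constantCoeff_X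
    (FG_cc1 hβ (constantCoeff_mulSeries H m)) H

theorem theta0_map (H : FormalGroup R) (m : ℕ) {β : PowerSeries R}
    (hβ : PowerSeries.constantCoeff β = 0) (ρ : R →+* R') :
    (theta0 H m β).map ρ = theta0 (H.map ρ) m (β.map ρ) := by
  have := FG_map2 H.toPowerSeries (a := (PowerSeries.X : PowerSeries R)) PowerSeries.constantCoeff_X
    (FG_cc1 hβ (constantCoeff_mulSeries H m)) ρ
  rw [PowerSeries.map_subst (FG_hs hβ), ← mulSeries_map] at this
  rw [theta0, theta0, ← PowerSeries.map_X ρ]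
  exact this

theorem fgHom_theta0 (H : FormalGroup R) [H.IsComm] (m : ℕ) {β : PowerSeries R}
    (hβ : IsFGHom H H β) : IsFGHom H H (theta0 H m β) :=
  fgHom_add (fgHom_id H) (fgHom_comp hβ (fgHom_mulSeries H m))

/-- If `[m]_H` is divisible by `X^k`, then `θ₀ ≡ X mod X^k`. -/
theorem X_pow_dvd_theta0_sub (H : FormalGroup R) (m : ℕ) {β : PowerSeries R}
    (hβ : PowerSeries.constantCoeff β = 0) {k : ℕ} (hk : PowerSeries.X ^ k ∣ mulSeries H m) :
    PowerSeries.X ^ k ∣ theta0 H m β - PowerSeries.X := by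
  obtain ⟨c, hc⟩ := Pt.add_val_eq (Cur.mk H (RingHom.id R) PowerSeries.X (by simp))
    (Cur.mk H (RingHom.id R) _ (FG_cc1 hβ (constantCoeff_mulSeries H m)))
  rw [Cur.add_val, fg_map_id] at hc
  have h1 : PowerSeries.X ^ k ∣ ((mulSeries H m).subst β : PowerSeries R) := by
    obtain ⟨K, hK⟩ := hk
    rw [hK, PowerSeries.subst_mul (FG_hs hβ), FG_X_pow hβ]
    exact (pow_dvd_pow_of_dvd (PowerSeries.X_dvd_iff.2 hβ) k).mul_right _
  refine h1.trans ⟨1 + PowerSeries.X * c, ?_⟩
  simp only [Cur.mk] at hc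
  rw [theta0, hc]
  ring

theorem theta0_val {R₀ : Type} [CommRing R₀] (H : FormalGroup R₀) [H.IsComm] (ι : R₀ →+* R)
    (m : ℕ) (β : Cur H ι) :
    theta0 (H.map ι) m β.1 = (Cur.mk H ι PowerSeries.X (by simp) + m • β).1 := by
  rw [Cur.add_val, Cur.nsmul_val]; rfl

/-- `β` is an endomorphism mod `𝔪`, and `[m]_H` maps series with coefficients in `𝔪` to series with
coefficients in `𝔞`; then `θ₀` is an endomorphism mod `𝔞`
(`Δ = β(H(X,Y)) -_H β X -_H β Y` has coefficients in `𝔪`). -/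
theorem fgHom_theta0_mod (H : FormalGroup R) [H.IsComm] (m : ℕ) {β : PowerSeries R}
    (hβ : PowerSeries.constantCoeff β = 0) (𝔪 𝔞 : Ideal R)
    (h𝔪 : IsFGHom (H.map (Ideal.Quotient.mk 𝔪)) (H.map (Ideal.Quotient.mk 𝔪))
      (β.map (Ideal.Quotient.mk 𝔪)))
    (h𝔞 : ∀ z : MvPowerSeries (Fin 2) R, constantCoeff z = 0 → (∀ d, coeff d z ∈ 𝔪) →
      ∀ d, coeff d ((mulSeries H m).subst z) ∈ 𝔞) :
    IsFGHom (H.map (Ideal.Quotient.mk 𝔞)) (H.map (Ideal.Quotient.mk 𝔞))
      ((theta0 H m β).map (Ideal.Quotient.mk 𝔞)) := by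
  let ι := (C : R →+* MvPowerSeries (Fin 2) R).comp (RingHom.id R)
  let P := Pt H ι (cc (Fin 2) (⊥ : Ideal R))
  have c0 (u : P) : constantCoeff u.1 = 0 := u.2
  have hadd (u v : P) : (u + v).1 = H.toPowerSeries.subst ![u.1, v.1] := by
    rw [Pt.add_val, ev_eq_subst _ (FG_c2 (c0 u) (c0 v)), map_id]; rfl
  have hsm (u : P) : (m • u).1 = (mulSeries H m).subst u.1 := by
    rw [Pt.nsmul_val, ev1_eq_subst _ (c0 u), PowerSeries.map_id]; rfl
  let b : P → P := fun u => ⟨β.subst u.1, FG_cc1 (c0 u) hβ⟩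
  have ht (u : P) : (u + m • b u).1 = (theta0 H m β).subst u.1 := by
    rw [hadd, hsm, theta0, FG_subst21 _ PowerSeries.constantCoeff_X
      (FG_cc1 hβ (constantCoeff_mulSeries H m)) (c0 u), PowerSeries.subst_X (FG_hs (c0 u)),
      FG_subst11 _ hβ (c0 u)]
  let x : P := ⟨X 0, show constantCoeff _ = 0 by simp⟩
  let y : P := ⟨X 1, show constantCoeff _ = 0 by simp⟩
  have hX : (![X 0, X 1] : Fin 2 → MvPowerSeries (Fin 2) R) = X := by
    funext i; fin_cases i <;> rfl
  have hs : (x + y).1 = H.toPowerSeries := by rw [hadd, hX, subst_self]; rfl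
  have key {f : PowerSeries R} (hf : PowerSeries.constantCoeff f = 0) (I : Ideal R) :
      IsFGHom (H.map (Ideal.Quotient.mk I)) (H.map (Ideal.Quotient.mk I))
        (f.map (Ideal.Quotient.mk I)) ↔ ∀ d, coeff d (f.subst H.toPowerSeries) -
          coeff d (H.toPowerSeries.subst ![f.subst x.1, f.subst y.1]) ∈ I := by
    rw [← map_mk_eq_iff, FG_map2 _ (FG_cc1 (c0 x) hf) (FG_cc1 (c0 y) hf),
      PowerSeries.map_subst (FG_hs (c0 x)), PowerSeries.map_subst (FG_hs (c0 y)),
      PowerSeries.map_subst (FG_hs H.zero_constantCoeff), map_X, map_X]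
    refine and_iff_right ?_
    rw [← PowerSeries.coeff_zero_eq_constantCoeff_apply, PowerSeries.coeff_map,
      PowerSeries.coeff_zero_eq_constantCoeff_apply, hf, map_zero]
  rw [key hβ] at h𝔪
  rw [key (constantCoeff_theta0 H m hβ)]
  obtain ⟨c, -, hc⟩ := Pt.sub_val_eq' (b (x + y)) (b x + b y)
  have h1 := h𝔞 _ (c0 (b (x + y) - (b x + b y))) fun d => by
    rw [hc]
    refine FG_coeff_mul' (fun d => ?_) _ d
    rw [map_sub, hadd (b x)]
    simpa only [b, hs] using h𝔪 d
  rw [← hsm] at h1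
  obtain ⟨c', hc'⟩ := Pt.add_val_eq (x + m • b x + (y + m • b y)) (m • (b (x + y) - (b x + b y)))
  have h2 : x + m • b x + (y + m • b y) + m • (b (x + y) - (b x + b y)) = x + y + m • b (x + y) := by
    rw [smul_sub, smul_add]; abel
  intro d
  rw [← ht, ← ht, ← hadd, ← hs, ← ht, ← h2, hc', ← map_sub, add_assoc, add_sub_cancel_left, map_add,
    mul_comm _ (m • (b (x + y) - (b x + b y))).1, mul_assoc]
  exact add_mem (h1 d) (FG_coeff_mul' h1 _ d)

theorem FG_pser_succ (H : FormalGroup R) [H.IsComm] (p m : ℕ) {z : MvPowerSeries τ R}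
    (hz0 : constantCoeff z = 0) :
    (mulSeries H (p ^ (m + 1))).subst z = (mulSeries H p).subst ((mulSeries H (p ^ m)).subst z) := by
  rw [pow_succ', mulSeries_mul, FG_subst11 _ (constantCoeff_mulSeries _ _) hz0]

/-- contraction, general case: `p ∈ 𝔪` -/
theorem pser_pow_mem_pow [Finite τ] (H : FormalGroup R) [H.IsComm] {p : ℕ} (𝔪 : Ideal R)
    (hp : (p : R) ∈ 𝔪) (m : ℕ) {z : MvPowerSeries τ R} (hz0 : constantCoeff z = 0)
    (hz : ∀ d, coeff d z ∈ 𝔪) (d : τ →₀ ℕ) :
    coeff d ((mulSeries H (p ^ m)).subst z) ∈ 𝔪 ^ (m + 1) := by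
  induction m generalizing d with
  | zero => simpa [mulSeries_one, PowerSeries.subst_X (FG_hs hz0)] using hz d
  | succ m ih =>
    rw [FG_pser_succ H p m hz0, pow_succ]
    exact FG_step H hp (Ideal.pow_le_self (Nat.succ_ne_zero m))
      (FG_cc1 hz0 (constantCoeff_mulSeries _ _)) ih d

/-- contraction, `p`-adic case: `𝔪^c ≤ (p)` -/
theorem pser_pow_mem_span_p [Finite τ] (H : FormalGroup R) [H.IsComm] {p : ℕ} (𝔪 : Ideal R)
    (hp : (p : R) ∈ 𝔪) {c : ℕ} (hc : 𝔪 ^ c ≤ Ideal.span {(p : R)}) (m : ℕ)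
    {z : MvPowerSeries τ R} (hz0 : constantCoeff z = 0) (hz : ∀ d, coeff d z ∈ 𝔪) (d : τ →₀ ℕ) :
    coeff d ((mulSeries H (p ^ m)).subst z) ∈ Ideal.span {(p : R) ^ (m - c)} := by
  rcases le_or_gt m c with h | h
  · simp [Nat.sub_eq_zero_of_le h]
  obtain ⟨k, rfl⟩ := Nat.exists_eq_add_of_le h.le
  have h1 : ∀ d, coeff d ((mulSeries H (p ^ (c + k))).subst z) ∈ Ideal.span {(p : R)} ^ (k + 1) := by
    clear h
    induction k with
    | zero =>
      intro d
      simpa using hc (Ideal.pow_le_pow_right (Nat.le_succ c) (pser_pow_mem_pow H 𝔪 hp c hz0 hz d))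
    | succ k ih =>
      intro d
      rw [← add_assoc, FG_pser_succ H p _ hz0, pow_succ]
      exact FG_step H (Ideal.mem_span_singleton_self _) (Ideal.pow_le_self (Nat.succ_ne_zero k))
        (FG_cc1 hz0 (constantCoeff_mulSeries _ _)) ih d
  rw [Nat.add_sub_cancel_left, ← Ideal.span_singleton_pow]
  exact Ideal.pow_le_pow_right (Nat.le_succ k) (h1 d)

/-- contraction, characteristic `p`, height `≥ h`: Frobenius powers -/
theorem pser_pow_mem_frob [Finite σ] [Finite τ] (p : ℕ) [Fact p.Prime] [CharP R p]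
    (H : FormalGroup R) [H.IsComm] {h : ℕ} {g : PowerSeries R}
    (hg : mulSeries H p = g.subst (PowerSeries.X ^ p ^ h : PowerSeries R)) (x : σ → R) (m : ℕ)
    {z : MvPowerSeries τ R} (hz0 : constantCoeff z = 0)
    (hz : ∀ d, coeff d z ∈ Ideal.span (Set.range x)) (d : τ →₀ ℕ) :
    coeff d ((mulSeries H (p ^ m)).subst z) ∈
      Ideal.span (Set.range fun i => x i ^ (p ^ h) ^ m) := by
  obtain ⟨gk, -, h1, h2, -⟩ := exists_pser_pow p H hg m
  obtain ⟨K, rfl⟩ := PowerSeries.X_dvd_iff.2 h2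
  have hq := pow_ne_zero m (FG_ne p h)
  have h3 : constantCoeff (z ^ (p ^ h) ^ m) = 0 := by rw [map_pow, hz0, zero_pow hq]
  rw [h1, FG_subst11 _ (FG_cX hq) hz0, FG_X_pow hz0, PowerSeries.subst_mul (FG_hs h3),
    PowerSeries.subst_X (FG_hs h3)]
  refine FG_coeff_mul' (fun d => ?_) _ d
  rw [← pow_mul, FG_pow, ← map_expand, coeff_map]
  have h4 : coeff d (expand (p ^ (h * m)) (FG_ne p _) z) ∈ Ideal.span (Set.range x) := by
    have : z.map (Ideal.Quotient.mk (Ideal.span (Set.range x))) = MvPowerSeries.map _ 0 :=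
      map_mk_eq_iff.2 (by simpa using hz)
    rw [← Ideal.Quotient.eq_zero_iff_mem, ← coeff_map, map_expand, this]
    simp
  have := Ideal.mem_map_of_mem (iterateFrobenius R p (h * m)) h4
  rwa [Ideal.map_span, ← Set.range_comp] at this

end Crest.Agent.R227
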