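import Crest.Agent.R227.GlueP
import Crest.Agent.R227.C0B

/-!
# R227 / Glue : from `E₀` to the abstract situation `C0`
-/

set_option autoImplicit false

namespace Crest.Agent.R227

open MvPowerSeries Crest.LubinTate IsLocalRing

theorem Glue.isPrecomplete_of_finite {A M : Type} [CommRing A] (I : Ideal A) [IsPrecomplete I A]
    [AddCommGroup M] [Module A M] [Module.Finite A M] : IsPrecomplete I M := by
  rw [← AdicCompletion.of_surjective_iff]
  intro y
  obtain ⟨t, rfl⟩ := AdicCompletion.ofTensorProduct_surjective_of_finite I M y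
  induction t using TensorProduct.induction_on with
  | zero => exact ⟨0, by simp⟩
  | tmul r x =>
    obtain ⟨a, rfl⟩ := AdicCompletion.of_surjective I A r
    refine ⟨a • x, ?_⟩
    rw [AdicCompletion.ofTensorProduct_tmul]
    ext n
    simp only [AdicCompletion.smul_eval, AdicCompletion.of_apply, Submodule.mkQ_apply]
    rfl
  | add s t hs ht =>
    obtain ⟨a, ha⟩ := hs
    obtain ⟨b, hb⟩ := ht
    exact ⟨a + b, by rw [map_add, map_add, ha, hb]⟩

theorem Glue.isPrecomplete_of_le {R M : Type} [CommRing R] [AddCommGroup M] [Module R M]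
    {I J : Ideal R} (hIJ : I ≤ J) {N : ℕ} (hN : J ^ N ≤ I) [h : IsPrecomplete J M] :
    IsPrecomplete I M := by
  rw [isPrecomplete_iff]
  intro f hf
  obtain ⟨L, hL⟩ := h.prec (f := f) (fun {m n} hmn =>
    SModEq.mono (Submodule.smul_mono_left (Ideal.pow_right_mono hIJ m)) (hf hmn))
  refine ⟨L, fun n => ?_⟩
  refine (hf (show n ≤ (N + 1) * n by nlinarith)).trans ?_
  refine SModEq.mono (Submodule.smul_mono_left ?_) (hL ((N + 1) * n))
  rw [pow_mul]
  exact Ideal.pow_right_mono ((Ideal.pow_le_pow_right (Nat.le_succ N)).trans hN) n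

variable {p : ℕ} [Fact p.Prime] {n : ℕ}

local notation "E₀" => LTRing p n
local notation "𝕜" => GaloisField p n
local notation "𝕎" => WittVector p (GaloisField p n)

variable {Γ : FormalGroup (GaloisField p n)} [Γ.IsComm] {H : FormalGroup (LTRing p n)} [H.IsComm]

/-- `O = E₀/Q` with `Q` from `exists_prime_avoiding` (`x = p`), `u` the quotient map,
`HT = H.map (tay …)`, `F = tay f`; `act_theta0` with `𝔞 = comap u (p^(m-c))`,
`pser_pow_mem_span_p`; `C0.core` and `tay_injective`. -/
theorem char0_main (hn : 1 ≤ n) (hΓ : mulSeries Γ p = PowerSeries.X ^ p ^ n)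
    (hH : IsUniversalDeformation p n Γ H) {M : ℕ} {P : Ideal E₀} (hP : P.IsPrime)
    (hs : IsStableIdeal p n Γ H M P) (hp : (p : E₀) ∉ P) : P = ⊥ := by
  by_contra hne
  obtain ⟨f, hf, hf0⟩ := Submodule.exists_mem_ne_zero_of_ne_bot hne
  have hpm : (p : E₀) ∈ maximalIdeal E₀ := by
    rw [← ker_res, RingHom.mem_ker, map_natCast, CharP.cast_eq_zero]
  obtain ⟨Q, c, hQ, hPQ, hpQ, hc⟩ := exists_prime_avoiding P hpm hp
  have hQm : Q ≤ maximalIdeal E₀ := le_maximalIdeal hQ.ne_top
  let u : E₀ →+* E₀ ⧸ Q := Ideal.Quotient.mk Q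
  have hus : Function.Surjective u := Ideal.Quotient.mk_surjective
  have : Nontrivial (E₀ ⧸ Q) := Ideal.Quotient.nontrivial_iff.2 hQ.ne_top
  have : IsLocalRing (E₀ ⧸ Q) := IsLocalRing.of_surjective' u hus
  let res : E₀ ⧸ Q →+* 𝕜 := Ideal.Quotient.lift Q (LTRing.residue p n) (fun a ha => by
    rw [← RingHom.mem_ker, ker_res]; exact hQm ha)
  have hres : res.comp u = LTRing.residue p n := by ext a; rfl
  have hress : Function.Surjective res := fun a => by
    obtain ⟨b, rfl⟩ := res_surjective a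
    exact ⟨u b, rfl⟩
  have hker : RingHom.ker res = maximalIdeal (E₀ ⧸ Q) :=
    IsLocalRing.eq_maximalIdeal (RingHom.ker_isMaximal_of_surjective res hress)
  have hum : ∀ a, u a ∈ maximalIdeal (E₀ ⧸ Q) ↔ a ∈ maximalIdeal E₀ := fun a => by
    rw [← hker, ← ker_res]; rfl
  have hmap : (maximalIdeal E₀).map u = maximalIdeal (E₀ ⧸ Q) := by
    refine le_antisymm (Ideal.map_le_iff_le_comap.2 fun a ha => (hum a).2 ha) fun a ha => ?_
    obtain ⟨a, rfl⟩ := hus a
    exact Ideal.mem_map_of_mem _ ((hum a).1 ha)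
  have hpO : (p : E₀ ⧸ Q) ≠ 0 := fun h0 => hpQ (by
    rw [← Ideal.Quotient.eq_zero_iff_mem, map_natCast]; exact h0)
  have hpOm : (p : E₀ ⧸ Q) ∈ maximalIdeal (E₀ ⧸ Q) := by
    rw [← map_natCast u]; exact (hum _).2 hpm
  have hι : Function.Injective (u.comp (C : 𝕎 →+* E₀)) := by
    rw [injective_iff_map_eq_zero]
    intro a ha
    by_contra ha0
    obtain ⟨m, b, rfl⟩ := WittVector.exists_eq_pow_p_mul' a ha0
    rw [map_mul, map_pow, map_natCast] at ha
    rcases mul_eq_zero.1 ha with h | h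
    · exact hpO (eq_zero_of_pow_eq_zero h)
    · exact (b.isUnit.map _).ne_zero h
  have : CharZero (E₀ ⧸ Q) := by
    refine charZero_of_inj_zero fun a ha => ?_
    by_contra ha0
    obtain ⟨e, m, hm, rfl⟩ := Nat.exists_eq_pow_mul_and_not_dvd ha0 p (Fact.out : p.Prime).ne_one
    rw [Nat.cast_mul, Nat.cast_pow] at ha
    rcases mul_eq_zero.1 ha with h | h
    · exact hpO (eq_zero_of_pow_eq_zero h)
    · have := congrArg res h
      rw [map_natCast, map_zero, CharP.cast_eq_zero_iff 𝕜 p] at this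
      exact hm this
  have hcO : maximalIdeal (E₀ ⧸ Q) ^ c ≤ Ideal.span {(p : E₀ ⧸ Q)} := by
    rw [← hmap, ← Ideal.map_pow]
    refine (Ideal.map_mono hc).trans ?_
    rw [Ideal.map_sup, Ideal.map_quotient_self, bot_sup_eq, Ideal.map_span, Set.image_singleton,
      map_natCast]
  have hspan : Ideal.span {(p : E₀ ⧸ Q)} ≤ maximalIdeal (E₀ ⧸ Q) :=
    (Ideal.span_singleton_le_iff_mem _).2 hpOm
  have hcm : IsAdicComplete (maximalIdeal (E₀ ⧸ Q)) (E₀ ⧸ Q) := by
    rw [← hmap]
    have := Glue.isPrecomplete_of_finite (M := E₀ ⧸ Q) (maximalIdeal E₀)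
    show IsAdicComplete ((maximalIdeal E₀).map (algebraMap E₀ (E₀ ⧸ Q))) (E₀ ⧸ Q)
    rw [IsAdicComplete.map_algebraMap_iff]
    exact {}
  have : IsEv (maximalIdeal (E₀ ⧸ Q)) := isEv_of_complete _
  have hcp : IsAdicComplete (Ideal.span {(p : E₀ ⧸ Q)}) (E₀ ⧸ Q) := by
    have := Glue.isPrecomplete_of_le (M := E₀ ⧸ Q) hspan hcO
    have := IsHausdorff.of_isLocalRing (M := E₀ ⧸ Q) (Ideal.span {(p : E₀ ⧸ Q)})
      (fun h => (maximalIdeal.isMaximal _).ne_top (top_le_iff.1 (h ▸ hspan)))
    exact {}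
  have hXm : ∀ i, u (X i) ∈ maximalIdeal (E₀ ⧸ Q) := fun i => (hum _).2 (by
    rw [← ker_res, RingHom.mem_ker]; simp [LTRing.residue])
  let T : E₀ →+* MvPowerSeries (Fin (n - 1)) (E₀ ⧸ Q) := tay (u.comp C) fun i => u (X i)
  have hT0 : (constantCoeff : MvPowerSeries (Fin (n - 1)) (E₀ ⧸ Q) →+* _).comp T = u := by
    rw [constantCoeff_comp_tay (maximalIdeal _) _ hXm]
    exact (eq_ev (maximalIdeal _) _ hXm (fun _ => rfl) (fun _ => rfl)).symm
  have hHT : (H.map T).map (constantCoeff : MvPowerSeries (Fin (n - 1)) (E₀ ⧸ Q) →+* _) =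
      H.map u := by rw [fg_map_map, hT0]
  have hn' : n - 1 + 1 = n := by omega
  let S : C0 p 𝕜 (E₀ ⧸ Q) (n - 1) := {
    card := by rw [hn']; exact GaloisField.card p n (by omega)
    Γ := Γ
    commΓ := inferInstance
    pser := by rw [hn']; exact hΓ
    res := res
    res_surj := hress
    ker_res := hker
    teich := ((u.comp (C : 𝕎 →+* E₀)).toMonoidHom).comp (WittVector.teichmuller p)
    res_teich := fun a => by
      show LTRing.residue p n (C (WittVector.teichmuller p a)) = a
      simp [LTRing.residue]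
    fin := by
      have : Finite ((E₀ ⧸ Q) ⧸ maximalIdeal (E₀ ⧸ Q)) := by
        rw [← hker]
        exact Finite.of_equiv _ (RingHom.quotientKerEquivOfSurjective hress).symm.toEquiv
      have := Ideal.finite_quotient_pow (IsNoetherian.noetherian (maximalIdeal (E₀ ⧸ Q))) c
      exact Finite.of_surjective _ (Ideal.Quotient.factor_surjective hcO)
    compl := hcp
    c := c
    hc := hcO
    HT := H.map T
    comm := inferInstance
    red := by rw [hHT, fg_map_map, hres]; exact hH.1
    F := T f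
    act := by
      obtain ⟨m₀, hm₀⟩ := act_theta0 hn hΓ hH M hs
      refine ⟨max m₀ (c + 1), fun m hm β hβ0 hβ => ?_⟩
      obtain ⟨β', hβ0', rfl⟩ := Glue.exists_lift hus hβ0
      have hβr : (β'.map u).map res = β'.map (LTRing.residue p n) := by
        rw [← hres, PowerSeries.map_comp]; rfl
      obtain ⟨φ, θ, hst, -, hcomap, hθ, hcong⟩ :=
        hm₀ m (le_trans (le_max_left _ _) hm) β' hβ0' (hβr ▸ hβ)
      have hmc : m - c ≠ 0 := by have := le_trans (le_max_right _ _) hm; omega
      have hle : Ideal.span {(p : E₀ ⧸ Q) ^ (m - c)} ≤ maximalIdeal (E₀ ⧸ Q) :=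
        (Ideal.span_singleton_le_iff_mem _).2
          (Ideal.pow_mem_of_mem _ hpOm _ (Nat.pos_of_ne_zero hmc))
      obtain ⟨h1, h2⟩ := hcong ((Ideal.span {(p : E₀ ⧸ Q) ^ (m - c)}).comap u)
        (Ideal.comap_ne_top _ fun h => (maximalIdeal.isMaximal _).ne_top (top_le_iff.1 (h ▸ hle)))
        (fun z hz0 hz d => by
          rw [Ideal.mem_comap, Glue.map_subst_mul H u _ hz0]
          refine pser_pow_mem_span_p (H.map u) _ hpOm hcO m (by simp [hz0]) (fun d => ?_) d
          rw [coeff_map]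
          exact (hum _).2 (hz d))
      have hδ : ∀ i, u (φ (X i)) - u (X i) ∈ Ideal.span {(p : E₀ ⧸ Q) ^ (m - c)} := fun i => by
        rw [← map_sub]; exact h1 _
      have hev : (ev (RingHom.id _) fun i => u (φ (X i)) - u (X i)).comp T =
          u.comp φ.toRingHom := by
        rw [ev_comp_tay (maximalIdeal _) _ hXm (fun i => hle (hδ i))]
        refine (eq_ev (maximalIdeal _) _ (fun i => ?_) (fun w => ?_) (fun i => ?_)).symm
        · exact Ideal.add_mem _ (hXm i) (hle (hδ i))
        · exact congrArg u (φ.commutes w)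
        · simp
      refine ⟨fun i => u (φ (X i)) - u (X i), θ.map u,
        fun i => Ideal.mem_span_singleton.1 (hδ i), ?_, fun i => ?_, ?_⟩
      · rw [hHT, fg_map_map, hev, ← fg_map_map]
        exact fgHom_map hθ u
      · rw [hHT, ← theta0_map _ _ hβ0', PowerSeries.coeff_map, PowerSeries.coeff_map, ← map_sub]
        exact Ideal.mem_span_singleton.1 (h2 i)
      · rw [← RingHom.comp_apply, hev]
        apply Ideal.Quotient.eq_zero_iff_mem.2
        apply hPQ
        rw [← hcomap] at hf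
        exact hf }
  have hF : T f = 0 := S.core'
  exact hf0 (tay_injective (maximalIdeal _) hι hXm (hF.trans (map_zero _).symm))

end Crest.Agent.R227
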