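import Crest.Agent.R227.LT

/-!
# R227 / Height : the height ideals
-/

set_option autoImplicit false

namespace Crest.Agent.R227

open MvPowerSeries Crest.LubinTate IsLocalRing

variable {p : ℕ} [Fact p.Prime] {n : ℕ}

local notation "𝕜" => GaloisField p n
local notation "𝕎" => WittVector p (GaloisField p n)
local notation "E₀" => LTRing p n
local notation "res₀" => LTRing.residue p n

variable {Γ : FormalGroup (GaloisField p n)} [Γ.IsComm] {H : FormalGroup (LTRing p n)} [H.IsComm]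

namespace HeightAux

open PtAux

omit [H.IsComm] in
theorem le_iff (h : ℕ) (J : Ideal E₀) : heightIdeal p n H h ≤ J ↔
    ∀ i < h, PowerSeries.coeff (p ^ i) (mulSeries H p) ∈ J := by
  induction h with
  | zero => simp [heightIdeal]
  | succ h ih =>
    rw [heightIdeal, sup_le_iff, ih, Ideal.span_singleton_le_iff_mem]
    constructor
    · rintro ⟨h1, h2⟩ i hi
      rcases Nat.lt_succ_iff_lt_or_eq.1 hi with hi | rfl
      · exact h1 i hi
      · exact h2
    · exact fun h1 => ⟨fun i hi => h1 i (Nat.lt_succ_of_lt hi), h1 h (Nat.lt_succ_self h)⟩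

omit [H.IsComm] in
theorem mem (h : ℕ) {i : ℕ} (hi : i < h) :
    PowerSeries.coeff (p ^ i) (mulSeries H p) ∈ heightIdeal p n H h :=
  (le_iff h _).1 le_rfl i hi

omit [H.IsComm] in
theorem p_mem {h : ℕ} (hh : 1 ≤ h) : (p : E₀) ∈ heightIdeal p n H h := by
  have := mem (H := H) h (i := 0) hh
  rwa [pow_zero, coeff_one_mulSeries] at this

theorem X_pow_dvd_subst {R : Type} [CommRing R] {f a : PowerSeries R} {k : ℕ}
    (hf : PowerSeries.constantCoeff f = 0) (ha0 : PowerSeries.constantCoeff a = 0)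
    (ha : PowerSeries.X ^ k ∣ a) : PowerSeries.X ^ k ∣ f.subst a := by
  obtain ⟨f', rfl⟩ := PowerSeries.X_dvd_iff.2 hf
  rw [PowerSeries.subst_mul (hs1 ha0), X_subst1 ha0]
  exact ha.mul_right _

theorem X_pow_dvd_subst' {R : Type} [CommRing R] {f a : PowerSeries R} {k : ℕ}
    (hf : PowerSeries.X ^ k ∣ f) (ha0 : PowerSeries.constantCoeff a = 0) :
    PowerSeries.X ^ k ∣ f.subst a := by
  obtain ⟨f', rfl⟩ := hf
  rw [PowerSeries.subst_mul (hs1 ha0), PowerSeries.subst_pow (hs1 ha0), X_subst1 ha0]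
  exact (pow_dvd_pow_of_dvd (PowerSeries.X_dvd_iff.2 ha0) k).mul_right _

/-- the height conditions pass through an isomorphism -/
theorem transfer {R : Type} [CommRing R] {F G : FormalGroup R} [F.IsComm] {θ η : PowerSeries R}
    (hη : IsFGHom G F η) (hθ0 : PowerSeries.constantCoeff θ = 0)
    (hθη : θ.subst η = PowerSeries.X) (J : Ideal R) (h : ℕ)
    (hF : ∀ i < h, PowerSeries.coeff (p ^ i) (mulSeries F p) ∈ J) :
    ∀ i < h, PowerSeries.coeff (p ^ i) (mulSeries G p) ∈ J := by
  intro i hi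
  have hp : p.Prime := Fact.out
  by_cases hJ : J = ⊤
  · rw [hJ]; trivial
  have : Nontrivial (R ⧸ J) := Ideal.Quotient.nontrivial_iff.2 hJ
  have hp0 : (p : R) ∈ J := by
    have := hF 0 (by omega)
    rwa [pow_zero, coeff_one_mulSeries] at this
  have : CharP (R ⧸ J) p := (CharP.charP_iff_prime_eq_zero hp).2 (by
    rw [← map_natCast (Ideal.Quotient.mk J), Ideal.Quotient.eq_zero_iff_mem]; exact hp0)
  obtain ⟨g, hg, -⟩ := exists_frob_factor p (fgHom_mulSeries (F.map (Ideal.Quotient.mk J)) p) h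
    (fun j hj => by
      rw [mulSeries_map, PowerSeries.coeff_map, Ideal.Quotient.eq_zero_iff_mem]; exact hF j hj)
  have hg0 := constantCoeff_of_pser _ (pow_ne_zero h hp.ne_zero) hg
  have h1 : PowerSeries.X ^ p ^ h ∣ mulSeries (F.map (Ideal.Quotient.mk J)) p := by
    rw [hg]
    exact X_pow_dvd_subst hg0 (by simp [hp.ne_zero]) dvd_rfl
  have hη' := fgHom_map hη (Ideal.Quotient.mk J)
  have hθ0' : PowerSeries.constantCoeff (θ.map (Ideal.Quotient.mk J)) = 0 := by
    rw [← PowerSeries.coeff_zero_eq_constantCoeff_apply, PowerSeries.coeff_map,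
      PowerSeries.coeff_zero_eq_constantCoeff_apply, hθ0, map_zero]
  have hθη' : (θ.map (Ideal.Quotient.mk J)).subst (η.map (Ideal.Quotient.mk J)) =
      PowerSeries.X := by
    have := map_subst1 θ (a := η) hη.1 (Ideal.Quotient.mk J)
    rw [hθη] at this
    exact this.symm.trans (PowerSeries.map_X _)
  have h2 : PowerSeries.X ^ p ^ h ∣ mulSeries (G.map (Ideal.Quotient.mk J)) p := by
    rw [← cancel hη'.1 hθη' (constantCoeff_mulSeries (G.map (Ideal.Quotient.mk J)) p),
      fgHom_mulSeries_comm hη' p]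
    exact X_pow_dvd_subst hθ0' (cc_subst1 (constantCoeff_mulSeries _ p) hη'.1)
      (X_pow_dvd_subst' h1 hη'.1)
  have h3 := PowerSeries.X_pow_dvd_iff.1 h2 (p ^ i) (Nat.pow_lt_pow_right hp.one_lt hi)
  rwa [mulSeries_map, PowerSeries.coeff_map, Ideal.Quotient.eq_zero_iff_mem] at h3

omit [Γ.IsComm] [H.IsComm] in
theorem res_coeff (hΓ : mulSeries Γ p = PowerSeries.X ^ p ^ n)
    (hH : IsUniversalDeformation p n Γ H) {i : ℕ} (hi : i < n) :
    res₀ (PowerSeries.coeff (p ^ i) (mulSeries H p)) = 0 := by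
  have hp : p.Prime := Fact.out
  rw [← PowerSeries.coeff_map, ← mulSeries_map, hH.1, hΓ, PowerSeries.coeff_X_pow,
    if_neg (Nat.pow_lt_pow_right hp.one_lt hi).ne]

omit [Γ.IsComm] [H.IsComm] in
theorem le_max (hΓ : mulSeries Γ p = PowerSeries.X ^ p ^ n)
    (hH : IsUniversalDeformation p n Γ H) : heightIdeal p n H n ≤ maximalIdeal E₀ :=
  (le_iff n _).2 fun _ hi => ker_res (p := p) (n := n) ▸ res_coeff hΓ hH hi

theorem pow_card (hn : 1 ≤ n) (a : 𝕜) : a ^ p ^ n = a := by
  have := Fintype.ofFinite 𝕜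
  rw [← GaloisField.card p n (by omega), Nat.card_eq_fintype_card, FiniteField.pow_card]

theorem algebraMap_eq (w : 𝕎) : algebraMap 𝕎 E₀ w = C w := rfl

end HeightAux

open HeightAux PtAux

omit [H.IsComm] in
theorem heightIdeal_eq_span (h : ℕ) : heightIdeal p n H h =
    Ideal.span (Set.range fun i : Fin h => PowerSeries.coeff (p ^ (i : ℕ)) (mulSeries H p)) := by
  refine le_antisymm ((le_iff h _).2 fun i hi => Ideal.subset_span ⟨⟨i, hi⟩, rfl⟩)
    (Ideal.span_le.2 ?_)
  rintro _ ⟨i, rfl⟩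
  exact HeightAux.mem h i.2

omit [H.IsComm] in
theorem heightIdeal_mono {h h' : ℕ} (hh : h ≤ h') : heightIdeal p n H h ≤ heightIdeal p n H h' := by
  exact (le_iff h _).2 fun i hi => HeightAux.mem h' (hi.trans_le hh)

omit [H.IsComm] in
theorem heightIdeal_one : heightIdeal p n H 1 = Ideal.span {(p : E₀)} := by
  rw [heightIdeal, heightIdeal, bot_sup_eq, pow_zero, coeff_one_mulSeries]

/-- `B = E₀ / (I_n + 𝔪²)` has characteristic `p`, `[p]_H = g (X^q)` over `B`
(`exists_frob_factor`), `g ≡ X mod 𝔪`.  `γ = g⁻¹` satisfies `γ ∘ [p]_H = X^q = γ^q`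
(`𝔪_B² = 0`), so the transported law has `[p] = X^q`, its coefficients are fixed by the
`q`-Frobenius, hence lie in `k ⊆ B`: it is the image of `H` under `E₀ → k → B`.  By `univ_quot`
the maps `E₀ → B` and `E₀ → k → B` agree, so `𝔪 ≤ I_n + 𝔪²`; Nakayama. -/
theorem heightIdeal_n (hn : 1 ≤ n) (hΓ : mulSeries Γ p = PowerSeries.X ^ p ^ n)
    (hH : IsUniversalDeformation p n Γ H) : heightIdeal p n H n = maximalIdeal E₀ := by
  have hp : p.Prime := Fact.out
  have hle := le_max hΓ hH
  refine le_antisymm hle ?_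
  set J := heightIdeal p n H n with hJdef
  have hJ : J ≠ ⊤ := fun h => (maximalIdeal.isMaximal E₀).ne_top (top_le_iff.1 (h ▸ hle))
  have : Nontrivial (E₀ ⧸ J) := Ideal.Quotient.nontrivial_iff.2 hJ
  have hp0 : (p : E₀) ∈ J := p_mem hn
  have : CharP (E₀ ⧸ J) p := (CharP.charP_iff_prime_eq_zero hp).2 (by
    rw [← map_natCast (Ideal.Quotient.mk J), Ideal.Quotient.eq_zero_iff_mem]; exact hp0)
  obtain ⟨g, hg, hg'⟩ := exists_frob_factor p (fgHom_mulSeries (H.map (Ideal.Quotient.mk J)) p) n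
    (fun j hj => by
      rw [mulSeries_map, PowerSeries.coeff_map, Ideal.Quotient.eq_zero_iff_mem]
      exact HeightAux.mem n hj)
  let r : E₀ ⧸ J →+* 𝕜 := Ideal.Quotient.lift J res₀ fun a ha => by
    have := hle ha
    rwa [← ker_res] at this
  have hr : r.comp (Ideal.Quotient.mk J) = res₀ := RingHom.ext fun a => rfl
  have hX : PowerSeries.constantCoeff (PowerSeries.X ^ p ^ n : PowerSeries (E₀ ⧸ J)) = 0 := by
    simp [hp.ne_zero]
  have hX' : PowerSeries.constantCoeff (PowerSeries.X ^ p ^ n : PowerSeries 𝕜) = 0 := by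
    simp [hp.ne_zero]
  have hgr : g.map r = PowerSeries.X := by
    refine subst_X_pow_injective (pow_ne_zero n hp.ne_zero) ?_
    have h1 := map_subst1 g (a := PowerSeries.X ^ p ^ n) hX r
    have h2 : (mulSeries (H.map (Ideal.Quotient.mk J)) p).map r = PowerSeries.X ^ p ^ n := by
      rw [← mulSeries_map, fg_map_map, hr, hH.1, hΓ]
    rw [hg] at h2
    have h3 : MvPowerSeries.map r (PowerSeries.X ^ p ^ n : PowerSeries (E₀ ⧸ J)) =
        (PowerSeries.X ^ p ^ n : PowerSeries 𝕜) := by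
      change PowerSeries.map r _ = _
      rw [map_pow, PowerSeries.map_X]
    rw [h3] at h1
    rw [X_subst1 hX', ← h1]
    exact h2
  let ψ₁ : E₀ →ₐ[𝕎] E₀ ⧸ J :=
    { (iterateFrobenius (E₀ ⧸ J) p n).comp (Ideal.Quotient.mk J) with
      commutes' := fun w => by
        change (Ideal.Quotient.mk J (algebraMap 𝕎 E₀ w)) ^ p ^ n =
          Ideal.Quotient.mk J (algebraMap 𝕎 E₀ w)
        rw [← map_pow, ← map_pow, Ideal.Quotient.eq, ← map_sub]
        have h1 : w ^ p ^ n - w ∈ Ideal.span {(p : 𝕎)} := by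
          rw [← WittVector.ker_constantCoeff, RingHom.mem_ker, map_sub, map_pow, pow_card hn,
            sub_self]
        obtain ⟨c, hc⟩ := Ideal.mem_span_singleton'.1 h1
        rw [← hc, map_mul, map_natCast]
        exact J.mul_mem_left _ hp0 }
  have h₁ : r.comp ψ₁.toRingHom = res₀ := RingHom.ext fun a => by
    change r ((Ideal.Quotient.mk J a) ^ p ^ n) = _
    rw [map_pow, pow_card hn]
    rfl
  have key := univ_quot hH hJ ψ₁ (Ideal.Quotient.mkₐ 𝕎 J) r hr h₁ hr g
    (by rw [fg_map_map] at hg'; exact hg') hgr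
  intro a ha
  have h1 : a ^ p ^ n - a ∈ J := by
    rw [← Ideal.Quotient.eq, map_pow]
    exact DFunLike.congr_fun key a
  obtain ⟨m, hm⟩ : ∃ m, p ^ n = m + 2 :=
    ⟨p ^ n - 2, by have := Nat.one_lt_pow (by omega : n ≠ 0) hp.one_lt; omega⟩
  have hu : IsUnit (1 + -a ^ (m + 1)) :=
    isUnit_one_add (maximalIdeal E₀) (neg_mem (Ideal.pow_mem_of_mem _ ha _ (by omega)))
  obtain ⟨u, hu⟩ := hu.exists_right_inv
  have : a = -u * (a ^ p ^ n - a) := by
    rw [hm]
    linear_combination (-a) * hu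
  rw [this]
  exact J.mul_mem_left _ h1

/-- Coordinates: `α = ev (X i ↦ coeff (p^(i+1)) [p]_H)` is an automorphism of `E₀`
(`bijective_of_map_max`); compose `α⁻¹` with the map killing `p` and `X i`, `i + 1 < h`
(`killCompl`, `map constantCoeff`). -/
theorem exists_coord (hn : 1 ≤ n) (hΓ : mulSeries Γ p = PowerSeries.X ^ p ^ n)
    (hH : IsUniversalDeformation p n Γ H) {h r : ℕ} (hh : 1 ≤ h) (hr : h + r = n) :
    ∃ π : E₀ →+* MvPowerSeries (Fin r) 𝕜, Function.Surjective π ∧
      RingHom.ker π = heightIdeal p n H h ∧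
      (constantCoeff : MvPowerSeries (Fin r) 𝕜 →+* 𝕜).comp π = res₀ ∧
      (∀ w : 𝕎, π (algebraMap 𝕎 E₀ w) = C (WittVector.constantCoeff w)) ∧
      ∀ i : Fin r, π (PowerSeries.coeff (p ^ (h + i)) (mulSeries H p)) = X i := by
  classical
  have hp : p.Prime := Fact.out
  let c : Fin (n - 1) → E₀ := fun i => PowerSeries.coeff (p ^ ((i : ℕ) + 1)) (mulSeries H p)
  have hc : ∀ i, c i ∈ maximalIdeal E₀ := fun i =>
    le_max hΓ hH (HeightAux.mem n (by have := i.2; omega))
  let α : E₀ →ₐ[𝕎] E₀ := { ev (C : 𝕎 →+* E₀) c with commutes' := fun w => ev_C _ _ w }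
  have hαX : ∀ i, α (X i) = c i := fun i => ev_X (maximalIdeal E₀) _ hc i
  have hαC : ∀ w, α (C w) = C w := fun w => ev_C _ _ w
  have hα : Function.Bijective α := by
    refine bijective_of_map_max α (le_antisymm ?_ ?_)
    · conv_lhs => rw [maximalIdeal_eq]
      rw [Ideal.map_le_iff_le_comap, sup_le_iff, Ideal.span_singleton_le_iff_mem, Ideal.span_le]
      refine ⟨?_, ?_⟩
      · rw [Ideal.mem_comap, map_natCast]
        exact le_max hΓ hH (p_mem hn)
      · rintro _ ⟨i, rfl⟩
        change α (X i) ∈ maximalIdeal E₀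
        rw [hαX]; exact hc i
    · conv_lhs => rw [← heightIdeal_n hn hΓ hH]
      refine (le_iff n _).2 fun i hi => ?_
      rcases i with _ | i
      · rw [pow_zero, coeff_one_mulSeries, ← map_natCast α.toRingHom]
        exact Ideal.mem_map_of_mem _ (le_max hΓ hH (p_mem hn))
      · have h1 := hαX ⟨i, by omega⟩
        have h2 : (X ⟨i, by omega⟩ : E₀) ∈ maximalIdeal E₀ := by
          rw [maximalIdeal_eq]
          exact Ideal.mem_sup_right (Ideal.subset_span ⟨_, rfl⟩)
        have h3 := Ideal.mem_map_of_mem α.toRingHom h2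
        change α _ ∈ _ at h3
        rw [h1] at h3
        exact h3
  let e : E₀ ≃+* E₀ := RingEquiv.ofBijective α.toRingHom hα
  have he : ∀ x, e x = α x := fun _ => rfl
  let y : Fin (n - 1) → MvPowerSeries (Fin r) 𝕎 := fun i =>
    if hi : h ≤ (i : ℕ) + 1 then X ⟨(i : ℕ) + 1 - h, by have := i.2; omega⟩ else 0
  have hy : ∀ i, y i ∈ cc (Fin r) (⊥ : Ideal 𝕎) := fun i => by
    change constantCoeff (y i) = 0
    simp only [y]
    split_ifs
    · exact constantCoeff_X _
    · exact map_zero _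
  let κ' : E₀ →+* MvPowerSeries (Fin r) 𝕎 := ev C y
  have hκX : ∀ i, κ' (X i) = y i := fun i => ev_X _ _ hy i
  have hκC : ∀ w, κ' (C w) = C w := fun w => ev_C _ _ w
  let x : Fin r → Fin (n - 1) := fun j => ⟨h + j - 1, by have := j.2; omega⟩
  have hXm : ∀ i, (X i : E₀) ∈ maximalIdeal E₀ := fun i => by
    rw [maximalIdeal_eq]
    exact Ideal.mem_sup_right (Ideal.subset_span ⟨_, rfl⟩)
  let ι : MvPowerSeries (Fin r) 𝕎 →+* E₀ := ev C fun j => X (x j)
  have hιX : ∀ j, ι (X j) = X (x j) := fun j => ev_X _ _ (fun j => hXm (x j)) j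
  have hιC : ∀ w, ι (C w) = C w := fun w => ev_C _ _ w
  have hyx : ∀ j, y (x j) = X j := fun j => by
    have h1 : h ≤ ((x j : Fin (n - 1)) : ℕ) + 1 := by simp only [x]; omega
    simp only [y, dif_pos h1]
    congr 1
    ext
    simp only [x]
    omega
  have hκι : κ'.comp ι = RingHom.id _ := by
    refine hom_ext (cc (Fin r) (⊥ : Ideal 𝕎)) (fun w => ?_) (fun j => ?_) (fun j => ?_)
    · rw [RingHom.comp_apply, hιC, hκC]; rfl
    · rw [RingHom.comp_apply, hιX, hκX, hyx]; rfl
    · rw [RingHom.comp_apply, hιX, hκX]; exact hy _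
  let κ : E₀ →+* MvPowerSeries (Fin r) 𝕜 :=
    (MvPowerSeries.map (WittVector.constantCoeff : 𝕎 →+* 𝕜)).comp κ'
  have hκ : ∀ f, κ f = MvPowerSeries.map (WittVector.constantCoeff : 𝕎 →+* 𝕜) (κ' f) :=
    fun _ => rfl
  have hπ : ∀ f, (κ.comp e.symm.toRingHom) (α f) = κ f := fun f => by
    change κ (e.symm (e f)) = κ f
    rw [e.symm_apply_apply]
  refine ⟨κ.comp e.symm.toRingHom, fun f => ?_, le_antisymm (fun a ha => ?_) ?_, ?_, fun w => ?_,
    fun j => ?_⟩
  · choose l hl using WittVector.constantCoeff_surjective p (R := 𝕜)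
    let f' : MvPowerSeries (Fin r) 𝕎 := fun d => l (coeff d f)
    refine ⟨α (ι f'), ?_⟩
    rw [hπ, hκ, ← RingHom.comp_apply κ' ι, hκι]
    ext d
    rw [RingHom.id_apply, coeff_map]
    exact hl _
  · obtain ⟨f, rfl⟩ := hα.2 a
    rw [RingHom.mem_ker, hπ, hκ] at ha
    have h1 : κ' f ∈ (Ideal.span {(p : 𝕎)}).map (C : 𝕎 →+* MvPowerSeries (Fin r) 𝕎) := by
      refine mem_map_C_of_fg (I := Ideal.span {(p : 𝕎)}) (Submodule.fg_span_singleton _)
        fun d => ?_
      rw [← WittVector.ker_constantCoeff, RingHom.mem_ker, ← coeff_map, ha, map_zero]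
    rw [Ideal.map_span, Set.image_singleton, map_natCast] at h1
    obtain ⟨u, hu⟩ := Ideal.mem_span_singleton'.1 h1
    let z : Fin (n - 1) → E₀ := fun i => if h ≤ (i : ℕ) + 1 then X i else 0
    have hz : ∀ i, z i ∈ maximalIdeal E₀ := fun i => by
      simp only [z]
      split_ifs
      · exact hXm i
      · exact zero_mem _
    have h2 : ι.comp κ' = ev C z := by
      refine eq_ev _ _ hz (fun w => by rw [RingHom.comp_apply, hκC, hιC]) fun i => ?_
      rw [RingHom.comp_apply, hκX]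
      simp only [y, z]
      split_ifs with hi
      · rw [hιX]
        congr 1
        ext
        simp only [x]
        omega
      · exact map_zero _
    have h3 : RingHom.id E₀ = ev C X := eq_ev _ _ hXm (fun _ => rfl) fun _ => rfl
    have h4 := ev_sub_ev_mem (maximalIdeal E₀) (C : 𝕎 →+* E₀) hXm hz f
    rw [← h2, ← h3, RingHom.id_apply, RingHom.comp_apply, ← hu, map_mul, map_natCast] at h4
    have h5 : Ideal.span (Set.range fun i => (X i : E₀) - z i) ≤
        (heightIdeal p n H h).comap α.toRingHom := by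
      rw [Ideal.span_le]
      rintro _ ⟨i, rfl⟩
      change α (X i - z i) ∈ heightIdeal p n H h
      simp only [z]
      split_ifs with hi
      · rw [sub_self, map_zero]; exact zero_mem _
      · rw [sub_zero, hαX]
        exact HeightAux.mem h (by omega)
    have h6 : α (f - ι u * p) ∈ heightIdeal p n H h := h5 h4
    rw [map_sub, map_mul, map_natCast] at h6
    have h7 := add_mem h6 ((heightIdeal p n H h).mul_mem_left (α (ι u)) (p_mem hh))
    rwa [sub_add_cancel] at h7
  · refine (le_iff h _).2 fun i hi => ?_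
    rw [RingHom.mem_ker]
    rcases i with _ | i
    · rw [pow_zero, coeff_one_mulSeries, map_natCast, ← map_natCast (C : 𝕜 →+* _),
        CharP.cast_eq_zero, map_zero]
    · have h1 := hαX ⟨i, by omega⟩
      have h2 := hπ (X ⟨i, by omega⟩)
      rw [h1, hκ, hκX] at h2
      refine h2.trans ?_
      simp only [y]
      rw [dif_neg (by omega), map_zero]
  · have h1 : (constantCoeff : MvPowerSeries (Fin r) 𝕜 →+* 𝕜).comp κ =
        (res₀).comp α.toRingHom := by
      refine hom_ext (⊥ : Ideal 𝕜) (fun w => ?_) (fun i => ?_) (fun i => ?_)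
      · change constantCoeff (κ (C w)) = res₀ (α (C w))
        rw [hκ, hκC, hαC, map_C, constantCoeff_C]
        exact (RingHom.congr_fun res_comp_algebraMap w).symm
      · change constantCoeff (κ (X i)) = res₀ (α (X i))
        rw [hκ, hκX, hαX, constantCoeff_map, show constantCoeff (y i) = 0 from hy i, map_zero]
        exact (res_coeff hΓ hH (by have := i.2; omega)).symm
      · change constantCoeff (κ (X i)) ∈ _
        rw [hκ, hκX, constantCoeff_map, show constantCoeff (y i) = 0 from hy i, map_zero]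
        exact zero_mem _
    refine RingHom.ext fun a => ?_
    obtain ⟨f, rfl⟩ := hα.2 a
    rw [RingHom.comp_apply, hπ]
    exact RingHom.congr_fun h1 f
  · rw [algebraMap_eq, ← hαC, hπ, hκ, hκC, map_C]
  · have h1 := hπ (X (x j))
    rw [hαX, hκ, hκX, hyx, map_X] at h1
    have h2 : ((x j : Fin (n - 1)) : ℕ) + 1 = h + j := by simp only [x]; omega
    simp only [c, h2] at h1
    exact h1

theorem heightIdeal_prime (hn : 1 ≤ n) (hΓ : mulSeries Γ p = PowerSeries.X ^ p ^ n)
    (hH : IsUniversalDeformation p n Γ H) {h : ℕ} (hh : h ≤ n) :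
    (heightIdeal p n H h).IsPrime := by
  rcases Nat.eq_zero_or_pos h with rfl | h0
  · exact Ideal.isPrime_bot
  · obtain ⟨π, -, hπ, -⟩ := exists_coord hn hΓ hH h0 (Nat.add_sub_cancel' hh)
    have : IsDomain (MvPowerSeries (Fin (n - h)) 𝕜) := NoZeroDivisors.to_isDomain _
    rw [← hπ]
    exact RingHom.ker_isPrime π

/-- Modulo an ideal containing `I_h` (`h ≥ 1`), `[p]_H` is a series in `X^(p^h)`; this passes
through the isomorphism `θ` in both directions. -/
theorem map_heightIdeal (hn : 1 ≤ n) (hΓ : mulSeries Γ p = PowerSeries.X ^ p ^ n)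
    (hH : IsUniversalDeformation p n Γ H) {g : PowerSeries 𝕜} (hg : IsFGAut Γ g)
    {φ : E₀ →ₐ[𝕎] E₀} (hφ : IsStabilizerMap p n H g φ) {h : ℕ} (hh : h ≤ n) :
    (heightIdeal p n H h).map φ.toRingHom = heightIdeal p n H h := by
  obtain ⟨-, θ, hθ, hθg⟩ := hφ
  have hu : IsUnit (PowerSeries.coeff 1 θ) := by
    by_contra hnu
    have h1 : PowerSeries.coeff 1 θ ∈ maximalIdeal E₀ := hnu
    rw [← ker_res, RingHom.mem_ker, ← PowerSeries.coeff_map, hθg] at h1
    exact hg.2.ne_zero h1
  have hη := fgHom_inv hθ hu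
  refine le_antisymm ?_ ?_
  · rw [Ideal.map_le_iff_le_comap]
    refine (le_iff h _).2 fun i hi => ?_
    have := transfer hθ hη.1 (θ.subst_substInvOfIsUnit_left hθ.1 hu) _ h
      (fun j hj => HeightAux.mem h hj) i hi
    rwa [mulSeries_map, PowerSeries.coeff_map] at this
  · refine (le_iff h _).2 (transfer hη hθ.1 (θ.subst_substInvOfIsUnit_right hθ.1 hu) _ h
      fun j hj => ?_)
    rw [mulSeries_map, PowerSeries.coeff_map]
    exact Ideal.mem_map_of_mem _ (HeightAux.mem h hj)

theorem stab_bijective (hn : 1 ≤ n) (hΓ : mulSeries Γ p = PowerSeries.X ^ p ^ n)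
    (hH : IsUniversalDeformation p n Γ H) {g : PowerSeries 𝕜} (hg : IsFGAut Γ g)
    {φ : E₀ →ₐ[𝕎] E₀} (hφ : IsStabilizerMap p n H g φ) : Function.Bijective φ := by
  apply bijective_of_map_max
  rw [← heightIdeal_n hn hΓ hH]
  exact map_heightIdeal hn hΓ hH hg hφ le_rfl

theorem heightIdeal_stable (hn : 1 ≤ n) (hΓ : mulSeries Γ p = PowerSeries.X ^ p ^ n)
    (hH : IsUniversalDeformation p n Γ H) (M : ℕ) {h : ℕ} (hh : h ≤ n) :
    IsStableIdeal p n Γ H M (heightIdeal p n H h) := by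
  intro g φ hg _ hφ
  conv_lhs => rw [← map_heightIdeal hn hΓ hH hg hφ hh]
  exact Ideal.comap_map_of_bijective φ.toRingHom (stab_bijective hn hΓ hH hg hφ)

/-- Minimal primes of a stable radical ideal are stable under a smaller open subgroup
(`act_cont`, Krull intersection, finitely many minimal primes). -/
theorem minimalPrimes_stable (hn : 1 ≤ n) (hΓ : mulSeries Γ p = PowerSeries.X ^ p ^ n)
    (hH : IsUniversalDeformation p n Γ H) {M : ℕ} {J : Ideal E₀}
    (hJ : IsStableIdeal p n Γ H M J) :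
    ∃ M' : ℕ, 1 ≤ M' ∧ ∀ P ∈ J.minimalPrimes, IsStableIdeal p n Γ H M' P := by
  have hfin := J.finite_minimalPrimes_of_isNoetherianRing E₀
  have hsep : ∀ P ∈ J.minimalPrimes, ∀ Q ∈ J.minimalPrimes, ∀ᶠ j : ℕ in Filter.atTop,
      Q ≤ P ⊔ maximalIdeal E₀ ^ j → Q = P := by
    intro P hP Q hQ
    by_cases hQP : Q ≤ P
    · exact Filter.Eventually.of_forall fun _ _ => le_antisymm hQP (hP.2 hQ.1 hQP)
    obtain ⟨a, haQ, haP⟩ := SetLike.not_le_iff_exists.1 hQP
    have hK := Ideal.iInf_pow_smul_eq_bot_of_isLocalRing (maximalIdeal E₀) (M := E₀ ⧸ P)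
      (maximalIdeal.isMaximal E₀).ne_top
    have : ∃ j : ℕ, a ∉ P ⊔ maximalIdeal E₀ ^ j := by
      by_contra hcon
      push Not at hcon
      apply haP
      rw [← Ideal.Quotient.eq_zero_iff_mem, ← Submodule.mem_bot E₀, ← hK, Submodule.mem_iInf]
      intro j
      obtain ⟨b, hb, c, hc, rfl⟩ := Submodule.mem_sup.1 (hcon j)
      rw [map_add, Ideal.Quotient.eq_zero_iff_mem.2 hb, zero_add]
      have : Ideal.Quotient.mk P c = c • (1 : E₀ ⧸ P) := by
        rw [Algebra.smul_def, mul_one]; rfl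
      rw [this]
      exact Submodule.smul_mem_smul hc trivial
    obtain ⟨j, hj⟩ := this
    refine Filter.eventually_atTop.2 ⟨j, fun j' hj' h => absurd ?_ hj⟩
    exact sup_le_sup_left (Ideal.pow_le_pow_right hj') P (h haQ)
  obtain ⟨j, hj⟩ := ((Filter.eventually_all_finite hfin).2 fun P hP =>
    (Filter.eventually_all_finite hfin).2 fun Q hQ => hsep P hP Q hQ).exists
  obtain ⟨M₁, hM₁⟩ := act_cont hn hΓ hH j
  refine ⟨max 1 (max M M₁), le_max_left _ _, fun P hP g φ hg hgM hφ => ?_⟩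
  have h1 := hJ g φ hg (fun i hi => hgM i (lt_max_of_lt_right (lt_max_of_lt_left hi))) hφ
  have h2 := hM₁ g φ hg (fun i hi => hgM i (lt_max_of_lt_right (lt_max_of_lt_right hi))) hφ
  have h3 : P.comap φ.toRingHom ∈ J.minimalPrimes := by
    rw [← h1, Ideal.comap_minimalPrimes_eq_of_surjective (stab_bijective hn hΓ hH hg hφ).2]
    exact ⟨P, hP, rfl⟩
  refine hj P hP _ h3 fun a ha => ?_
  have h4 : a = φ a - (φ a - a) := by ring
  rw [h4]
  exact sub_mem (Ideal.mem_sup_left ha) (Ideal.mem_sup_right (h2 a))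

end Crest.Agent.R227
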