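import Crest.Agent.R227.CharP
import Crest.Agent.R227.Height

/-!
# R227 / GlueP : from `E₀` to the abstract situation `CP`
-/

set_option autoImplicit false

namespace Crest.Agent.R227

open MvPowerSeries Crest.LubinTate IsLocalRing

variable {p : ℕ} [Fact p.Prime] {n : ℕ}

local notation "E₀" => LTRing p n
local notation "𝕜" => GaloisField p n

variable {Γ : FormalGroup (GaloisField p n)} [Γ.IsComm] {H : FormalGroup (LTRing p n)} [H.IsComm]

theorem Glue.map_subst_mul {R R' τ : Type} [CommRing R] [CommRing R'] (F : FormalGroup R)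
    (ρ : R →+* R') (m : ℕ) {z : MvPowerSeries τ R} (hz : constantCoeff z = 0) (d : τ →₀ ℕ) :
    ρ (coeff d ((mulSeries F m).subst z)) =
      coeff d ((mulSeries (F.map ρ) m).subst (z.map ρ)) := by
  rw [mulSeries_map, ← PowerSeries.map_subst (PowerSeries.HasSubst.of_constantCoeff_zero hz),
    coeff_map]

theorem Glue.exists_lift {R R' : Type} [CommRing R] [CommRing R'] {ρ : R →+* R'}
    (hρ : Function.Surjective ρ) {b : PowerSeries R'} (hb : PowerSeries.constantCoeff b = 0) :
    ∃ β : PowerSeries R, PowerSeries.constantCoeff β = 0 ∧ β.map ρ = b := by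
  choose s hs using hρ
  refine ⟨PowerSeries.mk fun i => if i = 0 then 0 else s (PowerSeries.coeff i b), by simp, ?_⟩
  ext i
  rw [PowerSeries.coeff_map, PowerSeries.coeff_mk]
  split_ifs with h
  · subst h; simp [hb]
  · exact hs _

theorem charP_main (hn : 1 ≤ n) (hΓ : mulSeries Γ p = PowerSeries.X ^ p ^ n)
    (hH : IsUniversalDeformation p n Γ H) {M : ℕ} {P : Ideal E₀} (hP : P.IsPrime)
    (hs : IsStableIdeal p n Γ H M P) {h : ℕ} (hh : 1 ≤ h) (hhn : h < n)
    (hle : heightIdeal p n H h ≤ P)
    (hv : PowerSeries.coeff (p ^ h) (mulSeries H p) ∉ P) : P = heightIdeal p n H h := by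
  obtain ⟨r, hr⟩ : ∃ r, h + r = n := ⟨n - h, by omega⟩
  have hr1 : 1 ≤ r := by omega
  obtain ⟨π, hπs, hπk, hπr, hπw, hπx⟩ := exists_coord hn hΓ hH hh hr
  have : CharP (MvPowerSeries (Fin r) 𝕜) p :=
    charP_of_injective_ringHom (f := (C : 𝕜 →+* MvPowerSeries (Fin r) 𝕜)) C_injective p
  have hp0 : ∀ i : ℕ, p ^ i ≠ 0 := fun i => pow_ne_zero _ (Fact.out : p.Prime).ne_zero
  obtain ⟨g, hg, -⟩ := exists_frob_factor p (fgHom_mulSeries (H.map π) p) h (fun i hi => by
    rw [mulSeries_map, PowerSeries.coeff_map, ← RingHom.mem_ker, hπk, heightIdeal_eq_span]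
    exact Ideal.subset_span ⟨⟨i, hi⟩, rfl⟩)
  have hker : RingHom.ker π ≤ P := hπk ▸ hle
  have hcm : (P.map π).comap π = P := by
    rw [Ideal.comap_map_of_surjective π hπs]
    exact sup_eq_left.2 hker
  have hmax : ∀ a ∈ maximalIdeal E₀, π a ∈
      Ideal.span (Set.range (X : Fin r → MvPowerSeries (Fin r) 𝕜)) := by
    intro a ha
    rw [← cc_bot, Ideal.mem_comap, Ideal.mem_bot]
    rw [← ker_res, RingHom.mem_ker, ← hπr] at ha
    exact ha
  let S : CP p 𝕜 h r := {
    hh := hh
    hr := hr1
    card := by rw [hr]; exact GaloisField.card p n (by omega)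
    Γ := Γ
    commΓ := inferInstance
    pser := by rw [hr]; exact hΓ
    H := H.map π
    comm := inferInstance
    red := by rw [fg_map_map, hπr]; exact hH.1
    g := g
    hg := hg
    gX := fun i => by
      rw [← hπx i, ← PowerSeries.coeff_map, ← mulSeries_map, hg,
        PowerSeries.coeff_subst_X_pow (hp0 h), if_pos ⟨p ^ (i : ℕ), pow_add _ _ _⟩, pow_add,
        Nat.mul_div_cancel_left _ (Nat.pos_of_ne_zero (hp0 h))]
      rfl
    P := P.map π
    prime := Ideal.map_isPrime_of_surjective hπs hker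
    x0 := by
      intro hx
      apply hv
      rw [← hcm, Ideal.mem_comap]
      have := hπx ⟨0, hr1⟩
      simp only [add_zero] at this
      rwa [this]
    act := by
      obtain ⟨m₀, hm₀⟩ := act_theta0 hn hΓ hH M hs
      refine ⟨m₀, fun m hm b hb => ?_⟩
      obtain ⟨β, hβ0, hβ⟩ := Glue.exists_lift hπs (b := b.map C) (by
        rw [← PowerSeries.coeff_zero_eq_constantCoeff_apply, PowerSeries.coeff_map,
          PowerSeries.coeff_zero_eq_constantCoeff_apply, hb.1, map_zero])
      have hβb : β.map (LTRing.residue p n) = b := by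
        rw [← hπr, PowerSeries.map_comp, RingHom.comp_apply, hβ]
        ext i; simp
      obtain ⟨φ, θ, hst, haut, hcomap, hθ, hcong⟩ := hm₀ m hm β hβ0 (hβb ▸ hb)
      have hφk : RingHom.ker π ≤ RingHom.ker (π.comp φ.toRingHom) := by
        intro a ha
        rw [RingHom.mem_ker, RingHom.comp_apply, ← RingHom.mem_ker, hπk,
          ← map_heightIdeal hn hΓ hH haut hst hhn.le]
        exact Ideal.mem_map_of_mem _ (hπk ▸ ha)
      let φ' := π.liftOfSurjective hπs ⟨π.comp φ.toRingHom, hφk⟩
      have hφ' : ∀ a, φ' (π a) = π (φ a) := fun a =>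
        RingHom.liftOfRightInverse_comp_apply _ _ _ _ a
      have hφc : φ'.comp π = π.comp φ.toRingHom := RingHom.ext hφ'
      obtain ⟨h1, h2⟩ := hcong ((Ideal.span (Set.range fun i : Fin r =>
        (X i : MvPowerSeries (Fin r) 𝕜) ^ (p ^ h) ^ m)).comap π) (by
          intro htop
          have h1 : (1 : E₀) ∈ (⊤ : Ideal E₀) := trivial
          rw [← htop, Ideal.mem_comap, map_one] at h1
          have h2 : Ideal.span (Set.range fun i : Fin r =>
              (X i : MvPowerSeries (Fin r) 𝕜) ^ (p ^ h) ^ m) ≤ cc (Fin r) ⊥ := by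
            rw [Ideal.span_le]
            rintro _ ⟨i, rfl⟩
            simp [(Fact.out : p.Prime).ne_zero]
          simpa using h2 h1)
        (fun z hz0 hz d => by
          rw [Ideal.mem_comap, Glue.map_subst_mul H π _ hz0]
          refine pser_pow_mem_frob p (H.map π) hg X m (by simp [hz0]) (fun d => ?_) d
          rw [coeff_map]
          exact hmax _ (hz d))
      refine ⟨φ', θ.map π, fun c => ?_, fun a ha => ?_, ?_, fun a => ?_, fun i => ?_⟩
      · obtain ⟨w, rfl⟩ : ∃ w : WittVector p 𝕜, WittVector.constantCoeff w = c :=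
          ⟨WittVector.teichmuller p c, by simp⟩
        rw [← hπw, hφ', AlgHom.commutes]
      · obtain ⟨a, rfl⟩ := hπs a
        rw [hφ']
        apply Ideal.mem_map_of_mem
        have : a ∈ P := by rw [← hcm]; exact ha
        rw [← hcomap] at this
        exact this
      · have := fgHom_map hθ π
        rwa [fg_map_map, ← hφc, ← fg_map_map] at this
      · obtain ⟨a, rfl⟩ := hπs a
        rw [hφ', ← map_sub]
        exact h1 a
      · rw [← hβ, ← theta0_map _ _ hβ0, PowerSeries.coeff_map, PowerSeries.coeff_map, ← map_sub]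
        exact h2 i }
  have hbot : P.map π = ⊥ := S.eq_bot
  refine le_antisymm ?_ hle
  rw [← hπk, ← hcm, hbot]
  exact le_rfl

end Crest.Agent.R227
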