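import Crest.Agent.R227.FG

/-!
# R227 / LT : the Lubin–Tate ring, the action, height ideals
-/

set_option autoImplicit false

namespace Crest.Agent.R227

open MvPowerSeries Crest.LubinTate IsLocalRing

variable {p : ℕ} [Fact p.Prime] {n : ℕ}

local notation "𝕜" => GaloisField p n
local notation "𝕎" => WittVector p (GaloisField p n)
local notation "E₀" => LTRing p n
local notation "res₀" => LTRing.residue p n

instance : IsLocalRing E₀ := inferInstance

instance : IsNoetherianRing E₀ := inferInstance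

instance : IsDomain E₀ := by
  exact NoZeroDivisors.to_isDomain _

theorem res_surjective : Function.Surjective res₀ := by
  intro x
  obtain ⟨w, hw⟩ := WittVector.constantCoeff_surjective p x
  exact ⟨C w, by simpa [LTRing.residue] using hw⟩

theorem ker_res : RingHom.ker res₀ = maximalIdeal E₀ := by
  exact IsLocalRing.eq_maximalIdeal (RingHom.ker_isMaximal_of_surjective _ res_surjective)

theorem LT_max_eq_cc : maximalIdeal E₀ = cc (Fin (n - 1)) (Ideal.span {(p : 𝕎)}) := by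
  rw [← ker_res, ← WittVector.ker_constantCoeff, LTRing.residue, ← RingHom.comap_ker]

theorem LT_p_mem : (p : E₀) ∈ maximalIdeal E₀ := by
  rw [← ker_res, RingHom.mem_ker, map_natCast, CharP.cast_eq_zero]

theorem maximalIdeal_eq : maximalIdeal E₀ = Ideal.span {(p : E₀)} ⊔ Ideal.span (Set.range X) := by
  apply le_antisymm
  · intro f hf
    rw [LT_max_eq_cc, Ideal.mem_comap, Ideal.mem_span_singleton] at hf
    obtain ⟨w, hw⟩ := hf
    have h1 : f = (p : E₀) * C w + (f - C (constantCoeff f)) := by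
      rw [hw, map_mul, map_natCast]; ring
    rw [h1]
    refine Ideal.add_mem _ (Ideal.mem_sup_left ?_) (Ideal.mem_sup_right ?_)
    · exact Ideal.mul_mem_right _ _ (Ideal.mem_span_singleton_self _)
    · rw [← cc_bot, Ideal.mem_comap]
      simp
  · refine sup_le ?_ ?_
    · rw [Ideal.span_le, Set.singleton_subset_iff]
      exact LT_p_mem
    · rw [Ideal.span_le]
      rintro _ ⟨i, rfl⟩
      rw [LT_max_eq_cc]
      simp

instance : IsAdicComplete (maximalIdeal E₀) E₀ := by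
  rw [LT_max_eq_cc]
  exact isAdicComplete_cc _

instance : IsEv (maximalIdeal E₀) := isEv_of_complete _

theorem res_comp_algebraMap : (res₀).comp (algebraMap 𝕎 E₀) = WittVector.constantCoeff := by
  ext w
  simp [LTRing.residue, MvPowerSeries.algebraMap_apply]

theorem LT_injective_of_surjective {R : Type} [CommRing R] [IsNoetherianRing R] (φ : R →+* R)
    (hφ : Function.Surjective φ) : Function.Injective φ := by
  let K : ℕ →o Ideal R := ⟨fun k => RingHom.ker (φ ^ k), monotone_nat_of_le_succ fun k x hx => by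
    rw [RingHom.mem_ker] at hx ⊢
    rw [pow_succ', RingHom.mul_def, RingHom.comp_apply, hx, map_zero]⟩
  obtain ⟨N, hN⟩ := monotone_stabilizes_iff_noetherian.2 (inferInstance : IsNoetherian R R) K
  rw [injective_iff_map_eq_zero]
  intro x hx
  have hs : Function.Surjective (φ ^ N) := by
    rw [RingHom.coe_pow]; exact hφ.iterate N
  obtain ⟨y, rfl⟩ := hs x
  have h1 : y ∈ K (N + 1) := by
    show y ∈ RingHom.ker (φ ^ (N + 1))
    rw [RingHom.mem_ker, pow_succ', RingHom.mul_def, RingHom.comp_apply, hx]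
  rw [← hN (N + 1) (Nat.le_succ N)] at h1
  exact h1

/-- A `W`-algebra endomorphism with `φ(𝔪) E₀ = 𝔪` is bijective
(`surjective_of_mk_map_comp_surjective`; surjective endomorphisms of Noetherian rings are
injective). -/
theorem bijective_of_map_max (φ : E₀ →ₐ[𝕎] E₀)
    (h : (maximalIdeal E₀).map φ.toRingHom = maximalIdeal E₀) : Function.Bijective φ := by
  have hs : Function.Surjective φ.toRingHom := by
    have : IsHausdorff ((maximalIdeal E₀).map φ.toRingHom) E₀ := by rw [h]; infer_instance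
    apply surjective_of_mk_map_comp_surjective (I := maximalIdeal E₀) φ.toRingHom
    intro a
    obtain ⟨a, rfl⟩ := Ideal.Quotient.mk_surjective a
    refine ⟨algebraMap 𝕎 E₀ (constantCoeff a), ?_⟩
    rw [RingHom.comp_apply, Ideal.Quotient.eq, h, AlgHom.toRingHom_eq_coe, RingHom.coe_coe,
      AlgHom.commutes, LT_max_eq_cc, Ideal.mem_comap]
    simp [MvPowerSeries.algebraMap_apply]
  exact ⟨LT_injective_of_surjective φ.toRingHom hs, hs⟩

theorem LT_isPrecomplete_quot {R : Type} [CommRing R] (I 𝔞 : Ideal R) [IsPrecomplete I R] :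
    IsPrecomplete (I.map (Ideal.Quotient.mk 𝔞)) (R ⧸ 𝔞) := by
  rw [← Ideal.Quotient.algebraMap_eq, IsPrecomplete.map_algebraMap_iff,
    ← AdicCompletion.of_surjective_iff]
  intro y
  obtain ⟨x, rfl⟩ := AdicCompletion.map_surjective I (f := Submodule.mkQ 𝔞)
    (Submodule.mkQ_surjective 𝔞) y
  obtain ⟨x, rfl⟩ := AdicCompletion.of_surjective I R x
  exact ⟨_, (AdicCompletion.map_of _ _ _).symm⟩

theorem LT_map_ker_eq {B k : Type} [CommRing B] [CommRing k] (r : B →+* k) {f g : PowerSeries B}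
    (h : f.map r = g.map r) :
    f.map (Ideal.Quotient.mk (RingHom.ker r)) = g.map (Ideal.Quotient.mk (RingHom.ker r)) := by
  rw [map_mk_eq_iff']
  intro d
  have := congrArg (PowerSeries.coeff d) h
  rw [PowerSeries.coeff_map, PowerSeries.coeff_map] at this
  rw [RingHom.mem_ker, map_sub, this, sub_self]

theorem LT_map_map {A B k : Type} [CommRing A] [CommRing B] [CommRing k] (s : A →+* B)
    (r : B →+* k) (f : PowerSeries A) : (f.map s).map r = f.map (r.comp s) := by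
  ext i
  simp [PowerSeries.coeff_map]

theorem LT_map_subst {R S : Type} [CommRing R] [CommRing S] {g : PowerSeries R}
    (hg : PowerSeries.constantCoeff g = 0) (f : PowerSeries R) (ρ : R →+* S) :
    PowerSeries.map ρ (f.subst g) = (PowerSeries.map ρ f).subst (PowerSeries.map ρ g) :=
  PowerSeries.map_subst (PowerSeries.HasSubst.of_constantCoeff_zero' hg) f

theorem LT_exists_lift {g : PowerSeries 𝕜} (hg : PowerSeries.constantCoeff g = 0) :
    ∃ θ : PowerSeries E₀, PowerSeries.constantCoeff θ = 0 ∧ θ.map res₀ = g := by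
  classical
  choose l hl using res_surjective (p := p) (n := n)
  refine ⟨PowerSeries.mk fun i => if i = 0 then 0 else l (PowerSeries.coeff i g), ?_, ?_⟩
  · rw [← PowerSeries.coeff_zero_eq_constantCoeff_apply, PowerSeries.coeff_mk, if_pos rfl]
  · ext i
    rw [PowerSeries.coeff_map, PowerSeries.coeff_mk]
    split_ifs with hi
    · rw [hi, map_zero, PowerSeries.coeff_zero_eq_constantCoeff_apply, hg]
    · exact hl _

theorem LT_isUnit_of_res {a : E₀} (ha : IsUnit (res₀ a)) : IsUnit a := by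
  by_contra hcon
  have : a ∈ maximalIdeal E₀ := hcon
  rw [← ker_res, RingHom.mem_ker] at this
  exact ha.ne_zero this

variable {Γ : FormalGroup (GaloisField p n)} [Γ.IsComm] {H : FormalGroup (LTRing p n)} [H.IsComm]

omit [Γ.IsComm] [H.IsComm] in
/-- The uniqueness clause of universality for the test ring `E₀/𝔞` (complete, Noetherian, local,
residue field `k`): apply it to `G = H.map ψ₂`. -/
theorem univ_quot (hH : IsUniversalDeformation p n Γ H) {𝔞 : Ideal E₀} (h𝔞 : 𝔞 ≠ ⊤)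
    (ψ₁ ψ₂ : E₀ →ₐ[𝕎] E₀ ⧸ 𝔞) (r : E₀ ⧸ 𝔞 →+* 𝕜) (hr : r.comp (Ideal.Quotient.mk 𝔞) = res₀)
    (h₁ : r.comp ψ₁.toRingHom = res₀) (h₂ : r.comp ψ₂.toRingHom = res₀)
    (θ : PowerSeries (E₀ ⧸ 𝔞)) (hθ : IsFGHom (H.map ψ₁.toRingHom) (H.map ψ₂.toRingHom) θ)
    (hθ' : θ.map r = PowerSeries.X) : ψ₁ = ψ₂ := by
  haveI : Nontrivial (E₀ ⧸ 𝔞) := Ideal.Quotient.nontrivial_iff.2 h𝔞
  haveI : IsLocalRing (E₀ ⧸ 𝔞) :=
    IsLocalRing.of_surjective' (Ideal.Quotient.mk 𝔞) Ideal.Quotient.mk_surjective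
  have hrs : Function.Surjective r := by
    have := res_surjective (p := p) (n := n)
    rw [← hr, RingHom.coe_comp] at this
    exact this.of_comp
  have hc : IsAdicComplete (maximalIdeal (E₀ ⧸ 𝔞)) (E₀ ⧸ 𝔞) := by
    have : IsPrecomplete (maximalIdeal (E₀ ⧸ 𝔞)) (E₀ ⧸ 𝔞) := by
      rw [← IsLocalRing.map_maximalIdeal_of_surjective (Ideal.Quotient.mk 𝔞)
        Ideal.Quotient.mk_surjective]
      exact LT_isPrecomplete_quot _ _
    exact ⟨⟩
  have hk : RingHom.ker r = maximalIdeal (E₀ ⧸ 𝔞) :=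
    IsLocalRing.eq_maximalIdeal (RingHom.ker_isMaximal_of_surjective _ hrs)
  have ha : r.comp (algebraMap 𝕎 (E₀ ⧸ 𝔞)) = WittVector.constantCoeff := by
    rw [← res_comp_algebraMap, ← hr, RingHom.comp_assoc]
    rfl
  have hG : (H.map ψ₂.toRingHom).map r = Γ := by rw [fg_map_map, h₂, hH.1]
  exact (hH.2 (E₀ ⧸ 𝔞) hc r hrs hk ha (H.map ψ₂.toRingHom) hG).unique ⟨h₁, θ, hθ, hθ'⟩
    ⟨h₂, PowerSeries.X, fgHom_id _, PowerSeries.map_X _⟩

/-- Existence of the action: lift `g` to `θ₀`, transport `H` along `θ₀` (`exists_conj`), apply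
universality. -/
theorem act_exists (hH : IsUniversalDeformation p n Γ H) {g : PowerSeries 𝕜} (hg : IsFGAut Γ g) :
    ∃ φ : E₀ →ₐ[𝕎] E₀, IsStabilizerMap p n H g φ := by
  obtain ⟨θ₀, h0, hθ₀⟩ := LT_exists_lift hg.1.1
  have hu : IsUnit (PowerSeries.coeff 1 θ₀) := by
    apply LT_isUnit_of_res
    rw [← PowerSeries.coeff_map, hθ₀]
    exact hg.2
  obtain ⟨G, _, hG⟩ := exists_conj H h0 hu
  have hGΓ : G.map res₀ = Γ := by
    have := fgHom_map hG res₀
    rw [hθ₀, hH.1] at this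
    exact eq_of_fgHom_left this hg.1 hg.2
  obtain ⟨φ, ⟨hφ, θ', hθ', hθ'X⟩, -⟩ :=
    hH.2 E₀ inferInstance res₀ res_surjective ker_res res_comp_algebraMap G hGΓ
  refine ⟨φ, hφ, θ₀.subst θ', fgHom_comp hθ' hG, ?_⟩
  rw [LT_map_subst hθ'.1, hθ₀, hθ'X, PowerSeries.X_subst]

/-- If `g` lifts to an endomorphism `θ₀` of `H` mod `𝔞`, then `φ ≡ id`, `θ ≡ θ₀` mod `𝔞`
(`univ_quot` for `θ₀⁻¹ ∘ θ`, then `rigid` over `E₀/𝔞`). -/
theorem act_congr (hΓ : mulSeries Γ p = PowerSeries.X ^ p ^ n)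
    (hH : IsUniversalDeformation p n Γ H) {g : PowerSeries 𝕜} (hg : IsFGAut Γ g)
    {φ : E₀ →ₐ[𝕎] E₀} (hφ : (res₀).comp φ.toRingHom = res₀) {θ : PowerSeries E₀}
    (hθ : IsFGHom (H.map φ.toRingHom) H θ) (hθg : θ.map res₀ = g) {θ₀ : PowerSeries E₀}
    (hθ₀g : θ₀.map res₀ = g) {𝔞 : Ideal E₀} (h𝔞 : 𝔞 ≠ ⊤)
    (hθ₀ : IsFGHom (H.map (Ideal.Quotient.mk 𝔞)) (H.map (Ideal.Quotient.mk 𝔞))
      (θ₀.map (Ideal.Quotient.mk 𝔞))) :
    (∀ a, φ a - a ∈ 𝔞) ∧ ∀ i, PowerSeries.coeff i θ - PowerSeries.coeff i θ₀ ∈ 𝔞 := by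
  haveI : Nontrivial (E₀ ⧸ 𝔞) := Ideal.Quotient.nontrivial_iff.2 h𝔞
  haveI : IsLocalRing (E₀ ⧸ 𝔞) :=
    IsLocalRing.of_surjective' (Ideal.Quotient.mk 𝔞) Ideal.Quotient.mk_surjective
  have hle : 𝔞 ≤ RingHom.ker res₀ := by rw [ker_res]; exact IsLocalRing.le_maximalIdeal h𝔞
  set mk := Ideal.Quotient.mk 𝔞 with hmk
  set r : E₀ ⧸ 𝔞 →+* 𝕜 := Ideal.Quotient.lift 𝔞 res₀ (fun a ha => hle ha) with hrdef
  have hr : r.comp mk = res₀ := by ext a; rfl
  have hrs : Function.Surjective r := by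
    have := res_surjective (p := p) (n := n)
    rw [← hr, RingHom.coe_comp] at this
    exact this.of_comp
  have hu : IsUnit (PowerSeries.coeff 1 (θ₀.map mk)) := by
    rw [PowerSeries.coeff_map]
    refine IsUnit.map _ (LT_isUnit_of_res ?_)
    rw [← PowerSeries.coeff_map, hθ₀g]
    exact hg.2
  have hθb := fgHom_map hθ mk
  rw [fg_map_map] at hθb
  have hθr : (θ.map mk).map r = g := by rw [LT_map_map, hr, hθg]
  have hθ₀r : (θ₀.map mk).map r = g := by rw [LT_map_map, hr, hθ₀g]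
  have heq : (Ideal.Quotient.mkₐ 𝕎 𝔞).comp φ = Ideal.Quotient.mkₐ 𝕎 𝔞 := by
    refine univ_quot hH h𝔞 _ _ r hr ?_ hr
      (((θ₀.map mk).substInvOfIsUnit hu).subst (θ.map mk)) (fgHom_comp hθb (fgHom_inv hθ₀ hu)) ?_
    · rw [← hφ, ← hr]; rfl
    · rw [LT_map_subst hθb.1, hθr, ← hθ₀r, ← LT_map_subst hθ₀.1,
        PowerSeries.subst_substInvOfIsUnit_left _ hθ₀.1, PowerSeries.map_X]
  have hφa : ∀ a, φ a - a ∈ 𝔞 := fun a =>
    Ideal.Quotient.eq.1 (DFunLike.congr_fun heq a)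
  refine ⟨hφa, ?_⟩
  have hcomp : mk.comp φ.toRingHom = mk := by
    ext a
    exact Ideal.Quotient.eq.2 (hφa a)
  rw [hcomp] at hθb
  have hk : RingHom.ker r ≠ ⊤ := (RingHom.ker_isMaximal_of_surjective _ hrs).ne_top
  haveI : IsHausdorff (RingHom.ker r) (E₀ ⧸ 𝔞) := IsHausdorff.of_isLocalRing _ _ hk
  rw [← map_mk_eq_iff']
  refine rigid (p := p) (q := p ^ n) (pow_ne_zero _ (Fact.out : p.Prime).ne_zero) (RingHom.ker r)
    ?_ ?_ hθb hθ₀ (LT_map_ker_eq r (hθr.trans hθ₀r.symm))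
  · rw [RingHom.mem_ker, map_natCast, CharP.cast_eq_zero]
  · have h1 : (mulSeries (H.map mk) p).map r =
        (PowerSeries.X ^ p ^ n : PowerSeries (E₀ ⧸ 𝔞)).map r := by
      rw [← mulSeries_map, fg_map_map, hr, hH.1, hΓ, map_pow, PowerSeries.map_X]
    rw [LT_map_ker_eq r h1, map_pow, PowerSeries.map_X]

omit [Γ.IsComm] [H.IsComm] in
theorem LT_hom_mod_max (hH : IsUniversalDeformation p n Γ H) {β : PowerSeries E₀}
    (hβ : IsFGHom Γ Γ (β.map res₀)) :
    IsFGHom (H.map (Ideal.Quotient.mk (maximalIdeal E₀)))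
      (H.map (Ideal.Quotient.mk (maximalIdeal E₀))) (β.map (Ideal.Quotient.mk (maximalIdeal E₀))) := by
  set ρ : E₀ ⧸ maximalIdeal E₀ →+* 𝕜 := Ideal.Quotient.lift (maximalIdeal E₀) res₀
    (fun a ha => by rwa [← ker_res] at ha) with hρ
  have hρi : Function.Injective ρ :=
    RingHom.lift_injective_of_ker_le_ideal _ _ ker_res.le
  have hr : ρ.comp (Ideal.Quotient.mk (maximalIdeal E₀)) = res₀ := by ext a; rfl
  refine fgHom_of_map hρi ?_
  rw [fg_map_map, LT_map_map, hr, hH.1]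
  exact hβ

/-- Continuity of the action: `g = X +_Γ e`, `e = [p^j] b` (`exists_eq_pser_subst`), lift `b` to
`β`, `θ₀ = theta0 H (p^j) β`, `fgHom_theta0_mod`, `pser_pow_mem_pow`, `act_congr`. -/
theorem act_cont (hn : 1 ≤ n) (hΓ : mulSeries Γ p = PowerSeries.X ^ p ^ n)
    (hH : IsUniversalDeformation p n Γ H) (j : ℕ) :
    ∃ M : ℕ, ∀ (g : PowerSeries 𝕜) (φ : E₀ →ₐ[𝕎] E₀), IsFGAut Γ g →
      (∀ i < M, PowerSeries.coeff i g = PowerSeries.coeff i PowerSeries.X) →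
      IsStabilizerMap p n H g φ → ∀ a, φ a - a ∈ maximalIdeal E₀ ^ j := by
  refine ⟨(p ^ n) ^ j, fun g φ hg hgX hφ a => ?_⟩
  obtain ⟨hφ, θ, hθ, hθg⟩ := hφ
  let cg : Cur Γ (RingHom.id 𝕜) := Cur.mk Γ _ g hg.1.1
  let cX : Cur Γ (RingHom.id 𝕜) := Cur.mk Γ _ PowerSeries.X PowerSeries.constantCoeff_X
  have he : IsFGHom Γ Γ (cg - cX).1 := by
    have h1 : cg ∈ homSub Γ Γ (RingHom.id 𝕜) := by
      show IsFGHom Γ (Γ.map (RingHom.id 𝕜)) g
      rw [fg_map_id]; exact hg.1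
    have h2 : cX ∈ homSub Γ Γ (RingHom.id 𝕜) := by
      show IsFGHom Γ (Γ.map (RingHom.id 𝕜)) PowerSeries.X
      rw [fg_map_id]; exact fgHom_id Γ
    have h3 : IsFGHom Γ (Γ.map (RingHom.id 𝕜)) (cg - cX).1 := sub_mem h1 h2
    rwa [fg_map_id] at h3
  have hdvd : ∀ i < (p ^ n) ^ j, PowerSeries.coeff i (cg - cX).1 = 0 := by
    rw [← PowerSeries.X_pow_dvd_iff]
    obtain ⟨c, -, hc⟩ := Pt.sub_val_eq' cg cX
    rw [hc]
    refine Dvd.dvd.mul_right ?_ _
    rw [PowerSeries.X_pow_dvd_iff]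
    intro i hi
    show PowerSeries.coeff i (g - PowerSeries.X) = 0
    rw [map_sub, hgX i hi, sub_self]
  obtain ⟨b, hb, hbe⟩ := exists_eq_pser_subst p Γ hΓ he j hdvd
  have hgb : theta0 Γ (p ^ j) b = g := by
    have h1 : (cX + (cg - cX)).1 = g := by rw [add_sub_cancel]; rfl
    rw [Cur.add_val, fg_map_id, hbe] at h1
    exact h1
  obtain ⟨β, hβ0, hβ⟩ := LT_exists_lift hb.1
  have hθ₀g : (theta0 H (p ^ j) β).map res₀ = g := by
    rw [theta0_map H _ hβ0, hH.1, hβ, hgb]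
  have h𝔞 : maximalIdeal E₀ ^ (j + 1) ≠ ⊤ := fun h =>
    (maximalIdeal.isMaximal E₀).ne_top (top_le_iff.1 (h ▸ Ideal.pow_le_self (Nat.succ_ne_zero j)))
  have hmod := fgHom_theta0_mod H (p ^ j) hβ0 (maximalIdeal E₀) (maximalIdeal E₀ ^ (j + 1))
    (LT_hom_mod_max hH (by rw [hβ]; exact hb))
    (fun z hz0 hz d => pser_pow_mem_pow H (maximalIdeal E₀) LT_p_mem j hz0 hz d)
  exact Ideal.pow_le_pow_right (Nat.le_succ j)
    ((act_congr hΓ hH hg hφ hθ hθg hθ₀g h𝔞 hmod).1 a)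

/-- The automorphisms `1 + p^m b`, packaged for a stable ideal. -/
theorem act_theta0 (hn : 1 ≤ n) (hΓ : mulSeries Γ p = PowerSeries.X ^ p ^ n)
    (hH : IsUniversalDeformation p n Γ H) (M : ℕ) {J : Ideal E₀}
    (hJ : IsStableIdeal p n Γ H M J) :
    ∃ m₀ : ℕ, ∀ m ≥ m₀, ∀ β : PowerSeries E₀, PowerSeries.constantCoeff β = 0 →
      IsFGHom Γ Γ (β.map res₀) → ∃ (φ : E₀ →ₐ[𝕎] E₀) (θ : PowerSeries E₀),
        IsStabilizerMap p n H (theta0 Γ (p ^ m) (β.map res₀)) φ ∧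
        IsFGAut Γ (theta0 Γ (p ^ m) (β.map res₀)) ∧
        J.comap φ.toRingHom = J ∧ IsFGHom (H.map φ.toRingHom) H θ ∧
        ∀ 𝔞 : Ideal E₀, 𝔞 ≠ ⊤ →
          (∀ z : MvPowerSeries (Fin 2) E₀, constantCoeff z = 0 →
            (∀ d, coeff d z ∈ maximalIdeal E₀) →
            ∀ d, coeff d ((mulSeries H (p ^ m)).subst z) ∈ 𝔞) →
          (∀ a, φ a - a ∈ 𝔞) ∧
            ∀ i, PowerSeries.coeff i θ - PowerSeries.coeff i (theta0 H (p ^ m) β) ∈ 𝔞 := by
  refine ⟨M + 1, fun m hm β hβ0 hβ => ?_⟩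
  have h2 : 2 ≤ p ^ n := (Fact.out : p.Prime).two_le.trans (Nat.le_self_pow (by omega) p)
  have hlt : m < (p ^ n) ^ m := Nat.lt_pow_self (by omega)
  have hdvd : PowerSeries.X ^ (p ^ n) ^ m ∣ theta0 Γ (p ^ m) (β.map res₀) - PowerSeries.X :=
    X_pow_dvd_theta0_sub Γ (p ^ m) hβ.1 (by rw [mulSeries_pow_of_pser p Γ hΓ m])
  have hco : ∀ i < (p ^ n) ^ m, PowerSeries.coeff i (theta0 Γ (p ^ m) (β.map res₀)) =
      PowerSeries.coeff i PowerSeries.X := by
    intro i hi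
    have := PowerSeries.X_pow_dvd_iff.1 hdvd i hi
    rwa [map_sub, sub_eq_zero] at this
  have hg : IsFGAut Γ (theta0 Γ (p ^ m) (β.map res₀)) := by
    refine ⟨fgHom_theta0 Γ _ hβ, ?_⟩
    rw [hco 1 (by omega), PowerSeries.coeff_one_X]
    exact isUnit_one
  obtain ⟨φ, hφ⟩ := act_exists hH hg
  have hJφ := hJ _ φ hg (fun i hi => hco i (by omega)) hφ
  obtain ⟨hφ', θ, hθ, hθg⟩ := id hφ
  refine ⟨φ, θ, hφ, hg, hJφ, hθ, fun 𝔞 h𝔞 hz => ?_⟩
  have hθ₀g : (theta0 H (p ^ m) β).map res₀ = theta0 Γ (p ^ m) (β.map res₀) := by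
    rw [theta0_map H _ hβ0, hH.1]
  exact act_congr hΓ hH hg hφ' hθ hθg hθ₀g h𝔞
    (fgHom_theta0_mod H (p ^ m) hβ0 (maximalIdeal E₀) 𝔞 (LT_hom_mod_max hH hβ) hz)

end Crest.Agent.R227
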