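import Crest.Agent.R227.LogAux

/-!
# R227 / Log : logarithms, ultrafilter limits
-/

set_option autoImplicit false

namespace Crest.Agent.R227

open MvPowerSeries Crest.LubinTate Filter PtAux LogAux

variable {K : Type} [Field K] [CharZero K]

/-- The logarithm: `log 0 = 0`, `log' = 1 / dY`. -/
noncomputable def logS (F : FormalGroup K) : PowerSeries K :=
  PowerSeries.mk fun i => if i = 0 then 0 else PowerSeries.coeff (i - 1) (dY F)⁻¹ / i

/-- coboundary `f (F (X,Y)) - f X - f Y` -/
noncomputable def cob {R : Type} [CommRing R] (F : FormalGroup R) :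
    PowerSeries R →ₗ[R] MvPowerSeries (Fin 2) R :=
  (PowerSeries.substAlgHom (R := R)
      (PowerSeries.HasSubst.of_constantCoeff_zero F.zero_constantCoeff)).toLinearMap -
    (PowerSeries.substAlgHom (R := R) (PowerSeries.HasSubst.X (S := R) (0 : Fin 2))).toLinearMap -
    (PowerSeries.substAlgHom (R := R) (PowerSeries.HasSubst.X (S := R) (1 : Fin 2))).toLinearMap

theorem cob_apply {R : Type} [CommRing R] (F : FormalGroup R) (f : PowerSeries R) :
    cob F f = f.subst F.toPowerSeries - f.subst (X 0 : MvPowerSeries (Fin 2) R) -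
      f.subst (X 1 : MvPowerSeries (Fin 2) R) := by
  simp [cob, PowerSeries.coe_substAlgHom]

theorem cob_map {R R' : Type} [CommRing R] [CommRing R'] (F : FormalGroup R) (ρ : R →+* R')
    (f : PowerSeries R) : (cob F f).map ρ = cob (F.map ρ) (f.map ρ) := by
  rw [cob_apply, cob_apply, map_sub, map_sub, map_subst1 _ F.zero_constantCoeff,
    map_subst1 _ (constantCoeff_X 0), map_subst1 _ (constantCoeff_X 1), map_X, map_X]
  rfl

theorem constantCoeff_logS (F : FormalGroup K) : PowerSeries.constantCoeff (logS F) = 0 := by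
  rw [← PowerSeries.coeff_zero_eq_constantCoeff_apply, logS, PowerSeries.coeff_mk, if_pos rfl]

theorem coeff_one_logS (F : FormalGroup K) : PowerSeries.coeff 1 (logS F) = 1 := by
  rw [logS, PowerSeries.coeff_mk, if_neg one_ne_zero]
  simp [constantCoeff_dY]

theorem derivative_logS (F : FormalGroup K) : PowerSeries.derivative K (logS F) * dY F = 1 := by
  have h : PowerSeries.derivative K (logS F) = (dY F)⁻¹ := by
    ext n
    rw [PowerSeries.coeff_derivative, logS, PowerSeries.coeff_mk, if_neg (Nat.succ_ne_zero n),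
      Nat.add_sub_cancel, Nat.cast_succ, div_mul_cancel₀ _ (Nat.cast_add_one_ne_zero n)]
  rw [h, PowerSeries.inv_mul_cancel]
  rw [constantCoeff_dY]
  exact one_ne_zero

/-- `∂/∂X` of both sides agree by `dY_subst`; compare at `X = 0`. -/
theorem cob_logS (F : FormalGroup K) [F.IsComm] : cob F (logS F) = 0 := by
  have hX0 : constantCoeff (X 0 : MvPowerSeries (Fin 2) K) = 0 := constantCoeff_X 0
  have hX1 : constantCoeff (X 1 : MvPowerSeries (Fin 2) K) = 0 := constantCoeff_X 1
  have hz : constantCoeff (0 : MvPowerSeries (Fin 2) K) = 0 := map_zero _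
  have hF := F.zero_constantCoeff
  refine eq_zero_of_pderiv (i := 0) ?_ ?_
  · have h1 : X 0 ∣ F.toPowerSeries - X 1 := by
      have := X_dvd_sub F.toPowerSeries hz hX1 (c := X 0) (by simp) (by simp)
      rwa [F.zero_add (hs1 hX1)] at this
    have h2 := h1.trans (sub_dvd_subst1 hF hX1 (logS F))
    have h3 := sub_dvd_subst1 hX0 hz (logS F)
    rw [PowerSeries.subst_zero_of_constantCoeff_zero (constantCoeff_logS F), sub_zero,
      sub_zero] at h3
    rw [cob_apply, sub_right_comm]
    exact dvd_sub h2 h3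
  · have e : ∀ {a : MvPowerSeries (Fin 2) K}, constantCoeff a = 0 →
        (PowerSeries.derivative K (logS F)).subst a * (dY F).subst a = 1 := fun {a} ha => by
      rw [← PowerSeries.subst_mul (hs1 ha), derivative_logS, ← PowerSeries.coe_substAlgHom (hs1 ha),
        map_one]
    have h1 := e hF
    have h2 := e hX0
    rw [dY_subst] at h1
    rw [cob_apply, map_sub, map_sub, pderiv_subst1 hF, pderiv_subst1 hX0, pderiv_subst1 hX1,
      pderiv_X_self, pderiv_X_of_ne (by decide : (1 : Fin 2) ≠ 0), mul_zero, sub_zero, mul_one]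
    linear_combination ((PowerSeries.derivative K (logS F)).subst (X 0 : MvPowerSeries (Fin 2) K))
      * h1 - ((PowerSeries.derivative K (logS F)).subst F.toPowerSeries *
        pderiv K 0 F.toPowerSeries) * h2

theorem eq_smul_logS_of_cob {F : FormalGroup K} {f : PowerSeries K} (hf : cob F f = 0) :
    f = PowerSeries.coeff 1 f • logS F := by
  have hX0 : constantCoeff (X 0 : MvPowerSeries (Fin 2) K) = 0 := constantCoeff_X 0
  have hX1 : constantCoeff (X 1 : MvPowerSeries (Fin 2) K) = 0 := constantCoeff_X 1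
  have hz : constantCoeff (0 : PowerSeries K) = 0 := map_zero _
  have hF := F.zero_constantCoeff
  have hs := hs2 (cc_X1 (R := K)) hz
  rw [cob_apply] at hf
  have h0 : PowerSeries.constantCoeff f = 0 := by
    have h1 := congrArg constantCoeff hf
    have e : ∀ {a : MvPowerSeries (Fin 2) K}, constantCoeff a = 0 →
        constantCoeff (f.subst a) = PowerSeries.constantCoeff f := fun {a} ha =>
      cc_subst (z := fun _ : Unit => a) (fun _ => ha) f
    rw [map_sub, map_sub, e hF, e hX0, e hX1, map_zero] at h1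
    simpa using h1
  have h1 := congrArg (pderiv K 1) hf
  rw [map_sub, map_sub, pderiv_subst1 hF, pderiv_subst1 hX0, pderiv_subst1 hX1, pderiv_X_self,
    pderiv_X_of_ne (by decide : (0 : Fin 2) ≠ 1), mul_zero, sub_zero, mul_one, map_zero,
    sub_eq_zero] at h1
  have h2 := congrArg (subst ![(PowerSeries.X : PowerSeries K), 0]) h1
  rw [subst_mul hs, ← dY_eq, subst1_subst _ hF hs, subst1_subst _ hX1 hs, F.add_zero (hs1 cc_X1),
    X1_subst cc_X1 hz, PowerSeries.X_subst, PowerSeries.subst_zero_eq_C_constantCoeff] at h2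
  have h3 : PowerSeries.derivative K f * dY F = PowerSeries.C (PowerSeries.coeff 1 f) := by
    rw [h2, map_C, ← PowerSeries.coeff_zero_eq_constantCoeff_apply, PowerSeries.coeff_derivative]
    simp [PowerSeries.C]
  refine PowerSeries.derivative.ext ?_ (by simp [h0, constantCoeff_logS])
  rw [Derivation.map_smul, PowerSeries.smul_eq_C_mul, ← h3]
  linear_combination (-(PowerSeries.derivative K f)) * derivative_logS F

/-- `log (F (a, b)) = log a + log b` -/
theorem logS_subst_add (F : FormalGroup K) [F.IsComm] {τ : Type} [Finite τ]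
    {a b : MvPowerSeries τ K} (ha : constantCoeff a = 0) (hb : constantCoeff b = 0) :
    (logS F).subst (F.toPowerSeries.subst ![a, b]) = (logS F).subst a + (logS F).subst b := by
  have hX0 : constantCoeff (X 0 : MvPowerSeries (Fin 2) K) = 0 := constantCoeff_X 0
  have hX1 : constantCoeff (X 1 : MvPowerSeries (Fin 2) K) = 0 := constantCoeff_X 1
  have hs := hs2 ha hb
  have h := congrArg (subst ![a, b]) (cob_logS F)
  rw [cob_apply, subst_sub hs, subst_sub hs, subst1_subst _ F.zero_constantCoeff hs,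
    subst1_subst _ hX0 hs, subst1_subst _ hX1 hs, X0_subst ha hb, X1_subst ha hb,
    zero_subst hs] at h
  linear_combination h

theorem logS_subst_mulSeries (F : FormalGroup K) [F.IsComm] (m : ℕ) :
    (logS F).subst (mulSeries F m) = (m : K) • logS F := by
  induction m with
  | zero =>
    rw [mulSeries, Nat.cast_zero, zero_smul]
    exact PowerSeries.subst_zero_of_constantCoeff_zero (constantCoeff_logS F)
  | succ m ih =>
    have h := logS_subst_add F (a := mulSeries F m) (b := PowerSeries.X)
      (constantCoeff_mulSeries F m) cc_X1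
    rw [ih, PowerSeries.X_subst] at h
    rw [mulSeries, Nat.cast_succ, add_smul, one_smul]
    exact h

theorem cob_logS_subst_hom {F G : FormalGroup K} [G.IsComm] {θ : PowerSeries K}
    (h : IsFGHom F G θ) : cob F ((logS G).subst θ) = 0 := by
  have hX0 : constantCoeff (X 0 : MvPowerSeries (Fin 2) K) = 0 := constantCoeff_X 0
  have hX1 : constantCoeff (X 1 : MvPowerSeries (Fin 2) K) = 0 := constantCoeff_X 1
  rw [cob_apply, subst1_subst1 _ h.1 F.zero_constantCoeff, subst1_subst1 _ h.1 hX0,
    subst1_subst1 _ h.1 hX1, h.2, logS_subst_add G (cc_subst1 h.1 hX0) (cc_subst1 h.1 hX1)]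
  ring

section integral

variable {O : Type} [CommRing O] [IsDomain O] [Algebra O K] [IsFractionRing O K]

/-- `log'` is integral -/
theorem exists_derivative_logS (H : FormalGroup O) : ∃ ω : PowerSeries O, ω * dY H = 1 ∧
    PowerSeries.derivative K (logS (H.map (algebraMap O K))) = ω.map (algebraMap O K) := by
  have hu : IsUnit (dY H) := by
    rw [PowerSeries.isUnit_iff_constantCoeff, constantCoeff_dY]
    exact isUnit_one
  obtain ⟨ω, hω⟩ := hu.exists_left_inv
  refine ⟨ω, hω, ?_⟩
  have h1 := derivative_logS (H.map (algebraMap O K))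
  have h2 := congrArg (PowerSeries.map (algebraMap O K)) hω
  rw [map_mul, map_one, ← dY_map] at h2
  linear_combination (ω.map (algebraMap O K)) * h1 -
    (PowerSeries.derivative K (logS (H.map (algebraMap O K)))) * h2

/-- **Taylor estimate.** If `f' = ω` is integral, `f (z + p^j w) - f z - p^j ω(z) w ∈ p^(2j-1) O⟦…⟧`:
`f_i C(i,l) p^(jl) = (i f_i) C(i-1,l-1) p^(jl) / l`, and `p^(jl)/l ∈ p^(2j-1) ℤ_(p)` for `l ≥ 2`;
integers prime to `p` are units of `O`. -/
theorem taylor_estimate {p : ℕ} (hp : p.Prime) (hunit : ∀ m : ℕ, ¬ p ∣ m → IsUnit (m : O))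
    {f : PowerSeries K} {ω : PowerSeries O}
    (hf : PowerSeries.derivative K f = ω.map (algebraMap O K)) {τ : Type} [Finite τ]
    {z w : MvPowerSeries τ O} (hz : constantCoeff z = 0) (hw : constantCoeff w = 0) {j : ℕ}
    (hj : 1 ≤ j) :
    ∃ v : MvPowerSeries τ O,
      f.subst ((z + (p : MvPowerSeries τ O) ^ j * w).map (algebraMap O K)) =
        f.subst (z.map (algebraMap O K)) +
          ((p : MvPowerSeries τ O) ^ j * (ω.subst z * w) +
            (p : MvPowerSeries τ O) ^ (2 * j - 1) * v).map (algebraMap O K) := by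
  obtain ⟨V, hV⟩ := taylor_univ hp hunit hf hj
  set φ := algebraMap O K
  have hX0 : constantCoeff (X 0 : MvPowerSeries (Fin 2) K) = 0 := constantCoeff_X 0
  have hX1 : constantCoeff (X 1 : MvPowerSeries (Fin 2) K) = 0 := constantCoeff_X 1
  have hX01 : constantCoeff (X 0 + X 1 : MvPowerSeries (Fin 2) K) = 0 := by simp
  have hz' : constantCoeff (z.map φ) = 0 := by rw [constantCoeff_map, hz, map_zero]
  have hw' : constantCoeff (w.map φ) = 0 := by rw [constantCoeff_map, hw, map_zero]
  have hw'' : constantCoeff ((p : MvPowerSeries τ K) ^ j * w.map φ) = 0 := by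
    rw [map_mul, hw', mul_zero]
  have hs := hs2 hz' hw'
  have hs' := hs2 hz' hw''
  refine ⟨V.subst ![z, w], ?_⟩
  have h1 := congrArg (subst ![z.map φ, w.map φ]) hV
  rw [rescale_eq_subst, subst_comp_subst_apply (HasSubst.smul_X _) hs, ← map_subst2 _ hz hw,
    subst_mul (hs2 hz hw), subst_C] at h1
  have h2 : (fun s => subst ![z.map φ, w.map φ]
      (((![1, (p : K) ^ j] : Fin 2 → K) • (X : Fin 2 → MvPowerSeries (Fin 2) K)) s)) =
      ![z.map φ, (p : MvPowerSeries τ K) ^ j * w.map φ] := by
    funext s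
    rw [Pi.smul_apply', subst_smul hs, subst_X hs]
    fin_cases s
    · simp
    · simp [smul_eq_C_mul]
  rw [h2, subst_sub hs', subst_sub hs', subst_mul hs', subst1_subst _ hX01 hs',
    subst1_subst _ hX0 hs', subst1_subst _ hX0 hs', subst_add hs', X0_subst hz' hw'',
    X1_subst hz' hw'', ← map_subst1 _ hz] at h1
  simp only [map_add, map_mul, map_pow, map_natCast] at h1 ⊢
  linear_combination h1

/-- bounded series -/
def Bd (O K : Type) [CommRing O] [IsDomain O] [Field K] [Algebra O K] [IsFractionRing O K] :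
    Submodule K (PowerSeries K) where
  carrier := {f | ∃ (c : O) (g : PowerSeries O), c ≠ 0 ∧
    algebraMap O K c • f = g.map (algebraMap O K)}
  zero_mem' := ⟨1, 0, one_ne_zero, by simp⟩
  add_mem' := by
    rintro f g ⟨c, f', hc, hf⟩ ⟨d, g', hd, hg⟩
    refine ⟨c * d, PowerSeries.C d * f' + PowerSeries.C c * g', mul_ne_zero hc hd, ?_⟩
    simp only [map_add, map_mul, PowerSeries.map_C, ← hf, ← hg, PowerSeries.smul_eq_C_mul]
    ring
  smul_mem' := by
    rintro k f ⟨c, f', hc, hf⟩
    obtain ⟨⟨a, b⟩, hab⟩ := IsLocalization.surj (nonZeroDivisors O) k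
    refine ⟨b * c, PowerSeries.C a * f', mul_ne_zero (nonZeroDivisors.ne_zero b.2) hc, ?_⟩
    simp only at hab
    simp only [map_mul, PowerSeries.map_C, ← hf, ← hab, PowerSeries.smul_eq_C_mul]
    ring

omit [CharZero K] in
theorem map_mem_Bd (g : PowerSeries O) : g.map (algebraMap O K) ∈ Bd O K :=
  ⟨1, g, one_ne_zero, by simp⟩

omit [CharZero K] in
theorem subst_mem_Bd {f : PowerSeries K} (hf : f ∈ Bd O K) {β : PowerSeries O}
    (hβ : PowerSeries.constantCoeff β = 0) : f.subst (β.map (algebraMap O K)) ∈ Bd O K := by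
  obtain ⟨c, g, hc, hg⟩ := hf
  have hβ' : constantCoeff (β.map (algebraMap O K)) = 0 := by
    have : constantCoeff (MvPowerSeries.map (algebraMap O K) β) = 0 := by
      rw [constantCoeff_map]
      exact (congrArg _ hβ).trans (map_zero _)
    exact this
  refine ⟨c, g.subst β, hc, ?_⟩
  rw [← PowerSeries.subst_smul (hs1 hβ'), hg]
  exact (map_subst1 g hβ _).symm

/-- if `f'` is integral and `z` has coefficients in `𝔪`, `𝔪^c ≤ (p)`, then `f (z)` is bounded -/
theorem subst_mem_Bd_of_small {p : ℕ} (hp : p.Prime) (hunit : ∀ m : ℕ, ¬ p ∣ m → IsUnit (m : O))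
    {𝔪 : Ideal O} {c : ℕ} (hc : 𝔪 ^ c ≤ Ideal.span {(p : O)}) {f : PowerSeries K}
    {ω : PowerSeries O} (hf : PowerSeries.derivative K f = ω.map (algebraMap O K))
    {z : PowerSeries O} (hz0 : PowerSeries.constantCoeff z = 0)
    (hz : ∀ i, PowerSeries.coeff i z ∈ 𝔪) : f.subst (z.map (algebraMap O K)) ∈ Bd O K := by
  set φ := algebraMap O K with hφ
  have hz' : constantCoeff (z.map φ) = 0 := by
    have : constantCoeff (MvPowerSeries.map φ z) = 0 := by
      rw [constantCoeff_map]
      exact (congrArg _ hz0).trans (map_zero _)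
    exact this
  obtain ⟨⟨a, b⟩, hab⟩ := IsLocalization.surj (nonZeroDivisors O) (PowerSeries.coeff 0 f)
  simp only [← hφ] at hab
  have hp0 : (p : O) ≠ 0 := fun h => by
    have := congrArg φ h
    rw [map_natCast, map_zero, Nat.cast_eq_zero] at this
    exact hp.ne_zero this
  have key : ∀ n, ∃ y : O,
      φ (b * (p : O) ^ c) * PowerSeries.coeff n (f.subst (z.map φ)) = φ y := fun n => by
    rw [PowerSeries.coeff_subst' (hs1 hz')]
    refine finsum_induction (fun x => ∃ y : O, φ (b * (p : O) ^ c) * x = φ y) ⟨0, by simp⟩ ?_ ?_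
    · rintro x₁ x₂ ⟨y₁, h₁⟩ ⟨y₂, h₂⟩
      exact ⟨y₁ + y₂, by rw [mul_add, h₁, h₂, map_add]⟩
    · intro d
      rw [← map_pow, PowerSeries.coeff_map, smul_eq_mul]
      rcases d with _ | d
      · refine ⟨a * (p : O) ^ c * PowerSeries.coeff n (z ^ 0), ?_⟩
        simp only [map_mul, ← hab]
        ring
      · obtain ⟨e, he, u, hu⟩ := exists_dvd_pow hp hunit (Nat.succ_ne_zero d)
        have h1 : c * (e - c) ≤ d + 1 := by
          rcases le_total e c with h | h
          · rw [Nat.sub_eq_zero_of_le h]; omega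
          · calc c * (e - c) ≤ 2 ^ c * 2 ^ (e - c) :=
                Nat.mul_le_mul Nat.lt_two_pow_self.le Nat.lt_two_pow_self.le
              _ = 2 ^ e := by rw [← pow_add, Nat.add_sub_cancel' h]
              _ ≤ d + 1 := he
        have h2 : 𝔪 ^ (d + 1) ≤ Ideal.span {(p : O) ^ (e - c)} := by
          refine (Ideal.pow_le_pow_right h1).trans ?_
          rw [pow_mul, ← Ideal.span_singleton_pow]
          exact Ideal.pow_right_mono hc _
        obtain ⟨y, hy⟩ := Ideal.mem_span_singleton.1 (h2 (coeff_pow_mem hz (d + 1) n))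
        obtain ⟨t, ht⟩ : ∃ t, c + (e - c) = e + t := ⟨c + (e - c) - e, by omega⟩
        have h3 := congrArg (PowerSeries.coeff d) hf
        rw [PowerSeries.coeff_derivative, PowerSeries.coeff_map] at h3
        have h4 : (p : K) ^ c * (p : K) ^ (e - c) = ((d : K) + 1) * φ u * (p : K) ^ t := by
          rw [← pow_add, ht, pow_add]
          congr 1
          simpa using congrArg φ hu
        refine ⟨b * u * (p : O) ^ t * y * PowerSeries.coeff d ω, ?_⟩
        simp only [hy, map_mul, map_pow, map_natCast, ← h3]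
        linear_combination (φ b * φ y * PowerSeries.coeff (d + 1) f) * h4
  choose y hy using key
  refine ⟨b * (p : O) ^ c, PowerSeries.mk y,
    mul_ne_zero (nonZeroDivisors.ne_zero b.2) (pow_ne_zero _ hp0), ?_⟩
  ext n
  rw [PowerSeries.coeff_smul, PowerSeries.coeff_map, PowerSeries.coeff_mk, smul_eq_mul, hy]

end integral

/-- Limits along `hyperfilter ℕ` in a complete ring with finite quotients. -/
theorem exists_lim {O : Type} [CommRing O] (π : O) [IsAdicComplete (Ideal.span {π}) O]
    [Finite (O ⧸ Ideal.span {π})] :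
    ∃ L : (ℕ → O) →+* O, (∀ x, L (fun _ => x) = x) ∧
      ∀ (x : ℕ → O) (s : ℕ), (∀ᶠ m in atTop, π ^ s ∣ x m) → π ^ s ∣ L x := by
  set I : Ideal O := Ideal.span {π} with hI
  have hfin : ∀ n, Finite (O ⧸ I ^ n) := Ideal.finite_quotient_pow ⟨{π}, by simp [hI]⟩
  choose U hU using fun n => exists_ulim (O ⧸ I ^ n)
  let F : (n : ℕ) → (ℕ → O) →+* O ⧸ I ^ n := fun n =>
    (U n).comp (RingHom.compLeft (Ideal.Quotient.mk (I ^ n)) ℕ)
  have hF : ∀ n x, ∀ᶠ m in hyperfilter ℕ, Ideal.Quotient.mk (I ^ n) (x m) = F n x :=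
    fun n x => hU n _
  have hF' : ∀ {m n : ℕ} (hle : m ≤ n),
      (Ideal.Quotient.factorPow I hle).comp (F n) = F m := fun {m n} hmn => by
    ext1 x
    obtain ⟨k, h1, h2⟩ := ((hF n x).and (hF m x)).exists
    rw [RingHom.comp_apply, ← h1, ← h2]
    rfl
  refine ⟨IsAdicComplete.liftRingHom I F hF', fun x => ?_, fun x s hx => ?_⟩
  · rw [← sub_eq_zero]
    refine EvAux.eq_zero_of_mem_pow I fun n => ?_
    obtain ⟨k, h1⟩ := (hF n fun _ => x).exists
    rw [← Ideal.Quotient.eq, IsAdicComplete.mk_liftRingHom, ← h1]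
  · have hx' : ∀ᶠ m in hyperfilter ℕ, π ^ s ∣ x m :=
      hx.filter_mono (Nat.hyperfilter_le_atTop)
    obtain ⟨k, h1, h2⟩ := ((hF s x).and hx').exists
    rw [← Ideal.mem_span_singleton, ← Ideal.span_singleton_pow, ← hI,
      ← Ideal.Quotient.eq_zero_iff_mem, IsAdicComplete.mk_liftRingHom, ← h1,
      Ideal.Quotient.eq_zero_iff_mem, hI, Ideal.span_singleton_pow, Ideal.mem_span_singleton]
    exact h2

end Crest.Agent.R227
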