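import Crest.Agent.R227.FG

/-!
# R227 / LogAux : auxiliary lemmas for `Log`
-/

set_option autoImplicit false

namespace Crest.Agent.R227.LogAux

open MvPowerSeries Crest.LubinTate Filter PtAux

variable {τ R : Type} [CommRing R]

/-- one-variable chain rule -/
theorem pderiv_subst1 [Finite τ] {b : MvPowerSeries τ R} (hb : constantCoeff b = 0)
    (f : PowerSeries R) (j : τ) :
    pderiv R j (f.subst b) = (PowerSeries.derivative R f).subst b * pderiv R j b := by
  have := pderiv_subst (b := fun _ : Unit => b) (fun _ => hb) f j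
  rw [Fintype.sum_unique] at this
  exact this

theorem sub_dvd_subst1 [Finite τ] {a b : MvPowerSeries τ R} (ha : constantCoeff a = 0)
    (hb : constantCoeff b = 0) (f : PowerSeries R) : a - b ∣ f.subst a - f.subst b := by
  have h := ev1_sub_ev1_dvd (cc τ (⊥ : Ideal R)) ((C : R →+* _).comp (RingHom.id R))
    (x := a) (y := b) (by simpa using ha) (by simpa using hb) f
  rwa [ev1_eq_subst _ ha, ev1_eq_subst _ hb, PowerSeries.map_id] at h

theorem eq_zero_of_pderiv {K : Type} [Field K] [CharZero K] {D : MvPowerSeries τ K} {i : τ}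
    (h0 : X i ∣ D) (h1 : pderiv K i D = 0) : D = 0 := by
  classical
  ext d
  rw [map_zero]
  by_cases hd : d i = 0
  · exact X_dvd_iff.1 h0 d hd
  · have h2 : Finsupp.single i 1 ≤ d := by
      rw [Finsupp.single_le_iff]
      omega
    have h3 := congrArg (coeff (d - Finsupp.single i 1)) h1
    rw [coeff_pderiv, tsub_add_cancel_of_le h2, map_zero] at h3
    exact (mul_eq_zero.1 h3).resolve_right (Nat.cast_add_one_ne_zero _)

theorem exists_dvd_pow {O : Type} [CommRing O] {p : ℕ} (hp : p.Prime)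
    (hunit : ∀ m : ℕ, ¬ p ∣ m → IsUnit (m : O)) {l : ℕ} (hl : l ≠ 0) :
    ∃ e : ℕ, 2 ^ e ≤ l ∧ (l : O) ∣ (p : O) ^ e := by
  obtain ⟨e, m, hm, rfl⟩ := Nat.exists_eq_pow_mul_and_not_dvd hl p hp.ne_one
  refine ⟨e, ?_, ?_⟩
  · have : m ≠ 0 := by rintro rfl; simp at hl
    calc 2 ^ e ≤ p ^ e := Nat.pow_le_pow_left hp.two_le e
      _ ≤ p ^ e * m := Nat.le_mul_of_pos_right _ (Nat.pos_of_ne_zero this)
  · rw [Nat.cast_mul, Nat.cast_pow, (hunit m hm).mul_right_dvd]

theorem coeff_pow_mem {𝔪 : Ideal R} {z : PowerSeries R} (hz : ∀ i, PowerSeries.coeff i z ∈ 𝔪)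
    (d : ℕ) : ∀ i, PowerSeries.coeff i (z ^ d) ∈ 𝔪 ^ d := by
  induction d with
  | zero => intro i; simp
  | succ d ih =>
    rw [pow_succ, pow_succ]
    exact PowerSeries.coeff_mul_mem_ideal_mul_ideal_of_coeff_mem_ideal' ih hz

/-- ultralimits in a finite ring -/
theorem exists_ulim (Q : Type) [CommRing Q] [Finite Q] :
    ∃ L : (ℕ → Q) →+* Q, ∀ x, ∀ᶠ m in hyperfilter ℕ, x m = L x := by
  have h : ∀ x : ℕ → Q, ∃ q, ∀ᶠ m in hyperfilter ℕ, x m = q := fun x =>
    Ultrafilter.eventually_exists_iff.1 (Eventually.of_forall fun m => ⟨x m, rfl⟩)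
  choose L hL using h
  refine ⟨{ toFun := L
            map_one' := ?_
            map_mul' := fun x y => ?_
            map_zero' := ?_
            map_add' := fun x y => ?_ }, hL⟩
  · obtain ⟨m, hm⟩ := (hL 1).exists
    exact hm.symm
  · obtain ⟨m, h1, h2, h3⟩ := ((hL (x * y)).and ((hL x).and (hL y))).exists
    rw [← h1, ← h2, ← h3, Pi.mul_apply]
  · obtain ⟨m, hm⟩ := (hL 0).exists
    exact hm.symm
  · obtain ⟨m, h1, h2, h3⟩ := ((hL (x + y)).and ((hL x).and (hL y))).exists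
    rw [← h1, ← h2, ← h3, Pi.add_apply]

/-- the two-variable form of the Taylor estimate -/
theorem taylor_univ {K O : Type} [Field K] [CharZero K] [CommRing O] [Algebra O K] {p : ℕ}
    (hp : p.Prime) (hunit : ∀ m : ℕ, ¬ p ∣ m → IsUnit (m : O)) {f : PowerSeries K}
    {ω : PowerSeries O} (hf : PowerSeries.derivative K f = ω.map (algebraMap O K)) {j : ℕ}
    (hj : 1 ≤ j) : ∃ V : MvPowerSeries (Fin 2) O,
      rescale ![1, (p : K) ^ j] (f.subst (X 0 + X 1 : MvPowerSeries (Fin 2) K) -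
        f.subst (X 0 : MvPowerSeries (Fin 2) K) -
        (ω.map (algebraMap O K)).subst (X 0 : MvPowerSeries (Fin 2) K) * X 1) =
      (C ((p : O) ^ (2 * j - 1)) * V).map (algebraMap O K) := by
  classical
  set φ := algebraMap O K
  set E : MvPowerSeries (Fin 2) K := f.subst (X 0 + X 1 : MvPowerSeries (Fin 2) K) -
    f.subst (X 0 : MvPowerSeries (Fin 2) K) -
    (ω.map φ).subst (X 0 : MvPowerSeries (Fin 2) K) * X 1 with hE
  set B : MvPowerSeries (Fin 2) O := ω.subst (X 0 + X 1 : MvPowerSeries (Fin 2) O) -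
    ω.subst (X 0 : MvPowerSeries (Fin 2) O) with hB
  have hs : ∀ (S : Type) [CommRing S],
      constantCoeff (X 0 + X 1 : MvPowerSeries (Fin 2) S) = 0 := fun S _ => by simp
  have hdvd : ∀ {S : Type} [CommRing S] (g : PowerSeries S), X 1 ∣
      g.subst (X 0 + X 1 : MvPowerSeries (Fin 2) S) - g.subst (X 0 : MvPowerSeries (Fin 2) S) :=
    fun {S} _ g => by simpa using sub_dvd_subst1 (hs S) (constantCoeff_X 0) g
  have hE1 : X 1 ∣ E := dvd_sub (hdvd f) (dvd_mul_left _ _)
  have hB1 : X 1 ∣ B := hdvd ω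
  have h01 : ∀ (S : Type) [CommRing S], pderiv S 1 (X 0 : MvPowerSeries (Fin 2) S) = 0 :=
    fun S _ => pderiv_X_of_ne (by decide)
  have hE2 : pderiv K 1 E = B.map φ := by
    rw [hE, hB, map_sub, map_sub, pderiv_subst1 (hs K), pderiv_subst1 (constantCoeff_X 0),
      Derivation.leibniz, pderiv_subst1 (constantCoeff_X 0), map_add, h01, pderiv_X_self, hf,
      map_sub, map_subst1 _ (hs O), map_subst1 _ (constantCoeff_X 0), map_add, map_X, map_X]
    simp
  have key : ∀ d : Fin 2 →₀ ℕ, ∃ v : O,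
      ((p : K) ^ j) ^ d 1 * coeff d E = φ ((p : O) ^ (2 * j - 1) * v) := fun d => by
    by_cases hd : d 1 = 0
    · exact ⟨0, by rw [X_dvd_iff.1 hE1 d hd]; simp⟩
    have h2 : Finsupp.single 1 1 ≤ d := by
      rw [Finsupp.single_le_iff]
      omega
    set d' := d - Finsupp.single 1 1 with hd'
    have h3 := congrArg (coeff d') hE2
    have h4 : d' 1 + 1 = d 1 := by
      rw [hd', Finsupp.tsub_apply, Finsupp.single_eq_same]
      omega
    rw [coeff_pderiv, tsub_add_cancel_of_le h2, coeff_map, ← Nat.cast_succ, Nat.succ_eq_add_one,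
      h4] at h3
    by_cases hd1 : d' 1 = 0
    · rw [X_dvd_iff.1 hB1 d' hd1, map_zero] at h3
      exact ⟨0, by rw [(mul_eq_zero.1 h3).resolve_right (Nat.cast_ne_zero.2 hd)]; simp⟩
    obtain ⟨e, he, hdv⟩ := exists_dvd_pow hp hunit hd
    have he' : e < d 1 := lt_of_lt_of_le Nat.lt_two_pow_self he
    obtain ⟨l, hl⟩ : ∃ l, d 1 = l + 2 := ⟨d 1 - 2, by omega⟩
    have hle : e ≤ j * l + 1 := by nlinarith
    obtain ⟨u, hu⟩ := hdv.trans (pow_dvd_pow (p : O) hle)
    refine ⟨u * coeff d' B, ?_⟩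
    have h5 : j * d 1 = (2 * j - 1) + (j * l + 1) := by
      rw [hl, mul_add]
      omega
    have h6 : (p : K) ^ (j * l + 1) = (d 1 : K) * φ u := by
      simpa using congrArg φ hu
    rw [← pow_mul, h5, pow_add, h6, map_mul, map_mul, ← h3, map_pow, map_natCast]
    ring
  choose V hV using key
  refine ⟨V, ?_⟩
  ext d
  rw [coeff_rescale, coeff_map, coeff_C_mul, Finsupp.prod_fintype _ _ (by simp),
    Fin.prod_univ_two]
  simpa using! hV d

end Crest.Agent.R227.LogAux
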