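import Crest.Agent.R227.Glue

/-!
# R227 / Main
-/

set_option autoImplicit false

namespace Crest.Agent.R227

open MvPowerSeries Crest.LubinTate IsLocalRing

variable {p : ℕ} [Fact p.Prime] {n : ℕ}
  {Γ : FormalGroup (GaloisField p n)} [Γ.IsComm] {H : FormalGroup (LTRing p n)} [H.IsComm]

theorem prime_stable (hn : 1 ≤ n) (hΓ : mulSeries Γ p = PowerSeries.X ^ p ^ n)
    (hH : IsUniversalDeformation p n Γ H) {M : ℕ} {P : Ideal (LTRing p n)} (hP : P.IsPrime)
    (hs : IsStableIdeal p n Γ H M P) : ∃ h : ℕ, h ≤ n ∧ P = heightIdeal p n H h := by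
  classical
  let Q : ℕ → Prop := fun h => heightIdeal p n H h ≤ P
  have h0 : Q 0 := by simp [Q, heightIdeal]
  set h := Nat.findGreatest Q n with hh
  have hle : h ≤ n := Nat.findGreatest_le n
  have hQ : Q h := Nat.findGreatest_spec (Nat.zero_le n) h0
  refine ⟨h, hle, ?_⟩
  rcases eq_or_lt_of_le hle with heq | hlt
  · have hQ' : maximalIdeal (LTRing p n) ≤ P := by
      rw [← heightIdeal_n hn hΓ hH]; rw [heq] at hQ; exact hQ
    rw [heq, heightIdeal_n hn hΓ hH]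
    exact ((maximalIdeal.isMaximal _).eq_of_le hP.ne_top hQ').symm
  · have hnot : ¬ Q (h + 1) := Nat.findGreatest_is_greatest (by omega) hlt
    have hv : PowerSeries.coeff (p ^ h) (mulSeries H p) ∉ P := by
      intro hv
      apply hnot
      show heightIdeal p n H h ⊔ _ ≤ P
      exact sup_le hQ ((Ideal.span_singleton_le_iff_mem _).2 hv)
    rcases Nat.eq_zero_or_pos h with h0' | hpos
    · rw [h0'] at hv ⊢
      rw [pow_zero, coeff_one_mulSeries] at hv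
      exact char0_main hn hΓ hH hP hs hv
    · exact charP_main hn hΓ hH hP hs hpos hlt hQ hv

theorem radical_stable (hn : 1 ≤ n) (hΓ : mulSeries Γ p = PowerSeries.X ^ p ^ n)
    (hH : IsUniversalDeformation p n Γ H) {M : ℕ} {J : Ideal (LTRing p n)} (hJ : J.IsRadical)
    (hs : IsStableIdeal p n Γ H M J) (hne : J ≠ ⊤) :
    ∃ h : ℕ, h ≤ n ∧ J = heightIdeal p n H h := by
  classical
  obtain ⟨M', -, hM'⟩ := minimalPrimes_stable hn hΓ hH hs
  have hex : ∃ h : ℕ, h ≤ n ∧ heightIdeal p n H h ∈ J.minimalPrimes := by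
    obtain ⟨P, hP⟩ := Ideal.nonempty_minimalPrimes hne
    obtain ⟨h, hh, rfl⟩ := prime_stable hn hΓ hH hP.1.1 (hM' P hP)
    exact ⟨h, hh, hP⟩
  refine ⟨Nat.find hex, (Nat.find_spec hex).1, le_antisymm (Nat.find_spec hex).2.1.2 ?_⟩
  refine le_trans ?_ hJ
  rw [← Ideal.sInf_minimalPrimes]
  refine le_sInf fun P hP => ?_
  obtain ⟨h, hh, rfl⟩ := prime_stable hn hΓ hH hP.1.1 (hM' P hP)
  exact heightIdeal_mono (Nat.find_min' hex ⟨hh, hP⟩)

theorem main (hn : 1 ≤ n) (hΓ : mulSeries Γ p = PowerSeries.X ^ (p ^ n))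
    (hH : IsUniversalDeformation p n Γ H) (M : ℕ) :
    (∀ P : Ideal (LTRing p n),
        (P.IsPrime ∧ IsStableIdeal p n Γ H M P) ↔ ∃ h : ℕ, h ≤ n ∧ P = heightIdeal p n H h) ∧
    (∀ J : Ideal (LTRing p n),
        (J.IsRadical ∧ IsStableIdeal p n Γ H M J) ↔
          (∃ h : ℕ, h ≤ n ∧ J = heightIdeal p n H h) ∨ J = ⊤) := by
  refine ⟨fun P => ⟨fun h => prime_stable hn hΓ hH h.1 h.2, ?_⟩, fun J => ⟨fun h => ?_, ?_⟩⟩
  · rintro ⟨h, hh, rfl⟩
    exact ⟨heightIdeal_prime hn hΓ hH hh, heightIdeal_stable hn hΓ hH M hh⟩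
  · by_cases hJ : J = ⊤
    · exact Or.inr hJ
    · exact Or.inl (radical_stable hn hΓ hH h.1 h.2 hJ)
  · rintro (⟨h, hh, rfl⟩ | rfl)
    · exact ⟨(heightIdeal_prime hn hΓ hH hh).isRadical, heightIdeal_stable hn hΓ hH M hh⟩
    · exact ⟨fun x _ => Submodule.mem_top, fun g φ _ _ _ => Ideal.comap_top⟩

end Crest.Agent.R227
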