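import Crest.Agent.R227.Exp

/-!
# R227 / NormL : normalising sums of character monomials
-/

set_option autoImplicit false

namespace Crest.Agent.R227

open Filter Topology

variable {p : ℕ} [Fact p.Prime] {C : Type} [NontriviallyNormedField C] [IsUltrametricDist C]
  [CompleteSpace C] [CharP C p] [IsAlgClosed C] {G : FormalGroup (ZMod p)} [G.IsComm] {h : ℕ}

theorem NormL_congr {β : Type} {n : ℕ} {f : ℤ → β} (hf : ∀ c, f (c + n) = f c) {i j : ℤ}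
    (h : i ≡ j [ZMOD n]) : f i = f j := by
  obtain ⟨k, hk⟩ := h.dvd
  have hp : Function.Periodic f (n : ℤ) := hf
  have h1 := hp.int_mul k i
  rw [show j = i + k * n by rw [mul_comm]; omega]
  exact_mod_cast h1.symm

theorem NormL_rep {n : ℕ} (hn : 1 ≤ n) (c : ℤ) : ∃ e : ℕ, e < n ∧ c ≡ e [ZMOD n] := by
  have hn' : (0 : ℤ) < n := by exact_mod_cast hn
  obtain ⟨d, hd⟩ := Int.eq_ofNat_of_zero_le (Int.emod_nonneg c hn'.ne')
  refine ⟨d, ?_, ?_⟩
  · have := Int.emod_lt_of_pos c hn'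
    omega
  · rw [← hd]; exact (Int.mod_modEq c n).symm

theorem NormL_max {n : ℕ} (hn : 1 ≤ n) {f : ℤ → ℝ} (hf : ∀ c, f (c + n) = f c) :
    ∃ c₀, ∀ c, f c ≤ f c₀ := by
  obtain ⟨e, -, he⟩ := (Finset.range n).exists_max_image (fun e : ℕ => f e)
    ⟨0, Finset.mem_range.2 hn⟩
  refine ⟨e, fun c => ?_⟩
  obtain ⟨d, hd, hcd⟩ := NormL_rep hn c
  rw [NormL_congr hf hcd]
  exact he d (Finset.mem_range.2 hd)

theorem NormL_eq_of_modEq {n : ℕ} {i j : ℕ} (hi : i < n) (hj : j < n)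
    (h : (i : ℤ) ≡ j [ZMOD n]) : i = j :=
  Nat.ModEq.eq_of_lt_of_lt (Int.natCast_modEq_iff.1 h) hi hj

omit [IsUltrametricDist C] [CompleteSpace C] in
theorem NormL_norm_Fr_le {n : ℕ} (hn : 1 ≤ n) {a : C} (ha : a ^ p ^ n = a) (c : ℤ) :
    ‖Fr p c a‖ ≤ 1 := by
  rw [norm_Fr]
  exact Real.rpow_le_one (norm_nonneg _) (norm_le_one_of_pow_eq hn ha)
    (zpow_nonneg (Nat.cast_nonneg _) _)

omit [IsUltrametricDist C] [CompleteSpace C] in
theorem NormL_norm_mul_le {n : ℕ} (hn : 1 ≤ n) {a : C} (ha : a ^ p ^ n = a) (c : ℤ) (w : C) :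
    ‖Fr p c a * w‖ ≤ ‖w‖ := by
  rw [norm_mul]
  exact mul_le_of_le_one_left (norm_nonneg _) (NormL_norm_Fr_le hn ha c)

omit [IsAlgClosed C] in
theorem NormL_norm_pt_le (x : C) : ‖pt G (zO p C) x‖ ≤ ‖x‖ := by
  by_cases hx : ‖x‖ < 1
  · rw [Pt.norm_def, pt_c hx]
  · have : pt G (zO p C) x = 0 := dif_neg hx
    rw [this, norm_zero]
    exact norm_nonneg _

variable (G) in
/-- functions on `𝔽_{p^n}` that are sums of monomials of relative size at most `r` -/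
def NormL_Lev (n : ℕ) (μ : ℤ → ℝ) (r : ℝ) (ξ : C → PO G (zO p C)) : Prop :=
  ∃ (κ : Type) (c : κ → ℤ) (w : κ → C), (∀ i, ‖w i‖ ≤ r * μ (c i)) ∧
    ∀ a : C, a ^ p ^ n = a → HasSum (fun i => pt G (zO p C) (Fr p (c i) a * w i)) (ξ a)

variable (G) in
/-- normalised sums -/
noncomputable def NormL_N (n : ℕ) (t : ℤ → C) (a : C) : PO G (zO p C) :=
  ∑ e ∈ Finset.range n, pt G (zO p C) (Fr p e a * t e)

theorem NormL_Lev_zero {n : ℕ} {μ : ℤ → ℝ} {r : ℝ} : NormL_Lev (C := C) G n μ r 0 :=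
  ⟨Empty, fun i => i.elim, fun i => i.elim, fun i => i.elim, fun _ _ => hasSum_empty⟩

theorem NormL_Lev_add {n : ℕ} {μ : ℤ → ℝ} {r : ℝ} {ξ η : C → PO G (zO p C)}
    (h₁ : NormL_Lev G n μ r ξ) (h₂ : NormL_Lev G n μ r η) : NormL_Lev G n μ r (ξ + η) := by
  obtain ⟨κ₁, c₁, w₁, hw₁, hs₁⟩ := h₁
  obtain ⟨κ₂, c₂, w₂, hw₂, hs₂⟩ := h₂
  refine ⟨κ₁ ⊕ κ₂, Sum.elim c₁ c₂, Sum.elim w₁ w₂, ?_, fun a ha => ?_⟩
  · rintro (i | i)
    · exact hw₁ i
    · exact hw₂ i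
  · exact HasSum.sum (hs₁ a ha) (hs₂ a ha)

theorem NormL_Lev_norm {n : ℕ} (hn : 1 ≤ n) {μ : ℤ → ℝ} (hμ1 : ∀ c, μ c < 1) {r : ℝ}
    (hr : 0 ≤ r) {ξ : C → PO G (zO p C)} (h₁ : NormL_Lev G n μ r ξ) {a : C}
    (ha : a ^ p ^ n = a) : ‖ξ a‖ ≤ r := by
  obtain ⟨κ, c, w, hw, hs⟩ := h₁
  rw [← (hs a ha).tsum_eq]
  refine IsUltrametricDist.norm_tsum_le_of_forall_le_of_nonneg hr fun i => ?_
  exact (NormL_norm_pt_le _).trans ((NormL_norm_mul_le hn ha _ _).trans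
    ((hw i).trans (mul_le_of_le_one_right hr (hμ1 _).le)))

omit [Fact p.Prime] in
theorem NormL_pow_le {μ : ℤ → ℝ} (hμ0 : ∀ c, 0 < μ c) {k : ℝ} (hk1 : k ≤ 1)
    (hk : ∀ c, μ c ^ p ^ h ≤ k * μ (c + h)) (c : ℤ) (l : ℕ) :
    μ c ^ (p ^ h) ^ (l + 1) ≤ k * μ (c + h * (l + 1 : ℕ)) := by
  induction l with
  | zero => simpa using hk c
  | succ l ih =>
    rw [pow_succ (p ^ h) (l + 1), pow_mul]
    have h1 : μ c ^ (p ^ h) ^ (l + 1) ≤ μ (c + h * (l + 1 : ℕ)) :=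
      ih.trans (mul_le_of_le_one_left (hμ0 _).le hk1)
    refine (pow_le_pow_left₀ (pow_nonneg (hμ0 _).le _) h1 _).trans ((hk _).trans (le_of_eq ?_))
    congr 2
    push_cast
    ring

theorem NormL_abel1 {M : Type} [AddCommGroup M] (a b c d : M) :
    a + (b + c) = d + c + (b + a - d) := by abel

theorem NormL_abel2 {M : Type} [AddCommGroup M] (a b c : M) : a + b = c + b + (a - c) := by abel

/-- one monomial -/
theorem NormL_step1 (hG : IsNormal p h G) (hh : 1 ≤ h) {n : ℕ} (hn : 1 ≤ n) {μ : ℤ → ℝ}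
    (hper : ∀ c, μ (c + n) = μ c) (hμ0 : ∀ c, 0 < μ c) (hμ1 : ∀ c, μ c < 1)
    {k : ℝ} (hk0 : 0 ≤ k) (hk1 : k ≤ 1) (hk : ∀ c, μ c ^ p ^ h ≤ k * μ (c + h))
    {r : ℝ} (hr0 : 0 ≤ r) (hr1 : r ≤ 1) {t : ℤ → C} (ht : ∀ e, ‖t e‖ ≤ μ e) (c : ℤ) {y : C}
    (hy : ‖y‖ ≤ r * μ c) :
    ∃ ξ : C → PO G (zO p C), NormL_Lev G n μ (k * r) ξ ∧ ∀ a : C, a ^ p ^ n = a →
      pt G (zO p C) (Fr p c a * y) + NormL_N G n t a =
        NormL_N G n (fun e => t e + if c ≡ e [ZMOD n] then y else 0) a + ξ a := by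
  obtain ⟨e, he, hce⟩ := NormL_rep hn c
  have hμce : μ c = μ e := NormL_congr hper hce
  rw [hμce] at hy
  obtain ⟨S, hS0, hS, hsum⟩ := exists_carry hG hh (hμ1 e) (ht e)
    (hy.trans (mul_le_of_le_one_left (hμ0 _).le hr1))
  have hP : 0 < p ^ h := pow_pos (Fact.out : p.Prime).pos _
  refine ⟨fun a => (pt G (zO p C) (Fr p e a * t e) + pt G (zO p C) (Fr p e a * y)) -
    pt G (zO p C) (Fr p e a * (t e + y)),
    ⟨ℕ, fun l => e + h * (l + 1 : ℕ), fun l => S (l + 1), fun l => ?_, fun a ha => ?_⟩,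
    fun a ha => ?_⟩
  · refine (hS (l + 1) (by omega)).trans ?_
    have h1 : 1 ≤ (p ^ h) ^ (l + 1) := pow_pos hP _
    calc ‖y‖ * μ e ^ ((p ^ h) ^ (l + 1) - 1)
        ≤ r * μ e * μ e ^ ((p ^ h) ^ (l + 1) - 1) :=
          mul_le_mul_of_nonneg_right hy (pow_nonneg (hμ0 _).le _)
      _ = r * μ e ^ (p ^ h) ^ (l + 1) := by
          rw [mul_assoc, ← pow_succ', Nat.sub_add_cancel h1]
      _ ≤ r * (k * μ (e + h * (l + 1 : ℕ))) :=
          mul_le_mul_of_nonneg_left (NormL_pow_le hμ0 hk1 hk e l) hr0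
      _ = k * r * μ (e + h * (l + 1 : ℕ)) := by ring
  · have h1 := (hasSum_nat_add_iff' 1).2 (hsum (Fr p e a) (NormL_norm_Fr_le hn ha e))
    simp only [Finset.range_one, Finset.sum_singleton, pow_zero, pow_one, hS0] at h1
    convert h1 using 4 with l
    rw [← pow_mul, ← Fr_natCast, ← Fr_add]
    congr 2
    push_cast
    ring
  · rw [Fr_eq_of_modEq ha hce, NormL_N, NormL_N,
      ← Finset.add_sum_erase _ _ (Finset.mem_range.2 he),
      ← Finset.add_sum_erase _ _ (Finset.mem_range.2 he), if_pos hce]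
    have h2 : ∑ x ∈ (Finset.range n).erase e,
        pt G (zO p C) (Fr p x a * (t x + if c ≡ x [ZMOD n] then y else 0)) =
        ∑ x ∈ (Finset.range n).erase e, pt G (zO p C) (Fr p x a * t x) := by
      refine Finset.sum_congr rfl fun x hx => ?_
      rw [Finset.mem_erase, Finset.mem_range] at hx
      rw [if_neg fun hcx => hx.1 (NormL_eq_of_modEq hx.2 he (hcx.symm.trans hce)), add_zero]
    rw [h2]
    exact NormL_abel1 _ _ _ _

omit [CompleteSpace C] [IsAlgClosed C] in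
theorem NormL_sum_le {n : ℕ} {μ : ℤ → ℝ} (hper : ∀ c, μ (c + n) = μ c) (hμ0 : ∀ c, 0 < μ c)
    {r : ℝ} (hr0 : 0 ≤ r) {κ : Type} (c : κ → ℤ) (w : κ → C) (hw : ∀ i, ‖w i‖ ≤ r * μ (c i))
    (s : Finset κ) (e : ℤ) : ‖∑ i ∈ s, if c i ≡ e [ZMOD n] then w i else 0‖ ≤ r * μ e := by
  refine IsUltrametricDist.norm_sum_le_of_forall_le_of_nonneg (mul_nonneg hr0 (hμ0 _).le)
    fun i _ => ?_
  split_ifs with hi
  · rw [← NormL_congr hper hi]; exact hw i
  · rw [norm_zero]; exact mul_nonneg hr0 (hμ0 _).le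

/-- finitely many monomials -/
theorem NormL_step2 (hG : IsNormal p h G) (hh : 1 ≤ h) {n : ℕ} (hn : 1 ≤ n) {μ : ℤ → ℝ}
    (hper : ∀ c, μ (c + n) = μ c) (hμ0 : ∀ c, 0 < μ c) (hμ1 : ∀ c, μ c < 1)
    {k : ℝ} (hk0 : 0 ≤ k) (hk1 : k ≤ 1) (hk : ∀ c, μ c ^ p ^ h ≤ k * μ (c + h))
    {r : ℝ} (hr0 : 0 ≤ r) (hr1 : r ≤ 1) {t : ℤ → C} (ht : ∀ e, ‖t e‖ ≤ μ e)
    {κ : Type} (c : κ → ℤ) (w : κ → C) (hw : ∀ i, ‖w i‖ ≤ r * μ (c i)) (s : Finset κ) :
    ∃ ξ : C → PO G (zO p C), NormL_Lev G n μ (k * r) ξ ∧ ∀ a : C, a ^ p ^ n = a →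
      ∑ i ∈ s, pt G (zO p C) (Fr p (c i) a * w i) + NormL_N G n t a =
        NormL_N G n (fun e => t e + ∑ i ∈ s, if c i ≡ e [ZMOD n] then w i else 0) a + ξ a := by
  classical
  induction s using Finset.induction_on with
  | empty => exact ⟨0, NormL_Lev_zero, fun a _ => by simp⟩
  | insert j s hj ih =>
    obtain ⟨ξ, hξ, hs⟩ := ih
    have ht' : ∀ e, ‖t e + ∑ i ∈ s, if c i ≡ e [ZMOD n] then w i else 0‖ ≤ μ e := fun e =>
      (IsUltrametricDist.norm_add_le_max _ _).trans (max_le (ht e)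
        ((NormL_sum_le hper hμ0 hr0 c w hw s e).trans (mul_le_of_le_one_left (hμ0 _).le hr1)))
    obtain ⟨η, hη, hs'⟩ := NormL_step1 hG hh hn hper hμ0 hμ1 hk0 hk1 hk hr0 hr1 ht' (c j) (hw j)
    refine ⟨η + ξ, NormL_Lev_add hη hξ, fun a ha => ?_⟩
    rw [Finset.sum_insert hj, add_assoc, hs a ha, ← add_assoc, hs' a ha, Pi.add_apply, add_assoc]
    congr 2
    funext e
    rw [Finset.sum_insert hj]
    ring

/-- a convergent family of monomials -/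
theorem NormL_step3 (hG : IsNormal p h G) (hh : 1 ≤ h) {n : ℕ} (hn : 1 ≤ n) {μ : ℤ → ℝ}
    (hper : ∀ c, μ (c + n) = μ c) (hμ0 : ∀ c, 0 < μ c) (hμ1 : ∀ c, μ c < 1)
    {k : ℝ} (hk0 : 0 < k) (hk1 : k ≤ 1) (hk : ∀ c, μ c ^ p ^ h ≤ k * μ (c + h))
    {r : ℝ} (hr0 : 0 < r) (hr1 : r ≤ 1) {t : ℤ → C} (ht : ∀ e, ‖t e‖ ≤ μ e)
    {κ : Type} (c : κ → ℤ) (w : κ → C) (hw : ∀ i, ‖w i‖ ≤ r * μ (c i))
    {ξ : C → PO G (zO p C)}
    (hξ : ∀ a : C, a ^ p ^ n = a → HasSum (fun i => pt G (zO p C) (Fr p (c i) a * w i)) (ξ a)) :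
    ∃ s : Finset κ, (∀ i ∉ s, ‖w i‖ ≤ k * r * μ (c i)) ∧
      ∃ ξ' : C → PO G (zO p C), NormL_Lev G n μ (k * r) ξ' ∧ ∀ a : C, a ^ p ^ n = a →
      ξ a + NormL_N G n t a =
        NormL_N G n (fun e => t e + ∑ i ∈ s, if c i ≡ e [ZMOD n] then w i else 0) a + ξ' a := by
  classical
  obtain ⟨c₀, hc₀⟩ := NormL_max hn (f := fun c => -μ c) fun c => by rw [hper]
  have hw0 : Tendsto w cofinite (𝓝 0) := by
    have h1 := Pt.summable_iff.1 (hξ 1 (one_pow _)).summable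
    convert h1 using 2 with i
    rw [map_one, one_mul, pt_c ((hw i).trans_lt ((mul_le_of_le_one_left (hμ0 _).le hr1).trans_lt
      (hμ1 _)))]
  have hfin : ∀ᶠ i in cofinite, ‖w i‖ < k * r * μ c₀ :=
    (tendsto_zero_iff_norm_tendsto_zero.1 hw0).eventually
      (gt_mem_nhds (mul_pos (mul_pos hk0 hr0) (hμ0 _)))
  rw [eventually_cofinite] at hfin
  set s := hfin.toFinset with hs
  have hout : ∀ i ∉ s, ‖w i‖ ≤ k * r * μ (c i) := fun i hi => by
    rw [hs, Set.Finite.mem_toFinset, Set.mem_ofPred_eq, not_not] at hi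
    exact hi.le.trans (mul_le_mul_of_nonneg_left (neg_le_neg_iff.1 (hc₀ _))
      (mul_pos hk0 hr0).le)
  obtain ⟨η, hη, hs'⟩ := NormL_step2 hG hh hn hper hμ0 hμ1 hk0.le hk1 hk hr0.le hr1 ht c w hw s
  refine ⟨s, hout, η + fun a => ξ a - ∑ i ∈ s, pt G (zO p C) (Fr p (c i) a * w i),
    NormL_Lev_add hη ⟨{i // i ∉ s}, fun i => c i, fun i => w i, fun i => hout i i.2,
      fun a ha => ?_⟩, fun a ha => ?_⟩
  · have h1 := hξ a ha
    rw [← sub_add_cancel (ξ a) (∑ i ∈ s, pt G (zO p C) (Fr p (c i) a * w i)),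
      ← Finset.hasSum_compl_iff] at h1
    exact h1
  · rw [Pi.add_apply, ← add_assoc, ← hs' a ha]
    exact NormL_abel2 _ _ _

/-- the limit -/
theorem NormL_lim (hG : IsNormal p h G) (hh : 1 ≤ h) {n : ℕ} (hn : 1 ≤ n) {μ : ℤ → ℝ}
    (hper : ∀ c, μ (c + n) = μ c) (hμ0 : ∀ c, 0 < μ c) (hμ1 : ∀ c, μ c < 1)
    {k : ℝ} (hk0 : 0 < k) (hk1 : k < 1) (hk : ∀ c, μ c ^ p ^ h ≤ k * μ (c + h))
    {r : ℝ} (hr0 : 0 < r) (hr1 : r ≤ 1) {t : ℤ → C} (htp : ∀ e, t (e + n) = t e)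
    (ht : ∀ e, ‖t e‖ ≤ μ e) {ξ : C → PO G (zO p C)} (hξ : NormL_Lev G n μ r ξ) :
    ∃ t' : ℤ → C, (∀ e, t' (e + n) = t' e) ∧ (∀ e, ‖t' e - t e‖ ≤ r * μ e) ∧
      ∀ a : C, a ^ p ^ n = a → ξ a + NormL_N G n t a = NormL_N G n t' a := by
  -- the invariant
  let Inv : ℕ → (ℤ → C) × (C → PO G (zO p C)) → Prop := fun L z =>
    (∀ e, z.1 (e + n) = z.1 e) ∧ (∀ e, ‖z.1 e‖ ≤ μ e) ∧ NormL_Lev G n μ (k ^ L * r) z.2 ∧
      ∀ a : C, a ^ p ^ n = a → z.2 a + NormL_N G n z.1 a = ξ a + NormL_N G n t a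
  have hkr : ∀ L : ℕ, 0 < k ^ L * r := fun L => mul_pos (pow_pos hk0 _) hr0
  have hkr1 : ∀ L : ℕ, k ^ L * r ≤ r := fun L =>
    mul_le_of_le_one_left hr0.le (pow_le_one₀ hk0.le hk1.le)
  have step : ∀ L z, Inv L z → ∃ z', Inv (L + 1) z' ∧
      ∀ e, ‖z'.1 e - z.1 e‖ ≤ k ^ L * r * μ e := by
    rintro L ⟨u, η⟩ ⟨h1, h2, ⟨κ, c, w, hw, hs⟩, h4⟩
    obtain ⟨s, -, η', hη', hs'⟩ := NormL_step3 hG hh hn hper hμ0 hμ1 hk0 hk1.le hk (hkr L)
      ((hkr1 L).trans hr1) h2 c w hw hs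
    have hb := NormL_sum_le hper hμ0 (hkr L).le c w hw s
    refine ⟨(fun e => u e + ∑ i ∈ s, if c i ≡ e [ZMOD n] then w i else 0, η'),
      ⟨fun e => ?_, fun e => ?_, ?_, fun a ha => ?_⟩, fun e => ?_⟩
    · have h1' : u (e + n) = u e := h1 e
      simp only [h1', Int.modEq_add_modulus_iff]
    · exact (IsUltrametricDist.norm_add_le_max _ _).trans (max_le (h2 e)
        ((hb e).trans (mul_le_of_le_one_left (hμ0 _).le ((hkr1 L).trans hr1))))
    · rw [pow_succ', mul_assoc]; exact hη'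
    · rw [← h4 a ha, add_comm]; exact (hs' a ha).symm
    · simpa using hb e
  choose! nxt hnxt using step
  let z : ℕ → (ℤ → C) × (C → PO G (zO p C)) := fun L => Nat.rec (t, ξ) nxt L
  have hz : ∀ L, Inv L (z L) := fun L => by
    induction L with
    | zero => exact ⟨htp, ht, by rw [pow_zero, one_mul]; exact hξ, fun a _ => rfl⟩
    | succ L ih => exact (hnxt L _ ih).1
  have hd : ∀ L e, ‖(z (L + 1)).1 e - (z L).1 e‖ ≤ k ^ L * r * μ e := fun L =>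
    (hnxt L _ (hz L)).2
  have hc : ∀ e, CauchySeq fun L => (z L).1 e := fun e =>
    cauchySeq_of_le_geometric k (r * μ e) hk1 fun L => by
      rw [dist_comm, dist_eq_norm]
      exact (hd L e).trans (le_of_eq (by ring))
  choose t' ht' using fun e => cauchySeq_tendsto_of_complete (hc e)
  have hb : ∀ L e, ‖(z L).1 e - t e‖ ≤ r * μ e := fun L e => by
    induction L with
    | zero =>
      change ‖t e - t e‖ ≤ _
      rw [sub_self, norm_zero]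
      exact (mul_pos hr0 (hμ0 _)).le
    | succ L ih =>
      rw [← sub_add_sub_cancel _ ((z L).1 e)]
      exact (IsUltrametricDist.norm_add_le_max _ _).trans (max_le ((hd L e).trans
        (mul_le_mul_of_nonneg_right (hkr1 L) (hμ0 _).le)) ih)
  have ht'μ : ∀ e, ‖t' e‖ ≤ μ e := fun e => le_of_tendsto' (ht' e).norm fun L => (hz L).2.1 e
  refine ⟨t', fun e => ?_, fun e => ?_, fun a ha => ?_⟩
  · refine tendsto_nhds_unique (ht' (e + n)) ?_
    simp only [fun L => (hz L).1 e]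
    exact ht' e
  · exact le_of_tendsto' ((ht' e).sub_const (t e)).norm fun L => hb L e
  · have h1 : Tendsto (fun L => (z L).2 a) atTop (𝓝 0) := by
      refine squeeze_zero_norm (fun L => NormL_Lev_norm hn hμ1 (hkr L).le (hz L).2.2.1 ha) ?_
      simpa using (tendsto_pow_atTop_nhds_zero_of_lt_one hk0.le hk1).mul_const r
    have h2 : Tendsto (fun L => NormL_N G n (z L).1 a) atTop (𝓝 (NormL_N G n t' a)) := by
      refine tendsto_finsetSum _ fun e _ => ?_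
      rw [tendsto_iff_dist_tendsto_zero]
      refine squeeze_zero (fun _ => dist_nonneg) (fun L => ?_)
        (tendsto_iff_norm_sub_tendsto_zero.1 (ht' e))
      rw [Pt.dist_def, pt_c ((NormL_norm_mul_le hn ha _ _).trans_lt
        (((hz L).2.1 e).trans_lt (hμ1 _))), pt_c ((NormL_norm_mul_le hn ha _ _).trans_lt
        ((ht'μ e).trans_lt (hμ1 _))), ← mul_sub]
      exact NormL_norm_mul_le hn ha _ _
    have h3 := h1.add h2
    simp only [fun L => (hz L).2.2.2 a ha, zero_add] at h3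
    exact tendsto_nhds_unique tendsto_const_nhds h3

/-- **Normalisation.** A convergent family of monomials `a ↦ [a^(p^(c i)) w i]` on `𝔽_{p^n}` is a
sum of `n` monomials, one in each class mod `n`; to leading order (for the weights `μ`) the
coefficient is the sum of the `w i` in the class.

Let `κ = max_c μ_c^P / μ_(c+h) < 1`.  Say a function `ξ` of `a` has level `L` if it is the sum of a
convergent family with `‖w i‖ ≤ κ^L μ (c i)`.  Using `exists_carry` (the `l`-th carry of two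
monomials of class `c` has class `c + h l`, norm `≤ ‖y‖ μ_c^(P^l - 1) ≤ κ^(L+1) μ_(c+hl)` when
`‖y‖ ≤ κ^L μ_c`): (level `L` function) `+ ∑_e [a^(p^e) t_e] = ∑_e [a^(p^e) t'_e] +` (level `L+1`),
with `t'_e = t_e + ∑_{class e} w i`.  Only finitely many members of a family exceed the next level.
Iterate and pass to the limit. -/
theorem norm_lemma (hG : IsNormal p h G) (hh : 1 ≤ h) {n : ℕ} (hn : 1 ≤ n) (μ : ℤ → ℝ)
    (hper : ∀ c, μ (c + n) = μ c) (hμ0 : ∀ c, 0 < μ c) (hμ1 : ∀ c, μ c < 1)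
    (hμ : ∀ c, μ c ^ p ^ h < μ (c + h)) {κ : Type} (c : κ → ℤ) (w : κ → C)
    (hw : ∀ i, ‖w i‖ ≤ μ (c i)) (hw0 : Tendsto w cofinite (𝓝 0)) :
    ∃ t : ℤ → C, (∀ e, t (e + n) = t e) ∧
      (∀ e, ‖t e - ∑' i : {i // c i ≡ e [ZMOD n]}, w i‖ < μ e) ∧
      ∀ a : C, a ^ p ^ n = a →
        ∑' i, pt G (zO p C) (Fr p (c i) a * w i) =
          ∑ e ∈ Finset.range n, pt G (zO p C) (Fr p e a * t e) := by
  classical
  obtain ⟨c₀, hc₀⟩ := NormL_max hn (f := fun c => μ c ^ p ^ h / μ (c + h)) fun c => by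
    rw [hper, add_right_comm, hper]
  set k := μ c₀ ^ p ^ h / μ (c₀ + h) with hkdef
  have hk0 : 0 < k := div_pos (pow_pos (hμ0 _) _) (hμ0 _)
  have hk1 : k < 1 := (div_lt_one (hμ0 _)).2 (hμ _)
  have hk : ∀ c, μ c ^ p ^ h ≤ k * μ (c + h) := fun c => (div_le_iff₀ (hμ0 _)).1 (hc₀ c)
  have hsum : ∀ a : C, a ^ p ^ n = a → HasSum (fun i => pt G (zO p C) (Fr p (c i) a * w i))
      (∑' i, pt G (zO p C) (Fr p (c i) a * w i)) := fun a ha => by
    refine Summable.hasSum ?_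
    rw [NonarchimedeanAddGroup.summable_iff_tendsto_cofinite_zero]
    exact squeeze_zero_norm (fun i => (NormL_norm_pt_le _).trans (NormL_norm_mul_le hn ha _ _))
      (tendsto_zero_iff_norm_tendsto_zero.1 hw0)
  have hw' : ∀ i, ‖w i‖ ≤ 1 * μ (c i) := fun i => by rw [one_mul]; exact hw i
  obtain ⟨s, hout, ξ, hξ, hs⟩ := NormL_step3 hG hh hn hper hμ0 hμ1 hk0 hk1.le hk one_pos le_rfl
    (t := 0) (fun e => by simpa using (hμ0 e).le) c w hw' hsum
  simp only [mul_one, Pi.zero_apply, zero_add] at hout hξ hs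
  obtain ⟨t, htp, ht, hN⟩ := NormL_lim hG hh hn hper hμ0 hμ1 hk0 hk1 hk hk0 hk1.le
    (t := fun e => ∑ i ∈ s, if c i ≡ e [ZMOD n] then w i else 0)
    (fun e => by simp only [Int.modEq_add_modulus_iff])
    (fun e => by simpa using NormL_sum_le hper hμ0 zero_le_one c w hw' s e) hξ
  refine ⟨t, htp, fun e => ?_, fun a ha => ?_⟩
  · have hkμ : k * μ e < μ e := mul_lt_of_lt_one_left (hμ0 _) hk1
    have hsw : Summable w := (NonarchimedeanAddGroup.summable_iff_tendsto_cofinite_zero w).2 hw0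
    have h1 : ∑' i : {i // c i ≡ e [ZMOD n]}, w i =
        ∑' i, if c i ≡ e [ZMOD n] then w i else 0 := by
      rw [show (∑' i : {i // c i ≡ e [ZMOD n]}, w i) =
        ∑' i : ({i | c i ≡ e [ZMOD n]} : Set κ), w i from rfl, tsum_subtype]
      simp only [Set.indicator_apply, Set.mem_ofPred_eq]
    have h2 : Summable fun i => if c i ≡ e [ZMOD n] then w i else 0 := by
      refine (hsw.indicator {i | c i ≡ e [ZMOD n]}).congr fun i => ?_
      simp only [Set.indicator_apply, Set.mem_ofPred_eq]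
    rw [h1, ← h2.sum_add_tsum_subtype_compl s, ← sub_sub, sub_eq_add_neg]
    refine (IsUltrametricDist.norm_add_le_max _ _).trans_lt (max_lt ((ht e).trans_lt hkμ) ?_)
    rw [norm_neg]
    refine lt_of_le_of_lt (IsUltrametricDist.norm_tsum_le_of_forall_le_of_nonneg
      (mul_pos hk0 (hμ0 e)).le fun i => ?_) hkμ
    split_ifs with hi
    · rw [← NormL_congr hper hi]; exact hout i i.2
    · rw [norm_zero]; exact (mul_pos hk0 (hμ0 e)).le
  · have h1 := hs a ha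
    have h2 : NormL_N G n (0 : ℤ → C) a = 0 := by simp [NormL_N]
    rw [h2, add_zero, add_comm, hN a ha] at h1
    exact h1

/-- **Separation** of characters (`Pt.norm_sum_c_sub`, `sum_inv_mul_Fr`: `max ‖t e‖ ≤ max ‖t e‖²`). -/
theorem sep_lemma {n : ℕ} (hn : 1 ≤ n) (t : ℤ → C) (ht : ∀ e, ‖t e‖ < 1)
    (h0 : ∀ a : C, a ^ p ^ n = a →
      ∑ e ∈ Finset.range n, pt G (zO p C) (Fr p e a * t e) = 0) :
    ∀ e : ℕ, e < n → t e = 0 := by
  classical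
  have hfin : Finite (Fq C p n) := Nat.finite_of_card_ne_zero (by
    rw [card_Fq hn]; exact pow_ne_zero _ (Fact.out : p.Prime).ne_zero)
  let _ : Fintype (Fq C p n) := Fintype.ofFinite _
  obtain ⟨e₀, he₀, hmax⟩ := (Finset.range n).exists_max_image (fun e : ℕ => ‖t e‖)
    ⟨0, Finset.mem_range.2 hn⟩
  have h1 : ∀ a : C, a ^ p ^ n = a →
      ‖∑ e ∈ Finset.range n, Fr p e a * t e‖ ≤ ‖t e₀‖ ^ 2 := fun a ha => by
    have hc : ∀ e : ℕ, (pt G (zO p C) (Fr p e a * t e)).c = Fr p e a * t e := fun e =>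
      pt_c ((NormL_norm_mul_le hn ha _ _).trans_lt (ht e))
    have h2 := Pt.norm_sum_c_sub (Finset.range n) (fun e : ℕ => pt G (zO p C) (Fr p e a * t e))
      (norm_nonneg (t e₀)) fun e he => by
        rw [hc]; exact (NormL_norm_mul_le hn ha _ _).trans (hmax e he)
    rwa [h0 a ha, Pt.zero_c, zero_sub, norm_neg, Finset.sum_congr rfl fun e _ => hc e] at h2
  have h3 : ∑ a : Fq C p n, (Fr p e₀ (a : C))⁻¹ * ∑ e ∈ Finset.range n, Fr p e (a : C) * t e =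
      -t e₀ := by
    simp only [Finset.mul_sum, ← mul_assoc]
    rw [Finset.sum_comm]
    simp only [← Finset.sum_mul, sum_inv_mul_Fr hn]
    rw [Finset.sum_eq_single_of_mem e₀ he₀ fun e he hne => ?_]
    · simp
    · rw [if_neg fun hc => hne
        (NormL_eq_of_modEq (Finset.mem_range.1 he₀) (Finset.mem_range.1 he) hc).symm, zero_mul]
  have h4 : ‖t e₀‖ ≤ ‖t e₀‖ ^ 2 := by
    conv_lhs => rw [← norm_neg, ← h3]
    refine IsUltrametricDist.norm_sum_le_of_forall_le_of_nonneg (by positivity) fun a _ => ?_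
    rw [← map_inv₀]
    exact (NormL_norm_mul_le hn (mem_Fq.1 (a⁻¹).2) _ _).trans (h1 a (mem_Fq.1 a.2))
  have h5 : ‖t e₀‖ ≤ 0 := by
    have := ht e₀
    have := norm_nonneg (t e₀)
    nlinarith
  intro e he
  exact norm_le_zero_iff.1 ((hmax e (Finset.mem_range.2 he)).trans h5)

end Crest.Agent.R227
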