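import Crest.Agent.R227.FG

/-!
# R227 / NormalAux : auxiliary lemmas for `Normal` (substitution operators on curves, filtration)
-/

set_option autoImplicit false

namespace Crest.Agent.R227.NormalAux

open MvPowerSeries Crest.LubinTate

variable {R₀ R R' : Type} [CommRing R₀] [CommRing R] [CommRing R']

theorem hs {u : PowerSeries R} (h : PowerSeries.constantCoeff u = 0) : PowerSeries.HasSubst u :=
  PowerSeries.HasSubst.of_constantCoeff_zero' h

theorem const_subst {θ u : PowerSeries R} (h0 : PowerSeries.constantCoeff θ = 0)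
    (hu : PowerSeries.constantCoeff u = 0) :
    PowerSeries.constantCoeff (θ.subst u : PowerSeries R) = 0 :=
  PowerSeries.constantCoeff_subst_eq_zero hu θ h0

theorem subst_assoc {u v : PowerSeries R} (hu : PowerSeries.constantCoeff u = 0)
    (hv : PowerSeries.constantCoeff v = 0) (f : PowerSeries R) :
    (PowerSeries.subst v (f.subst u : PowerSeries R) : PowerSeries R) =
      f.subst (u.subst v : PowerSeries R) :=
  PowerSeries.subst_comp_subst_apply (hs hu) (hs hv) f

theorem subst_left_cancel {θ u v : PowerSeries R} (h0 : PowerSeries.constantCoeff θ = 0)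
    (h1 : IsUnit (PowerSeries.coeff 1 θ)) (hu : PowerSeries.constantCoeff u = 0)
    (hv : PowerSeries.constantCoeff v = 0)
    (h : (θ.subst u : PowerSeries R) = θ.subst v) : u = v := by
  have key : ∀ w : PowerSeries R, PowerSeries.constantCoeff w = 0 →
      ((θ.substInvOfIsUnit h1).subst (θ.subst w : PowerSeries R) : PowerSeries R) = w := by
    intro w hw
    rw [← subst_assoc h0 hw, PowerSeries.subst_substInvOfIsUnit_left θ h0 h1,
      PowerSeries.subst_X (hs hw)]
  rw [← key u hu, h, key v hv]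

theorem pow_dvd_subst {f u : PowerSeries R} (hu : PowerSeries.constantCoeff u = 0) {n : ℕ}
    (hf : PowerSeries.X ^ n ∣ f) : u ^ n ∣ (f.subst u : PowerSeries R) := by
  obtain ⟨g, rfl⟩ := hf
  rw [PowerSeries.subst_mul (hs hu), PowerSeries.subst_pow (hs hu), PowerSeries.subst_X (hs hu)]
  exact Dvd.intro _ rfl

theorem dvd_subst {f u : PowerSeries R} (hu : PowerSeries.constantCoeff u = 0)
    (hf : PowerSeries.constantCoeff f = 0) : u ∣ (f.subst u : PowerSeries R) := by
  have := pow_dvd_subst (n := 1) hu (f := f) (by simpa using PowerSeries.X_dvd_iff.2 hf)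
  simpa using this

theorem exists_subst_eq {θ η : PowerSeries R} (h0 : PowerSeries.constantCoeff θ = 0)
    (h1 : IsUnit (PowerSeries.coeff 1 θ)) (hη : PowerSeries.constantCoeff η = 0) :
    ∃ η' : PowerSeries R, PowerSeries.constantCoeff η' = 0 ∧
      (θ.subst η' : PowerSeries R) = η ∧ η ∣ η' := by
  refine ⟨(θ.substInvOfIsUnit h1).subst η, const_subst (by simp) hη, ?_,
    dvd_subst hη (by simp)⟩
  rw [← subst_assoc (by simp) hη, PowerSeries.subst_substInvOfIsUnit_right θ h0 h1,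
    PowerSeries.subst_X (hs hη)]

theorem ev1_C_eq {u : PowerSeries R} (hu : PowerSeries.constantCoeff u = 0) (f : PowerSeries R) :
    ev1 (PowerSeries.C : R →+* PowerSeries R) u f = f.subst u := by
  have := ev1_eq_subst (τ := Unit) (RingHom.id R) (b := u) hu f
  rw [RingHom.comp_id, PowerSeries.map_id] at this
  exact this

theorem ev1_C_id_eq {u : PowerSeries R} (hu : PowerSeries.constantCoeff u = 0)
    (f : PowerSeries R) :
    ev1 ((PowerSeries.C : R →+* PowerSeries R).comp (RingHom.id R)) u f = f.subst u := by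
  rw [RingHom.comp_id]; exact ev1_C_eq hu f

theorem mem_spanX {u : PowerSeries R} (hu : PowerSeries.constantCoeff u = 0) :
    u ∈ Ideal.span {(PowerSeries.X : PowerSeries R)} :=
  Ideal.mem_span_singleton.2 (PowerSeries.X_dvd_iff.2 hu)

/-- substitution `γ ↦ γ (θ)` -/
noncomputable def sb (F : FormalGroup R₀) [F.IsComm] (ι : R₀ →+* R) {θ : PowerSeries R}
    (hθ : PowerSeries.constantCoeff θ = 0) : Cur F ι →+ Cur F ι :=
  Cur.evAt (PowerSeries.C : R →+* PowerSeries R) (Ideal.span {PowerSeries.X}) (mem_spanX hθ)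

theorem sb_val (F : FormalGroup R₀) [F.IsComm] (ι : R₀ →+* R) {θ : PowerSeries R}
    (hθ : PowerSeries.constantCoeff θ = 0) (γ : Cur F ι) :
    (sb F ι hθ γ).1 = γ.1.subst θ := ev1_C_eq hθ γ.1

theorem const_lin (a : R) :
    PowerSeries.constantCoeff (PowerSeries.C a * PowerSeries.X : PowerSeries R) = 0 := by simp

/-- the curve `a t` -/
noncomputable def lin (F : FormalGroup R₀) (ι : R₀ →+* R) (a : R) : Cur F ι :=
  Cur.mk F ι (PowerSeries.C a * PowerSeries.X) (const_lin a)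

theorem lin_val (F : FormalGroup R₀) (ι : R₀ →+* R) (a : R) :
    (lin F ι a).1 = PowerSeries.C a * PowerSeries.X := rfl

/-- rescaling `γ (t) ↦ γ (a t)` -/
noncomputable def rs (F : FormalGroup R₀) [F.IsComm] (ι : R₀ →+* R) (a : R) :
    Cur F ι →+ Cur F ι := sb F ι (const_lin a)

theorem subst_lin (a : R) (f : PowerSeries R) :
    (f.subst (PowerSeries.C a * PowerSeries.X : PowerSeries R) : PowerSeries R) =
      PowerSeries.rescale a f := by
  rw [PowerSeries.rescale_eq_subst, PowerSeries.smul_eq_C_mul]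

theorem rs_val (F : FormalGroup R₀) [F.IsComm] (ι : R₀ →+* R) (a : R) (γ : Cur F ι) :
    (rs F ι a γ).1 = PowerSeries.rescale a γ.1 := by
  rw [rs, sb_val, subst_lin]

theorem rs_rs (F : FormalGroup R₀) [F.IsComm] (ι : R₀ →+* R) (a b : R) (γ : Cur F ι) :
    rs F ι a (rs F ι b γ) = rs F ι (a * b) γ := by
  apply Pt.ext
  rw [rs_val, rs_val, rs_val, PowerSeries.rescale_rescale, mul_comm]

theorem rs_lin (F : FormalGroup R₀) [F.IsComm] (ι : R₀ →+* R) (a b : R) :
    rs F ι a (lin F ι b) = lin F ι (a * b) := by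
  apply Pt.ext
  rw [rs_val, lin_val, lin_val]
  ext n
  rw [PowerSeries.coeff_rescale, PowerSeries.coeff_C_mul, PowerSeries.coeff_C_mul,
    PowerSeries.coeff_X]
  split_ifs with h
  · subst h; ring
  · simp

theorem lin_zero (F : FormalGroup R₀) (ι : R₀ →+* R) : lin F ι 0 = 0 := by
  apply Pt.ext
  rw [lin_val]; simp

theorem X_dvd_val {F : FormalGroup R₀} {ι : R₀ →+* R} (γ : Cur F ι) : PowerSeries.X ∣ γ.1 :=
  Ideal.mem_span_singleton.1 γ.2

theorem add_val_sub_dvd {F : FormalGroup R₀} {ι : R₀ →+* R} (η ε : Cur F ι) {n : ℕ}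
    (h : PowerSeries.X ^ n ∣ ε.1) :
    PowerSeries.X ^ (n + 1) ∣ (η + ε).1 - (η.1 + ε.1) := by
  obtain ⟨c, hc⟩ := Pt.add_val_eq η ε
  rw [hc, add_sub_cancel_left, pow_succ']
  exact (mul_dvd_mul (X_dvd_val η) h).mul_right c

theorem sub_val_sub_dvd {F : FormalGroup R₀} [F.IsComm] {ι : R₀ →+* R} (γ δ : Cur F ι) {n : ℕ}
    (h : PowerSeries.X ^ n ∣ γ.1 - δ.1) :
    PowerSeries.X ^ (n + 1) ∣ (γ - δ).1 - (γ.1 - δ.1) := by
  obtain ⟨c, hc, e⟩ := Pt.sub_val_eq' γ δ
  rw [e, mul_add, mul_one, add_sub_cancel_left, pow_succ]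
  exact mul_dvd_mul h (Ideal.mem_span_singleton.1 hc)

theorem dvd_sub_iff {F : FormalGroup R₀} [F.IsComm] {ι : R₀ →+* R} (γ δ : Cur F ι) {n : ℕ} :
    PowerSeries.X ^ n ∣ (γ - δ).1 ↔ PowerSeries.X ^ n ∣ γ.1 - δ.1 := by
  constructor
  · intro h
    obtain ⟨c, _, e⟩ := Pt.sub_val_eq γ δ
    rw [e]; exact h.mul_right _
  · intro h
    obtain ⟨c, _, e⟩ := Pt.sub_val_eq' γ δ
    rw [e]; exact h.mul_right _

/-- curves divisible by `t ^ n` -/
def filt (F : FormalGroup R₀) [F.IsComm] (ι : R₀ →+* R) (n : ℕ) : AddSubgroup (Cur F ι) where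
  carrier := {γ | PowerSeries.X ^ n ∣ γ.1}
  zero_mem' := by simp
  add_mem' := by
    intro a b ha hb
    obtain ⟨c, hc⟩ := Pt.add_val_eq a b
    simp only [Set.mem_ofPred_eq] at ha hb ⊢
    rw [hc]
    exact (ha.add hb).add ((ha.mul_right _).mul_right _)
  neg_mem' := by
    intro a ha
    simp only [Set.mem_ofPred_eq] at ha ⊢
    have := (dvd_sub_iff (0 : Cur F ι) a (n := n)).2 (by simpa using ha)
    simpa using this

theorem mem_filt {F : FormalGroup R₀} [F.IsComm] {ι : R₀ →+* R} {n : ℕ} {γ : Cur F ι} :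
    γ ∈ filt F ι n ↔ PowerSeries.X ^ n ∣ γ.1 := Iff.rfl

theorem sb_mem_filt {F : FormalGroup R₀} [F.IsComm] {ι : R₀ →+* R} {n : ℕ} {γ : Cur F ι}
    {θ : PowerSeries R} (hθ : PowerSeries.constantCoeff θ = 0) (h : γ ∈ filt F ι n) :
    sb F ι hθ γ ∈ filt F ι n := by
  rw [mem_filt, sb_val]
  exact (pow_dvd_pow_of_dvd (PowerSeries.X_dvd_iff.2 hθ) n).trans (pow_dvd_subst hθ h)

theorem eq_zero_of_filt {F : FormalGroup R₀} [F.IsComm] {ι : R₀ →+* R} {γ : Cur F ι} (n₀ : ℕ)
    (h : ∀ n, n₀ ≤ n → γ ∈ filt F ι n) : γ = 0 := by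
  apply Pt.ext
  ext k
  have := h (max n₀ (k + 1)) (le_max_left _ _)
  rw [mem_filt, PowerSeries.X_pow_dvd_iff] at this
  simpa using this k (lt_of_lt_of_le (Nat.lt_succ_self k) (le_max_right _ _))

/-- congruent summands: the sums are congruent one step further up to the obvious error -/
theorem add_congr_dvd {F : FormalGroup R₀} [F.IsComm] {ι : R₀ →+* R} (γ γ' δ δ' : Cur F ι)
    {n : ℕ} (h₁ : PowerSeries.X ^ n ∣ γ.1 - γ'.1) (h₂ : PowerSeries.X ^ n ∣ δ.1 - δ'.1) :
    PowerSeries.X ^ (n + 1) ∣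
      (γ + δ).1 - (γ' + δ').1 - ((γ.1 - γ'.1) + (δ.1 - δ'.1)) := by
  have e : γ + δ = (γ' + δ') + ((γ - γ') + (δ - δ')) := by abel
  have a₁ := (dvd_sub_iff γ γ').2 h₁
  have a₂ := (dvd_sub_iff δ δ').2 h₂
  have a₃ : PowerSeries.X ^ n ∣ ((γ - γ') + (δ - δ')).1 :=
    (filt F ι n).add_mem (mem_filt.2 a₁) (mem_filt.2 a₂)
  have b₁ := add_val_sub_dvd (γ' + δ') _ a₃
  have b₂ := add_val_sub_dvd (γ - γ') _ a₂
  have b₃ := sub_val_sub_dvd γ γ' h₁
  have b₄ := sub_val_sub_dvd δ δ' h₂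
  rw [← e] at b₁
  convert ((b₁.add b₂).add b₃).add b₄ using 1
  ring

/-- lowest order terms of a substitution -/
theorem coeff_subst_pair (D : MvPowerSeries (Fin 2) R) (m : ℕ)
    (hD : ∀ d : Fin 2 →₀ ℕ, d.degree < m → coeff d D = 0) {γ δ : PowerSeries R}
    (hγ : PowerSeries.constantCoeff γ = 0) (hδ : PowerSeries.constantCoeff δ = 0) :
    PowerSeries.coeff m (D.subst ![γ, δ] : PowerSeries R) =
      ∑ ij ∈ Finset.HasAntidiagonal.antidiagonal m, coeff (Finsupp.single 0 ij.1 + Finsupp.single 1 ij.2) D *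
        (PowerSeries.coeff 1 γ ^ ij.1 * PowerSeries.coeff 1 δ ^ ij.2) := by
  classical
  have hsub : HasSubst ![γ, δ] := hasSubst_of_constantCoeff_zero (fun i => by
    fin_cases i
    · exact hγ
    · exact hδ)
  obtain ⟨γ', rfl⟩ := PowerSeries.X_dvd_iff.2 hγ
  obtain ⟨δ', rfl⟩ := PowerSeries.X_dvd_iff.2 hδ
  have hterm : ∀ d : Fin 2 →₀ ℕ,
      (d.prod fun s e => (![PowerSeries.X * γ', PowerSeries.X * δ'] : Fin 2 → PowerSeries R) s ^ e)
        = PowerSeries.X ^ (d 0 + d 1) * (γ' ^ d 0 * δ' ^ d 1) := by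
    intro d
    rw [Finsupp.prod_fintype _ _ (by simp), Fin.prod_univ_two]
    simp only [Matrix.cons_val_zero, Matrix.cons_val_one, mul_pow, pow_add]
    ring
  have hdeg : ∀ d : Fin 2 →₀ ℕ, d.degree = d 0 + d 1 := by
    intro d
    rw [Finsupp.degree_eq_sum, Fin.sum_univ_two]
  let e : ℕ × ℕ → (Fin 2 →₀ ℕ) := fun ij => Finsupp.single 0 ij.1 + Finsupp.single 1 ij.2
  have he0 : ∀ ij, e ij 0 = ij.1 := fun ij => by simp [e]
  have he1 : ∀ ij, e ij 1 = ij.2 := fun ij => by simp [e]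
  have hinj : Function.Injective e := by
    intro a b hab
    exact Prod.ext (by rw [← he0 a, hab, he0]) (by rw [← he1 a, hab, he1])
  rw [PowerSeries.coeff, coeff_subst hsub,
    finsum_eq_sum_of_support_subset (s := (Finset.HasAntidiagonal.antidiagonal m).image e),
    Finset.sum_image (fun a _ b _ h => hinj h)]
  · refine Finset.sum_congr rfl fun ij hij => ?_
    rw [Finset.HasAntidiagonal.mem_antidiagonal] at hij
    rw [hterm, he0, he1, hij, smul_eq_mul]
    congr 1
    change PowerSeries.coeff m _ = _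
    rw [PowerSeries.coeff_X_pow_mul', if_pos le_rfl, Nat.sub_self]
    have hx : ∀ u : PowerSeries R, PowerSeries.coeff 1 (PowerSeries.X * u) =
        PowerSeries.constantCoeff u := fun u => by
      simp
    simp [hx]
  · intro d hd
    rw [Function.mem_support, hterm] at hd
    have h1 : m ≤ d 0 + d 1 := by
      by_contra h
      exact hd (by rw [hD d (by rw [hdeg]; omega), zero_smul])
    have h2 : d 0 + d 1 ≤ m := by
      by_contra h
      apply hd
      change _ • PowerSeries.coeff m _ = _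
      rw [PowerSeries.coeff_X_pow_mul', if_neg h, smul_zero]
    simp only [Finset.coe_image, Set.mem_image, Finset.mem_coe, Finset.HasAntidiagonal.mem_antidiagonal]
    refine ⟨(d 0, d 1), by simp only; omega, ?_⟩
    ext i
    fin_cases i
    · exact he0 _
    · exact he1 _

theorem exists_extend' {p : ℕ} [Fact p.Prime] {E W : Type} [AddCommGroup E] [AddCommGroup W]
    [Module (ZMod p) E] [Module (ZMod p) W] (S : AddSubgroup E) (l : S →+ W) :
    ∃ g : E →+ W, ∀ x : S, g x = l x := by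
  let l₃ : (AddSubgroup.toZModSubmodule p S) →+ W :=
    { toFun := fun x => l ⟨x.1, x.2⟩
      map_zero' := l.map_zero
      map_add' := fun x y => l.map_add ⟨x.1, x.2⟩ ⟨y.1, y.2⟩ }
  obtain ⟨g, hg⟩ := LinearMap.exists_extend (AddMonoidHom.toZModLinearMap p l₃)
  exact ⟨g.toAddMonoidHom, fun x => LinearMap.congr_fun hg ⟨x.1, x.2⟩⟩

/-- extension of additive maps to `𝔽_p`-vector spaces -/
theorem exists_extend {p : ℕ} [Fact p.Prime] {P W : Type} [AddCommGroup P] [AddCommGroup W]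
    [Module (ZMod p) W] (P₀ : AddSubgroup P) (l : P₀ →+ W)
    (h : ∀ x : P, ∃ hx : p • x ∈ P₀, l ⟨p • x, hx⟩ = 0) :
    ∃ μ : P →+ W, ∀ x : P₀, μ x = l x := by
  let K : AddSubgroup P := l.ker.map P₀.subtype
  have hK : ∀ x : P, p • x ∈ K := by
    intro x
    obtain ⟨hx, e⟩ := h x
    exact ⟨⟨p • x, hx⟩, e, rfl⟩
  let f : P₀ →+ P ⧸ K := (QuotientAddGroup.mk' K).comp P₀.subtype
  have hker : f.rangeRestrict.ker ≤ l.ker := by
    intro x hx
    rw [AddMonoidHom.ker_rangeRestrict, AddMonoidHom.mem_ker] at hx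
    have : (x : P) ∈ K := (QuotientAddGroup.eq_zero_iff _).1 hx
    obtain ⟨y, hy, e⟩ := this
    have : y = x := Subtype.ext e
    rwa [← this]
  let l' : f.range →+ W :=
    f.rangeRestrict.liftOfSurjective f.rangeRestrict_surjective ⟨l, hker⟩
  have hl' : ∀ x : P₀, l' (f.rangeRestrict x) = l x := fun x =>
    AddMonoidHom.liftOfRightInverse_comp_apply _ _ _ _ _
  obtain ⟨g, hg⟩ := @exists_extend' p _ (P ⧸ K) W _ _ (QuotientAddGroup.zmodModule hK) _ f.range l'
  refine ⟨g.comp (QuotientAddGroup.mk' K), fun x => ?_⟩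
  rw [← hl' x]
  exact hg (f.rangeRestrict x)

end Crest.Agent.R227.NormalAux
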