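import Crest.Agent.R227.NormalTyp

/-!
# R227 / NormalDesc : descent of laws, linear endomorphisms, universal typicality
-/

set_option autoImplicit false

namespace Crest.Agent.R227.NormalAux

open MvPowerSeries Crest.LubinTate

variable {R R' : Type} [CommRing R] [CommRing R']

theorem mv_map_inj {σ : Type} {ρ : R →+* R'} (hρ : Function.Injective ρ) :
    Function.Injective (MvPowerSeries.map (σ := σ) ρ) := by
  intro f g h
  ext d
  apply hρ
  rw [← coeff_map, h, coeff_map]

theorem exists_descend {ρ : R →+* R'} (hρ : Function.Injective ρ) (F : FormalGroup R') [F.IsComm]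
    (h : ∀ d, ∃ c, ρ c = coeff d F.toPowerSeries) :
    ∃ G : FormalGroup R, G.IsComm ∧ G.map ρ = F := by
  choose f hf using h
  let g : MvPowerSeries (Fin 2) R := f
  have hg : g.map ρ = F.toPowerSeries := by
    ext d
    rw [coeff_map]
    exact hf d
  have h0 : constantCoeff g = 0 := by
    apply hρ
    rw [← constantCoeff_map, hg, F.zero_constantCoeff, map_zero]
  have e3 (g₁ g₂ : MvPowerSeries (Fin 3) R) :
      (fun i => (![g₁, g₂] i).map ρ) = ![g₁.map ρ, g₂.map ρ] := by
    ext1 i; fin_cases i <;> simp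
  have e2 (g₁ g₂ : MvPowerSeries (Fin 2) R) :
      (fun i => (![g₁, g₂] i).map ρ) = ![g₁.map ρ, g₂.map ρ] := by
    ext1 i; fin_cases i <;> simp
  let G : FormalGroup R :=
    { toPowerSeries := g
      zero_constantCoeff := h0
      lin_coeff_X := by
        apply hρ
        rw [← coeff_map, hg, F.lin_coeff_X, map_one]
      lin_coeff_Y := by
        apply hρ
        rw [← coeff_map, hg, F.lin_coeff_Y, map_one]
      assoc := by
        apply mv_map_inj hρ
        rw [map_subst (HasSubst.cons_subst_zero_left (0 : Fin 3) 1 2 h0),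
          map_subst (HasSubst.cons_subst_zero_right (0 : Fin 3) 1 2 h0), e3, e3,
          map_subst HasSubst.X_X, map_subst HasSubst.X_X, e3, e3, hg]
        simp only [map_X]
        exact F.assoc }
  refine ⟨G, ⟨?_⟩, FormalGroup.ext hg⟩
  apply mv_map_inj hρ
  change g.map ρ = (g.subst ![X 1, X 0]).map ρ
  rw [map_subst HasSubst.X_X, e2, hg]
  simp only [map_X]
  exact FormalGroup.IsComm.comm

theorem fgHom_lin_iff (H : FormalGroup R) (a : R) :
    IsFGHom H H (PowerSeries.C a * PowerSeries.X) ↔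
      ∀ d : Fin 2 →₀ ℕ, a * coeff d H.toPowerSeries = a ^ d.degree * coeff d H.toPowerSeries := by
  have e : ∀ u : MvPowerSeries (Fin 2) R, constantCoeff u = 0 →
      PowerSeries.subst u (PowerSeries.C a * PowerSeries.X : PowerSeries R) = C a * u := by
    intro u hu
    have := PowerSeries.HasSubst.of_constantCoeff_zero hu
    rw [PowerSeries.subst_mul this, PowerSeries.subst_C, PowerSeries.subst_X this]
  have e' : (![C a * X 0, C a * X 1] : Fin 2 → MvPowerSeries (Fin 2) R) =
      (fun _ : Fin 2 => a) • (X : Fin 2 → MvPowerSeries (Fin 2) R) := by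
    ext1 i
    fin_cases i <;> simp [smul_eq_C_mul]
  rw [IsFGHom, e _ H.zero_constantCoeff, e _ (by simp), e _ (by simp), e', ← rescale_eq_subst,
    and_iff_right (const_lin a), MvPowerSeries.ext_iff]
  refine forall_congr' fun d => ?_
  rw [coeff_C_mul, coeff_rescale, Finsupp.prod, Finset.prod_pow_eq_pow_sum, Finsupp.degree_apply]

theorem pow_eq_self_of_dvd {a : R} {n k : ℕ} (ha : a ^ (n + 1) = a) (hk : n ∣ k) :
    a ^ (k + 1) = a := by
  obtain ⟨c, rfl⟩ := hk
  induction c with
  | zero => simp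
  | succ c ih =>
    rw [show n * (c + 1) + 1 = (n * c + 1) + n by ring, pow_add, ih, ← pow_succ', ha]

/-- base change of curves -/
noncomputable def bc {R₀ R₀' : Type} [CommRing R₀] [CommRing R₀'] {F : FormalGroup R₀} [F.IsComm]
    {F' : FormalGroup R₀'} [F'.IsComm] {ι : R₀ →+* R} {ι' : R₀' →+* R'} (ψ : R →+* R')
    (h : F.map (ψ.comp ι) = F'.map ι') : Cur F ι →+ Cur F' ι' :=
  Pt.map (PowerSeries.map ψ) (by
    rw [← fg_map_map F' ι', ← h, fg_map_map]
    congr 1
    ext r
    simp) (fun f hf => by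
    rw [Ideal.mem_span_singleton, PowerSeries.X_dvd_iff] at hf ⊢
    rw [← PowerSeries.coeff_zero_eq_constantCoeff_apply] at hf ⊢
    rw [PowerSeries.coeff_map, hf, map_zero])

theorem bc_val {R₀ R₀' : Type} [CommRing R₀] [CommRing R₀'] {F : FormalGroup R₀} [F.IsComm]
    {F' : FormalGroup R₀'} [F'.IsComm] {ι : R₀ →+* R} {ι' : R₀' →+* R'} (ψ : R →+* R')
    (h : F.map (ψ.comp ι) = F'.map ι') (γ : Cur F ι) : (bc ψ h γ).1 = γ.1.map ψ := rfl

theorem bc_lin {R₀ R₀' : Type} [CommRing R₀] [CommRing R₀'] {F : FormalGroup R₀} [F.IsComm]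
    {F' : FormalGroup R₀'} [F'.IsComm] {ι : R₀ →+* R} {ι' : R₀' →+* R'} (ψ : R →+* R')
    (h : F.map (ψ.comp ι) = F'.map ι') (a : R) : bc ψ h (lin F ι a) = lin F' ι' (ψ a) := by
  apply Pt.ext
  rw [bc_val, lin_val, lin_val]
  simp

variable {p : ℕ} [Fact p.Prime]

/-- typicality over an algebraically closed field implies typicality over every ring -/
theorem typ_univ {L : Type} [Field L] [IsAlgClosed L] [CharP L p] (G : FormalGroup (ZMod p))
    [G.IsComm] {l : ℕ} (hl : l.Prime) (hlp : l ≠ p)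
    (tG : ∀ ζ : L, IsPrimitiveRoot ζ l → ∑ i ∈ Finset.range l,
      lin (G.map (ZMod.castHom (dvd_refl p) L)) (RingHom.id L) (ζ ^ i) = 0)
    (ι : ZMod p →+* R) (ζ : R) (hζ : ∑ i ∈ Finset.range l, ζ ^ i = 0) :
    ∑ i ∈ Finset.range l, lin G ι (ζ ^ i) = 0 := by
  classical
  have hp : p.Prime := Fact.out
  have := Fact.mk hl
  let c := ZMod.castHom (dvd_refl p) L
  let S : Cur G (Polynomial.C : ZMod p →+* Polynomial (ZMod p)) :=
    ∑ i ∈ Finset.range l, lin G Polynomial.C (Polynomial.X ^ i)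
  have hl0 : (l : L) ≠ 0 := by
    rw [Ne, CharP.cast_eq_zero_iff L p, Nat.prime_dvd_prime_iff_eq hp hl]
    exact fun e => hlp e.symm
  obtain ⟨ζ₀, hζ₀⟩ := exists_primroot hl0
  have hdvd : ∀ k, Polynomial.cyclotomic l (ZMod p) ∣ PowerSeries.coeff k S.1 := by
    intro k
    rw [← Polynomial.map_dvd_map' c, Polynomial.map_cyclotomic,
      Polynomial.cyclotomic_eq_prod_X_sub_primitiveRoots hζ₀]
    refine Finset.prod_dvd_of_coprime
      (fun a _ b _ hab => Polynomial.pairwise_coprime_X_sub_C Function.injective_id hab)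
      fun μ hμ => ?_
    rw [mem_primitiveRoots hl.pos] at hμ
    rw [Polynomial.dvd_iff_isRoot, Polynomial.IsRoot, Polynomial.eval_map]
    have e : G.map ((Polynomial.eval₂RingHom c μ).comp Polynomial.C) =
        (G.map c).map (RingHom.id L) := by
      rw [fg_map_id]; congr 1; exact Subsingleton.elim _ _
    have h1 : bc (Polynomial.eval₂RingHom c μ) e S = 0 := by
      rw [map_sum, ← tG μ hμ]
      refine Finset.sum_congr rfl fun i _ => ?_
      rw [bc_lin]
      simp [c]
    have h2 := congrArg (fun x => PowerSeries.coeff k x.1) h1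
    simp only [bc_val, PowerSeries.coeff_map, Pt.zero_val, map_zero] at h2
    exact h2
  have e : G.map ((Polynomial.eval₂RingHom ι ζ).comp Polynomial.C) = G.map ι := by
    congr 1; exact Subsingleton.elim _ _
  have h1 : bc (Polynomial.eval₂RingHom ι ζ) e S = ∑ i ∈ Finset.range l, lin G ι (ζ ^ i) := by
    rw [map_sum]
    refine Finset.sum_congr rfl fun i _ => ?_
    rw [bc_lin]
    simp
  rw [← h1]
  apply Pt.ext
  ext k
  rw [bc_val, PowerSeries.coeff_map]
  obtain ⟨w, hw⟩ := hdvd k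
  rw [hw, map_mul, Polynomial.cyclotomic_prime, map_sum]
  simp [hζ]

theorem normal_aux {L : Type} [Field L] [IsAlgClosed L] [CharP L p] {h : ℕ} (hh : 1 ≤ h)
    (G₀ : FormalGroup L) [G₀.IsComm] (hG : mulSeries G₀ p = PowerSeries.X ^ p ^ h)
    (tG : ∀ l : ℕ, l.Prime → l ≠ p → ∀ ζ : L, IsPrimitiveRoot ζ l →
      ∑ i ∈ Finset.range l, lin G₀ (RingHom.id L) (ζ ^ i) = 0) :
    G₀.map (frobenius L p) = G₀ ∧ ∀ a : L, a ≠ 0 → a ^ p ^ h = a →
      IsFGHom G₀ G₀ (PowerSeries.C a * PowerSeries.X) := by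
  have hq : p ^ h ≠ 0 := pow_ne_zero _ (Fact.out : p.Prime).ne_zero
  refine ⟨unique_aux hh _ _ (by rw [mulSeries_map, hG]; simp) hG (fun l hl hlp ζ hζ => ?_) tG,
    fun a ha0 ha => ?_⟩
  · obtain ⟨ζ', rfl⟩ := surjective_frobenius L p ζ
    have hζ' : IsPrimitiveRoot ζ' l := hζ.of_map_of_injective (frobenius L p).injective
    have e : G₀.map ((frobenius L p).comp (RingHom.id L)) =
        (G₀.map (frobenius L p)).map (RingHom.id L) := by rw [fg_map_id, RingHom.comp_id]
    have := congrArg (bc (frobenius L p) e) (tG l hl hlp ζ' hζ')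
    rw [map_sum, map_zero] at this
    simp only [bc_lin, map_pow] at this
    exact this
  · have hu : IsUnit (PowerSeries.coeff 1 (lin G₀ (RingHom.id L) a).1) := by
      rw [← chi_apply, chi_lin]; exact ha0.isUnit
    obtain ⟨G', hG', hθ⟩ := exists_conj G₀ (lin G₀ (RingHom.id L) a).const hu
    have : G' = G₀ := by
      refine unique_aux hh _ _ ?_ hG (fun l hl hlp ζ hζ => ?_) tG
      · refine subst_left_cancel (lin G₀ (RingHom.id L) a).const hu
          (constantCoeff_mulSeries G' p) (const_X_pow hq) ?_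
        rw [fgHom_mulSeries_comm hθ, hG, lin_val, X_pow_subst _ (const_lin a),
          lin_subst _ (const_X_pow hq), mul_pow, ← map_pow, ha]
      · refine sum_lin_eq_zero G₀ hθ hu l _ ?_
        have := congrArg (rs G₀ (RingHom.id L) a) (tG l hl hlp ζ hζ)
        rw [map_sum, map_zero] at this
        simp only [rs_lin] at this ⊢
        simp only [mul_comm a] at this
        exact this
    subst this
    exact hθ

theorem scal_univ {L : Type} [Field L] [IsAlgClosed L] [CharP L p] {h : ℕ} (hh : 1 ≤ h)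
    (G : FormalGroup (ZMod p))
    (hs : ∀ a : L, a ≠ 0 → a ^ p ^ h = a → IsFGHom (G.map (ZMod.castHom (dvd_refl p) L))
      (G.map (ZMod.castHom (dvd_refl p) L)) (PowerSeries.C a * PowerSeries.X))
    (ι : ZMod p →+* R) (a : R) (ha : a ^ p ^ h = a) :
    IsFGHom (G.map ι) (G.map ι) (PowerSeries.C a * PowerSeries.X) := by
  have hp : p.Prime := Fact.out
  have hq : 1 < p ^ h := Nat.one_lt_pow (by omega) hp.one_lt
  obtain ⟨n, hn⟩ : ∃ n, p ^ h = n + 1 := ⟨p ^ h - 1, by omega⟩
  have hn' : (n : L) = -1 := by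
    have := congrArg (Nat.cast : ℕ → L) hn
    rw [Nat.cast_pow, CharP.cast_eq_zero, zero_pow (by omega), Nat.cast_succ] at this
    exact eq_neg_of_add_eq_zero_left this.symm
  obtain ⟨ω, hω⟩ := exists_primroot (L := L) (n := n) (by rw [hn']; simp)
  have hω0 : ω ≠ 0 := hω.ne_zero (by omega)
  have h1 := (fgHom_lin_iff _ _).1 (hs ω hω0 (by rw [hn, pow_succ, hω.pow_eq_one, one_mul]))
  rw [fgHom_lin_iff]
  intro d
  rw [FormalGroup.map_toPowerSeries, coeff_map]
  by_cases hd : coeff d G.toPowerSeries = 0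
  · simp [hd]
  have h2 := h1 d
  rw [FormalGroup.map_toPowerSeries, coeff_map] at h2
  have h3 : ω = ω ^ d.degree :=
    mul_right_cancel₀ ((map_ne_zero (ZMod.castHom (dvd_refl p) L)).2 hd) h2
  obtain ⟨k, hk⟩ : ∃ k, d.degree = k + 1 := by
    refine ⟨d.degree - 1, ?_⟩
    have : d.degree ≠ 0 := by
      intro h0
      rw [Finsupp.degree_eq_zero_iff] at h0
      subst h0
      exact hd (by simpa using G.zero_constantCoeff)
    omega
  rw [hk] at h3 ⊢
  have h4 : ω ^ k = 1 := by
    rw [pow_succ] at h3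
    exact mul_right_cancel₀ hω0 (by rw [← h3, one_mul])
  rw [pow_eq_self_of_dvd (hn ▸ ha) (hω.dvd_of_pow_eq_one k h4)]

theorem mem_range_of_pow_card {k L : Type} [Field k] [Field L] [Finite k] (ρ : k →+* L) {x : L}
    (hx : x ^ Nat.card k = x) : ∃ c, ρ c = x := by
  have h1 : 1 < Nat.card k := Finite.one_lt_card
  have := (Polynomial.splits_X_pow_nat_card_sub_X (K := k)).mem_range_of_isRoot (i := ρ) (x := x)
    (FiniteField.X_pow_card_sub_X_ne_zero k h1) (by simp [hx])
  exact this

end Crest.Agent.R227.NormalAux
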