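import Crest.Agent.R227.NormalUniq

/-!
# R227 / NormalTyp : `p`-typification
-/

set_option autoImplicit false

namespace Crest.Agent.R227.NormalAux

open MvPowerSeries Crest.LubinTate

variable {L : Type} [Field L] (F : FormalGroup L) [F.IsComm]

/-- `N_l γ = ∑_{c ^ l = 1} γ (c t)` -/
noncomputable def NN (l : ℕ) : Cur F (RingHom.id L) →+ Cur F (RingHom.id L) :=
  ∑ c ∈ Polynomial.nthRootsFinset l (1 : L), rs F (RingHom.id L) c

theorem NN_apply (l : ℕ) (γ : Cur F (RingHom.id L)) :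
    NN F l γ = ∑ c ∈ Polynomial.nthRootsFinset l (1 : L), rs F (RingHom.id L) c γ := by
  rw [NN, AddMonoidHom.finsetSum_apply]

omit [Field L] in
theorem sum_reindex {M : Type} [AddCommMonoid M] (U : Finset L) {f : L → L}
    (hf : Function.Injective f) (hU : ∀ c ∈ U, f c ∈ U) (T : L → M) :
    ∑ c ∈ U, T (f c) = ∑ c ∈ U, T c := by
  classical
  have e : U.image f = U := Finset.eq_of_subset_of_card_le
    (Finset.image_subset_iff.2 hU) (by rw [Finset.card_image_of_injective _ hf])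
  conv_rhs => rw [← e]
  rw [Finset.sum_image (fun a _ b _ h => hf h)]

theorem rs_NN {l : ℕ} (hl : 0 < l) {c : L} (hc : c ^ l = 1) (γ : Cur F (RingHom.id L)) :
    rs F (RingHom.id L) c (NN F l γ) = NN F l γ := by
  have hc0 : c ≠ 0 := by
    rintro rfl
    rw [zero_pow hl.ne'] at hc
    exact zero_ne_one hc
  rw [NN_apply, map_sum]
  simp only [rs_rs]
  refine sum_reindex _ (f := fun x => c * x) (mul_right_injective₀ hc0) (fun x hx => ?_)
    (fun x => rs F (RingHom.id L) x γ)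
  rw [Polynomial.mem_nthRootsFinset hl] at hx ⊢
  rw [mul_pow, hc, hx, one_mul]

theorem NN_NN {l : ℕ} (hl : 0 < l) {ζ : L} (hζ : IsPrimitiveRoot ζ l) (γ : Cur F (RingHom.id L)) :
    NN F l (NN F l γ) = l • NN F l γ := by
  rw [NN_apply F l (NN F l γ), Finset.sum_congr rfl (g := fun _ => NN F l γ), Finset.sum_const,
    hζ.card_nthRootsFinset]
  intro c hc
  exact rs_NN F hl ((Polynomial.mem_nthRootsFinset hl 1).1 hc) γ

theorem NN_comm (l l' : ℕ) (γ : Cur F (RingHom.id L)) :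
    NN F l (NN F l' γ) = NN F l' (NN F l γ) := by
  simp only [NN_apply, map_sum, rs_rs]
  rw [Finset.sum_comm]
  simp only [mul_comm]

theorem NN_filt (l : ℕ) {n : ℕ} {γ : Cur F (RingHom.id L)} (h : γ ∈ filt F (RingHom.id L) n) :
    NN F l γ ∈ filt F (RingHom.id L) n := by
  rw [NN_apply]
  exact AddSubgroup.sum_mem _ fun c _ => sb_mem_filt _ h

theorem NN_mem {l : ℕ} (hl : 0 < l) {ζ : L} (hζ : IsPrimitiveRoot ζ l) (γ : Cur F (RingHom.id L)) :
    NN F l γ ∈ filt F (RingHom.id L) l := by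
  rw [mem_filt, PowerSeries.X_pow_dvd_iff]
  intro k hk
  rcases Nat.eq_zero_or_pos k with rfl | hk0
  · simpa using (NN F l γ).const
  have h := congrArg (fun x : Cur F (RingHom.id L) => PowerSeries.coeff k x.1)
    (rs_NN F hl hζ.pow_eq_one γ)
  simp only [rs_val, PowerSeries.coeff_rescale] at h
  have h1 := hζ.pow_ne_one_of_pos_of_lt hk0.ne' hk
  have : (ζ ^ k - 1) * PowerSeries.coeff k (NN F l γ).1 = 0 := by rw [sub_mul, h, one_mul, sub_self]
  exact (mul_eq_zero.1 this).resolve_left (sub_ne_zero.2 h1)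

theorem sum_pow_eq_NN {l : ℕ} (hl : 0 < l) {ζ : L} (hζ : IsPrimitiveRoot ζ l)
    (γ : Cur F (RingHom.id L)) :
    ∑ i ∈ Finset.range l, rs F (RingHom.id L) (ζ ^ i) γ = NN F l γ := by
  have : NeZero l := ⟨hl.ne'⟩
  rw [NN_apply]
  refine Finset.sum_bij (fun i _ => ζ ^ i) ?_ ?_ ?_ ?_
  · intro i _
    rw [Polynomial.mem_nthRootsFinset hl, ← pow_mul, mul_comm, pow_mul, hζ.pow_eq_one, one_pow]
  · intro i hi j hj h
    exact hζ.pow_inj (Finset.mem_range.1 hi) (Finset.mem_range.1 hj) h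
  · intro c hc
    obtain ⟨i, hi, e⟩ := hζ.eq_pow_of_pow_eq_one ((Polynomial.mem_nthRootsFinset hl 1).1 hc)
    exact ⟨i, Finset.mem_range.2 hi, e⟩
  · intro i _
    rfl

theorem const_X_pow {R : Type} [CommRing R] {q : ℕ} (hq : q ≠ 0) :
    PowerSeries.constantCoeff (PowerSeries.X ^ q : PowerSeries R) = 0 := by
  rw [map_pow, PowerSeries.constantCoeff_X, zero_pow hq]

theorem lin_subst {R : Type} [CommRing R] (a : R) {u : PowerSeries R}
    (hu : PowerSeries.constantCoeff u = 0) :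
    (PowerSeries.subst u (PowerSeries.C a * PowerSeries.X : PowerSeries R) : PowerSeries R) =
      PowerSeries.C a * u := by
  rw [PowerSeries.subst_mul (hs hu), PowerSeries.subst_C, PowerSeries.subst_X (hs hu)]
  rfl

theorem X_pow_subst {R : Type} [CommRing R] (q : ℕ) {u : PowerSeries R}
    (hu : PowerSeries.constantCoeff u = 0) :
    (PowerSeries.subst u (PowerSeries.X ^ q : PowerSeries R) : PowerSeries R) = u ^ q := by
  rw [PowerSeries.subst_pow (hs hu), PowerSeries.subst_X (hs hu)]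

theorem rs_V {q : ℕ} (hq : q ≠ 0) (c : L) (γ : Cur F (RingHom.id L)) :
    rs F (RingHom.id L) c (sb F (RingHom.id L) (const_X_pow hq) γ) =
      sb F (RingHom.id L) (const_X_pow hq) (rs F (RingHom.id L) (c ^ q) γ) := by
  apply Pt.ext
  rw [rs, rs, sb_val, sb_val, sb_val, sb_val, subst_assoc (const_X_pow hq) (const_lin c),
    subst_assoc (const_lin _) (const_X_pow hq), X_pow_subst q (const_lin c),
    lin_subst _ (const_X_pow hq), mul_pow, map_pow]

theorem NN_V {p : ℕ} [Fact p.Prime] [CharP L p] (h : ℕ) (hq : p ^ h ≠ 0) {l : ℕ} (hl : 0 < l)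
    (γ : Cur F (RingHom.id L)) :
    NN F l (sb F (RingHom.id L) (const_X_pow hq) γ) =
      sb F (RingHom.id L) (const_X_pow hq) (NN F l γ) := by
  rw [NN_apply, NN_apply]
  rw [Finset.sum_congr rfl (fun c _ => rs_V F hq c γ), ← map_sum]
  congr 1
  refine sum_reindex _ (f := fun x => x ^ p ^ h) (iterateFrobenius L p h).injective
    (fun x hx => ?_) (fun x => rs F (RingHom.id L) x γ)
  rw [Polynomial.mem_nthRootsFinset hl] at hx ⊢
  rw [← pow_mul, mul_comm, pow_mul, hx, one_pow]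

theorem nsmul_inj {l : ℕ} (hl : (l : L) ≠ 0) {γ : Cur F (RingHom.id L)} (h : l • γ = 0) :
    γ = 0 := by
  apply Pt.ext
  have e := congrArg Subtype.val h
  rw [Cur.nsmul_val] at e
  refine subst_left_cancel (constantCoeff_mulSeries (F.map (RingHom.id L)) l)
    (by rw [coeff_one_mulSeries]; exact hl.isUnit) γ.const (by simp) ?_
  rw [e, Pt.zero_val]
  exact (PowerSeries.subst_zero_of_constantCoeff_zero (constantCoeff_mulSeries _ l)).symm

theorem nsmul_surj {l : ℕ} (hl : (l : L) ≠ 0) (η : Cur F (RingHom.id L)) :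
    ∃ η' : Cur F (RingHom.id L), l • η' = η ∧
      ∀ n, η ∈ filt F (RingHom.id L) n → η' ∈ filt F (RingHom.id L) n := by
  obtain ⟨u, hu, e, hd⟩ := exists_subst_eq (constantCoeff_mulSeries (F.map (RingHom.id L)) l)
    (by rw [coeff_one_mulSeries]; exact hl.isUnit) η.const
  refine ⟨Cur.mk F _ u hu, ?_, fun n hn => (mem_filt.1 hn).trans hd⟩
  apply Pt.ext
  rw [Cur.nsmul_val]
  exact e

theorem filt_anti {m n : ℕ} (h : m ≤ n) {γ : Cur F (RingHom.id L)}
    (hγ : γ ∈ filt F (RingHom.id L) n) : γ ∈ filt F (RingHom.id L) m :=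
  (pow_dvd_pow _ h).trans hγ

theorem exists_lim (s : ℕ → Cur F (RingHom.id L))
    (hs : ∀ n, s (n + 1) - s n ∈ filt F (RingHom.id L) (n + 1)) :
    ∃ ε : Cur F (RingHom.id L), ∀ n, ε - s n ∈ filt F (RingHom.id L) (n + 1) := by
  have h1 : ∀ k n, k ≤ n → s n - s k ∈ filt F (RingHom.id L) (k + 1) := by
    intro k n hkn
    induction n, hkn using Nat.le_induction with
    | base => rw [sub_self]; exact zero_mem _
    | succ n hkn ih =>
      have : s (n + 1) - s k = (s (n + 1) - s n) + (s n - s k) := by abel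
      rw [this]
      exact add_mem (filt_anti F (by omega) (hs n)) ih
  refine ⟨Cur.mk F _ (PowerSeries.mk fun k => PowerSeries.coeff k (s k).1) (by
    rw [← PowerSeries.coeff_zero_eq_constantCoeff_apply, PowerSeries.coeff_mk]
    simpa using (s 0).const), fun n => ?_⟩
  rw [mem_filt, dvd_sub_iff, PowerSeries.X_pow_dvd_iff]
  intro k hk
  have h2 := h1 k n (by omega)
  rw [mem_filt, dvd_sub_iff, PowerSeries.X_pow_dvd_iff] at h2
  have h3 := h2 k (Nat.lt_succ_self k)
  rw [map_sub, sub_eq_zero] at h3 ⊢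
  rw [h3]
  exact PowerSeries.coeff_mk k (fun k => PowerSeries.coeff k (s k).1)

theorem chi_of_filt {γ : Cur F (RingHom.id L)} (h : γ ∈ filt F (RingHom.id L) 2) :
    chi F (RingHom.id L) γ = 0 := by
  rw [mem_filt, PowerSeries.X_pow_dvd_iff] at h
  exact h 1 (by norm_num)

theorem exists_eps [IsAlgClosed L] {p : ℕ} [Fact p.Prime] [CharP L p] {h : ℕ} (hq : p ^ h ≠ 0)
    (hF : mulSeries F p = PowerSeries.X ^ p ^ h) :
    ∃ ε : Cur F (RingHom.id L), p • ε = sb F (RingHom.id L) (const_X_pow hq) ε ∧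
      chi F (RingHom.id L) ε = 1 ∧ ∀ l : ℕ, l.Prime → l ≠ p → NN F l ε = 0 := by
  have hp : p.Prime := Fact.out
  set V := sb F (RingHom.id L) (const_X_pow (R := L) hq) with hV
  let Good : ℕ → Cur F (RingHom.id L) → Prop := fun n γ => p • γ = V γ ∧
    chi F (RingHom.id L) γ = 1 ∧ ∀ l : ℕ, l.Prime → l ≠ p → l ≤ n → NN F l γ = 0
  have h0 : Good 0 (lin F _ 1) := by
    refine ⟨?_, chi_lin _ _ _, fun l hl _ hl0 => absurd hl0 (by have := hl.pos; omega)⟩
    apply Pt.ext
    rw [Cur.nsmul_val, fg_map_id, hF, hV, sb_val, lin_val, X_pow_subst _ (const_lin 1),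
      lin_subst _ (const_X_pow hq)]
    simp
  have step : ∀ n γ, Good n γ → ∃ γ', Good (n + 1) γ' ∧
      γ' - γ ∈ filt F (RingHom.id L) (n + 1) := by
    intro n γ ⟨g1, g2, g3⟩
    by_cases hl : (n + 1).Prime ∧ n + 1 ≠ p
    · obtain ⟨hl, hlp⟩ := hl
      set l := n + 1 with hln
      have hl0 : (l : L) ≠ 0 := by
        rw [Ne, CharP.cast_eq_zero_iff L p, Nat.prime_dvd_prime_iff_eq hp hl]
        exact fun e => hlp e.symm
      obtain ⟨ζ, hζ⟩ := exists_primroot hl0
      obtain ⟨η, e, hη⟩ := nsmul_surj F hl0 (NN F l γ)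
      have hη' := hη l (NN_mem F hl.pos hζ γ)
      refine ⟨γ - η, ⟨?_, ?_, ?_⟩, ?_⟩
      · have : p • η - V η = 0 := by
          apply nsmul_inj F hl0
          rw [smul_sub, smul_comm, e, ← map_nsmul V, e, ← map_nsmul, g1, hV,
            NN_V F h hq hl.pos, sub_self]
        rw [smul_sub, map_sub, g1, sub_eq_zero.1 this]
      · rw [map_sub, g2, chi_of_filt F (filt_anti F hl.two_le hη'), sub_zero]
      · intro l' hl' hlp' hle
        apply nsmul_inj F hl0
        rw [map_sub, smul_sub, ← map_nsmul _ l η, e]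
        rcases Nat.lt_or_eq_of_le hle with hlt | rfl
        · rw [NN_comm, g3 l' hl' hlp' (by omega), map_zero, smul_zero, sub_zero]
        · rw [NN_NN F hl.pos hζ, sub_self]
      · rw [sub_sub_cancel_left]
        exact neg_mem hη'
    · refine ⟨γ, ⟨g1, g2, fun l hl' hlp hle => ?_⟩, by rw [sub_self]; exact zero_mem _⟩
      rcases Nat.lt_or_eq_of_le hle with hlt | rfl
      · exact g3 l hl' hlp (by omega)
      · exact absurd ⟨hl', hlp⟩ hl
  choose f hf using step
  let s : ∀ n, {γ // Good n γ} := fun n =>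
    Nat.rec ⟨lin F _ 1, h0⟩ (fun n x => ⟨f n x.1 x.2, (hf n x.1 x.2).1⟩) n
  obtain ⟨ε, hε⟩ := exists_lim F (fun n => (s n).1) (fun n => (hf n (s n).1 (s n).2).2)
  refine ⟨ε, ?_, ?_, fun l hl hlp => ?_⟩
  · rw [← sub_eq_zero]
    refine eq_zero_of_filt 0 fun n _ => ?_
    have e : p • ε - V ε = p • (ε - (s n).1) - V (ε - (s n).1) := by
      rw [smul_sub, map_sub, (s n).2.1]; abel
    rw [e]
    have := filt_anti F (Nat.le_succ n) (hε n)
    exact sub_mem (nsmul_mem this p) (sb_mem_filt _ this)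
  · have := chi_of_filt F (hε 1)
    rw [map_sub, (s 1).2.2.1, sub_eq_zero] at this
    exact this
  · refine eq_zero_of_filt l fun n hn => ?_
    have e : NN F l ε = NN F l (ε - (s n).1) := by
      rw [map_sub, (s n).2.2.2 l hl hlp hn, sub_zero]
    rw [e]
    exact NN_filt F l (filt_anti F (Nat.le_succ n) (hε n))

/-- transport of typicality along an isomorphism -/
theorem sum_lin_eq_zero {G : FormalGroup L} [G.IsComm] {ε : Cur F (RingHom.id L)}
    (hε : IsFGHom G F ε.1) (hu : IsUnit (PowerSeries.coeff 1 ε.1)) (l : ℕ) (c : ℕ → L)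
    (h : ∑ i ∈ Finset.range l, rs F (RingHom.id L) (c i) ε = 0) :
    ∑ i ∈ Finset.range l, lin G (RingHom.id L) (c i) = 0 := by
  let T : Cur G (RingHom.id L) →+ Cur F (RingHom.id L) := Pt.hom _ _ hε
  have hT : ∀ γ, (T γ).1 = ε.1.subst γ.1 := fun γ => ev1_C_id_eq γ.const ε.1
  have h1 : T (∑ i ∈ Finset.range l, lin G (RingHom.id L) (c i)) = 0 := by
    rw [map_sum, ← h]
    refine Finset.sum_congr rfl fun i _ => ?_
    apply Pt.ext
    rw [hT, rs, sb_val, lin_val]
  apply Pt.ext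
  refine subst_left_cancel ε.const hu (Cur.const _) (by simp) ?_
  rw [← hT, h1, Pt.zero_val, Pt.zero_val]
  exact (PowerSeries.subst_zero_of_constantCoeff_zero ε.const).symm

theorem typical_aux [IsAlgClosed L] {p : ℕ} [Fact p.Prime] [CharP L p] {h : ℕ}
    (hF : mulSeries F p = PowerSeries.X ^ p ^ h) :
    ∃ (G : FormalGroup L) (_ : G.IsComm) (ε : PowerSeries L),
      mulSeries G p = PowerSeries.X ^ p ^ h ∧
      (∀ l : ℕ, l.Prime → l ≠ p → ∀ ζ : L, IsPrimitiveRoot ζ l →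
        ∑ i ∈ Finset.range l, lin G (RingHom.id L) (ζ ^ i) = 0) ∧
      PowerSeries.coeff 1 ε = 1 ∧ IsFGHom G F ε := by
  have hq : p ^ h ≠ 0 := pow_ne_zero _ (Fact.out : p.Prime).ne_zero
  obtain ⟨ε, h1, h2, h3⟩ := exists_eps F hq hF
  have hu : IsUnit (PowerSeries.coeff 1 ε.1) := by rw [← chi_apply, h2]; exact isUnit_one
  obtain ⟨G, hG, hε⟩ := exists_conj F ε.const hu
  refine ⟨G, hG, ε.1, ?_, fun l hl hlp ζ hζ => ?_, h2, hε⟩
  · refine subst_left_cancel ε.const hu (constantCoeff_mulSeries G p) (const_X_pow hq) ?_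
    have e := congrArg Subtype.val h1
    rw [Cur.nsmul_val, fg_map_id, sb_val] at e
    rw [fgHom_mulSeries_comm hε, e]
  · refine sum_lin_eq_zero F hε hu l _ ?_
    rw [sum_pow_eq_NN F hl.pos hζ, h3 l hl hlp]

end Crest.Agent.R227.NormalAux
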