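import Crest.Agent.R227.NormalAux

/-!
# R227 / NormalUniq : uniqueness of `p`-typical laws with `[p] = X^(p^h)`
-/

set_option autoImplicit false

namespace Crest.Agent.R227.NormalAux

open MvPowerSeries Crest.LubinTate

/-- averaging a homogeneous coboundary over the roots of unity -/
theorem avg {L : Type} [Field L] {p : ℕ} [Fact p.Prime] [CharP L p] (j : ℕ) {n : ℕ} (hn : 0 < n)
    {ω : L} (hω : IsPrimitiveRoot ω n) (hn' : (n : L) = -1) (g : L → L) (g0 : g 0 = 0)
    (Γ : L → L → L) (hΓ : ∀ a b, Γ a b = g a + g b - g (a + b))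
    (hom : ∀ c a b, Γ (c * a) (c * b) = c ^ p ^ j * Γ a b) {a b : L}
    (ha : a ^ (n + 1) = a) (hb : b ^ (n + 1) = b) (hab : (a + b) ^ (n + 1) = a + b) :
    Γ a b = 0 := by
  classical
  set U := Polynomial.nthRootsFinset n (1 : L) with hU
  have hmem : ∀ c, c ∈ U ↔ c ^ n = 1 := fun c => Polynomial.mem_nthRootsFinset hn 1
  have hne : ∀ c ∈ U, c ≠ 0 := by
    intro c hc h0
    rw [hmem, h0, zero_pow hn.ne'] at hc
    exact zero_ne_one hc
  have hcard : U.card = n := hω.card_nthRootsFinset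
  let G : L → L := fun a => ∑ c ∈ U, (c ^ p ^ j)⁻¹ * g (c * a)
  have hG : ∀ a : L, a ^ (n + 1) = a → G a = a ^ p ^ j * G 1 := by
    intro a ha
    by_cases h0 : a = 0
    · subst h0
      have : p ^ j ≠ 0 := pow_ne_zero _ (Fact.out : p.Prime).ne_zero
      simp [G, g0, zero_pow this]
    · have ha' : a ^ n = 1 := by
        rw [pow_succ] at ha
        exact mul_right_cancel₀ h0 (by rw [ha, one_mul])
      simp only [G, Finset.mul_sum, mul_one]
      refine Finset.sum_nbij' (fun c => c * a) (fun c => c * a⁻¹) ?_ ?_ ?_ ?_ ?_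
      · intro c hc
        rw [hmem] at hc ⊢
        rw [mul_pow, hc, ha', one_mul]
      · intro c hc
        rw [hmem] at hc ⊢
        rw [mul_pow, hc, inv_pow, ha', inv_one, one_mul]
      · intro c _
        field_simp
      · intro c _
        field_simp
      · intro c hc
        have := hne c hc
        rw [mul_pow]
        field_simp
  have h1 : ∑ c ∈ U, (c ^ p ^ j)⁻¹ * Γ (c * a) (c * b) = -Γ a b := by
    rw [Finset.sum_congr rfl (g := fun _ => Γ a b), Finset.sum_const, hcard, nsmul_eq_mul, hn',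
      neg_one_mul]
    intro c hc
    have := hne c hc
    rw [hom]
    field_simp
  have h2 : ∑ c ∈ U, (c ^ p ^ j)⁻¹ * Γ (c * a) (c * b) = G a + G b - G (a + b) := by
    simp only [G, ← Finset.sum_add_distrib, ← Finset.sum_sub_distrib]
    refine Finset.sum_congr rfl fun c _ => ?_
    rw [hΓ, ← mul_add c a b]
    ring
  rw [h2, hG a ha, hG b hb, hG _ hab, add_pow_char_pow] at h1
  rw [← neg_eq_zero, ← h1]
  ring

variable {R₀ R : Type} [CommRing R₀] [CommRing R]

/-- the linear coefficient of a curve -/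
noncomputable def chi (F : FormalGroup R₀) [F.IsComm] (ι : R₀ →+* R) : Cur F ι →+ R :=
  AddMonoidHom.mk' (fun γ => PowerSeries.coeff 1 γ.1) (by
    intro γ δ
    have h := add_val_sub_dvd γ δ (n := 1) (by simpa using X_dvd_val δ)
    rw [PowerSeries.X_pow_dvd_iff] at h
    have := h 1 (by norm_num)
    rw [map_sub, map_add, sub_eq_zero] at this
    exact this)

theorem chi_apply (F : FormalGroup R₀) [F.IsComm] (ι : R₀ →+* R) (γ : Cur F ι) :
    chi F ι γ = PowerSeries.coeff 1 γ.1 := rfl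

theorem chi_lin (F : FormalGroup R₀) [F.IsComm] (ι : R₀ →+* R) (a : R) :
    chi F ι (lin F ι a) = a := by
  rw [chi_apply, lin_val]; simp

theorem chi_rs (F : FormalGroup R₀) [F.IsComm] (ι : R₀ →+* R) (a : R) (γ : Cur F ι) :
    chi F ι (rs F ι a γ) = a * chi F ι γ := by
  rw [chi_apply, rs_val, PowerSeries.coeff_rescale, pow_one, chi_apply]

/-- the degree `m` part of `F - G` as a function -/
noncomputable def Gam (F G : FormalGroup R) (m : ℕ) (a b : R) : R :=
  ∑ ij ∈ Finset.HasAntidiagonal.antidiagonal m,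
    coeff (Finsupp.single 0 ij.1 + Finsupp.single 1 ij.2) (F.toPowerSeries - G.toPowerSeries) *
      (a ^ ij.1 * b ^ ij.2)

theorem Gam_hom (F G : FormalGroup R) (m : ℕ) (c a b : R) :
    Gam F G m (c * a) (c * b) = c ^ m * Gam F G m a b := by
  simp only [Gam, Finset.mul_sum]
  refine Finset.sum_congr rfl fun ij hij => ?_
  rw [Finset.HasAntidiagonal.mem_antidiagonal] at hij
  rw [← hij, pow_add, mul_pow, mul_pow]
  ring

section step

variable {F G : FormalGroup R} [F.IsComm] [G.IsComm] {m : ℕ}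
  (hD : ∀ d : Fin 2 →₀ ℕ, d.degree < m → coeff d (F.toPowerSeries - G.toPowerSeries) = 0)

include hD in
theorem key (γ δ : Cur F (RingHom.id R)) (γ' δ' : Cur G (RingHom.id R))
    (h₁ : PowerSeries.X ^ m ∣ γ.1 - γ'.1) (h₂ : PowerSeries.X ^ m ∣ δ.1 - δ'.1) :
    PowerSeries.X ^ m ∣ (γ + δ).1 - (γ' + δ').1 ∧
      PowerSeries.coeff m ((γ + δ).1 - (γ' + δ').1) =
        PowerSeries.coeff m (γ.1 - γ'.1) + PowerSeries.coeff m (δ.1 - δ'.1) +
          Gam F G m (chi G _ γ') (chi G _ δ') := by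
  let γ'' : Cur F (RingHom.id R) := Cur.mk F _ γ'.1 γ'.const
  let δ'' : Cur F (RingHom.id R) := Cur.mk F _ δ'.1 δ'.const
  have hsub : HasSubst ![γ'.1, δ'.1] := hasSubst_of_constantCoeff_zero (fun i => by
    fin_cases i
    · exact γ'.const
    · exact δ'.const)
  have e : (γ'' + δ'').1 - (γ' + δ').1 =
      (F.toPowerSeries - G.toPowerSeries).subst ![γ'.1, δ'.1] := by
    rw [Cur.add_val, Cur.add_val, fg_map_id, fg_map_id, subst_sub hsub]
    rfl
  have a := add_congr_dvd γ γ'' δ δ'' (n := m) h₁ h₂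
  have b : PowerSeries.X ^ m ∣
      ((F.toPowerSeries - G.toPowerSeries).subst ![γ'.1, δ'.1] : PowerSeries R) := by
    rw [PowerSeries.X_pow_dvd_iff]
    intro k hk
    rw [coeff_subst_pair _ k (fun d hd => hD d (hd.trans hk)) γ'.const δ'.const]
    refine Finset.sum_eq_zero fun ij hij => ?_
    rw [Finset.HasAntidiagonal.mem_antidiagonal] at hij
    rw [hD _ (by simp [hij, hk]), zero_mul]
  have c := coeff_subst_pair _ m hD γ'.const δ'.const
  obtain ⟨w, hw⟩ := a
  have e' : (γ + δ).1 - (γ' + δ').1 = PowerSeries.X ^ (m + 1) * w + (γ.1 - γ'.1) + (δ.1 - δ'.1) +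
      (F.toPowerSeries - G.toPowerSeries).subst ![γ'.1, δ'.1] := by
    rw [← e, ← hw]
    change _ = (γ + δ).1 - (γ'' + δ'').1 - ((γ.1 - γ'.1) + (δ.1 - δ'.1)) + _ + _ + _
    ring
  rw [e']
  refine ⟨((((pow_dvd_pow _ (Nat.le_succ m)).mul_right w).add h₁).add h₂).add b, ?_⟩
  rw [map_add, map_add, map_add, c, PowerSeries.coeff_X_pow_mul', if_neg (by omega), zero_add]
  rfl

/-- pairs of curves congruent mod `t ^ m` -/
def PP : AddSubgroup (Cur F (RingHom.id R) × Cur G (RingHom.id R)) where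
  carrier := {x | PowerSeries.X ^ m ∣ x.1.1 - x.2.1}
  zero_mem' := by simp
  add_mem' := fun {a b} ha hb => (key hD a.1 b.1 a.2 b.2 ha hb).1
  neg_mem' := by
    intro x hx
    let δ : Cur F (RingHom.id R) := Cur.mk F _ (-x.2).1 (-x.2).const
    have h := (key hD x.1 δ x.2 (-x.2) hx (by simp [δ, Cur.mk])).1
    rw [add_neg_cancel, Pt.zero_val, sub_zero] at h
    have h' := (dvd_sub_iff δ (-x.1) (n := m)).1 (by rwa [sub_neg_eq_add, add_comm])
    exact dvd_sub_comm.1 h'

theorem mem_PP {x : Cur F (RingHom.id R) × Cur G (RingHom.id R)} :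
    x ∈ PP hD ↔ PowerSeries.X ^ m ∣ x.1.1 - x.2.1 := Iff.rfl

/-- the `t ^ m` coefficient of the difference -/
noncomputable def lam (x : PP hD) : R := PowerSeries.coeff m (x.1.1.1 - x.1.2.1)

/-- the linear coefficient -/
noncomputable def chiP : PP hD →+ R :=
  (chi G (RingHom.id R)).comp ((AddMonoidHom.snd _ _).comp (PP hD).subtype)

theorem chiP_apply (x : PP hD) : chiP hD x = chi G _ x.1.2 := rfl

theorem lam_add (x y : PP hD) :
    lam hD (x + y) = lam hD x + lam hD y + Gam F G m (chiP hD x) (chiP hD y) :=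
  (key hD x.1.1 y.1.1 x.1.2 y.1.2 x.2 y.2).2

/-- the pair `(a t, a t)` -/
noncomputable def sP (a : R) : PP hD := ⟨(lin F _ a, lin G _ a), by
  rw [mem_PP, lin_val, lin_val, sub_self]; exact dvd_zero _⟩

theorem lam_sP (a : R) : lam hD (sP hD a) = 0 := by
  change PowerSeries.coeff m ((lin F (RingHom.id R) a).1 - (lin G (RingHom.id R) a).1) = 0
  rw [lin_val, lin_val, sub_self, map_zero]

theorem chiP_sP (a : R) : chiP hD (sP hD a) = a := chi_lin G (RingHom.id R) a

theorem sP_zero : sP hD 0 = 0 := by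
  apply Subtype.ext
  exact Prod.ext (lin_zero _ _) (lin_zero _ _)

include hD in
theorem Gam_zero_left (a : R) : Gam F G m 0 a = 0 := by
  have := lam_add hD (sP hD 0) (sP hD a)
  rw [chiP_sP, chiP_sP, lam_sP, lam_sP, sP_zero, zero_add, lam_sP] at this
  simpa using this.symm

/-- `λ` is additive on the kernel of `χ` -/
noncomputable def lam0 : (chiP hD).ker →+ R :=
  AddMonoidHom.mk' (fun x => lam hD x.1) (by
    intro x y
    have hx : chiP hD x.1 = 0 := x.2
    change lam hD (x.1 + y.1) = _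
    rw [lam_add, hx, Gam_zero_left hD, add_zero])

/-- `[a] + [b] - [a + b]` -/
noncomputable def xP (a b : R) : (chiP hD).ker := ⟨sP hD a + sP hD b - sP hD (a + b), by
  rw [AddMonoidHom.mem_ker, map_sub, map_add, chiP_sP, chiP_sP, chiP_sP, sub_self]⟩

theorem lam0_xP (a b : R) : lam0 hD (xP hD a b) = Gam F G m a b := by
  have h1 := lam_add hD (sP hD a) (sP hD b)
  have h2 := lam_add hD (xP hD a b).1 (sP hD (a + b))
  have h3 : (xP hD a b).1 + sP hD (a + b) = sP hD a + sP hD b := by simp [xP]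
  have h4 : chiP hD (xP hD a b).1 = 0 := (xP hD a b).2
  rw [h3, h1, h4, Gam_zero_left hD, lam_sP, lam_sP, lam_sP, chiP_sP, chiP_sP] at h2
  change lam hD (xP hD a b).1 = _
  simpa using h2.symm

include hD in
theorem Gam_eq_zero_of_dvd {l : ℕ} (hlm : l ∣ m) {ζ : R} (hζ : ζ ^ l = 1)
    (tF : ∑ i ∈ Finset.range l, lin F (RingHom.id R) (ζ ^ i) = 0)
    (tG : ∑ i ∈ Finset.range l, lin G (RingHom.id R) (ζ ^ i) = 0) (a b : R) :
    (l : R) * Gam F G m a b = 0 := by
  have hs : ∀ c : R, ∑ i ∈ Finset.range l, sP hD (ζ ^ i * c) = 0 := by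
    intro c
    apply Subtype.ext
    rw [AddSubgroup.val_finsetSum]
    refine Prod.ext ?_ ?_
    · rw [Prod.fst_sum]
      have := congrArg (rs F (RingHom.id R) c) tF
      rw [map_sum, map_zero] at this
      simp only [rs_lin, mul_comm c] at this
      exact this
    · rw [Prod.snd_sum]
      have := congrArg (rs G (RingHom.id R) c) tG
      rw [map_sum, map_zero] at this
      simp only [rs_lin, mul_comm c] at this
      exact this
  have hx : ∑ i ∈ Finset.range l, xP hD (ζ ^ i * a) (ζ ^ i * b) = 0 := by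
    apply Subtype.ext
    rw [AddSubgroup.val_finsetSum]
    simp only [xP, ← mul_add]
    rw [Finset.sum_sub_distrib, Finset.sum_add_distrib, hs, hs, hs]
    simp
  have := congrArg (lam0 hD) hx
  rw [map_sum, map_zero] at this
  obtain ⟨k, rfl⟩ := hlm
  rw [← this, Finset.sum_congr rfl (g := fun _ => Gam F G (l * k) a b)]
  · simp
  · intro i _
    rw [lam0_xP, Gam_hom, ← pow_mul, mul_comm i, mul_assoc, pow_mul, hζ, one_pow, one_mul]

include hD in
theorem exists_cobdry {p : ℕ} [Fact p.Prime] [CharP R p] {h : ℕ} (hh : 1 ≤ h) (hm : 1 ≤ m)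
    (hF : mulSeries F p = PowerSeries.X ^ p ^ h) (hG : mulSeries G p = PowerSeries.X ^ p ^ h) :
    ∃ g : R → R, g 0 = 0 ∧ ∀ a b, Gam F G m a b = g a + g b - g (a + b) := by
  let _ : Algebra (ZMod p) R := ZMod.algebra R p
  obtain ⟨μ, hμ⟩ := exists_extend (p := p) (chiP hD).ker (lam0 hD) (by
    intro x
    refine ⟨by rw [AddMonoidHom.mem_ker, map_nsmul, nsmul_eq_mul, CharP.cast_eq_zero, zero_mul],
      ?_⟩
    change PowerSeries.coeff m ((p • x.1.1).1 - (p • x.1.2).1) = 0
    rw [Cur.nsmul_val, Cur.nsmul_val, fg_map_id, fg_map_id, hF, hG,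
      PowerSeries.subst_pow (hs x.1.1.const), PowerSeries.subst_pow (hs x.1.2.const),
      PowerSeries.subst_X (hs x.1.1.const), PowerSeries.subst_X (hs x.1.2.const)]
    have : CharP (PowerSeries R) p :=
      charP_of_injective_ringHom (f := (PowerSeries.C : R →+* PowerSeries R))
        PowerSeries.C_injective p
    rw [← sub_pow_char_pow]
    have h1 : PowerSeries.X ^ (m * p ^ h) ∣ (x.1.1.1 - x.1.2.1) ^ p ^ h := by
      rw [pow_mul]; exact pow_dvd_pow_of_dvd x.2 _
    rw [PowerSeries.X_pow_dvd_iff] at h1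
    apply h1
    have : 1 < p ^ h := Nat.one_lt_pow (by omega) (Fact.out : p.Prime).one_lt
    nlinarith)
  refine ⟨fun a => μ (sP hD a), by simp [sP_zero], fun a b => ?_⟩
  rw [← lam0_xP hD, ← hμ]
  simp [xP]

end step

theorem coeff_eq_zero_of_Gam {L : Type} [Field L] (F G : FormalGroup L) (m : ℕ) (U : Finset L)
    (hU : m < U.card) (h : ∀ b ∈ U, Gam F G m 1 b = 0) (d : Fin 2 →₀ ℕ) (hd : d.degree = m) :
    coeff d (F.toPowerSeries - G.toPowerSeries) = 0 := by
  classical
  let Q : Polynomial L := ∑ ij ∈ Finset.HasAntidiagonal.antidiagonal m,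
    Polynomial.monomial ij.2
      (coeff (Finsupp.single 0 ij.1 + Finsupp.single 1 ij.2) (F.toPowerSeries - G.toPowerSeries))
  have hQ : Q = 0 := by
    refine Polynomial.eq_zero_of_natDegree_lt_card_of_eval_eq_zero' Q U ?_ ?_
    · intro b hb
      rw [← h b hb]
      simp only [Q, Gam, Polynomial.eval_finsetSum, Polynomial.eval_monomial, one_pow, one_mul]
    · refine lt_of_le_of_lt ?_ hU
      refine Polynomial.natDegree_sum_le_of_forall_le _ _ fun ij hij => ?_
      rw [Finset.HasAntidiagonal.mem_antidiagonal] at hij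
      exact (Polynomial.natDegree_monomial_le _).trans (by omega)
  have h1 := congrArg (fun P => Polynomial.coeff P (d 1)) hQ
  have hdeg : d 0 + d 1 = m := by rw [← hd, Finsupp.degree_eq_sum, Fin.sum_univ_two]
  simp only [Q, Polynomial.finsetSum_coeff, Polynomial.coeff_zero] at h1
  rw [Finset.sum_eq_single (d 0, d 1)] at h1
  · rw [Polynomial.coeff_monomial, if_pos rfl] at h1
    rw [← h1]
    congr 2
    ext i
    fin_cases i <;> simp
  · intro ij hij hne
    rw [Finset.HasAntidiagonal.mem_antidiagonal] at hij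
    rw [Polynomial.coeff_monomial, if_neg]
    intro e
    exact hne (Prod.ext (by simp only; omega) e)
  · intro hn
    exact absurd (Finset.HasAntidiagonal.mem_antidiagonal.2 hdeg) hn

theorem exists_primroot {L : Type} [Field L] [IsAlgClosed L] {n : ℕ} (hn : (n : L) ≠ 0) :
    ∃ ζ : L, IsPrimitiveRoot ζ n := by
  have : NeZero (n : L) := ⟨hn⟩
  have : NeZero n := ⟨by rintro rfl; simp at hn⟩
  exact HasEnoughRootsOfUnity.exists_primitiveRoot L n

theorem unique_aux {p : ℕ} [Fact p.Prime] {L : Type} [Field L] [IsAlgClosed L] [CharP L p] {h : ℕ}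
    (hh : 1 ≤ h) (F G : FormalGroup L) [F.IsComm] [G.IsComm]
    (hF : mulSeries F p = PowerSeries.X ^ p ^ h) (hG : mulSeries G p = PowerSeries.X ^ p ^ h)
    (tF : ∀ l : ℕ, l.Prime → l ≠ p → ∀ ζ : L, IsPrimitiveRoot ζ l →
      ∑ i ∈ Finset.range l, lin F (RingHom.id L) (ζ ^ i) = 0)
    (tG : ∀ l : ℕ, l.Prime → l ≠ p → ∀ ζ : L, IsPrimitiveRoot ζ l →
      ∑ i ∈ Finset.range l, lin G (RingHom.id L) (ζ ^ i) = 0) : F = G := by
  classical
  have hp : p.Prime := Fact.out
  have main : ∀ m : ℕ, ∀ d : Fin 2 →₀ ℕ, d.degree < m →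
      coeff d (F.toPowerSeries - G.toPowerSeries) = 0 := by
    intro m
    induction m with
    | zero => intro d hd; omega
    | succ m ih =>
      intro d hd
      rcases Nat.lt_succ_iff_lt_or_eq.1 hd with hd | hd
      · exact ih d hd
      rcases Nat.eq_zero_or_pos m with rfl | hm
      · have : d = 0 := (Finsupp.degree_eq_zero_iff d).1 hd
        subst this
        simp [F.zero_constantCoeff, G.zero_constantCoeff]
      have hq : m + 2 ≤ p ^ (m + 1) := Nat.lt_pow_self hp.one_lt
      obtain ⟨n, hn⟩ : ∃ n, p ^ (m + 1) = n + 1 := ⟨p ^ (m + 1) - 1, by omega⟩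
      have hn' : (n : L) = -1 := by
        have := congrArg (Nat.cast : ℕ → L) hn
        rw [Nat.cast_pow, CharP.cast_eq_zero, zero_pow (by omega), Nat.cast_succ] at this
        exact eq_neg_of_add_eq_zero_left this.symm
      obtain ⟨ω, hω⟩ := exists_primroot (L := L) (n := n) (by rw [hn']; simp)
      have hn0 : 0 < n := by omega
      refine coeff_eq_zero_of_Gam F G m (Polynomial.nthRootsFinset n (1 : L))
        (by rw [hω.card_nthRootsFinset]; omega) (fun b hb => ?_) d hd
      by_cases hl : ∃ l : ℕ, l.Prime ∧ l ∣ m ∧ l ≠ p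
      · obtain ⟨l, hl, hlm, hlp⟩ := hl
        have hl0 : (l : L) ≠ 0 := by
          rw [Ne, CharP.cast_eq_zero_iff L p, Nat.prime_dvd_prime_iff_eq hp hl]
          exact fun e => hlp e.symm
        obtain ⟨ζ, hζ⟩ := exists_primroot hl0
        have := Gam_eq_zero_of_dvd ih hlm hζ.pow_eq_one (tF l hl hlp ζ hζ) (tG l hl hlp ζ hζ) 1 b
        exact (mul_eq_zero.1 this).resolve_left hl0
      · push Not at hl
        obtain ⟨j, hj⟩ : ∃ j, m = p ^ j :=
          ⟨_, Nat.eq_prime_pow_of_unique_prime_dvd hm.ne' (fun {d} h1 h2 => hl d h1 h2)⟩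
        obtain ⟨g, g0, hg⟩ := exists_cobdry ih hh hm hF hG
        have hb' : b ^ (n + 1) = b := by
          rw [Polynomial.mem_nthRootsFinset hn0] at hb
          rw [pow_succ, hb, one_mul]
        refine avg j hn0 hω hn' g g0 (Gam F G m) hg (fun c a b => by rw [Gam_hom, hj])
          (one_pow _) hb' ?_
        rw [← hn, add_pow_char_pow, one_pow, hn, hb']
  ext d
  have := main (d.degree + 1) d (Nat.lt_succ_self _)
  rwa [map_sub, sub_eq_zero] at this

end Crest.Agent.R227.NormalAux
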