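import Crest.Agent.R227.PtAux

/-!
# R227 / Pt : the group of points of a commutative formal group law, homomorphisms

`Pt F ι N` = elements of the ideal `N ⊆ B` with the group law `F` (coefficients pushed along
`ι : R →+* B`).  `Cur F ι` = curves: points in `X · R'⟦X⟧`.
-/

set_option autoImplicit false

namespace Crest.Agent.R227

open MvPowerSeries Crest.LubinTate PtAux

variable {σ τ R R' B B' : Type} [CommRing R] [CommRing R'] [CommRing B] [CommRing B']

/-- The formal inverse `i(X)`, `F (X, i X) = 0`. -/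
noncomputable def negS (F : FormalGroup R) : PowerSeries R :=
  Classical.epsilon fun i : PowerSeries R =>
    PowerSeries.constantCoeff i = 0 ∧ F.toPowerSeries.subst ![PowerSeries.X, i] = 0

/-- Existence of the inverse series.  E.g.: by `subst_surjective` the substitution
`s : (X,Y) ↦ (X,F)` is onto, `s Ψ = Y`; the substitution `t : (X,Y) ↦ (X,Ψ)` is onto too and
`s ∘ t = id`, so `t ∘ s = id`, i.e. `F (X, Ψ) = Y`; put `Y = 0`. -/
theorem negS_spec (F : FormalGroup R) :
    PowerSeries.constantCoeff (negS F) = 0 ∧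
      F.toPowerSeries.subst ![PowerSeries.X, negS F] = 0 := by
  exact Classical.epsilon_spec (exists_neg F)

/-- Points of `F` in the ideal `N` of `B`. -/
@[nolint unusedArguments]
def Pt (_F : FormalGroup R) (_ι : R →+* B) (N : Ideal B) : Type := {x : B // x ∈ N}

namespace Pt

variable {F G : FormalGroup R} {ι : R →+* B} {N : Ideal B}

@[ext] theorem ext {x y : Pt F ι N} (h : x.1 = y.1) : x = y := Subtype.ext h

theorem pair_mem (x y : Pt F ι N) : ∀ i, (![x.1, y.1] : Fin 2 → B) i ∈ N := by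
  intro i; fin_cases i
  · exact x.2
  · exact y.2

instance : Zero (Pt F ι N) := ⟨⟨0, N.zero_mem⟩⟩

variable [IsEv N]

noncomputable instance : Add (Pt F ι N) :=
  ⟨fun x y => ⟨ev ι ![x.1, y.1] F.toPowerSeries,
    ev_mem N ι (pair_mem x y) F.zero_constantCoeff⟩⟩

noncomputable instance : Neg (Pt F ι N) :=
  ⟨fun x => ⟨ev1 ι x.1 (negS F), ev1_mem N ι x.2 (negS_spec F).1⟩⟩

omit [IsEv N] in
@[simp] theorem zero_val : (0 : Pt F ι N).1 = 0 := rfl

theorem add_val (x y : Pt F ι N) : (x + y).1 = ev ι ![x.1, y.1] F.toPowerSeries := rfl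

theorem neg_val (x : Pt F ι N) : (-x).1 = ev1 ι x.1 (negS F) := rfl

protected theorem add_assoc' (x y z : Pt F ι N) : x + y + z = x + (y + z) := by
  have hv : ∀ i, (![x.1, y.1, z.1] : Fin 3 → B) i ∈ N := by
    intro i; fin_cases i
    · exact x.2
    · exact y.2
    · exact z.2
  have y0 : constantCoeff (X 0 : MvPowerSeries (Fin 3) R) = 0 := constantCoeff_X 0
  have y1 : constantCoeff (X 1 : MvPowerSeries (Fin 3) R) = 0 := constantCoeff_X 1
  have y2 : constantCoeff (X 2 : MvPowerSeries (Fin 3) R) = 0 := constantCoeff_X 2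
  have h := congrArg (ev ι ![x.1, y.1, z.1]) (F.assoc' (hs1 y0) (hs1 y1) (hs1 y2))
  rw [ev_subst2 N ι hv _ (cc_subst2 F.zero_constantCoeff y0 y1) y2,
    ev_subst2 N ι hv _ y0 (cc_subst2 F.zero_constantCoeff y1 y2), ev_subst2 N ι hv _ y0 y1,
    ev_subst2 N ι hv _ y1 y2, ev_X N ι hv, ev_X N ι hv, ev_X N ι hv] at h
  exact Subtype.ext h

protected theorem zero_add' (x : Pt F ι N) : 0 + x = x := by
  have h := congrArg (ev1 ι x.1) (F.zero_add (f := (PowerSeries.X : PowerSeries R)) (hs1 cc_X1))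
  rw [ev1_subst2 N ι x.2 _ (map_zero _) cc_X1, map_zero, ev1_X N ι x.2] at h
  exact Subtype.ext h

protected theorem add_zero' (x : Pt F ι N) : x + 0 = x := by
  have h := congrArg (ev1 ι x.1) (F.add_zero (f := (PowerSeries.X : PowerSeries R)) (hs1 cc_X1))
  rw [ev1_subst2 N ι x.2 _ cc_X1 (map_zero _), map_zero, ev1_X N ι x.2] at h
  exact Subtype.ext h

protected theorem add_neg' (x : Pt F ι N) : x + -x = 0 := by
  have h := congrArg (ev1 ι x.1) (negS_spec F).2
  rw [ev1_subst2 N ι x.2 _ cc_X1 (negS_spec F).1, map_zero, ev1_X N ι x.2] at h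
  exact Subtype.ext h

protected theorem add_comm' [F.IsComm] (x y : Pt F ι N) : x + y = y + x := by
  have h := congrArg (ev ι ![x.1, y.1]) (FormalGroup.IsComm.comm (F := F))
  rw [ev_subst2 N ι (pair_mem x y) _ (constantCoeff_X 1) (constantCoeff_X 0),
    ev_X N ι (pair_mem x y), ev_X N ι (pair_mem x y)] at h
  exact Subtype.ext h

noncomputable instance [F.IsComm] : AddCommGroup (Pt F ι N) where
  add_assoc := Pt.add_assoc'
  zero_add := Pt.zero_add'
  add_zero := Pt.add_zero'
  add_comm := Pt.add_comm'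
  nsmul := nsmulRec
  zsmul := zsmulRec
  neg_add_cancel x := by rw [Pt.add_comm', Pt.add_neg']

/-- `F (x, y) = x + y + x y K(x,y)`. -/
theorem add_val_eq (x y : Pt F ι N) : ∃ c : B, (x + y).1 = x.1 + y.1 + x.1 * y.1 * c := by
  obtain ⟨K, hK⟩ := exists_K F
  refine ⟨ev ι ![x.1, y.1] K, ?_⟩
  rw [add_val, hK]
  simp only [map_add, map_mul, ev_X N ι (pair_mem x y)]
  rfl

/-- `x -_F y` and `x - y` differ by a unit `≡ 1 mod N`. -/
theorem sub_val_eq [F.IsComm] (x y : Pt F ι N) :
    ∃ c ∈ N, x.1 - y.1 = (x - y).1 * (1 + c) := by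
  obtain ⟨c, hc⟩ := add_val_eq (x - y) y
  rw [sub_add_cancel] at hc
  exact ⟨y.1 * c, N.mul_mem_right _ y.2, by rw [hc]; ring⟩

theorem sub_val_eq' [F.IsComm] (x y : Pt F ι N) :
    ∃ c ∈ N, (x - y).1 = (x.1 - y.1) * (1 + c) := by
  obtain ⟨c, hc, h⟩ := sub_val_eq x y
  obtain ⟨u, hu⟩ := (isUnit_one_add N hc).exists_right_inv
  refine ⟨-(c * u), N.neg_mem (N.mul_mem_right _ hc), ?_⟩
  rw [h]
  linear_combination (-(x - y).1 * (1 + c) + (x - y).1 * (1 + c) + (x - y).1 * c) * hu

end Pt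

instance isComm_map (F : FormalGroup R) [F.IsComm] (ρ : R →+* R') : (F.map ρ).IsComm := by
  refine ⟨?_⟩
  have h := congrArg (MvPowerSeries.map ρ) (FormalGroup.IsComm.comm (F := F))
  rw [map_subst2 _ (constantCoeff_X 1) (constantCoeff_X 0), map_X, map_X] at h
  exact h

theorem fg_map_map {R'' : Type} [CommRing R''] (F : FormalGroup R) (ρ : R →+* R')
    (ρ' : R' →+* R'') : (F.map ρ).map ρ' = F.map (ρ'.comp ρ) := by
  refine FormalGroup.ext ?_
  simp only [FormalGroup.map_toPowerSeries, MvPowerSeries.map_comp, RingHom.comp_apply]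

theorem fg_map_id (F : FormalGroup R) : F.map (RingHom.id R) = F := by
  refine FormalGroup.ext ?_
  simp only [FormalGroup.map_toPowerSeries, MvPowerSeries.map_id, RingHom.id_apply]

/-! ### the `m`-series -/

theorem constantCoeff_mulSeries (F : FormalGroup R) (m : ℕ) :
    PowerSeries.constantCoeff (mulSeries F m) = 0 := by
  induction m with
  | zero => exact map_zero _
  | succ m ih => exact cc_subst2 F.zero_constantCoeff ih cc_X1

theorem coeff_one_mulSeries (F : FormalGroup R) (m : ℕ) :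
    PowerSeries.coeff 1 (mulSeries F m) = m := by
  induction m with
  | zero => simp [mulSeries]
  | succ m ih =>
    have h := coeff_single_subst2 F.toPowerSeries (constantCoeff_mulSeries F m) cc_X1 ()
    rw [F.lin_coeff_X, F.lin_coeff_Y, one_mul, one_mul] at h
    refine h.trans ?_
    change PowerSeries.coeff 1 (mulSeries F m) + PowerSeries.coeff 1 PowerSeries.X = _
    rw [ih, PowerSeries.coeff_one_X, Nat.cast_succ]

theorem mulSeries_map (F : FormalGroup R) (ρ : R →+* R') (m : ℕ) :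
    mulSeries (F.map ρ) m = (mulSeries F m).map ρ := by
  induction m with
  | zero => exact (map_zero _).symm
  | succ m ih =>
    have h := map_subst2 F.toPowerSeries (constantCoeff_mulSeries F m) cc_X1 ρ
    refine Eq.trans ?_ h.symm
    rw [mulSeries, ih, ← PowerSeries.map_X ρ]
    rfl

namespace Pt

variable {F G : FormalGroup R} {ι : R →+* B} {N : Ideal B} [IsEv N]

theorem nsmul_val [F.IsComm] (m : ℕ) (x : Pt F ι N) : (m • x).1 = ev1 ι x.1 (mulSeries F m) := by
  induction m with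
  | zero => rw [zero_nsmul, mulSeries, map_zero]; rfl
  | succ m ih =>
    rw [succ_nsmul, add_val, ih, mulSeries,
      ev1_subst2 N ι x.2 _ (constantCoeff_mulSeries F m) cc_X1, ev1_X N ι x.2]

theorem hom_add {θ : PowerSeries R} (hθ : IsFGHom F G θ) (x y : Pt F ι N) :
    ev1 ι (x + y).1 θ = ev ι ![ev1 ι x.1 θ, ev1 ι y.1 θ] G.toPowerSeries := by
  have hX0 : constantCoeff (X 0 : MvPowerSeries (Fin 2) R) = 0 := constantCoeff_X 0
  have hX1 : constantCoeff (X 1 : MvPowerSeries (Fin 2) R) = 0 := constantCoeff_X 1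
  have h := congrArg (ev ι ![x.1, y.1]) hθ.2
  rw [ev_subst1 N ι (pair_mem x y) F.zero_constantCoeff,
    ev_subst2 N ι (pair_mem x y) _ (cc_subst1 hθ.1 hX0) (cc_subst1 hθ.1 hX1),
    ev_subst1 N ι (pair_mem x y) hX0, ev_subst1 N ι (pair_mem x y) hX1,
    ev_X N ι (pair_mem x y), ev_X N ι (pair_mem x y)] at h
  exact h

/-- The map on points induced by a homomorphism of laws. -/
noncomputable def hom [F.IsComm] [G.IsComm] (ι : R →+* B) (N : Ideal B) [IsEv N]
    {θ : PowerSeries R} (hθ : IsFGHom F G θ) : Pt F ι N →+ Pt G ι N :=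
  AddMonoidHom.mk' (fun x => ⟨ev1 ι x.1 θ, ev1_mem N ι x.2 hθ.1⟩)
    (fun x y => Subtype.ext (hom_add hθ x y))

@[simp] theorem hom_val [F.IsComm] [G.IsComm] {θ : PowerSeries R} (hθ : IsFGHom F G θ)
    (x : Pt F ι N) : (hom ι N hθ x).1 = ev1 ι x.1 θ := rfl

theorem map_add_aux {F' : FormalGroup R'} {ι' : R' →+* B'} {N' : Ideal B'} [IsEv N']
    {ψ : B →+* B'} (h : F.map (ψ.comp ι) = F'.map ι') (hN : ∀ x ∈ N, ψ x ∈ N')
    (x y : Pt F ι N) : ψ (x + y).1 = ev ι' ![ψ x.1, ψ y.1] F'.toPowerSeries := by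
  have hv : (fun i => ψ ((![x.1, y.1] : Fin 2 → B) i)) = ![ψ x.1, ψ y.1] := by
    funext i; fin_cases i <;> rfl
  have hm : ∀ i, ψ ((![x.1, y.1] : Fin 2 → B) i) ∈ N' := fun i => hN _ (pair_mem x y i)
  have h1 := map_ev N N' (ι := ι) (ι' := RingHom.id B') (ρ := ψ.comp ι) (ψ := ψ) rfl
    (pair_mem x y) hm F.toPowerSeries
  have h2 := ev_map N' (RingHom.id B') ι' hm F'.toPowerSeries
  have h3 : F.toPowerSeries.map (ψ.comp ι) = F'.toPowerSeries.map ι' :=
    congrArg FormalGroup.toPowerSeries h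
  rw [add_val, h1, h3, h2, hv]
  rfl

/-- The map on points induced by a ring map `ψ : B → B'`; the laws `F`, `F'` only have to agree
after pushing them to `B'`. -/
noncomputable def map [F.IsComm] {F' : FormalGroup R'} [F'.IsComm] {ι' : R' →+* B'}
    {N' : Ideal B'} [IsEv N'] (ψ : B →+* B') (h : F.map (ψ.comp ι) = F'.map ι')
    (hN : ∀ x ∈ N, ψ x ∈ N') : Pt F ι N →+ Pt F' ι' N' :=
  AddMonoidHom.mk' (fun x => ⟨ψ x.1, hN _ x.2⟩) (fun x y => Subtype.ext (map_add_aux h hN x y))

@[simp] theorem map_val [F.IsComm] {F' : FormalGroup R'} [F'.IsComm] {ι' : R' →+* B'}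
    {N' : Ideal B'} [IsEv N'] (ψ : B →+* B') (h : F.map (ψ.comp ι) = F'.map ι')
    (hN : ∀ x ∈ N, ψ x ∈ N') (x : Pt F ι N) : (map ψ h hN x).1 = ψ x.1 := rfl

end Pt

/-- Curves in `F` over `R'`. -/
abbrev Cur (F : FormalGroup R) (ι : R →+* R') : Type :=
  Pt F ((PowerSeries.C : R' →+* PowerSeries R').comp ι) (Ideal.span {PowerSeries.X})

/-- A series without constant term as a curve. -/
def Cur.mk (F : FormalGroup R) (ι : R →+* R') (f : PowerSeries R')
    (hf : PowerSeries.constantCoeff f = 0) : Cur F ι :=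
  ⟨f, Ideal.mem_span_singleton.2 (PowerSeries.X_dvd_iff.2 hf)⟩

theorem Cur.const {F : FormalGroup R} {ι : R →+* R'} (γ : Cur F ι) :
    PowerSeries.constantCoeff γ.1 = 0 :=
  PowerSeries.X_dvd_iff.1 (Ideal.mem_span_singleton.1 γ.2)

theorem Cur.add_val {F : FormalGroup R} {ι : R →+* R'} (γ δ : Cur F ι) :
    (γ + δ).1 = (F.map ι).toPowerSeries.subst ![γ.1, δ.1] := by
  exact ev_eq_subst ι (cc2 γ.const δ.const) F.toPowerSeries

theorem Cur.nsmul_val {F : FormalGroup R} [F.IsComm] {ι : R →+* R'} (m : ℕ) (γ : Cur F ι) :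
    (m • γ).1 = (mulSeries (F.map ι) m).subst γ.1 := by
  rw [Pt.nsmul_val, mulSeries_map]
  exact ev1_eq_subst ι γ.const (mulSeries F m)

/-- evaluation of curves at a point is additive -/
noncomputable def Cur.evAt {F : FormalGroup R} [F.IsComm] {ι : R →+* R'} (κ : R' →+* B)
    (N : Ideal B) [IsEv N] {x : B} (hx : x ∈ N) : Cur F ι →+ Pt F (κ.comp ι) N :=
  Pt.map (ev1 κ x) (by congr 1; ext r; simp [ev1_C])
    (fun f hf => ev1_mem N κ hx (PowerSeries.X_dvd_iff.1 (Ideal.mem_span_singleton.1 hf)))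

/-! ### homomorphisms of laws -/

section Hom

variable {F G K : FormalGroup R} {θ θ' : PowerSeries R}

theorem fgHom_id (F : FormalGroup R) : IsFGHom F F PowerSeries.X := by
  refine ⟨cc_X1, ?_⟩
  rw [X_subst1 F.zero_constantCoeff, X_subst1 (constantCoeff_X 0), X_subst1 (constantCoeff_X 1),
    subst_XX]

theorem fgHom_zero (F G : FormalGroup R) : IsFGHom F G 0 := by
  refine ⟨map_zero _, ?_⟩
  rw [zero_subst1 F.zero_constantCoeff, zero_subst1 (constantCoeff_X 0),
    zero_subst1 (constantCoeff_X 1), G.add_zero (hs1 (map_zero _))]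

theorem fgHom_comp (h : IsFGHom F G θ) (h' : IsFGHom G K θ') : IsFGHom F K (θ'.subst θ) := by
  have hX0 : constantCoeff (X 0 : MvPowerSeries (Fin 2) R) = 0 := constantCoeff_X 0
  have hX1 : constantCoeff (X 1 : MvPowerSeries (Fin 2) R) = 0 := constantCoeff_X 1
  refine ⟨cc_subst1 h'.1 h.1, ?_⟩
  rw [subst1_subst1 θ' h.1 F.zero_constantCoeff, subst1_subst1 θ' h.1 hX0,
    subst1_subst1 θ' h.1 hX1, h.2, hom_subst h' (cc_subst1 h.1 hX0) (cc_subst1 h.1 hX1)]

theorem fgHom_map (h : IsFGHom F G θ) (ρ : R →+* R') :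
    IsFGHom (F.map ρ) (G.map ρ) (θ.map ρ) := by
  have hX0 : constantCoeff (X 0 : MvPowerSeries (Fin 2) R) = 0 := constantCoeff_X 0
  have hX1 : constantCoeff (X 1 : MvPowerSeries (Fin 2) R) = 0 := constantCoeff_X 1
  refine ⟨?_, ?_⟩
  · rw [← PowerSeries.coeff_zero_eq_constantCoeff_apply, PowerSeries.coeff_map,
      PowerSeries.coeff_zero_eq_constantCoeff_apply, h.1, map_zero]
  · have h2 := congrArg (MvPowerSeries.map ρ) h.2
    rw [map_subst1 θ F.zero_constantCoeff, map_subst2 _ (cc_subst1 h.1 hX0) (cc_subst1 h.1 hX1),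
      map_subst1 θ hX0, map_subst1 θ hX1, map_X, map_X] at h2
    exact h2

theorem fgHom_of_map {ρ : R →+* R'} (hρ : Function.Injective ρ)
    (h : IsFGHom (F.map ρ) (G.map ρ) (θ.map ρ)) : IsFGHom F G θ := by
  have hX0 : constantCoeff (X 0 : MvPowerSeries (Fin 2) R) = 0 := constantCoeff_X 0
  have hX1 : constantCoeff (X 1 : MvPowerSeries (Fin 2) R) = 0 := constantCoeff_X 1
  have h0 : PowerSeries.constantCoeff θ = 0 := by
    have := h.1
    rw [← PowerSeries.coeff_zero_eq_constantCoeff_apply, PowerSeries.coeff_map,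
      PowerSeries.coeff_zero_eq_constantCoeff_apply] at this
    exact hρ (this.trans (map_zero ρ).symm)
  refine ⟨h0, ?_⟩
  have hinj : Function.Injective (MvPowerSeries.map (σ := Fin 2) ρ) := fun f g hfg => by
    ext d
    exact hρ (by rw [← coeff_map, ← coeff_map, hfg])
  apply hinj
  rw [map_subst1 θ F.zero_constantCoeff, map_subst2 _ (cc_subst1 h0 hX0) (cc_subst1 h0 hX1),
    map_subst1 θ hX0, map_subst1 θ hX1, map_X, map_X]
  exact h.2

theorem fgHom_inv (h : IsFGHom F G θ) (hu : IsUnit (PowerSeries.coeff 1 θ)) :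
    IsFGHom G F (θ.substInvOfIsUnit hu) := by
  exact hom_inv h (θ.constantCoeff_substInvOfIsUnit hu) (θ.subst_substInvOfIsUnit_right h.1 hu)
    (θ.subst_substInvOfIsUnit_left h.1 hu)

theorem fgHom_add [G.IsComm] (h : IsFGHom F G θ) (h' : IsFGHom F G θ') :
    IsFGHom F G (G.toPowerSeries.subst ![θ, θ']) := by
  have hX0 : constantCoeff (X 0 : MvPowerSeries (Fin 2) R) = 0 := constantCoeff_X 0
  have hX1 : constantCoeff (X 1 : MvPowerSeries (Fin 2) R) = 0 := constantCoeff_X 1
  refine ⟨cc_subst2 G.zero_constantCoeff h.1 h'.1, ?_⟩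
  rw [subst2_subst1 _ h.1 h'.1 F.zero_constantCoeff, subst2_subst1 _ h.1 h'.1 hX0,
    subst2_subst1 _ h.1 h'.1 hX1, h.2, h'.2,
    medial (cc_subst1 h.1 hX0) (cc_subst1 h.1 hX1) (cc_subst1 h'.1 hX0) (cc_subst1 h'.1 hX1)]

theorem fgHom_negS (F : FormalGroup R) [F.IsComm] : IsFGHom F F (negS F) := by
  have hX0 : constantCoeff (X 0 : MvPowerSeries (Fin 2) R) = 0 := constantCoeff_X 0
  have hX1 : constantCoeff (X 1 : MvPowerSeries (Fin 2) R) = 0 := constantCoeff_X 1
  obtain ⟨h0, h1⟩ := negS_spec F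
  have key : ∀ a : MvPowerSeries (Fin 2) R, constantCoeff a = 0 →
      F.toPowerSeries.subst ![a, (negS F).subst a] = 0 := by
    intro a ha
    have := congrArg (PowerSeries.subst a) h1
    rwa [subst2_subst1 _ cc_X1 h0 ha, X_subst1 ha, zero_subst1 ha] at this
  refine ⟨h0, neg_unique (G := F) F.zero_constantCoeff (cc_subst1 h0 F.zero_constantCoeff)
    (cc_subst2 F.zero_constantCoeff (cc_subst1 h0 hX0) (cc_subst1 h0 hX1))
    (key _ F.zero_constantCoeff) ?_⟩
  have h2 := medial (G := F) hX0 hX1 (cc_subst1 h0 hX0) (cc_subst1 h0 hX1)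
  rwa [subst_XX, key _ hX0, key _ hX1, F.add_zero (hs1 (map_zero _))] at h2

theorem fgHom_mulSeries (F : FormalGroup R) [F.IsComm] (m : ℕ) :
    IsFGHom F F (mulSeries F m) := by
  induction m with
  | zero => exact fgHom_zero F F
  | succ m ih => exact fgHom_add ih (fgHom_id F)

/-- `θ ∘ [m]_F = [m]_G ∘ θ` -/
theorem fgHom_mulSeries_comm (h : IsFGHom F G θ) (m : ℕ) :
    θ.subst (mulSeries F m) = (mulSeries G m).subst θ := by
  induction m with
  | zero =>
    rw [mulSeries, mulSeries, zero_subst1 h.1]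
    exact PowerSeries.subst_zero_of_constantCoeff_zero h.1
  | succ m ih =>
    rw [mulSeries, mulSeries, hom_subst h (constantCoeff_mulSeries F m) cc_X1, ih,
      subst2_subst1 _ (constantCoeff_mulSeries G m) cc_X1 h.1, X_subst1 h.1, PowerSeries.X_subst]

theorem mulSeries_mul (F : FormalGroup R) [F.IsComm] (a b : ℕ) :
    mulSeries F (a * b) = (mulSeries F a).subst (mulSeries F b) := by
  have hadd : ∀ m n : ℕ,
      mulSeries F (m + n) = F.toPowerSeries.subst ![mulSeries F m, mulSeries F n] := by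
    intro m n
    induction n with
    | zero => exact (F.add_zero (hs1 (constantCoeff_mulSeries F m))).symm
    | succ n ih =>
      rw [← add_assoc, mulSeries, mulSeries, ih]
      exact F.assoc' (hs1 (constantCoeff_mulSeries F m)) (hs1 (constantCoeff_mulSeries F n))
        (hs1 cc_X1)
  induction a with
  | zero => rw [zero_mul, mulSeries, zero_subst1 (constantCoeff_mulSeries F b)]
  | succ a ih =>
    rw [Nat.succ_mul, hadd, ih, mulSeries,
      subst2_subst1 _ (constantCoeff_mulSeries F a) cc_X1 (constantCoeff_mulSeries F b),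
      X_subst1 (constantCoeff_mulSeries F b)]

theorem mulSeries_one (F : FormalGroup R) : mulSeries F 1 = PowerSeries.X := by
  exact F.zero_add (f := (PowerSeries.X : PowerSeries R)) (hs1 cc_X1)

/-- The homomorphisms `F → G.map ι` form a subgroup of the curves. -/
def homSub {R₀ : Type} [CommRing R₀] (F : FormalGroup R) (G : FormalGroup R₀) [G.IsComm]
    (ι : R₀ →+* R) : AddSubgroup (Cur G ι) where
  carrier := {γ | IsFGHom F (G.map ι) γ.1}
  zero_mem' := fgHom_zero _ _
  add_mem' := by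
    intro a b ha hb
    show IsFGHom F (G.map ι) (a + b).1
    rw [Cur.add_val]
    exact fgHom_add ha hb
  neg_mem' := by
    intro a ha
    show IsFGHom F (G.map ι) (-a).1
    have h : (-a).1 = ((negS G).map ι).subst a.1 := ev1_eq_subst ι a.const (negS G)
    rw [h]
    exact fgHom_comp ha (fgHom_map (fgHom_negS G) ι)

/-- Transport of structure: `G = θ⁻¹ F (θ X, θ Y)`. -/
theorem exists_conj (F : FormalGroup R) [F.IsComm] (h0 : PowerSeries.constantCoeff θ = 0)
    (hu : IsUnit (PowerSeries.coeff 1 θ)) :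
    ∃ G : FormalGroup R, G.IsComm ∧ IsFGHom G F θ := by
  exact ⟨_, conj_spec F h0 (θ.constantCoeff_substInvOfIsUnit hu)
    (θ.subst_substInvOfIsUnit_right h0 hu)⟩

theorem exists_conj' (F : FormalGroup R) [F.IsComm] (h0 : PowerSeries.constantCoeff θ = 0)
    (hu : IsUnit (PowerSeries.coeff 1 θ)) :
    ∃ G : FormalGroup R, G.IsComm ∧ IsFGHom F G θ := by
  obtain ⟨h1, h2⟩ := conj_spec F (θ.constantCoeff_substInvOfIsUnit hu) h0
    (θ.subst_substInvOfIsUnit_left h0 hu)
  exact ⟨_, h1, hom_inv h2 h0 (θ.subst_substInvOfIsUnit_left h0 hu)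
    (θ.subst_substInvOfIsUnit_right h0 hu)⟩

theorem eq_of_fgHom_left (h : IsFGHom F K θ) (h' : IsFGHom G K θ)
    (hu : IsUnit (PowerSeries.coeff 1 θ)) : F = G := by
  refine FormalGroup.ext ?_
  rw [← cancel h.1 (θ.subst_substInvOfIsUnit_left h.1 hu) F.zero_constantCoeff, h.2, ← h'.2,
    cancel h.1 (θ.subst_substInvOfIsUnit_left h.1 hu) G.zero_constantCoeff]

theorem eq_of_fgHom_right (h : IsFGHom K F θ) (h' : IsFGHom K G θ)
    (hu : IsUnit (PowerSeries.coeff 1 θ)) : F = G := by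
  refine FormalGroup.ext ?_
  have hX0 : constantCoeff (X 0 : MvPowerSeries (Fin 2) R) = 0 := constantCoeff_X 0
  have hX1 : constantCoeff (X 1 : MvPowerSeries (Fin 2) R) = 0 := constantCoeff_X 1
  have h0 := θ.constantCoeff_substInvOfIsUnit hu
  have h1 := θ.subst_substInvOfIsUnit_right h.1 hu
  have e1 := hom_subst h (cc_subst1 h0 hX0) (cc_subst1 h0 hX1)
  have e2 := hom_subst h' (cc_subst1 h0 hX0) (cc_subst1 h0 hX1)
  rw [cancel h0 h1 hX0, cancel h0 h1 hX1, subst_XX] at e1 e2
  rw [← e1, ← e2]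

/-- cancel a series with unit linear coefficient on the right -/
theorem subst_right_cancel {f g : PowerSeries R} (h0 : PowerSeries.constantCoeff θ = 0)
    (hu : IsUnit (PowerSeries.coeff 1 θ)) (h : f.subst θ = g.subst θ) : f = g := by
  have hφ := θ.constantCoeff_substInvOfIsUnit hu
  have h1 := θ.subst_substInvOfIsUnit_right h0 hu
  have := congrArg (PowerSeries.subst (θ.substInvOfIsUnit hu)) h
  rwa [subst1_subst1 f h0 hφ, subst1_subst1 g h0 hφ, h1, PowerSeries.X_subst,
    PowerSeries.X_subst] at this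

theorem coeff_one_subst {f : PowerSeries R} (h0 : PowerSeries.constantCoeff θ = 0) :
    PowerSeries.coeff 1 (f.subst θ) = PowerSeries.coeff 1 f * PowerSeries.coeff 1 θ := by
  exact coeff_single_subst1 f (a := θ) h0 ()

end Hom

end Crest.Agent.R227
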