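import Crest.Agent.R227.Ev

/-!
# R227 / PtAux : substitution in two variables
-/

set_option autoImplicit false

namespace Crest.Agent.R227.PtAux

open MvPowerSeries Crest.LubinTate

variable {σ τ υ R R' B : Type} [CommRing R] [CommRing R'] [CommRing B]

theorem hs1 {a : MvPowerSeries τ R} (ha : constantCoeff a = 0) : PowerSeries.HasSubst a :=
  PowerSeries.HasSubst.of_constantCoeff_zero ha

theorem cc2 {a b : MvPowerSeries τ R} (ha : constantCoeff a = 0) (hb : constantCoeff b = 0) :
    ∀ i, constantCoeff ((![a, b] : Fin 2 → MvPowerSeries τ R) i) = 0 := by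
  intro i; fin_cases i
  · exact ha
  · exact hb

theorem hs2 {a b : MvPowerSeries τ R} (ha : constantCoeff a = 0) (hb : constantCoeff b = 0) :
    HasSubst (![a, b] : Fin 2 → MvPowerSeries τ R) :=
  hasSubst_of_constantCoeff_zero (cc2 ha hb)

theorem cc_X1 : constantCoeff (PowerSeries.X : PowerSeries R) = 0 := PowerSeries.constantCoeff_X

theorem cc_subst2 {F : MvPowerSeries (Fin 2) R} (hF : constantCoeff F = 0)
    {a b : MvPowerSeries τ R} (ha : constantCoeff a = 0) (hb : constantCoeff b = 0) :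
    constantCoeff (F.subst ![a, b]) = 0 :=
  constantCoeff_subst_eq_zero (hs2 ha hb) (cc2 ha hb) hF

theorem cc_subst1 {θ : PowerSeries R} (hθ : PowerSeries.constantCoeff θ = 0)
    {a : MvPowerSeries τ R} (ha : constantCoeff a = 0) : constantCoeff (θ.subst a) = 0 :=
  PowerSeries.constantCoeff_subst_eq_zero ha θ hθ

theorem cc_subst [Finite σ] {z : σ → MvPowerSeries τ R} (hz : ∀ i, constantCoeff (z i) = 0)
    (f : MvPowerSeries σ R) : constantCoeff (f.subst z) = constantCoeff f := by
  have hs := hasSubst_of_constantCoeff_zero hz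
  have h := constantCoeff_subst_eq_zero hs hz (f := f - C (constantCoeff f)) (by simp)
  rw [subst_sub hs, subst_C, map_sub, constantCoeff_C, sub_eq_zero] at h
  exact h

theorem subst2_subst (F : MvPowerSeries (Fin 2) R) {a b : MvPowerSeries τ R}
    (ha : constantCoeff a = 0) (hb : constantCoeff b = 0) {c : τ → MvPowerSeries υ R}
    (hc : HasSubst c) : (F.subst ![a, b]).subst c = F.subst ![a.subst c, b.subst c] := by
  rw [subst_comp_subst_apply (hs2 ha hb) hc]
  congr 1
  funext i; fin_cases i <;> rfl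

theorem subst2_subst1 (F : MvPowerSeries (Fin 2) R) {a b : PowerSeries R}
    (ha : PowerSeries.constantCoeff a = 0) (hb : PowerSeries.constantCoeff b = 0)
    {c : MvPowerSeries υ R} (hc : constantCoeff c = 0) :
    PowerSeries.subst c (F.subst ![a, b]) = F.subst ![a.subst c, b.subst c] :=
  subst2_subst F ha hb (hs1 hc).const

theorem subst1_subst (θ : PowerSeries R) {a : MvPowerSeries τ R} (ha : constantCoeff a = 0)
    {c : τ → MvPowerSeries υ R} (hc : HasSubst c) :
    (θ.subst a).subst c = θ.subst (a.subst c) :=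
  subst_comp_subst_apply (hs1 ha).const hc θ

theorem subst1_subst1 (θ : PowerSeries R) {a : PowerSeries R}
    (ha : PowerSeries.constantCoeff a = 0) {c : MvPowerSeries υ R} (hc : constantCoeff c = 0) :
    PowerSeries.subst c (θ.subst a) = θ.subst (a.subst c) :=
  subst1_subst θ ha (hs1 hc).const

theorem subst_XX (F : MvPowerSeries (Fin 2) R) :
    F.subst ![(X 0 : MvPowerSeries (Fin 2) R), X 1] = F := by
  have : (![X 0, X 1] : Fin 2 → MvPowerSeries (Fin 2) R) = X := by
    funext i; fin_cases i <;> rfl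
  rw [this, subst_self, id]

theorem X0_subst {a b : MvPowerSeries τ R} (ha : constantCoeff a = 0) (hb : constantCoeff b = 0) :
    (X 0 : MvPowerSeries (Fin 2) R).subst ![a, b] = a := subst_X (hs2 ha hb) 0

theorem X1_subst {a b : MvPowerSeries τ R} (ha : constantCoeff a = 0) (hb : constantCoeff b = 0) :
    (X 1 : MvPowerSeries (Fin 2) R).subst ![a, b] = b := subst_X (hs2 ha hb) 1

theorem X_subst1 {a : MvPowerSeries τ R} (ha : constantCoeff a = 0) :
    (PowerSeries.X : PowerSeries R).subst a = a := PowerSeries.subst_X (hs1 ha)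

theorem zero_subst {c : τ → MvPowerSeries υ R} (hc : HasSubst c) :
    (0 : MvPowerSeries τ R).subst c = 0 := by
  rw [← substAlgHom_apply hc, map_zero]

theorem zero_subst1 {a : MvPowerSeries τ R} (ha : constantCoeff a = 0) :
    (0 : PowerSeries R).subst a = 0 := zero_subst (hs1 ha).const

theorem map_subst2 (F : MvPowerSeries (Fin 2) R) {a b : MvPowerSeries τ R}
    (ha : constantCoeff a = 0) (hb : constantCoeff b = 0) (ρ : R →+* R') :
    (F.subst ![a, b]).map ρ = (F.map ρ).subst ![a.map ρ, b.map ρ] := by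
  rw [map_subst (hs2 ha hb)]
  congr 1
  funext i; fin_cases i <;> rfl

theorem map_subst1 (θ : PowerSeries R) {a : MvPowerSeries τ R} (ha : constantCoeff a = 0)
    (ρ : R →+* R') : (θ.subst a).map ρ = (θ.map ρ).subst (a.map ρ) :=
  PowerSeries.map_subst (hs1 ha) θ

theorem ev_subst2 [Finite τ] (N : Ideal B) [IsEv N] (ι : R →+* B) {x : τ → B}
    (hx : ∀ i, x i ∈ N) (F : MvPowerSeries (Fin 2) R) {a b : MvPowerSeries τ R}
    (ha : constantCoeff a = 0) (hb : constantCoeff b = 0) :
    ev ι x (F.subst ![a, b]) = ev ι ![ev ι x a, ev ι x b] F := by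
  rw [ev_subst N ι hx (cc2 ha hb)]
  congr 2
  funext i; fin_cases i <;> rfl

theorem ev1_subst2 (N : Ideal B) [IsEv N] (ι : R →+* B) {x : B}
    (hx : x ∈ N) (F : MvPowerSeries (Fin 2) R) {a b : PowerSeries R}
    (ha : PowerSeries.constantCoeff a = 0) (hb : PowerSeries.constantCoeff b = 0) :
    ev1 ι x (F.subst ![a, b]) = ev ι ![ev1 ι x a, ev1 ι x b] F :=
  ev_subst2 N ι (fun _ => hx) F ha hb

theorem coeff_single_subst [Fintype σ] [Finite τ] {z : σ → MvPowerSeries τ R}
    (hz : ∀ i, constantCoeff (z i) = 0) (f : MvPowerSeries σ R) (j : τ) :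
    coeff (Finsupp.single j 1) (f.subst z) =
      ∑ i, coeff (Finsupp.single i 1) f * coeff (Finsupp.single j 1) (z i) := by
  have key : ∀ {α : Type} (g : MvPowerSeries α R) (k : α),
      constantCoeff (pderiv R k g) = coeff (Finsupp.single k 1) g := by
    intro α g k
    rw [← coeff_zero_eq_constantCoeff_apply, coeff_pderiv]
    simp
  have h := congrArg constantCoeff (pderiv_subst hz f j)
  rw [key, map_sum] at h
  rw [h]
  refine Finset.sum_congr rfl fun i _ => ?_
  rw [map_mul, cc_subst hz, key, key]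

theorem coeff_single_subst2 [Finite τ] (F : MvPowerSeries (Fin 2) R) {a b : MvPowerSeries τ R}
    (ha : constantCoeff a = 0) (hb : constantCoeff b = 0) (j : τ) :
    coeff (Finsupp.single j 1) (F.subst ![a, b]) =
      coeff (Finsupp.single 0 1) F * coeff (Finsupp.single j 1) a +
        coeff (Finsupp.single 1 1) F * coeff (Finsupp.single j 1) b := by
  rw [coeff_single_subst (cc2 ha hb), Fin.sum_univ_two]
  rfl

theorem coeff_single_subst1 [Finite τ] (θ : PowerSeries R) {a : MvPowerSeries τ R}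
    (ha : constantCoeff a = 0) (j : τ) :
    coeff (Finsupp.single j 1) (θ.subst a) =
      PowerSeries.coeff 1 θ * coeff (Finsupp.single j 1) a := by
  have := coeff_single_subst (z := fun _ : Unit => a) (fun _ => ha) θ j
  rw [Fintype.sum_unique] at this
  exact this

theorem surj2 {Ψ : MvPowerSeries (Fin 2) R} (h0 : constantCoeff Ψ = 0)
    (h1 : coeff (Finsupp.single 1 1) Ψ = 1) :
    Function.Surjective fun f : MvPowerSeries (Fin 2) R =>
      f.subst ![(X 0 : MvPowerSeries (Fin 2) R), Ψ] := by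
  refine subst_surjective (cc2 (constantCoeff_X 0) h0) ?_
  rw [Matrix.isUnit_iff_isUnit_det, Matrix.det_fin_two]
  simp [coeff_index_single_X, h1]

theorem exists_neg (F : FormalGroup R) : ∃ i : PowerSeries R,
    PowerSeries.constantCoeff i = 0 ∧ F.toPowerSeries.subst ![PowerSeries.X, i] = 0 := by
  have hX0 : constantCoeff (X 0 : MvPowerSeries (Fin 2) R) = 0 := constantCoeff_X 0
  have hF := F.zero_constantCoeff
  obtain ⟨Ψ, hΨ⟩ := surj2 hF F.lin_coeff_Y (X 1)
  simp only at hΨ
  have h0 : constantCoeff Ψ = 0 := by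
    rw [← cc_subst (cc2 hX0 hF) Ψ, hΨ, constantCoeff_X]
  have h1 : coeff (Finsupp.single 1 1) Ψ = 1 := by
    have := coeff_single_subst2 Ψ hX0 hF 1
    rw [hΨ, F.lin_coeff_Y] at this
    simpa [coeff_index_single_X] using this.symm
  obtain ⟨g, hg⟩ := surj2 h0 h1 (X 1)
  simp only at hg
  have hgF : g = F.toPowerSeries := by
    have := congrArg (subst ![(X 0 : MvPowerSeries (Fin 2) R), F.toPowerSeries]) hg
    rwa [subst2_subst g hX0 h0 (hs2 hX0 hF), hΨ, X0_subst hX0 hF, X1_subst hX0 hF,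
      subst_XX] at this
  rw [hgF] at hg
  have hz : constantCoeff (0 : PowerSeries R) = 0 := map_zero _
  refine ⟨Ψ.subst ![(PowerSeries.X : PowerSeries R), 0], cc_subst2 h0 cc_X1 hz, ?_⟩
  have := congrArg (subst ![(PowerSeries.X : PowerSeries R), 0]) hg
  rwa [subst2_subst _ hX0 h0 (hs2 cc_X1 hz), X0_subst cc_X1 hz, X1_subst cc_X1 hz] at this

theorem X_dvd_sub (D : MvPowerSeries (Fin 2) R) {a b : MvPowerSeries (Fin 2) R}
    (ha : constantCoeff a = 0) (hb : constantCoeff b = 0) {c : MvPowerSeries (Fin 2) R}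
    (h0 : c ∣ X 0 - a) (h1 : c ∣ X 1 - b) : c ∣ D - D.subst ![a, b] := by
  have h := ev_sub_ev_mem (cc (Fin 2) (⊥ : Ideal R)) ((C : R →+* _).comp (RingHom.id R))
    (a := ![X 0, X 1]) (b := ![a, b])
    (fun i => by fin_cases i <;> simp) (fun i => by fin_cases i <;> simpa) D
  rw [ev_eq_subst _ (cc2 (constantCoeff_X 0) (constantCoeff_X 1)), ev_eq_subst _ (cc2 ha hb),
    map_id, RingHom.id_apply, subst_XX] at h
  rw [← Ideal.mem_span_singleton]
  refine Ideal.span_le.2 ?_ h
  rintro _ ⟨i, rfl⟩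
  fin_cases i
  · exact Ideal.mem_span_singleton.2 h0
  · exact Ideal.mem_span_singleton.2 h1

theorem exists_K (F : FormalGroup R) : ∃ K : MvPowerSeries (Fin 2) R,
    F.toPowerSeries = X 0 + X 1 + X 0 * X 1 * K := by
  have hX0 : constantCoeff (X 0 : MvPowerSeries (Fin 2) R) = 0 := constantCoeff_X 0
  have hX1 : constantCoeff (X 1 : MvPowerSeries (Fin 2) R) = 0 := constantCoeff_X 1
  have hz : constantCoeff (0 : MvPowerSeries (Fin 2) R) = 0 := map_zero _
  have h1 := X_dvd_sub F.toPowerSeries hX0 hz (c := X 1) (by simp) (by simp)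
  have h0 := X_dvd_sub F.toPowerSeries hz hX1 (c := X 0) (by simp) (by simp)
  rw [F.add_zero (hs1 hX0)] at h1
  rw [F.zero_add (hs1 hX1)] at h0
  obtain ⟨E, hE⟩ := (dvd_sub h1 (dvd_refl _))
  have h0' : (X 0 : MvPowerSeries (Fin 2) R) ∣ X 1 * E := by
    rw [← hE, sub_right_comm]; exact dvd_sub h0 (dvd_refl _)
  have hE0 : (X 0 : MvPowerSeries (Fin 2) R) ∣ E := by
    rw [X_dvd_iff] at h0' ⊢
    intro m hm
    have := h0' (Finsupp.single 1 1 + m) (by simp [hm])
    rwa [X_def, coeff_add_monomial_mul, one_mul] at this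
  obtain ⟨K, rfl⟩ := hE0
  exact ⟨K, by linear_combination hE⟩

theorem isUnit_one_add (N : Ideal B) [IsEv N] {c : B} (hc : c ∈ N) : IsUnit (1 + c) := by
  obtain ⟨I, -, hI, hcomp⟩ := IsEv.out (N := N) {c} (by simpa using hc)
  have h := (Ideal.mem_jacobson_bot.1
    (IsAdicComplete.le_jacobson_bot I (hI c (Finset.mem_singleton_self c)))) 1
  rwa [mul_one, add_comm] at h

section Hom
variable {F G : FormalGroup R} {θ φ : PowerSeries R}

theorem hom_subst (h : IsFGHom F G θ) {a b : MvPowerSeries τ R} (ha : constantCoeff a = 0)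
    (hb : constantCoeff b = 0) :
    θ.subst (F.toPowerSeries.subst ![a, b]) = G.toPowerSeries.subst ![θ.subst a, θ.subst b] := by
  have hX0 : constantCoeff (X 0 : MvPowerSeries (Fin 2) R) = 0 := constantCoeff_X 0
  have hX1 : constantCoeff (X 1 : MvPowerSeries (Fin 2) R) = 0 := constantCoeff_X 1
  have := congrArg (subst ![a, b]) h.2
  rwa [subst1_subst θ F.zero_constantCoeff (hs2 ha hb),
    subst2_subst _ (cc_subst1 h.1 hX0) (cc_subst1 h.1 hX1) (hs2 ha hb),
    subst1_subst θ hX0 (hs2 ha hb), subst1_subst θ hX1 (hs2 ha hb), X0_subst ha hb,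
    X1_subst ha hb] at this

theorem cancel (h0 : PowerSeries.constantCoeff φ = 0) (h : θ.subst φ = PowerSeries.X)
    {a : MvPowerSeries τ R} (ha : constantCoeff a = 0) : θ.subst (φ.subst a) = a := by
  rw [← subst1_subst1 θ h0 ha, h, X_subst1 ha]

theorem hom_inv (h : IsFGHom F G θ) (h0 : PowerSeries.constantCoeff φ = 0)
    (h1 : θ.subst φ = PowerSeries.X) (h2 : φ.subst θ = PowerSeries.X) : IsFGHom G F φ := by
  have hX0 : constantCoeff (X 0 : MvPowerSeries (Fin 2) R) = 0 := constantCoeff_X 0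
  have hX1 : constantCoeff (X 1 : MvPowerSeries (Fin 2) R) = 0 := constantCoeff_X 1
  refine ⟨h0, ?_⟩
  have := hom_subst h (cc_subst1 h0 hX0) (cc_subst1 h0 hX1)
  rw [cancel h0 h1 hX0, cancel h0 h1 hX1, subst_XX] at this
  rw [← this, cancel h.1 h2 (cc_subst2 F.zero_constantCoeff (cc_subst1 h0 hX0) (cc_subst1 h0 hX1))]

theorem medial [G.IsComm] {a b c d : MvPowerSeries τ R} (ha : constantCoeff a = 0)
    (hb : constantCoeff b = 0) (hc : constantCoeff c = 0) (hd : constantCoeff d = 0) :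
    G.toPowerSeries.subst ![G.toPowerSeries.subst ![a, b], G.toPowerSeries.subst ![c, d]] =
      G.toPowerSeries.subst ![G.toPowerSeries.subst ![a, c], G.toPowerSeries.subst ![b, d]] :=
  congrArg Subtype.val (add_add_add_comm (G := G.Point τ) ⟨a, hs1 ha⟩ ⟨b, hs1 hb⟩ ⟨c, hs1 hc⟩
    ⟨d, hs1 hd⟩)

theorem neg_unique {a b c : MvPowerSeries τ R} (ha : constantCoeff a = 0)
    (hb : constantCoeff b = 0) (hc : constantCoeff c = 0) [G.IsComm]
    (h1 : G.toPowerSeries.subst ![a, b] = 0) (h2 : G.toPowerSeries.subst ![a, c] = 0) : b = c := by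
  rw [← G.add_zero (hs1 hb), ← h2, ← G.assoc' (hs1 hb) (hs1 ha) (hs1 hc),
    G.comm' (hs1 hb) (hs1 ha), h1, G.zero_add (hs1 hc)]

/-- the conjugate law -/
noncomputable def conj (F : FormalGroup R) (h0 : PowerSeries.constantCoeff θ = 0)
    (h0' : PowerSeries.constantCoeff φ = 0) (h1 : θ.subst φ = PowerSeries.X) : FormalGroup R :=
  have hX0 : constantCoeff (X 0 : MvPowerSeries (Fin 2) R) = 0 := constantCoeff_X 0
  have hX1 : constantCoeff (X 1 : MvPowerSeries (Fin 2) R) = 0 := constantCoeff_X 1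
  have hin := cc_subst2 F.zero_constantCoeff (cc_subst1 h0 hX0) (cc_subst1 h0 hX1)
  have hu : PowerSeries.coeff 1 φ * PowerSeries.coeff 1 θ = 1 := by
    have := coeff_single_subst1 θ (a := φ) h0' ()
    rw [h1] at this
    rw [mul_comm]
    exact this.symm.trans PowerSeries.coeff_one_X
  { toPowerSeries := φ.subst (F.toPowerSeries.subst ![θ.subst (X 0 : MvPowerSeries (Fin 2) R),
      θ.subst (X 1 : MvPowerSeries (Fin 2) R)])
    zero_constantCoeff := cc_subst1 h0' hin
    lin_coeff_X := by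
      rw [coeff_single_subst1 φ hin, coeff_single_subst2 _ (cc_subst1 h0 hX0) (cc_subst1 h0 hX1),
        coeff_single_subst1 θ hX0, coeff_single_subst1 θ hX1, F.lin_coeff_X, F.lin_coeff_Y]
      simpa [coeff_index_single_X] using hu
    lin_coeff_Y := by
      rw [coeff_single_subst1 φ hin, coeff_single_subst2 _ (cc_subst1 h0 hX0) (cc_subst1 h0 hX1),
        coeff_single_subst1 θ hX0, coeff_single_subst1 θ hX1, F.lin_coeff_X, F.lin_coeff_Y]
      simpa [coeff_index_single_X] using hu
    assoc := by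
      have key : ∀ a b : MvPowerSeries (Fin 3) R, constantCoeff a = 0 → constantCoeff b = 0 →
          (φ.subst (F.toPowerSeries.subst ![θ.subst (X 0 : MvPowerSeries (Fin 2) R),
            θ.subst (X 1 : MvPowerSeries (Fin 2) R)])).subst ![a, b] =
          φ.subst (F.toPowerSeries.subst ![θ.subst a, θ.subst b]) := by
        intro a b ha hb
        rw [subst1_subst φ hin (hs2 ha hb),
          subst2_subst _ (cc_subst1 h0 hX0) (cc_subst1 h0 hX1) (hs2 ha hb),
          subst1_subst θ hX0 (hs2 ha hb), subst1_subst θ hX1 (hs2 ha hb), X0_subst ha hb,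
          X1_subst ha hb]
      have y0 : constantCoeff (X 0 : MvPowerSeries (Fin 3) R) = 0 := constantCoeff_X 0
      have y1 : constantCoeff (X 1 : MvPowerSeries (Fin 3) R) = 0 := constantCoeff_X 1
      have y2 : constantCoeff (X 2 : MvPowerSeries (Fin 3) R) = 0 := constantCoeff_X 2
      have i01 := cc_subst2 F.zero_constantCoeff (cc_subst1 h0 y0) (cc_subst1 h0 y1)
      have i12 := cc_subst2 F.zero_constantCoeff (cc_subst1 h0 y1) (cc_subst1 h0 y2)
      rw [key _ _ y0 y1, key _ _ y1 y2, key _ _ (cc_subst1 h0' i01) y2,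
        key _ _ y0 (cc_subst1 h0' i12), cancel h0' h1 i01, cancel h0' h1 i12,
        F.assoc' (hs1 (cc_subst1 h0 y0)) (hs1 (cc_subst1 h0 y1)) (hs1 (cc_subst1 h0 y2))] }

theorem conj_spec (F : FormalGroup R) [F.IsComm] (h0 : PowerSeries.constantCoeff θ = 0)
    (h0' : PowerSeries.constantCoeff φ = 0) (h1 : θ.subst φ = PowerSeries.X) :
    (conj F h0 h0' h1).IsComm ∧ IsFGHom (conj F h0 h0' h1) F θ := by
  have hX0 : constantCoeff (X 0 : MvPowerSeries (Fin 2) R) = 0 := constantCoeff_X 0
  have hX1 : constantCoeff (X 1 : MvPowerSeries (Fin 2) R) = 0 := constantCoeff_X 1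
  have hin := cc_subst2 F.zero_constantCoeff (cc_subst1 h0 hX0) (cc_subst1 h0 hX1)
  refine ⟨⟨?_⟩, h0, cancel h0' h1 hin⟩
  change φ.subst (F.toPowerSeries.subst ![θ.subst (X 0 : MvPowerSeries (Fin 2) R),
      θ.subst (X 1 : MvPowerSeries (Fin 2) R)]) =
    (φ.subst (F.toPowerSeries.subst ![θ.subst (X 0 : MvPowerSeries (Fin 2) R),
      θ.subst (X 1 : MvPowerSeries (Fin 2) R)])).subst ![(X 1 : MvPowerSeries (Fin 2) R), X 0]
  rw [subst1_subst φ hin (hs2 hX1 hX0),
    subst2_subst _ (cc_subst1 h0 hX0) (cc_subst1 h0 hX1) (hs2 hX1 hX0),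
    subst1_subst θ hX0 (hs2 hX1 hX0), subst1_subst θ hX1 (hs2 hX1 hX0), X0_subst hX1 hX0,
    X1_subst hX1 hX0, F.comm' (hs1 (cc_subst1 h0 hX0)) (hs1 (cc_subst1 h0 hX1))]

end Hom

end Crest.Agent.R227.PtAux
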