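import Mathlib

/-!
# R227 / Trop : the tropical crossing lemma (pure real analysis / combinatorics)

Put `n = h + r`, `P = p^h`, `A_j = -log α_j ∈ (0, ∞]`, so `A_{j-r} = P A_j`.
`N(t) = min_j (A_j + p^j t)` (`t > 0`; attained), `N (p^n t) = P N(t)`;
`Â(x) = sup_{t>0} (N(t) - x t)`: convex, nonincreasing, finite and positive at `x = p^j`,
`Â(p^j) ≤ A_j`, `Â(p^(j-r)) = P Â(p^j)`.  By pigeonhole (uncountably many `t`) some `ν` is a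
minimiser for two values `t⁻ < t⁺`; then `Â(p^ν) = A_ν` and `Â` has a kink there; same for
`ν + rℤ` ("vertices").
Fix `k₁ < h`, `s₁` with `β k₁ s₁ ≠ 0`, `m = s₁ + k₁`.  For `k = k₀ + h e ∈ ℤ` (`0 ≤ k₀ < h`) let
`W_k = -log (β k₀ (m - n e - k₀) ^ p^(m - n e)) ∈ (0,∞]`; `W_{k - h²} = p^(hn) W_k`.
`f_c(k) = p^k Â(p^(c-k)) + W_k`, `k_c` = least minimiser of `f_c` (exists: `f_c → ∞` at `±∞`).
Monge: for `k < k'`, `c ↦ f_c k' - f_c k` is nonincreasing, strictly from `c` to `c+1` if `c - k`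
is a vertex.  Hence `k_{c+1} ≥ k_c`; `k_{c+n²} = k_c + h²`, so `c - k_c` increases by at most one
per step and is unbounded: there is `c` with `c - k_c` a vertex and `k_{c+1} = k_c`, and then `k_c`
is the *only* minimiser of `f_c`.  Take `N = m - c`, `k_c = k₀ + h e`, `j₀ = c - k_c - r e`.
(The terms `(k', j')` with `j' + k' = c - n e'` correspond to `k' + h e'`.)
Weights: `μ̂_{c'} = max {α̂_j^(p^k) β^(…) : j + k ≡ c'}` (`α̂_j = exp (-Â(p^j))`),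
`μ = max (μ̂, η)` with `0 < η ≤ μ̂_c`; `μ̂_{c'}^P < μ̂_{c'+h}` when `μ̂_{c'} > 0`, using the term
`(k, j+h)` and `α̂_j^P < α̂_j ≤ α̂_{j+h}`.

(Formal proof: instead of the biconjugate `Â` we use the smooth strictly convex minorant
`Â_j = C q^(-j)`, `q = p^(h/r)`, `C = min_j A_j q^j`, which touches `A` on a class mod `r`.)
-/

set_option autoImplicit false

namespace Crest.Agent.R227

/-- size of the term `(k, j)` -/
noncomputable def tterm (p : ℕ) (α : ℤ → ℝ) (β : ℕ → ℤ → ℝ) (N : ℤ) (k : ℕ) (j : ℤ) : ℝ :=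
  α j ^ p ^ k * β k (j + N) ^ ((p : ℝ) ^ (j + k + N))

namespace Trop

/-- least maximiser -/
theorem exists_least_max (G : ℤ → ℝ) (k₁ : ℤ) (hfin : {k | G k₁ ≤ G k}.Finite) :
    ∃ k, G k₁ ≤ G k ∧ (∀ k', G k' ≤ G k) ∧ ∀ k' < k, G k' < G k := by
  obtain ⟨k₂, hk₂, hmax⟩ := Set.exists_max_image _ G hfin ⟨k₁, le_refl (G k₁)⟩
  have hall : ∀ k', G k' ≤ G k₂ := fun k' => by
    by_cases h : G k₁ ≤ G k'
    · exact hmax k' h
    · exact (not_le.1 h).le.trans hk₂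
  have hfin2 : {k | G k₂ ≤ G k}.Finite := hfin.subset fun k hk =>
    (le_trans hk₂ hk : G k₁ ≤ G k)
  obtain ⟨k₃, hk₃, hmin⟩ := Set.exists_min_image _ id hfin2 ⟨k₂, le_refl (G k₂)⟩
  refine ⟨k₃, le_trans hk₂ hk₃, fun k' => (hall k').trans hk₃, fun k' hk' => ?_⟩
  by_contra hcon
  have := hmin k' (le_trans hk₃ (not_lt.1 hcon))
  exact absurd this (not_le.2 hk')

/-- the crossing argument -/
theorem cross (F E : ℤ → ℤ → ℝ) (hstep : ∀ c k, F (c + 1) k = F c k * E c k)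
    (hE0 : ∀ c k, 0 < E c k) (hE : ∀ c, StrictMono (E c))
    (K : ℤ → ℤ) (hpos : ∀ c, 0 < F c (K c)) (hmax : ∀ c k', F c k' ≤ F c (K c))
    (hleast : ∀ c, ∀ k' < K c, F c k' < F c (K c))
    (L r : ℕ) (hr : 1 ≤ r) (hL : K L + r ≤ K 0 + L) (ν : ℤ) :
    ∃ c, c - K c ≡ ν [ZMOD r] ∧ ∀ k', k' ≠ K c → F c k' < F c (K c) := by
  have hsc : ∀ c k k', k < k' → F c k ≤ F c k' → 0 < F c k' → F (c + 1) k < F (c + 1) k' := by
    intro c k k' hk h1 h2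
    rw [hstep, hstep]
    calc F c k * E c k ≤ F c k' * E c k := mul_le_mul_of_nonneg_right h1 (hE0 c k).le
      _ < F c k' * E c k' := mul_lt_mul_of_pos_left (hE c hk) h2
  have hmono : ∀ c, K c ≤ K (c + 1) := by
    intro c
    by_contra hcon
    have := hsc c _ _ (not_le.1 hcon) (hmax c _) (hpos c)
    exact absurd (hmax (c + 1) (K c)) (not_le.2 this)
  have hr0 : (0 : ℤ) < r := by exact_mod_cast hr
  set ν' : ℤ := -K 0 + (ν + K 0) % r with hν'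
  have h1 : 0 ≤ (ν + K 0) % r := Int.emod_nonneg _ hr0.ne'
  have h2 : (ν + K 0) % r < r := Int.emod_lt_of_pos _ hr0
  have hex : ∃ c : ℕ, ν' < (c : ℤ) - K c := ⟨L, by omega⟩
  classical
  have hspec := Nat.find_spec hex
  have hne : Nat.find hex ≠ 0 := by
    intro h0
    rw [h0] at hspec
    simp only [Nat.cast_zero] at hspec
    omega
  obtain ⟨c, hc⟩ := Nat.exists_eq_succ_of_ne_zero hne
  have hlt : ¬ ν' < (c : ℤ) - K c := Nat.find_min hex (by omega)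
  rw [hc] at hspec
  have hm := hmono c
  push_cast at hspec
  have hK : K ((c : ℤ) + 1) = K c := by omega
  have hd : (c : ℤ) - K c = ν' := by omega
  refine ⟨c, ?_, fun k' hk' => ?_⟩
  · rw [hd, hν']
    have := (Int.mod_modEq (ν + K 0) r).add_left (-K 0)
    simpa using this
  · rcases lt_or_gt_of_ne hk' with h | h
    · exact hleast c k' h
    · by_contra hcon
      have h3 := not_lt.1 hcon
      have := hsc c _ _ h h3 ((hpos c).trans_le h3)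
      have h4 := hmax (c + 1) k'
      rw [hK] at h4
      exact absurd h4 (not_le.2 this)

theorem periodic_modEq (ρ : ℤ → ℝ) {r : ℤ} (hρ : ∀ j, ρ (j + r) = ρ j) {a b : ℤ}
    (hab : a ≡ b [ZMOD r]) : ρ a = ρ b := by
  obtain ⟨t, ht⟩ := hab.dvd
  have hp : Function.Periodic ρ r := hρ
  have : a = b - t * r := by linarith [mul_comm r t]
  rw [this]
  exact hp.sub_int_mul_eq t

/-- a periodic function on `ℤ` has a maximum -/
theorem exists_max_periodic (ρ : ℤ → ℝ) {r : ℕ} (hr : 1 ≤ r) (hρ : ∀ j, ρ (j + r) = ρ j) :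
    ∃ ν, ∀ j, ρ j ≤ ρ ν := by
  have hr0 : (0 : ℤ) < r := by exact_mod_cast hr
  obtain ⟨ν, -, hν⟩ := Finset.exists_max_image (Finset.Ico (0 : ℤ) r) ρ
    ⟨0, Finset.mem_Ico.2 ⟨le_rfl, hr0⟩⟩
  refine ⟨ν, fun j => ?_⟩
  rw [periodic_modEq ρ hρ (Int.mod_modEq j r).symm]
  exact hν _ (Finset.mem_Ico.2 ⟨Int.emod_nonneg _ hr0.ne', Int.emod_lt_of_pos _ hr0⟩)

/-- `γ ^ (q ^ j) → 0` -/
theorem exists_small {γ q η : ℝ} (hγ0 : 0 ≤ γ) (hγ1 : γ < 1) (hq : 1 < q) (hη : 0 < η) :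
    ∃ J : ℤ, ∀ j, J ≤ j → γ ^ (q ^ j) < η := by
  have h1 : Filter.Tendsto (fun x : ℝ => γ ^ x) Filter.atTop (nhds 0) :=
    tendsto_rpow_atTop_of_base_lt_one γ (by linarith) hγ1
  have h2 : Filter.Tendsto (fun j : ℤ => q ^ j) Filter.atTop Filter.atTop := by
    have := (tendsto_rpow_atTop_of_base_gt_one q hq).comp
      (tendsto_intCast_atTop_atTop (R := ℝ))
    refine this.congr fun j => ?_
    simp
  have h3 := (h1.comp h2).eventually (gt_mem_nhds hη)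
  obtain ⟨J, hJ⟩ := Filter.eventually_atTop.1 h3
  exact ⟨J, hJ⟩

/-- the smooth convex majorant `γ ^ (q ^ (-j))` of `α`, touching on a class mod `r` -/
theorem exists_majorant {p h r : ℕ} (hr : 1 ≤ r) {q : ℝ} (hq : 1 < q)
    (hqr : q ^ r = (p : ℝ) ^ h)
    (α : ℤ → ℝ) (hα0 : ∀ j, 0 ≤ α j) (hα1 : ∀ j, α j < 1)
    (hαp : ∀ j, α (j + r) ^ p ^ h = α j) (hα : ∃ j, α j ≠ 0) :
    ∃ (γ : ℝ) (ν : ℤ), 0 < γ ∧ γ < 1 ∧ (∀ j, α j ≤ γ ^ (q ^ (-j))) ∧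
      ∀ j, j ≡ ν [ZMOD r] → α j = γ ^ (q ^ (-j)) := by
  have hq0 : 0 < q := by linarith
  set ρ : ℤ → ℝ := fun j => α j ^ (q ^ j) with hρ
  have hper : ∀ j, ρ (j + r) = ρ j := by
    intro j
    simp only [hρ]
    rw [zpow_add₀ hq0.ne', zpow_natCast, hqr, mul_comm, Real.rpow_mul (hα0 _), ← Nat.cast_pow,
      Real.rpow_natCast, hαp]
  obtain ⟨ν, hν⟩ := exists_max_periodic ρ hr hper
  have hαρ : ∀ j, α j = ρ j ^ (q ^ (-j)) := by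
    intro j
    simp only [hρ]
    rw [← Real.rpow_mul (hα0 _), ← zpow_add₀ hq0.ne', add_neg_cancel, zpow_zero, Real.rpow_one]
  obtain ⟨j₁, hj₁⟩ := hα
  refine ⟨ρ ν, ν, ?_, ?_, fun j => ?_, fun j hj => ?_⟩
  · exact lt_of_lt_of_le (Real.rpow_pos_of_pos (lt_of_le_of_ne (hα0 j₁) hj₁.symm) _) (hν j₁)
  · exact Real.rpow_lt_one (hα0 ν) (hα1 ν) (zpow_pos hq0 _)
  · rw [hαρ j]
    exact Real.rpow_le_rpow (Real.rpow_nonneg (hα0 j) _) (hν j) (zpow_pos hq0 _).le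
  · rw [hαρ j, periodic_modEq ρ hper hj]

theorem exists_bound {h : ℕ} (hh : 1 ≤ h) (β : ℕ → ℤ → ℝ) (hβ1 : ∀ k s, β k s < 1)
    (hβp : ∀ k s, β k (s + h) = β k s) :
    ∃ B : ℝ, 0 < B ∧ B < 1 ∧ ∀ k < h, ∀ s, β k s ≤ B := by
  choose σ hσ using fun k => exists_max_periodic (β k) hh (hβp k)
  obtain ⟨k₀, -, hk₀⟩ := Finset.exists_max_image (Finset.range h) (fun k => β k (σ k))
    ⟨0, Finset.mem_range.2 hh⟩
  refine ⟨max (1 / 2) (β k₀ (σ k₀)), lt_max_of_lt_left (by norm_num),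
    max_lt (by norm_num) (hβ1 _ _), fun k hk s => ?_⟩
  exact le_max_of_le_right ((hσ k s).trans (hk₀ k (Finset.mem_range.2 hk)))

section Main

variable {p h r : ℕ} {q γ : ℝ} {β : ℕ → ℤ → ℝ}

/-- the majorised terms -/
noncomputable def tt (p : ℕ) (q γ : ℝ) (β : ℕ → ℤ → ℝ) (N : ℤ) (k : ℕ) (j : ℤ) : ℝ :=
  γ ^ (q ^ (-j) * (p : ℝ) ^ k) * β k (j + N) ^ ((p : ℝ) ^ (j + k + N))

theorem tterm_eq_tt (hγ : 0 ≤ γ) (N : ℤ) (k : ℕ) (j : ℤ) :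
    tterm p (fun j => γ ^ (q ^ (-j))) β N k j = tt p q γ β N k j := by
  unfold tterm tt
  rw [Real.rpow_mul hγ, ← Nat.cast_pow, Real.rpow_natCast]

theorem tt_nonneg (hγ : 0 ≤ γ) (hβ0 : ∀ k s, 0 ≤ β k s) (N : ℤ) (k : ℕ) (j : ℤ) :
    0 ≤ tt p q γ β N k j :=
  mul_nonneg (Real.rpow_nonneg hγ _) (Real.rpow_nonneg (hβ0 _ _) _)

theorem tt_lt_one (hp : 2 ≤ p) (hq : 1 < q) (hγ0 : 0 < γ) (hγ1 : γ < 1) (hβ0 : ∀ k s, 0 ≤ β k s)
    (hβ1 : ∀ k s, β k s < 1) (N : ℤ) (k : ℕ) (j : ℤ) : tt p q γ β N k j < 1 := by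
  have hP : (0 : ℝ) < p := by exact_mod_cast (by omega : 0 < p)
  have hq0 : 0 < q := by linarith
  unfold tt
  have h1 : γ ^ (q ^ (-j) * (p : ℝ) ^ k) < 1 :=
    Real.rpow_lt_one hγ0.le hγ1 (mul_pos (zpow_pos hq0 _) (pow_pos hP _))
  have h2 : β k (j + N) ^ ((p : ℝ) ^ (j + k + N)) ≤ 1 :=
    Real.rpow_le_one (hβ0 _ _) (hβ1 _ _).le (zpow_pos hP _).le
  exact mul_lt_one_of_nonneg_of_lt_one_left (Real.rpow_nonneg hγ0.le _) h1 h2

theorem tt_bounded (hp : 2 ≤ p) (hh : 1 ≤ h) (hq : 1 < q) (hγ0 : 0 < γ) (hγ1 : γ < 1)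
    (hβ0 : ∀ k s, 0 ≤ β k s) (hβ1 : ∀ k s, β k s < 1) (hβp : ∀ k s, β k (s + h) = β k s)
    (N : ℤ) {η : ℝ} (hη : 0 < η) :
    ∃ J₁ J₂ : ℤ, ∀ k < h, ∀ j, η ≤ tt p q γ β N k j → J₁ ≤ j ∧ j ≤ J₂ := by
  have hP1 : (1 : ℝ) < p := by exact_mod_cast (by omega : 1 < p)
  have hP : (0 : ℝ) < p := by linarith
  have hq0 : 0 < q := by linarith
  obtain ⟨B, hB0, hB1, hB⟩ := exists_bound hh β hβ1 hβp
  obtain ⟨J, hJ⟩ := exists_small hγ0.le hγ1 hq hη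
  obtain ⟨J', hJ'⟩ := exists_small hB0.le hB1 hP1 hη
  refine ⟨-J, J' - N, fun k hk j hj => ⟨?_, ?_⟩⟩
  · by_contra hcon
    have h1 := hJ (-j) (by omega)
    have h2 : β k (j + N) ^ ((p : ℝ) ^ (j + k + N)) ≤ 1 :=
      Real.rpow_le_one (hβ0 _ _) (hβ1 _ _).le (zpow_pos hP _).le
    have h3 : γ ^ (q ^ (-j) * (p : ℝ) ^ k) ≤ γ ^ (q ^ (-j)) :=
      Real.rpow_le_rpow_of_exponent_ge hγ0 hγ1.le
        (le_mul_of_one_le_right (zpow_pos hq0 _).le (one_le_pow₀ hP1.le))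
    have h4 : tt p q γ β N k j ≤ γ ^ (q ^ (-j) * (p : ℝ) ^ k) :=
      mul_le_of_le_one_right (Real.rpow_nonneg hγ0.le _) h2
    linarith
  · by_contra hcon
    have h1 := hJ' (j + k + N) (by omega)
    have h2 : γ ^ (q ^ (-j) * (p : ℝ) ^ k) ≤ 1 :=
      Real.rpow_le_one hγ0.le hγ1.le (mul_pos (zpow_pos hq0 _) (pow_pos hP _)).le
    have h3 : β k (j + N) ^ ((p : ℝ) ^ (j + k + N)) ≤ B ^ ((p : ℝ) ^ (j + k + N)) :=
      Real.rpow_le_rpow (hβ0 _ _) (hB k hk _) (zpow_pos hP _).le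
    have h4 : tt p q γ β N k j ≤ β k (j + N) ^ ((p : ℝ) ^ (j + k + N)) :=
      mul_le_of_le_one_left (Real.rpow_nonneg (hβ0 _ _) _) h2
    linarith

/-- shifting `j` by `h` -/
theorem tt_pow_lt (hp : 2 ≤ p) (hh : 1 ≤ h) (hq : 1 < q) (hγ0 : 0 < γ) (hγ1 : γ < 1)
    (hβ0 : ∀ k s, 0 ≤ β k s) (hβp : ∀ k s, β k (s + h) = β k s)
    (N : ℤ) (k : ℕ) (j : ℤ) (hpos : 0 < tt p q γ β N k j) :
    tt p q γ β N k j ^ p ^ h < tt p q γ β N k (j + h) := by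
  have hP1 : (1 : ℝ) < p := by exact_mod_cast (by omega : 1 < p)
  have hP : (0 : ℝ) < p := by linarith
  have hq0 : 0 < q := by linarith
  unfold tt at hpos ⊢
  have hb : 0 < β k (j + N) ^ ((p : ℝ) ^ (j + k + N)) :=
    (pos_iff_pos_of_mul_pos hpos).1 (Real.rpow_pos_of_pos hγ0 _)
  have e1 : β k (j + h + N) ^ ((p : ℝ) ^ (j + h + k + N)) =
      (β k (j + N) ^ ((p : ℝ) ^ (j + k + N))) ^ p ^ h := by
    rw [show j + h + N = j + N + h by ring, hβp, show j + h + k + N = (j + k + N) + h by ring,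
      zpow_add₀ hP.ne', zpow_natCast, Real.rpow_mul (hβ0 _ _), ← Nat.cast_pow, Real.rpow_natCast]
  rw [mul_pow, e1]
  refine mul_lt_mul_of_pos_right ?_ (pow_pos hb _)
  rw [← Real.rpow_natCast, ← Real.rpow_mul hγ0.le]
  refine Real.rpow_lt_rpow_of_exponent_gt hγ0 hγ1 ?_
  have h1 : q ^ (-(j + h)) ≤ q ^ (-j) := zpow_le_zpow_right₀ hq.le (by omega)
  have h2 : (1 : ℝ) < ((p ^ h : ℕ) : ℝ) := by
    rw [Nat.cast_pow]; exact one_lt_pow₀ hP1 (by omega)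
  calc q ^ (-(j + h)) * (p : ℝ) ^ k ≤ q ^ (-j) * (p : ℝ) ^ k :=
        mul_le_mul_of_nonneg_right h1 (pow_pos hP _).le
    _ < q ^ (-j) * (p : ℝ) ^ k * ((p ^ h : ℕ) : ℝ) :=
        lt_mul_of_one_lt_right (mul_pos (zpow_pos hq0 _) (pow_pos hP _)) h2

/-- the terms of the class `c` for `N = m - c`, indexed by `κ = k + h e` -/
noncomputable def FF (p h r : ℕ) (q γ : ℝ) (β : ℕ → ℤ → ℝ) (m c κ : ℤ) : ℝ :=
  tt p q γ β (m - c) (κ % h).toNat (c - (h + r : ℕ) * (κ / h) - κ % h)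

noncomputable def VV (p h r : ℕ) (β : ℕ → ℤ → ℝ) (m κ : ℤ) : ℝ :=
  β (κ % h).toNat (m - (h + r : ℕ) * (κ / h) - κ % h) ^ ((p : ℝ) ^ (m - (h + r : ℕ) * (κ / h)))

theorem FF_eq (hp : 2 ≤ p) (hh : 1 ≤ h) (hq : 1 < q) (hqr : q ^ r = (p : ℝ) ^ h) (m c κ : ℤ) :
    FF p h r q γ β m c κ = γ ^ (q ^ (-c) * ((p : ℝ) * q) ^ κ) * VV p h r β m κ := by
  have hP : (0 : ℝ) < p := by exact_mod_cast (by omega : 0 < p)
  have hq0 : 0 < q := by linarith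
  have hh0 : (0 : ℤ) < h := by exact_mod_cast hh
  have hk : (((κ % h).toNat : ℕ) : ℤ) = κ % h := Int.toNat_of_nonneg (Int.emod_nonneg _ hh0.ne')
  unfold FF VV tt
  rw [hk]
  have e1 : c - (h + r : ℕ) * (κ / h) - κ % h + (m - c) = m - (h + r : ℕ) * (κ / h) - κ % h := by
    ring
  have e2 : c - (h + r : ℕ) * (κ / h) - κ % h + κ % h + (m - c) = m - (h + r : ℕ) * (κ / h) := by
    ring
  rw [e1, e2]
  congr 2
  have e3 : ((p : ℝ) * q) ^ κ = ((p : ℝ) * q) ^ (κ % h) * (((p : ℝ) * q) ^ h) ^ (κ / h) := by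
    rw [← zpow_natCast, ← zpow_mul, ← zpow_add₀ (mul_pos hP hq0).ne', Int.emod_add_mul_ediv]
  have e4 : ((p : ℝ) * q) ^ h = q ^ (h + r) := by rw [mul_pow, ← hqr, pow_add, mul_comm]
  rw [e3, e4, ← zpow_natCast (p : ℝ), hk, ← zpow_natCast q, ← zpow_mul, mul_zpow,
    show -(c - (h + r : ℕ) * (κ / h) - κ % h) = -c + ((h + r : ℕ) * (κ / h) + κ % h) by ring,
    zpow_add₀ hq0.ne', zpow_add₀ hq0.ne']
  ring

theorem FF_shift (hp : 2 ≤ p) (hh : 1 ≤ h) (hq : 1 < q) (hqr : q ^ r = (p : ℝ) ^ h)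
    (hγ0 : 0 < γ) (hβ0 : ∀ k s, 0 ≤ β k s) (hβp : ∀ k s, β k (s + h) = β k s) (m κ : ℤ) :
    FF p h r q γ β m ((h + r) * (h + r) : ℕ) (κ + h * h) =
      FF p h r q γ β m 0 κ ^ ((p : ℝ) ^ (-(((h + r) * h : ℕ) : ℤ))) := by
  have hP : (0 : ℝ) < p := by exact_mod_cast (by omega : 0 < p)
  have hq0 : 0 < q := by linarith
  have hh0 : (0 : ℤ) < h := by exact_mod_cast hh
  rw [FF_eq hp hh hq hqr, FF_eq hp hh hq hqr]
  have hV0 : 0 ≤ VV p h r β m κ := Real.rpow_nonneg (hβ0 _ _) _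
  rw [Real.mul_rpow (Real.rpow_nonneg hγ0.le _) hV0, ← Real.rpow_mul hγ0.le]
  congr 1
  · congr 1
    have e4 : ((p : ℝ) * q) ^ h = q ^ (h + r) := by rw [mul_pow, ← hqr, pow_add, mul_comm]
    have e5 : ((p : ℝ) * q) ^ ((h : ℤ) * h) = q ^ ((h + r) * h) := by
      rw [← Nat.cast_mul, zpow_natCast, pow_mul, e4, ← pow_mul]
    have e6 : (p : ℝ) ^ ((h + r) * h) = q ^ ((h + r) * r) := by
      rw [mul_comm, pow_mul, ← hqr, ← pow_mul, mul_comm]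
    rw [zpow_add₀ (mul_pos hP hq0).ne', e5, zpow_neg, zpow_neg, zpow_neg, zpow_natCast,
      zpow_natCast, e6, zpow_zero, mul_add (h + r), pow_add]
    field_simp
  · unfold VV
    rw [← Real.rpow_mul (hβ0 _ _), Int.add_mul_emod_self_left, Int.add_mul_ediv_left _ _ hh0.ne',
      ← zpow_add₀ hP.ne']
    congr 1
    · refine periodic_modEq _ (hβp _) ?_
      refine (Int.modEq_iff_dvd.2 ⟨(h + r : ℕ), ?_⟩)
      ring
    · congr 1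
      push_cast
      ring

theorem FF_fin (hp : 2 ≤ p) (hh : 1 ≤ h) (hq : 1 < q) (hγ0 : 0 < γ) (hγ1 : γ < 1)
    (hβ0 : ∀ k s, 0 ≤ β k s) (hβ1 : ∀ k s, β k s < 1) (hβp : ∀ k s, β k (s + h) = β k s)
    (m c : ℤ) {η : ℝ} (hη : 0 < η) : {κ | η ≤ FF p h r q γ β m c κ}.Finite := by
  have hh0 : (0 : ℤ) < h := by exact_mod_cast hh
  obtain ⟨J₁, J₂, hJ⟩ := tt_bounded hp hh hq hγ0 hγ1 hβ0 hβ1 hβp (m - c) hη
  let φ : ℤ → ℤ × ℤ := fun κ => (κ % h, c - (h + r : ℕ) * (κ / h) - κ % h)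
  have hinj : Function.Injective φ := by
    intro a b hab
    simp only [φ, Prod.mk.injEq] at hab
    obtain ⟨h1, h2⟩ := hab
    rw [h1] at h2
    have hn : ((h + r : ℕ) : ℤ) ≠ 0 := by exact_mod_cast (by omega : h + r ≠ 0)
    have h3 : a / h = b / h := mul_left_cancel₀ hn (by linarith)
    rw [← Int.emod_add_mul_ediv a h, ← Int.emod_add_mul_ediv b h, h1, h3]
  have hfin : (Set.Ico (0 : ℤ) h ×ˢ Set.Icc J₁ J₂).Finite :=
    (Set.finite_Ico _ _).prod (Set.finite_Icc _ _)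
  refine (hfin.preimage hinj.injOn).subset fun κ hκ => ?_
  have h1 := Int.emod_nonneg κ hh0.ne'
  have h2 := Int.emod_lt_of_pos κ hh0
  exact ⟨⟨h1, h2⟩, hJ _ (by omega) _ hκ⟩

theorem exists_index (hh : 1 ≤ h) (c : ℤ) {k : ℕ} (hk : k < h) {j : ℤ}
    (hj : j + k ≡ c [ZMOD (h + r : ℕ)]) :
    ∃ κ : ℤ, (κ % h).toNat = k ∧ c - (h + r : ℕ) * (κ / h) - κ % h = j := by
  have hh0 : (0 : ℤ) < h := by exact_mod_cast hh
  obtain ⟨e, he⟩ := hj.dvd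
  have h1 : ((k : ℤ) + h * e) % h = k := by
    rw [Int.add_mul_emod_self_left]; exact Int.emod_eq_of_lt (by omega) (by omega)
  have h2 : ((k : ℤ) + h * e) / h = e := by
    rw [Int.add_mul_ediv_left _ _ hh0.ne', Int.ediv_eq_zero_of_lt (by omega) (by omega), zero_add]
  refine ⟨k + h * e, ?_, ?_⟩
  · rw [h1]; simp
  · rw [h1, h2]; linarith

/-- the unique maximal term -/
theorem exists_unique_max (hp : 2 ≤ p) (hh : 1 ≤ h) (hr : 1 ≤ r) (hq : 1 < q)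
    (hqr : q ^ r = (p : ℝ) ^ h) (hγ0 : 0 < γ) (hγ1 : γ < 1)
    (hβ0 : ∀ k s, 0 ≤ β k s) (hβ1 : ∀ k s, β k s < 1) (hβp : ∀ k s, β k (s + h) = β k s)
    (hβ : ∃ k < h, ∃ s, β k s ≠ 0) (ν : ℤ) :
    ∃ (N : ℤ) (k₀ : ℕ) (j₀ : ℤ), k₀ < h ∧ j₀ ≡ ν [ZMOD r] ∧ 0 < tt p q γ β N k₀ j₀ ∧
      ∀ k < h, ∀ j, (k, j) ≠ (k₀, j₀) → j + k ≡ j₀ + k₀ [ZMOD (h + r : ℕ)] →
        tt p q γ β N k j < tt p q γ β N k₀ j₀ := by
  have hP1 : (1 : ℝ) < p := by exact_mod_cast (by omega : 1 < p)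
  have hP : (0 : ℝ) < p := by linarith
  have hq0 : 0 < q := by linarith
  have hh0 : (0 : ℤ) < h := by exact_mod_cast hh
  obtain ⟨k₁, hk₁, s₁, hs₁⟩ := hβ
  set m : ℤ := s₁ + k₁ with hm
  have hV : 0 < VV p h r β m k₁ := by
    unfold VV
    have h1 : (k₁ : ℤ) % h = k₁ := Int.emod_eq_of_lt (by omega) (by omega)
    have h2 : (k₁ : ℤ) / h = 0 := Int.ediv_eq_zero_of_lt (by omega) (by omega)
    rw [h1, h2, Int.toNat_natCast, mul_zero, sub_zero, hm, add_sub_cancel_right]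
    exact Real.rpow_pos_of_pos (lt_of_le_of_ne (hβ0 _ _) hs₁.symm) _
  have hF1 : ∀ c, 0 < FF p h r q γ β m c k₁ := fun c => by
    rw [FF_eq hp hh hq hqr]
    exact mul_pos (Real.rpow_pos_of_pos hγ0 _) hV
  choose K hK1 hK2 hK3 using fun c => exists_least_max (FF p h r q γ β m c) k₁
    (FF_fin hp hh hq hγ0 hγ1 hβ0 hβ1 hβp m c (hF1 c))
  have hpq : 1 < (p : ℝ) * q := one_lt_mul_of_le_of_lt hP1.le hq
  obtain ⟨c, hc, huniq⟩ := cross (FF p h r q γ β m)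
    (fun c κ => γ ^ ((q ^ (-(c + 1)) - q ^ (-c)) * ((p : ℝ) * q) ^ κ))
    (fun c κ => by
      rw [FF_eq hp hh hq hqr, FF_eq hp hh hq hqr, mul_right_comm, ← Real.rpow_add hγ0]
      congr 2
      ring)
    (fun c κ => Real.rpow_pos_of_pos hγ0 _)
    (fun c a b hab => by
      refine Real.rpow_lt_rpow_of_exponent_gt hγ0 hγ1 ?_
      refine mul_lt_mul_of_neg_left (zpow_lt_zpow_right₀ hpq hab) ?_
      exact sub_neg.2 (zpow_lt_zpow_right₀ hq (by omega)))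
    K (fun c => (hF1 c).trans_le (hK1 c)) hK2 hK3 ((h + r) * (h + r)) r hr
    (by
      have h1 : K ((h + r) * (h + r) : ℕ) ≤ K 0 + h * h := by
        by_contra hcon
        have h2 := hK3 _ _ (not_le.1 hcon)
        have h3 := FF_shift (γ := γ) hp hh hq hqr hγ0 hβ0 hβp m (K ((h + r) * (h + r) : ℕ) - h * h)
        rw [sub_add_cancel] at h3
        rw [h3, FF_shift hp hh hq hqr hγ0 hβ0 hβp] at h2
        exact absurd (Real.rpow_le_rpow (tt_nonneg hγ0.le hβ0 _ _ _) (hK2 0 _)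
          (zpow_pos hP _).le) (not_le.2 h2)
      have hr1 : (1 : ℤ) ≤ r := by exact_mod_cast hr
      push_cast at h1 ⊢
      nlinarith) ν
  have h1 := Int.emod_nonneg (K c) hh0.ne'
  have h2 := Int.emod_lt_of_pos (K c) hh0
  have hk : (((K c % h).toNat : ℕ) : ℤ) = K c % h := Int.toNat_of_nonneg h1
  refine ⟨m - c, (K c % h).toNat, c - (h + r : ℕ) * (K c / h) - K c % h, by omega, ?_,
    (hF1 c).trans_le (hK1 c), fun k hk' j hne hj => ?_⟩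
  · refine Int.ModEq.trans ?_ hc
    refine Int.modEq_iff_dvd.2 ⟨K c / h, ?_⟩
    have := Int.emod_add_mul_ediv (K c) h
    push_cast
    linarith
  · have hj' : j + k ≡ c [ZMOD (h + r : ℕ)] := by
      refine hj.trans (Int.modEq_iff_dvd.2 ⟨K c / h, ?_⟩)
      rw [hk]; ring
    obtain ⟨κ, e1, e2⟩ := exists_index hh c hk' hj'
    have hκ : κ ≠ K c := by
      rintro rfl
      exact hne (by rw [← e1, ← e2])
    have := huniq κ hκ
    unfold FF at this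
    rwa [e1, e2] at this

/-- the weights -/
theorem exists_weights (hp : 2 ≤ p) (hh : 1 ≤ h) (hq : 1 < q) (hγ0 : 0 < γ) (hγ1 : γ < 1)
    (hβ0 : ∀ k s, 0 ≤ β k s) (hβ1 : ∀ k s, β k s < 1) (hβp : ∀ k s, β k (s + h) = β k s)
    (N : ℤ) (n : ℤ) {η : ℝ} (hη : 0 < η) (c : ℤ) :
    ∃ x : ℝ, η ≤ x ∧ (∀ k < h, ∀ j, j + k ≡ c [ZMOD n] → tt p q γ β N k j ≤ x) ∧
      (x = η ∨ ∃ k < h, ∃ j, j + k ≡ c [ZMOD n] ∧ x = tt p q γ β N k j) := by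
  obtain ⟨J₁, J₂, hJ⟩ := tt_bounded hp hh hq hγ0 hγ1 hβ0 hβ1 hβp N hη
  set S : Set (ℕ × ℤ) := {z | z.1 < h ∧ z.2 + z.1 ≡ c [ZMOD n] ∧ η ≤ tt p q γ β N z.1 z.2}
  have hfin : S.Finite :=
    ((Set.finite_Iio h).prod (Set.finite_Icc J₁ J₂)).subset fun z hz =>
      ⟨hz.1, hJ _ hz.1 _ hz.2.2⟩
  rcases S.eq_empty_or_nonempty with hS | hS
  · refine ⟨η, le_rfl, fun k hk j hj => ?_, Or.inl rfl⟩
    by_contra hcon
    have : (k, j) ∈ S := ⟨hk, hj, (not_le.1 hcon).le⟩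
    rw [hS] at this
    exact this
  · obtain ⟨z, hz, hmax⟩ := Set.exists_max_image S (fun z => tt p q γ β N z.1 z.2) hfin hS
    refine ⟨tt p q γ β N z.1 z.2, hz.2.2, fun k hk j hj => ?_, Or.inr ⟨z.1, hz.1, z.2, hz.2.1, rfl⟩⟩
    by_cases hle : η ≤ tt p q γ β N k j
    · exact hmax (k, j) ⟨hk, hj, hle⟩
    · exact (not_le.1 hle).le.trans hz.2.2

end Main

end Trop

theorem trop {p h r : ℕ} (hp : 2 ≤ p) (hh : 1 ≤ h) (hr : 1 ≤ r)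
    (α : ℤ → ℝ) (hα0 : ∀ j, 0 ≤ α j) (hα1 : ∀ j, α j < 1)
    (hαp : ∀ j, α (j + r) ^ p ^ h = α j) (hα : ∃ j, α j ≠ 0)
    (β : ℕ → ℤ → ℝ) (hβ0 : ∀ k s, 0 ≤ β k s) (hβ1 : ∀ k s, β k s < 1)
    (hβp : ∀ k s, β k (s + h) = β k s) (hβ : ∃ k < h, ∃ s, β k s ≠ 0) :
    ∃ (N : ℤ) (μ : ℤ → ℝ) (k₀ : ℕ) (j₀ : ℤ), k₀ < h ∧
      (∀ c, μ (c + (h + r : ℕ)) = μ c) ∧ (∀ c, 0 < μ c) ∧ (∀ c, μ c < 1) ∧
      (∀ c, μ c ^ p ^ h < μ (c + h)) ∧
      (∀ k < h, ∀ j, tterm p α β N k j ≤ μ (j + k)) ∧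
      tterm p α β N k₀ j₀ = μ (j₀ + k₀) ∧
      ∀ k < h, ∀ j, (k, j) ≠ (k₀, j₀) → j + k ≡ j₀ + k₀ [ZMOD (h + r : ℕ)] →
        tterm p α β N k j < μ (j₀ + k₀) := by
  have hP1 : (1 : ℝ) < p := by exact_mod_cast (by omega : 1 < p)
  have hP : (0 : ℝ) < p := by linarith
  have hr0 : (0 : ℝ) < r := by exact_mod_cast hr
  have hh0 : (0 : ℝ) < h := by exact_mod_cast hh
  set q : ℝ := (p : ℝ) ^ ((h : ℝ) / r) with hqdef
  have hq : 1 < q := Real.one_lt_rpow hP1 (div_pos hh0 hr0)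
  have hqr : q ^ r = (p : ℝ) ^ h := by
    rw [hqdef, ← Real.rpow_natCast, ← Real.rpow_mul hP.le, div_mul_cancel₀ _ hr0.ne',
      Real.rpow_natCast]
  obtain ⟨γ, ν, hγ0, hγ1, hle, heq⟩ := Trop.exists_majorant hr hq hqr α hα0 hα1 hαp hα
  obtain ⟨N, k₀, j₀, hk₀, hj₀, hpos, huniq⟩ :=
    Trop.exists_unique_max hp hh hr hq hqr hγ0 hγ1 hβ0 hβ1 hβp hβ ν
  have hcmp : ∀ k j, tterm p α β N k j ≤ Trop.tt p q γ β N k j := fun k j => by
    rw [← Trop.tterm_eq_tt hγ0.le]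
    unfold tterm
    exact mul_le_mul_of_nonneg_right (pow_le_pow_left₀ (hα0 j) (hle j) _)
      (Real.rpow_nonneg (hβ0 _ _) _)
  have hcmp0 : tterm p α β N k₀ j₀ = Trop.tt p q γ β N k₀ j₀ := by
    rw [← Trop.tterm_eq_tt hγ0.le]
    unfold tterm
    rw [heq j₀ hj₀]
  choose μ hμ1 hμ2 hμ3 using fun c =>
    Trop.exists_weights hp hh hq hγ0 hγ1 hβ0 hβ1 hβp N (h + r : ℕ) hpos c
  have hcongr : ∀ c c', c ≡ c' [ZMOD (h + r : ℕ)] → μ c ≤ μ c' := fun c c' hc => by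
    rcases hμ3 c with h1 | ⟨k, hk, j, hj, h1⟩
    · rw [h1]; exact hμ1 c'
    · rw [h1]; exact hμ2 c' k hk j (hj.trans hc)
  have hμ0 : μ (j₀ + k₀) = Trop.tt p q γ β N k₀ j₀ := by
    refine le_antisymm ?_ (hμ1 _)
    rcases hμ3 (j₀ + k₀) with h1 | ⟨k, hk, j, hj, h1⟩
    · exact h1.le
    · rw [h1]
      by_cases hne : (k, j) = (k₀, j₀)
      · obtain ⟨rfl, rfl⟩ := Prod.mk.inj hne
        exact le_rfl
      · exact (huniq k hk j hne hj).le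
  have hlt1 : ∀ k j, Trop.tt p q γ β N k j < 1 := Trop.tt_lt_one hp hq hγ0 hγ1 hβ0 hβ1 N
  refine ⟨N, μ, k₀, j₀, hk₀, fun c => ?_, fun c => hpos.trans_le (hμ1 c), fun c => ?_,
    fun c => ?_, fun k hk j => (hcmp k j).trans (hμ2 _ k hk j Int.ModEq.rfl), hcmp0.trans hμ0.symm,
    fun k hk j hne hj => ?_⟩
  · have : c + (h + r : ℕ) ≡ c [ZMOD (h + r : ℕ)] := by simp [Int.ModEq]
    exact le_antisymm (hcongr _ _ this) (hcongr _ _ this.symm)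
  · rcases hμ3 c with h1 | ⟨k, -, j, -, h1⟩ <;> rw [h1] <;> exact hlt1 _ _
  · rcases hμ3 c with h1 | ⟨k, hk, j, hj, h1⟩
    · rw [h1]
      refine lt_of_lt_of_le ?_ (hμ1 _)
      exact pow_lt_self_of_lt_one₀ hpos (hlt1 _ _) (Nat.one_lt_pow (by omega) (by omega))
    · have h2 : 0 < Trop.tt p q γ β N k j := h1 ▸ hpos.trans_le (hμ1 c)
      rw [h1]
      refine (Trop.tt_pow_lt hp hh hq hγ0 hγ1 hβ0 hβp N k j h2).trans_le (hμ2 _ k hk _ ?_)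
      rw [add_right_comm]
      exact hj.add_right _
  · rw [hμ0]
    exact (hcmp k j).trans_lt (huniq k hk j hne hj)

end Crest.Agent.R227
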