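import Crest.Agent.R227.NormL
import Crest.Agent.R227.Trop

/-!
# R227 / RelAux : auxiliary lemmas for `no_rel`
-/

set_option autoImplicit false

namespace Crest.Agent.R227

open Filter Topology Crest.LubinTate

theorem rel_norm_tsum_lt {E : Type} [SeminormedAddCommGroup E] [IsUltrametricDist E] {κ : Type}
    {f : κ → E} {M : ℝ} (hM : 0 < M) (hf : Tendsto f cofinite (𝓝 0)) (h : ∀ i, ‖f i‖ < M) :
    ‖∑' i, f i‖ < M := by
  classical
  have h1 : ∀ᶠ i in cofinite, ‖f i‖ < M / 2 := by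
    have := (tendsto_zero_iff_norm_tendsto_zero.1 hf).eventually (gt_mem_nhds (half_pos hM))
    exact this
  rw [Filter.eventually_cofinite] at h1
  obtain ⟨M', hM', hM'0, hb⟩ : ∃ M', M' < M ∧ 0 ≤ M' ∧ ∀ i, ‖f i‖ ≤ M' := by
    let S := h1.toFinset
    by_cases hS : S.Nonempty
    · obtain ⟨i₀, hi₀, hmax⟩ := S.exists_max_image (fun i => ‖f i‖) hS
      refine ⟨max (M / 2) ‖f i₀‖, max_lt (half_lt_self hM) (h i₀),
        le_max_of_le_right (norm_nonneg _), fun i => ?_⟩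
      by_cases hi : i ∈ S
      · exact le_max_of_le_right (hmax i hi)
      · have : ‖f i‖ < M / 2 := by
          by_contra hc
          exact hi (by simpa [S] using hc)
        exact le_max_of_le_left this.le
    · refine ⟨M / 2, half_lt_self hM, (half_pos hM).le, fun i => ?_⟩
      by_contra hc
      exact hS ⟨i, by simpa [S] using (not_le.1 hc).le⟩
  exact (IsUltrametricDist.norm_tsum_le_of_forall_le_of_nonneg hM'0 hb).trans_lt hM'

theorem rel_hasSum_congr {E κ : Type} [AddCommMonoid E] [TopologicalSpace E] {f g : κ → E} {a : E}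
    (h : HasSum f a) (e : ∀ i, f i = g i) : HasSum g a := (funext e : f = g) ▸ h

theorem rel_tendsto_prod {σ X E : Type} [Finite σ] {f : σ × X → E} {l : Filter E}
    (h : ∀ i, Tendsto (fun x => f (i, x)) cofinite l) : Tendsto f cofinite l := by
  intro s hs
  rw [mem_map, mem_cofinite]
  refine (Set.finite_iUnion fun i =>
    ((mem_cofinite.1 (mem_map.1 (h i hs))).image (fun x => (i, x)))).subset ?_
  rintro ⟨i, x⟩ hx
  exact Set.mem_iUnion.2 ⟨i, x, hx, rfl⟩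

theorem rel_tendsto_prod' {σ X E : Type} [Finite σ] {f : X × σ → E} {l : Filter E}
    (h : ∀ i, Tendsto (fun x => f (x, i)) cofinite l) : Tendsto f cofinite l := by
  intro s hs
  rw [mem_map, mem_cofinite]
  refine (Set.finite_iUnion fun i =>
    ((mem_cofinite.1 (mem_map.1 (h i hs))).image (fun x => (x, i)))).subset ?_
  rintro ⟨x, i⟩ hx
  exact Set.mem_iUnion.2 ⟨i, x, hx, rfl⟩

theorem rel_norm_add_lt {E : Type} [SeminormedAddCommGroup E] [IsUltrametricDist E] {x y : E}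
    {M : ℝ} (hx : ‖x‖ < M) (hy : ‖y‖ < M) : ‖x + y‖ < M :=
  (IsUltrametricDist.norm_add_le_max x y).trans_lt (max_lt hx hy)

theorem rel_norm_sub_lt {E : Type} [SeminormedAddCommGroup E] [IsUltrametricDist E] {x y : E}
    {M : ℝ} (hx : ‖x‖ < M) (hy : ‖y‖ < M) : ‖x - y‖ < M := by
  rw [sub_eq_add_neg]
  exact rel_norm_add_lt hx (by rwa [norm_neg])

theorem rel_norm_sum_lt {E : Type} [SeminormedAddCommGroup E] [IsUltrametricDist E] {κ : Type}
    (s : Finset κ) {f : κ → E} {M : ℝ} (hM : 0 < M) (h : ∀ i ∈ s, ‖f i‖ < M) :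
    ‖∑ i ∈ s, f i‖ < M := by
  classical
  induction s using Finset.induction_on with
  | empty => simpa using hM
  | insert a s ha ih =>
    rw [Finset.sum_insert ha]
    exact rel_norm_add_lt (h a (Finset.mem_insert_self _ _))
      (ih fun i hi => h i (Finset.mem_insert_of_mem hi))

theorem rel_periodic {α : Type} {t : ℤ → α} {n : ℕ} (ht : ∀ e, t (e + n) = t e) {a b : ℤ}
    (h : a ≡ b [ZMOD n]) : t a = t b := by
  have hp : Function.Periodic t (n : ℤ) := ht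
  obtain ⟨k, hk⟩ := h.dvd
  have : b = a + k * n := by linarith
  rw [this]
  exact (hp.int_mul k a).symm

theorem rel_tsum_mod {E : Type} [NormedAddCommGroup E] [CompleteSpace E] {f : ℕ → E}
    (hf : Summable f) {h : ℕ} (hh : 1 ≤ h) :
    ∑' n, f n = ∑ k ∈ Finset.range h, ∑' e, f (k + h * e) := by
  haveI : NeZero h := ⟨by omega⟩
  rw [Nat.sumByResidueClasses hf h]
  obtain ⟨m, rfl⟩ : ∃ m, h = m + 1 := ⟨h - 1, by omega⟩
  rw [Finset.sum_range]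
  rfl

theorem rel_tsum_class {X E : Type} [AddCommMonoid E] [TopologicalSpace E] {h : ℕ} (s₀ : Fin h)
    (F : X × Fin h → E) :
    ∑' i : {i : X × Fin h // ((i.2 : ℕ) : ℤ) ≡ ((s₀ : ℕ) : ℤ) [ZMOD h]}, F i =
      ∑' x, F (x, s₀) := by
  let g : X → {i : X × Fin h // ((i.2 : ℕ) : ℤ) ≡ ((s₀ : ℕ) : ℤ) [ZMOD h]} :=
    fun x => ⟨(x, s₀), Int.ModEq.refl _⟩
  have hg : Function.Bijective g := by
    refine ⟨fun x y hxy => ?_, ?_⟩
    · have := congrArg (fun i => i.1.1) hxy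
      exact this
    · rintro ⟨⟨x, s⟩, hs⟩
      refine ⟨x, Subtype.ext (Prod.ext rfl ?_)⟩
      show s₀ = s
      have h1 : (s : ℕ) ≡ (s₀ : ℕ) [MOD h] := Int.natCast_modEq_iff.1 hs
      exact Fin.ext (Nat.ModEq.eq_of_lt_of_lt h1 s.2 s₀.2).symm
  exact ((Equiv.ofBijective g hg).tsum_eq (fun i => F i)).symm

variable {p : ℕ} [Fact p.Prime] {C : Type} [NontriviallyNormedField C] [IsUltrametricDist C]
  [CompleteSpace C] [CharP C p] [IsAlgClosed C]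

omit [IsUltrametricDist C] [CompleteSpace C] in
theorem rel_Fr_pow_eq {n : ℕ} {a : C} (ha : a ^ p ^ n = a) (j : ℤ) :
    Fr p j a ^ p ^ n = Fr p j a := by
  rw [← map_pow, ha]

omit [CompleteSpace C] [CharP C p] [IsAlgClosed C] [IsUltrametricDist C] in
theorem rel_norm_mul_lt {a x : C} (ha : ‖a‖ ≤ 1) (hx : ‖x‖ < 1) : ‖a * x‖ < 1 := by
  rw [norm_mul]
  exact mul_lt_one_of_nonneg_of_lt_one_right ha (norm_nonneg _) hx

omit [CompleteSpace C] [CharP C p] [IsAlgClosed C] [IsUltrametricDist C] in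
theorem rel_norm_mul_lt' {a x : C} (ha : ‖a‖ < 1) (hx : ‖x‖ < 1) : ‖a * x‖ < 1 :=
  rel_norm_mul_lt ha.le hx

theorem rel_not_dvd {h : ℕ} (hh : 1 ≤ h) : ¬ p ∣ p ^ h - 1 := by
  intro hd
  have hp : p.Prime := Fact.out
  have h1 : p ∣ p ^ h := dvd_pow_self p (by omega)
  have h2 : 1 ≤ p ^ h := Nat.one_le_pow _ _ hp.pos
  have : p ∣ p ^ h - (p ^ h - 1) := Nat.dvd_sub h1 hd
  rw [Nat.sub_sub_self h2] at this
  exact hp.one_lt.ne' (Nat.dvd_one.1 this)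

omit [IsAlgClosed C] in
theorem rel_summable_of_nsmul {G : FormalGroup (ZMod p)} [G.IsComm] {m : ℕ} (hm : ¬ p ∣ m)
    {κ : Type} {f : κ → PO G (zO p C)} (hf : Summable fun i => m • f i) : Summable f := by
  have h1 := hf.tendsto_cofinite_zero
  rw [tendsto_zero_iff_norm_tendsto_zero] at h1
  simp only [norm_nsmul_of_not_dvd hm] at h1
  rw [Pt.summable_iff, tendsto_zero_iff_norm_tendsto_zero]
  exact h1

omit [IsAlgClosed C] in
theorem rel_cancel {G : FormalGroup (ZMod p)} [G.IsComm] {m : ℕ} (hm : ¬ p ∣ m)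
    {κ κ' : Type} {f : κ → PO G (zO p C)} {g : κ' → PO G (zO p C)} {s : PO G (zO p C)}
    (hf : HasSum (fun i => m • f i) s) (hg : HasSum (fun i => m • g i) s) :
    Summable f ∧ Summable g ∧ ∑' i, f i = ∑' i, g i := by
  have h1 := rel_summable_of_nsmul hm hf.summable
  have h2 := rel_summable_of_nsmul hm hg.summable
  refine ⟨h1, h2, ?_⟩
  have e1 : m • ∑' i, f i = s := (h1.hasSum.const_smul m).unique hf
  have e2 : m • ∑' i, g i = s := (h2.hasSum.const_smul m).unique hg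
  have e3 : m • (∑' i, f i - ∑' i, g i) = 0 := by rw [smul_sub, e1, e2, sub_self]
  have e4 := norm_nsmul_of_not_dvd hm (∑' i, f i - ∑' i, g i)
  rw [e3, norm_zero] at e4
  exact sub_eq_zero.1 (norm_eq_zero.1 e4.symm)

theorem rel_frP_pt (G : FormalGroup (ZMod p)) [G.IsComm] (j : ℤ) {x : C} (hx : ‖x‖ < 1) :
    frP G j (pt G (zO p C) x) = pt G (zO p C) (Fr p j x) := by
  apply Pt.ext_c
  rw [frP_c, pt_c hx, pt_c (norm_Fr_lt_one j hx)]

omit [IsAlgClosed C] in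
theorem rel_sclP_pt {G : FormalGroup (ZMod p)} [G.IsComm] {h : ℕ} (hG : IsNormal p h G)
    (hh : 1 ≤ h) {a : C} (ha : a ^ p ^ h = a) {x : C} (hx : ‖x‖ < 1) :
    sclP hG hh ha (pt G (zO p C) x) = pt G (zO p C) (a * x) := by
  apply Pt.ext_c
  rw [sclP_c, pt_c hx, pt_c (rel_norm_mul_lt (norm_le_one_of_pow_eq hh ha) hx)]

theorem rel_sum_ite_dvd {E : Type} [AddCommMonoid E] {h : ℕ} (hh : 1 ≤ h) (m : ℤ) (X : E) :
    ∑ e ∈ Finset.range h, (if (h : ℤ) ∣ m + e then X else 0) = X := by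
  have hpos : (0 : ℤ) < h := by exact_mod_cast hh
  have h0 : 0 ≤ (-m) % h := Int.emod_nonneg _ hpos.ne'
  have h1 : (-m) % h < h := Int.emod_lt_of_pos _ hpos
  have hd : (h : ℤ) ∣ m + (-m) % h := by
    have := Int.emod_add_mul_ediv (-m) h
    exact ⟨-((-m) / h), by linarith⟩
  rw [Finset.sum_eq_single ((-m) % h).toNat]
  · rw [Int.toNat_of_nonneg h0, if_pos hd]
  · intro e he hne
    rw [if_neg]
    intro hc
    apply hne
    have he' : (e : ℤ) < h := by exact_mod_cast Finset.mem_range.1 he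
    have h2 : (h : ℤ) ∣ e - (-m) % h := by
      have := dvd_sub hc hd
      rwa [add_sub_add_left_eq_sub] at this
    have h3 : (e : ℤ) - (-m) % h = 0 := by
      apply Int.eq_zero_of_dvd_of_natAbs_lt_natAbs h2
      omega
    omega
  · intro hc
    exact absurd (Finset.mem_range.2 (by omega)) hc

section steps

variable {h r : ℕ} {Gn Gh : FormalGroup (ZMod p)} [Gn.IsComm] [Gh.IsComm]

theorem rel_exists_L (hh : 1 ≤ h) (hGn : IsNormal p (h + r) Gn) (hGh : IsNormal p h Gh)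
    (φ : ℤ → C) (hφ1 : ∀ j, ‖φ j‖ < 1)
    (Φ : PO Gn (zO p C) →+ PO Gh (zO p C)) (hΦc : Continuous Φ)
    (hΦ : ∀ x, HasSum (fun j : ℤ => pt Gh (zO p C) (φ j * Fr p j x.c)) (Φ x))
    {a : C} (ha : a ^ p ^ (h + r) = a) (N : ℤ) {b : C} (hb : b ^ p ^ h = b) :
    ∃ L : PO Gn (zO p C) →+ PO Gh (zO p C), Continuous L ∧
      ∀ x : C, ‖x‖ < 1 → HasSum
        (fun j : ℤ => pt Gh (zO p C) (b * (φ j * Fr p j (a * Fr p N x))))
        (L (pt Gn (zO p C) x)) ∧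
      L (pt Gn (zO p C) x) = pt Gh (zO p C) (b * (Φ (pt Gn (zO p C) (a * Fr p N x))).c) := by
  have hn : 1 ≤ h + r := by omega
  refine ⟨(sclP hGh hh hb).comp (Φ.comp ((sclP hGn hn ha).comp (frP Gn N))), ?_, fun x hx => ?_⟩
  · exact (continuous_sclP hGh hh hb).comp (hΦc.comp ((continuous_sclP hGn hn ha).comp
      (continuous_frP Gn N)))
  · have hx' : ‖a * Fr p N x‖ < 1 :=
      rel_norm_mul_lt (norm_le_one_of_pow_eq hn ha) (norm_Fr_lt_one N hx)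
    have e1 : ((sclP hGh hh hb).comp (Φ.comp ((sclP hGn hn ha).comp (frP Gn N))))
        (pt Gn (zO p C) x) = sclP hGh hh hb (Φ (pt Gn (zO p C) (a * Fr p N x))) := by
      simp only [AddMonoidHom.comp_apply]
      rw [rel_frP_pt Gn N hx, rel_sclP_pt hGn hn ha (norm_Fr_lt_one N hx)]
    rw [e1]
    refine ⟨?_, rfl⟩
    have h1 := (hΦ (pt Gn (zO p C) (a * Fr p N x))).map (sclP hGh hh hb)
      (continuous_sclP hGh hh hb)
    refine rel_hasSum_congr h1 fun j => ?_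
    simp only [Function.comp_apply]
    rw [pt_c hx', rel_sclP_pt hGh hh hb (rel_norm_mul_lt' (hφ1 j) (norm_Fr_lt_one j hx'))]

theorem rel_lam (hh : 1 ≤ h) (hGh : IsNormal p h Gh) [Fintype (Fq C p h)ˣ]
    (φ : ℤ → C) (hφ1 : ∀ j, ‖φ j‖ < 1) {a : C} (ha1 : ‖a‖ ≤ 1) (N : ℤ)
    (L : (Fq C p h)ˣ → PO Gn (zO p C) →+ PO Gh (zO p C))
    (hL : ∀ (ζ : (Fq C p h)ˣ) (x : C), ‖x‖ < 1 → HasSum
      (fun j : ℤ => pt Gh (zO p C) (((ζ : Fq C p h) : C)⁻¹ * (φ j * Fr p j (a * Fr p N x))))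
      (L ζ (pt Gn (zO p C) x)))
    (t : ℤ → C) (ht1 : ∀ e, ‖t e‖ < 1) (htp : ∀ e, t (e + h) = t e) :
    HasSum (fun j : ℤ => (p ^ h - 1) •
        pt Gh (zO p C) (φ j * Fr p j a * Fr p (j + N) (t (-(j + N)))))
      (∑ ζ : (Fq C p h)ˣ, L ζ (∑ e ∈ Finset.range h,
        pt Gn (zO p C) (Fr p e ((ζ : Fq C p h) : C) * t e))) := by
  have hζ : ∀ ζ : (Fq C p h)ˣ, ∀ e : ℤ, ‖Fr p e ((ζ : Fq C p h) : C)‖ ≤ 1 := fun ζ e =>
    norm_le_one_of_pow_eq hh (rel_Fr_pow_eq (mem_Fq.1 (ζ : Fq C p h).2) e)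
  simp only [map_sum]
  have h1 := hasSum_sum (s := (Finset.univ : Finset (Fq C p h)ˣ)) fun ζ _ =>
    hasSum_sum (s := Finset.range h) fun e _ =>
      hL ζ (Fr p (e : ℕ) ((ζ : Fq C p h) : C) * t e) (rel_norm_mul_lt (hζ ζ e) (ht1 e))
  have h2 : ∀ j : ℤ, ∑ ζ : (Fq C p h)ˣ, ∑ e ∈ Finset.range h, pt Gh (zO p C)
      (((ζ : Fq C p h) : C)⁻¹ * (φ j * Fr p j (a * Fr p N
        (Fr p (e : ℕ) ((ζ : Fq C p h) : C) * t e)))) =
      (p ^ h - 1) • pt Gh (zO p C) (φ j * Fr p j a * Fr p (j + N) (t (-(j + N)))) := by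
    intro j
    rw [Finset.sum_comm, ← rel_sum_ite_dvd hh (j + N)
      ((p ^ h - 1) • pt Gh (zO p C) (φ j * Fr p j a * Fr p (j + N) (t (-(j + N)))))]
    refine Finset.sum_congr rfl fun e _ => ?_
    have hw : ‖φ j * Fr p j a * Fr p (j + N) (t e)‖ < 1 := by
      refine rel_norm_mul_lt ?_ (norm_Fr_lt_one _ (ht1 e))
      rw [norm_mul, norm_Fr]
      exact mul_le_one₀ (hφ1 j).le (by positivity)
        (Real.rpow_le_one (norm_nonneg _) ha1 (by positivity))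
    have h3 := sum_char_pt hGh hh (j + N + e) hw
    have h4 : ∀ ζ : (Fq C p h)ˣ, ((ζ : Fq C p h) : C)⁻¹ * (φ j * Fr p j (a * Fr p N
        (Fr p (e : ℕ) ((ζ : Fq C p h) : C) * t e))) =
        ((ζ : Fq C p h) : C)⁻¹ * Fr p (j + N + e) ((ζ : Fq C p h) : C) *
          (φ j * Fr p j a * Fr p (j + N) (t e)) := by
      intro ζ
      simp only [map_mul, Fr_add]
      ring
    simp only [h4]
    rw [h3]
    split_ifs with hd
    · rw [rel_periodic htp (a := e) (b := -(j + N))]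
      rw [Int.modEq_iff_dvd]
      have : -(j + N) - (e : ℤ) = -(j + N + e) := by ring
      rw [this]
      exact hd.neg_right
    · rfl
  simp only [h2] at h1
  exact h1

/-- Steps 2–3: transport of the normalisation through `Φ`. -/
theorem rel_transport (hh : 1 ≤ h) (hGn : IsNormal p (h + r) Gn) (hGh : IsNormal p h Gh)
    (φ : ℤ → C) (hφ1 : ∀ j, ‖φ j‖ < 1)
    (Φ : PO Gn (zO p C) →+ PO Gh (zO p C)) (hΦc : Continuous Φ)
    (hΦ : ∀ x, HasSum (fun j : ℤ => pt Gh (zO p C) (φ j * Fr p j x.c)) (Φ x))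
    {X : Type} (d Y : X → C) (hd : ∀ x, d x ^ p ^ h = d x) (hY : ∀ x, ‖Y x‖ < 1)
    (t : ℤ → C) (ht1 : ∀ e, ‖t e‖ < 1) (htp : ∀ e, t (e + h) = t e)
    (hsum : ∀ ζ : C, ζ ^ p ^ h = ζ → HasSum (fun z : X × Fin h =>
      pt Gn (zO p C) (Fr p ((z.2 : ℕ) : ℤ) ζ * (Fr p ((z.2 : ℕ) : ℤ) (d z.1) * Y z.1)))
      (∑ e ∈ Finset.range h, pt Gn (zO p C) (Fr p e ζ * t e)))
    {a : C} (ha : a ^ p ^ (h + r) = a) (N : ℤ) :
    (Summable fun x : X => pt Gh (zO p C) (d x * (Φ (pt Gn (zO p C) (a * Fr p N (Y x)))).c)) ∧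
    (Summable fun j : ℤ => pt Gh (zO p C) (φ j * Fr p j a * Fr p (j + N) (t (-(j + N))))) ∧
    ∑' x : X, pt Gh (zO p C) (d x * (Φ (pt Gn (zO p C) (a * Fr p N (Y x)))).c) =
      ∑' j : ℤ, pt Gh (zO p C) (φ j * Fr p j a * Fr p (j + N) (t (-(j + N)))) := by
  classical
  have hn : 1 ≤ h + r := by omega
  have ha1 : ‖a‖ ≤ 1 := norm_le_one_of_pow_eq hn ha
  haveI : Finite (Fq C p h) := Nat.finite_of_card_ne_zero (by
    rw [card_Fq hh]; exact pow_ne_zero _ (Fact.out : p.Prime).ne_zero)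
  haveI : Fintype (Fq C p h)ˣ := Fintype.ofFinite _
  have hζ : ∀ ζ : (Fq C p h)ˣ, ((ζ : Fq C p h) : C) ^ p ^ h = ((ζ : Fq C p h) : C) := fun ζ =>
    mem_Fq.1 (ζ : Fq C p h).2
  have hζ' : ∀ ζ : (Fq C p h)ˣ, ((ζ : Fq C p h) : C)⁻¹ ^ p ^ h = ((ζ : Fq C p h) : C)⁻¹ :=
    fun ζ => by rw [inv_pow, hζ]
  choose L hLc hL using fun ζ : (Fq C p h)ˣ =>
    rel_exists_L hh hGn hGh φ hφ1 Φ hΦc hΦ ha N (hζ' ζ)
  have hlam := rel_lam hh hGh φ hφ1 ha1 N L (fun ζ x hx => (hL ζ x hx).1)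
  refine rel_cancel (rel_not_dvd hh) ?_ (hlam t ht1 htp)
  have h1 := hasSum_sum (s := (Finset.univ : Finset (Fq C p h)ˣ)) fun ζ _ =>
    (hsum _ (hζ ζ)).map (L ζ) (hLc ζ)
  refine h1.prod_fiberwise fun x => ?_
  have hdx : ∀ e : ℤ, ‖Fr p e (d x) * Y x‖ < 1 := fun e =>
    rel_norm_mul_lt (norm_le_one_of_pow_eq hh (rel_Fr_pow_eq (hd x) e)) (hY x)
  have h2 := hlam (fun e => Fr p e (d x) * Y x) hdx (fun e => by
    rw [Fr_eq_of_modEq (hd x) (i := e + h) (j := e) (by simp [Int.ModEq])])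
  obtain ⟨L', -, hL'⟩ := rel_exists_L hh hGn hGh φ hφ1 Φ hΦc hΦ ha N (hd x)
  have h3 := ((hL' _ (hY x)).1).const_smul (p ^ h - 1)
  rw [(hL' _ (hY x)).2] at h3
  have h4 : ∀ j : ℤ, φ j * Fr p j a * Fr p (j + N) (Fr p (-(j + N)) (d x) * Y x) =
      d x * (φ j * Fr p j (a * Fr p N (Y x))) := by
    intro j
    rw [map_mul, ← Fr_add, add_neg_cancel, Fr_zero, map_mul, Fr_add]
    ring
  simp only [h4] at h2
  rw [← h2.unique h3]
  have h5 : ∑ ζ : (Fq C p h)ˣ, L ζ (∑ e ∈ Finset.range h, pt Gn (zO p C)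
      (Fr p e ((ζ : Fq C p h) : C) * (Fr p e (d x) * Y x))) =
      ∑ s : Fin h, ∑ ζ : (Fq C p h)ˣ, L ζ (pt Gn (zO p C)
        (Fr p ((s : ℕ) : ℤ) ((ζ : Fq C p h) : C) * (Fr p ((s : ℕ) : ℤ) (d x) * Y x))) := by
    rw [Finset.sum_comm]
    refine Finset.sum_congr rfl fun ζ _ => ?_
    rw [map_sum, Finset.sum_range]
  rw [h5]
  exact hasSum_fintype _

omit [IsUltrametricDist C] [CompleteSpace C] in
theorem rel_trace_ne (hh : 1 ≤ h) {d : C} (hd : d ^ p ^ h = d) (hd0 : d ≠ 0) :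
    ∃ c : C, c ^ p ^ h = c ∧ ∑ s : Fin h, Fr p ((s : ℕ) : ℤ) (c * d) ≠ 0 := by
  classical
  by_contra hc
  push Not at hc
  haveI : Finite (Fq C p h) := Nat.finite_of_card_ne_zero (by
    rw [card_Fq hh]; exact pow_ne_zero _ (Fact.out : p.Prime).ne_zero)
  haveI : Fintype (Fq C p h) := Fintype.ofFinite _
  have h1 : ∀ a : Fq C p h, ∑ s : Fin h, Fr p ((s : ℕ) : ℤ) (a : C) = 0 := by
    intro a
    have := hc ((a : C) / d) (by rw [div_pow, hd, mem_Fq.1 a.2])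
    rwa [div_mul_cancel₀ _ hd0] at this
  have h2 : ∑ a : Fq C p h, (Fr p 0 (a : C))⁻¹ * ∑ s : Fin h, Fr p ((s : ℕ) : ℤ) (a : C) = 0 := by
    simp [h1]
  simp only [Finset.mul_sum] at h2
  rw [Finset.sum_comm] at h2
  simp only [sum_inv_mul_Fr hh] at h2
  rw [Finset.sum_eq_single (⟨0, hh⟩ : Fin h)] at h2
  · simp at h2
  · intro s _ hs
    rw [if_neg]
    intro h3
    apply hs
    have h4 : (0 : ℕ) ≡ (s : ℕ) [MOD h] := Int.natCast_modEq_iff.1 (by simpa using h3)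
    exact Fin.ext (Nat.ModEq.eq_of_lt_of_lt h4 hh s.2).symm
  · simp

omit [IsUltrametricDist C] [CompleteSpace C] in
theorem rel_trace_mem {x : C} (hx : x ^ p ^ h = x) :
    ∃ a : ZMod p, ZMod.castHom (dvd_refl p) C a = ∑ s : Fin h, Fr p ((s : ℕ) : ℤ) x := by
  have h1 : (∑ s : Fin h, Fr p ((s : ℕ) : ℤ) x) ^ p = ∑ s : Fin h, Fr p ((s : ℕ) : ℤ) x := by
    have e1 : ∀ z : C, z ^ p = Fr p ((1 : ℕ) : ℤ) z := fun z => by rw [Fr_natCast, pow_one]
    rw [e1, map_sum]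
    simp only [← Fr_add]
    rw [← Finset.sum_range (fun s : ℕ => Fr p (((1 : ℕ) : ℤ) + (s : ℤ)) x),
      ← Finset.sum_range (fun s : ℕ => Fr p (s : ℤ) x)]
    have e2 := Finset.sum_range_succ (fun s : ℕ => Fr p (s : ℤ) x) h
    have e3 := Finset.sum_range_succ' (fun s : ℕ => Fr p (s : ℤ) x) h
    have e4 : Fr p (h : ℤ) x = Fr p ((0 : ℕ) : ℤ) x := by
      rw [Fr_natCast, Fr_natCast, hx, pow_zero, pow_one]
    rw [e2, e4] at e3
    rw [add_right_cancel e3]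
    refine Finset.sum_congr rfl fun s _ => ?_
    congr 2
    push_cast
    ring
  have h2 := (Subfield.mem_bot_iff_pow_eq_self C p).2 h1
  rw [← ZMod.fieldRange_castHom_eq_bot p] at h2
  exact h2

/-- Step 3. -/
theorem rel_exists_t (hh : 1 ≤ h) (hGn : IsNormal p (h + r) Gn)
    {X : Type} (Y : X → C) (hY1 : ∀ x, ‖Y x‖ < 1) (hY0 : ∀ x, Y x ≠ 0)
    (hYt : Tendsto Y cofinite (𝓝 0))
    (hred : ∀ (w : ℝ) (S : Finset X) (a : X → ZMod p), (∀ x ∈ S, ‖Y x‖ = w) →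
      ‖∑ x ∈ S, (ZMod.castHom (dvd_refl p) C (a x)) * Y x‖ < w → ∀ x ∈ S, a x = 0)
    (d : X → C) (hd : ∀ x, d x ^ p ^ h = d x) :
    ∃ t : ℤ → C, (∀ e, ‖t e‖ < 1) ∧ (∀ e, t (e + h) = t e) ∧ ((∀ e, t e = 0) → ∀ x, d x = 0) ∧
      ∀ ζ : C, ζ ^ p ^ h = ζ → HasSum (fun z : X × Fin h =>
        pt Gn (zO p C) (Fr p ((z.2 : ℕ) : ℤ) ζ * (Fr p ((z.2 : ℕ) : ℤ) (d z.1) * Y z.1)))
        (∑ e ∈ Finset.range h, pt Gn (zO p C) (Fr p e ζ * t e)) := by
  classical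
  have hn : 1 ≤ h + r := by omega
  by_cases hd0 : ∀ x, d x = 0
  · refine ⟨fun _ => 0, by simp, fun _ => rfl, fun _ => hd0, fun ζ _ => ?_⟩
    simp [hd0, hasSum_zero]
  push Not at hd0
  obtain ⟨x₁, hx₁⟩ := hd0
  have hfin : ∀ ε : ℝ, 0 < ε → {x | ε ≤ ‖Y x‖}.Finite := by
    intro ε hε
    have := (tendsto_zero_iff_norm_tendsto_zero.1 hYt).eventually (gt_mem_nhds hε)
    rw [Filter.eventually_cofinite] at this
    simpa using this
  obtain ⟨x₀, ⟨hx₀, -⟩, hmax⟩ := Set.exists_max_image {x | d x ≠ 0 ∧ ‖Y x₁‖ ≤ ‖Y x‖}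
    (fun x => ‖Y x‖) ((hfin _ (norm_pos_iff.2 (hY0 x₁))).subset fun x hx => hx.2)
    ⟨x₁, hx₁, le_rfl⟩
  set w := ‖Y x₀‖ with hw
  have hw0 : 0 < w := norm_pos_iff.2 (hY0 x₀)
  have hw1 : w < 1 := hY1 x₀
  have hle : ∀ x, d x ≠ 0 → ‖Y x‖ ≤ w := by
    intro x hx
    by_cases h1 : ‖Y x₁‖ ≤ ‖Y x‖
    · exact hmax x ⟨hx, h1⟩
    · exact (not_le.1 h1).le.trans (hmax x₁ ⟨hx₁, le_rfl⟩)
  have hF1 : ∀ {u : C}, u ^ p ^ h = u → ∀ e : ℤ, ‖Fr p e u‖ ≤ 1 := fun hu e =>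
    norm_le_one_of_pow_eq hh (rel_Fr_pow_eq hu e)
  have hWY : ∀ (e : ℤ) (x : X), ‖Fr p e (d x) * Y x‖ ≤ ‖Y x‖ := fun e x => by
    rw [norm_mul]
    exact mul_le_of_le_one_left (norm_nonneg _) (hF1 (hd x) e)
  have hWw : ∀ (e : ℤ) (x : X), ‖Fr p e (d x) * Y x‖ ≤ w := fun e x => by
    by_cases hx : d x = 0
    · simp [hx, hw0.le]
    · exact (hWY e x).trans (hle x hx)
  have hWt : ∀ e : ℤ, Tendsto (fun x => Fr p e (d x) * Y x) cofinite (𝓝 0) := fun e =>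
    squeeze_zero_norm (hWY e) (tendsto_zero_iff_norm_tendsto_zero.1 hYt)
  have hWt' : Tendsto (fun z : X × Fin h => Fr p ((z.2 : ℕ) : ℤ) (d z.1) * Y z.1) cofinite
      (𝓝 0) := rel_tendsto_prod' fun s => by simpa only using hWt ((s : ℕ) : ℤ)
  obtain ⟨t, htp, ht, hsum⟩ := norm_lemma hGn hn hh (fun _ => w) (fun _ => rfl) (fun _ => hw0)
    (fun _ => hw1) (fun _ => by
      have : 1 < p ^ (h + r) := Nat.one_lt_pow (by omega) (Fact.out : p.Prime).one_lt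
      exact pow_lt_self_of_lt_one₀ hw0 hw1 this)
    (fun z : X × Fin h => ((z.2 : ℕ) : ℤ))
    (fun z => Fr p ((z.2 : ℕ) : ℤ) (d z.1) * Y z.1) (fun z => hWw _ _) hWt'
  refine ⟨t, fun e => ?_, htp, fun h0 => ?_, fun ζ hζ => ?_⟩
  · have h1 := ht e
    have h2 : ‖∑' i : {i : X × Fin h // ((i.2 : ℕ) : ℤ) ≡ e [ZMOD h]},
        Fr p ((i.1.2 : ℕ) : ℤ) (d i.1.1) * Y i.1.1‖ ≤ w :=
      IsUltrametricDist.norm_tsum_le_of_forall_le_of_nonneg hw0.le fun i => hWw _ _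
    have h3 := rel_norm_add_lt (h1.trans hw1) (h2.trans_lt hw1)
    rwa [sub_add_cancel] at h3
  · exfalso
    have h1 : ∀ s : Fin h, ‖∑' x, Fr p ((s : ℕ) : ℤ) (d x) * Y x‖ < w := by
      intro s
      have h2 := ht ((s : ℕ) : ℤ)
      rw [h0, zero_sub, norm_neg,
        rel_tsum_class s (fun z : X × Fin h => Fr p ((z.2 : ℕ) : ℤ) (d z.1) * Y z.1)] at h2
      exact h2
    obtain ⟨c, hc, hc0⟩ := rel_trace_ne hh (hd x₀) hx₀
    choose a ha using fun x => rel_trace_mem (h := h) (x := c * d x) (by rw [mul_pow, hc, hd])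
    have h2 : HasSum (fun x => ZMod.castHom (dvd_refl p) C (a x) * Y x)
        (∑ s : Fin h, Fr p ((s : ℕ) : ℤ) c * ∑' x, Fr p ((s : ℕ) : ℤ) (d x) * Y x) := by
      have h3 := hasSum_sum (s := (Finset.univ : Finset (Fin h))) fun s _ =>
        (NonarchimedeanAddGroup.summable_of_tendsto_cofinite_zero
          (hWt ((s : ℕ) : ℤ))).hasSum.mul_left (Fr p ((s : ℕ) : ℤ) c)
      refine rel_hasSum_congr h3 fun x => ?_
      rw [ha, Finset.sum_mul]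
      refine Finset.sum_congr rfl fun s _ => ?_
      rw [map_mul, mul_assoc]
    have h3 : ‖∑' x, ZMod.castHom (dvd_refl p) C (a x) * Y x‖ < w := by
      rw [h2.tsum_eq]
      refine rel_norm_sum_lt _ hw0 fun s _ => ?_
      rw [norm_mul]
      exact (mul_le_of_le_one_left (norm_nonneg _) (hF1 hc _)).trans_lt (h1 s)
    have hS : {x | ‖Y x‖ = w}.Finite := (hfin w hw0).subset fun x hx => le_of_eq hx.symm
    have h4 := h2.summable.sum_add_tsum_compl (s := hS.toFinset)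
    have h5 : ‖∑' x : ↑((hS.toFinset : Set X)ᶜ),
        ZMod.castHom (dvd_refl p) C (a x) * Y x‖ < w := by
      refine rel_norm_tsum_lt hw0 ((h2.summable.subtype _).tendsto_cofinite_zero) fun x => ?_
      by_cases hx : d x = 0
      · rw [ha]
        simp [hx, hw0]
      · have h6 : ‖Y x‖ ≠ w := by simpa using x.2
        have h7 : ‖ZMod.castHom (dvd_refl p) C (a x)‖ ≤ 1 :=
          norm_le_one_of_pow_eq (p := p) (n := 1) le_rfl (by
            rw [pow_one, ← map_pow, ZMod.pow_card])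
        rw [norm_mul]
        exact (mul_le_of_le_one_left (norm_nonneg _) h7).trans_lt
          (lt_of_le_of_ne (hle x hx) h6)
    have h6 := rel_norm_sub_lt h3 h5
    rw [← h4, add_sub_cancel_right] at h6
    have h7 := hred w hS.toFinset a (fun x hx => by simpa using hx) h6 x₀ (by simp [hw])
    apply hc0
    rw [← ha, h7, map_zero]
  · rw [← hsum ζ hζ]
    refine Summable.hasSum ?_
    rw [Pt.summable_iff]
    refine squeeze_zero_norm (fun z => ?_) (tendsto_zero_iff_norm_tendsto_zero.1 hWt')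
    rw [pt_c (rel_norm_mul_lt (hF1 hζ _) ((hWw _ _).trans_lt hw1)), norm_mul]
    exact mul_le_of_le_one_left (norm_nonneg _) (hF1 hζ _)

/-- Step 4. -/
theorem rel_final (hh : 1 ≤ h) (hr : 1 ≤ r) (hGh : IsNormal p h Gh)
    (φ : ℤ → C) (hφ1 : ∀ j, ‖φ j‖ < 1) (hφp : ∀ j, φ (j + r) ^ p ^ h = φ j) (hφ0 : ∃ j, φ j ≠ 0)
    (t : ℕ → ℤ → C) (ht1 : ∀ k e, ‖t k e‖ < 1) (htp : ∀ k e, t k (e + h) = t k e)
    (ht0 : ∃ k < h, ∃ e, t k e ≠ 0)
    (hs : ∀ (k : ℕ) (a : C), a ^ p ^ (h + r) = a → ∀ N : ℤ, Summable fun j : ℤ =>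
      pt Gh (zO p C) (φ j * Fr p j a * Fr p (j + N) (t k (-(j + N)))))
    (hrel : ∀ a : C, a ^ p ^ (h + r) = a → ∀ N : ℤ, ∑ k ∈ Finset.range h, frP Gh k
      (∑' j : ℤ, pt Gh (zO p C) (φ j * Fr p j a * Fr p (j + N) (t k (-(j + N))))) = 0) :
    False := by
  classical
  have hp : p.Prime := Fact.out
  have hn : 1 ≤ h + r := by omega
  obtain ⟨N, μ, k₀, j₀, hk₀, hper, hμ0, hμ1, hμ, hle, heq, hlt⟩ := trop (p := p) hp.two_le hh hr
    (fun j => ‖φ j‖) (fun _ => norm_nonneg _) hφ1 (fun j => by rw [← norm_pow, hφp])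
    (by obtain ⟨j, hj⟩ := hφ0; exact ⟨j, norm_ne_zero_iff.2 hj⟩)
    (fun k s => ‖t k (-s)‖) (fun _ _ => norm_nonneg _) (fun k s => ht1 k _)
    (fun k s => by rw [← htp k (-(s + h))]; congr 2; ring)
    (by obtain ⟨k, hk, e, he⟩ := ht0; exact ⟨k, hk, -e, by simpa using he⟩)
  let W : Fin h × ℤ → C := fun z =>
    Fr p ((z.1 : ℕ) : ℤ) (φ z.2 * Fr p (z.2 + N) (t z.1 (-(z.2 + N))))
  let c : Fin h × ℤ → ℤ := fun z => z.2 + ((z.1 : ℕ) : ℤ)
  have hu1 : ∀ (k : ℕ) (j : ℤ), ‖φ j * Fr p (j + N) (t k (-(j + N)))‖ < 1 := fun k j =>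
    rel_norm_mul_lt' (hφ1 j) (norm_Fr_lt_one _ (ht1 _ _))
  have hW : ∀ z, ‖W z‖ = tterm p (fun j => ‖φ j‖) (fun k s => ‖t k (-s)‖) N z.1 z.2 := by
    intro z
    simp only [W, tterm]
    rw [map_mul, ← Fr_add, norm_mul, Fr_natCast, norm_pow, norm_Fr]
    congr 3
    ring
  have hWμ : ∀ z, ‖W z‖ ≤ μ (c z) := fun z => (hW z).trans_le (hle z.1 z.1.2 z.2)
  have hWt : Tendsto W cofinite (𝓝 0) := by
    refine rel_tendsto_prod fun k => ?_
    have h1 := Pt.summable_iff.1 (hs k 1 (one_pow _) N)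
    simp only [map_one, mul_one] at h1
    simp only [pt_c (hu1 _ _)] at h1
    have h2 := h1.pow (p ^ (k : ℕ))
    rw [zero_pow (pow_ne_zero _ hp.ne_zero)] at h2
    simpa only [W, Fr_natCast] using h2
  obtain ⟨T, hTp, hT, hsum⟩ := norm_lemma hGh hh hn μ hper hμ0 hμ1 hμ c W hWμ hWt
  have hcl : ∀ e : ℤ, ‖∑' i : {i // c i ≡ e [ZMOD (h + r : ℕ)]}, W i‖ ≤ μ e := fun e =>
    IsUltrametricDist.norm_tsum_le_of_forall_le_of_nonneg (hμ0 e).le fun i =>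
      (hWμ i).trans_eq (rel_periodic hper i.2)
  have hT1 : ∀ e, ‖T e‖ < 1 := fun e => by
    have h3 := rel_norm_add_lt ((hT e).trans (hμ1 e)) ((hcl e).trans_lt (hμ1 e))
    rwa [sub_add_cancel] at h3
  have hT0 := sep_lemma (G := Gh) hn T hT1 fun a ha => by
    rw [← hsum a ha, ← hrel a ha N]
    have ha1 : ∀ e : ℤ, ‖Fr p e a‖ ≤ 1 := fun e =>
      norm_le_one_of_pow_eq hn (rel_Fr_pow_eq ha e)
    have h1 : ∀ k : Fin h, HasSum (fun j : ℤ => pt Gh (zO p C) (Fr p (c (k, j)) a * W (k, j)))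
        (frP Gh ((k : ℕ) : ℤ) (∑' j : ℤ,
          pt Gh (zO p C) (φ j * Fr p j a * Fr p (j + N) (t k (-(j + N)))))) := by
      intro k
      refine rel_hasSum_congr ((hs k a ha N).hasSum.map (frP Gh ((k : ℕ) : ℤ))
        (continuous_frP Gh _)) fun j => ?_
      have h2 : φ j * Fr p j a * Fr p (j + N) (t k (-(j + N))) =
          Fr p j a * (φ j * Fr p (j + N) (t k (-(j + N)))) := by ring
      simp only [Function.comp_apply]
      rw [h2, rel_frP_pt Gh _ (rel_norm_mul_lt (ha1 j) (hu1 k j)), map_mul, ← Fr_add, add_comm]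
    have h2 : Summable fun z : Fin h × ℤ => pt Gh (zO p C) (Fr p (c z) a * W z) := by
      rw [Pt.summable_iff]
      refine squeeze_zero_norm (fun z => ?_) (tendsto_zero_iff_norm_tendsto_zero.1 hWt)
      rw [pt_c (rel_norm_mul_lt (ha1 _) ((hWμ z).trans_lt (hμ1 _))), norm_mul]
      exact mul_le_of_le_one_left (norm_nonneg _) (ha1 _)
    rw [Finset.sum_range]
    exact (h2.hasSum.prod_fiberwise h1).unique (hasSum_fintype _)
  have hnpos : (0 : ℤ) < (h + r : ℕ) := by exact_mod_cast hn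
  have hTe : T (j₀ + k₀) = 0 := by
    have h0 : 0 ≤ (j₀ + k₀) % (h + r : ℕ) := Int.emod_nonneg _ hnpos.ne'
    have h1 : (j₀ + k₀) % (h + r : ℕ) < (h + r : ℕ) := Int.emod_lt_of_pos _ hnpos
    have h2 := hT0 ((j₀ + k₀) % (h + r : ℕ)).toNat (by omega)
    rw [Int.toNat_of_nonneg h0] at h2
    rw [← h2]
    exact rel_periodic hTp (Int.mod_modEq _ _).symm
  have h1 := hT (j₀ + k₀)
  rw [hTe, zero_sub, norm_neg] at h1
  let i₀ : {i // c i ≡ j₀ + k₀ [ZMOD (h + r : ℕ)]} := ⟨(⟨k₀, hk₀⟩, j₀), Int.ModEq.refl _⟩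
  have hsW : Summable fun i : {i // c i ≡ j₀ + k₀ [ZMOD (h + r : ℕ)]} => W i :=
    (NonarchimedeanAddGroup.summable_of_tendsto_cofinite_zero hWt).subtype _
  rw [hsW.tsum_eq_add_tsum_ite i₀] at h1
  have h2 : ‖∑' i : {i // c i ≡ j₀ + k₀ [ZMOD (h + r : ℕ)]}, if i = i₀ then 0 else W i‖ <
      μ (j₀ + k₀) := by
    refine rel_norm_tsum_lt (hμ0 _) ?_ fun i => ?_
    · refine squeeze_zero_norm (fun i => ?_)
        (tendsto_zero_iff_norm_tendsto_zero.1 hsW.tendsto_cofinite_zero)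
      split_ifs
      · simp
      · exact le_rfl
    · split_ifs with hi
      · simpa using hμ0 _
      · rw [hW]
        refine hlt _ i.1.1.2 _ (fun h3 => hi ?_) i.2
        obtain ⟨h4, h5⟩ := Prod.mk.inj h3
        exact Subtype.ext (Prod.ext (Fin.ext h4) h5)
  have h3 := rel_norm_sub_lt h1 h2
  rw [add_sub_cancel_right, hW] at h3
  exact h3.ne heq

theorem rel_frP_frP (G : FormalGroup (ZMod p)) [G.IsComm] (i j : ℤ) (x : PO G (zO p C)) :
    frP G (i + j) x = frP G i (frP G j x) := by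
  apply Pt.ext_c
  rw [frP_c, frP_c, frP_c, Fr_add]

theorem rel_frP_eq_zero (G : FormalGroup (ZMod p)) [G.IsComm] (j : ℤ) {x : PO G (zO p C)}
    (hx : frP G j x = 0) : x = 0 := by
  apply Pt.ext_c
  have h1 := congrArg Pt.c hx
  rw [frP_c, Pt.zero_c] at h1
  rw [Pt.zero_c]
  exact (map_eq_zero_iff _ (Fr p j).injective).1 h1

/-- Step 0. -/
theorem rel_phi_frP (hGn : IsNormal p (h + r) Gn) (hGh : IsNormal p h Gh)
    (Φ : PO Gn (zO p C) →+ PO Gh (zO p C)) (e : ℕ) (x : PO Gn (zO p C)) :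
    Φ (frP Gn (((h + r : ℕ) : ℤ) * e) x) = frP Gh ((h : ℤ) * e) (Φ x) := by
  induction e with
  | zero =>
    have e1 : frP Gn (((h + r : ℕ) : ℤ) * (0 : ℕ)) x = x := by
      apply Pt.ext_c; rw [frP_c]; simp
    have e2 : frP Gh ((h : ℤ) * (0 : ℕ)) (Φ x) = Φ x := by
      apply Pt.ext_c; rw [frP_c]; simp
    rw [e1, e2]
  | succ e ih =>
    have e1 : ((h + r : ℕ) : ℤ) * ((e + 1 : ℕ) : ℤ) = ((h + r : ℕ) : ℤ) + ((h + r : ℕ) : ℤ) * e := by
      push_cast; ring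
    have e2 : (h : ℤ) * ((e + 1 : ℕ) : ℤ) = (h : ℤ) + (h : ℤ) * e := by
      push_cast; ring
    rw [e1, e2, rel_frP_frP, rel_frP_frP, ← p_smul_eq_frP hGn, ← p_smul_eq_frP hGh, map_nsmul, ih]

theorem rel_phi_pt (hh : 1 ≤ h) (hGn : IsNormal p (h + r) Gn) (hGh : IsNormal p h Gh)
    (Φ : PO Gn (zO p C) →+ PO Gh (zO p C)) {a : C} (ha : a ^ p ^ (h + r) = a) (N : ℤ) (e : ℕ)
    {x : C} (hx : ‖x‖ < 1) :
    (Φ (pt Gn (zO p C) (a * Fr p (N + ((h + r : ℕ) : ℤ) * e) x))).c =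
      Fr p ((h : ℤ) * e) (Φ (pt Gn (zO p C) (a * Fr p N x))).c := by
  have hn : 1 ≤ h + r := by omega
  rw [← frP_c, ← rel_phi_frP hGn hGh, rel_frP_pt _ _
    (rel_norm_mul_lt (norm_le_one_of_pow_eq hn ha) (norm_Fr_lt_one N hx)), map_mul, ← Fr_add,
    Fr_eq_of_modEq ha (i := ((h + r : ℕ) : ℤ) * e) (j := 0) (by simp [Int.ModEq]), Fr_zero,
    add_comm N]

end steps

end Crest.Agent.R227
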