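import Crest.Agent.R227.NormL
import Crest.Agent.R227.Trop
import Crest.Agent.R227.RelAux

/-!
# R227 / Rel : there is no relation `∑ d_i Φ (b y_i) = 0`
-/

set_option autoImplicit false

namespace Crest.Agent.R227

open Filter Topology Crest.LubinTate

variable {p : ℕ} [Fact p.Prime] {C : Type} [NontriviallyNormedField C] [IsUltrametricDist C]
  [CompleteSpace C] [CharP C p] [IsAlgClosed C]

/-- The family `y` is reduced: the leading forms of the `y_i^(q^e)` of a given norm are linearly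
independent over `𝔽_p`. -/
def Red (p n : ℕ) [Fact p.Prime] [CharP C p] {σ : Type} (y : σ → C) : Prop :=
  ∀ (w : ℝ) (S : Finset (σ × ℕ)) (a : σ × ℕ → ZMod p),
    (∀ x ∈ S, ‖y x.1‖ ^ (p ^ n) ^ x.2 = w) →
    ‖∑ x ∈ S, (ZMod.castHom (dvd_refl p) C (a x)) * y x.1 ^ (p ^ n) ^ x.2‖ < w →
    ∀ x ∈ S, a x = 0

/-- **No relation.**  `n = h + r`, `P = p^h`, `q = p^n`.
0. `Φ (Fr n x) = Φ (p • x) = p • Φ x = Fr h (Φ x)`; so the relation holds for all `N ∈ ℤ`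
   (`d_i` commutes with `p •`, which is injective).
1. `d_i w = ∑'_{j'} [d_{i j'} Fr j' w]` (`exists_expands_end`).  Write `j' = k + h e`, `k < h`,
   `d' = Fr (-k) d_{i j'}`, `y_{ie} = Fr (n e) y_i`: the term is `Fr k ([d'] Φ (a Fr N y_{ie}))`.
2. For `ξ : 𝔽_P^× → PO Gn` let `Λ ξ = ∑_ζ [ζ⁻¹] Φ ([a] Fr N (ξ ζ))` (additive, continuous).
   By `sum_char_pt`, `Λ (ζ ↦ [Fr e ζ · t]) = (P-1) • ∑'_{j : h ∣ j+N+e} [φ_j Fr j a · Fr (j+N) t]`,
   hence `(P-1) • [d] Φ (a Fr N x) = Λ (ζ ↦ ∑_{s<h} [Fr (-s) ζ · Fr (-s) d · x])`.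
3. For each `k < h` apply `norm_lemma` (law `Gn`, field `𝔽_P`, constant weight `w_k` = largest
   `‖y_{ie}‖` with `d' ≠ 0`, or `1/2` if none) to the family `(i,e,s) ↦ (-s, Fr (-s) d' · y_{ie})`:
   get `t_k`.  If some `d_{i,k+he} ≠ 0` then some `t_k s ≠ 0`: otherwise
   `‖∑_{top} Fr (-s) d' y_{ie}‖ < w_k` for all `s`; multiply by `Fr (-s) c`, sum over `s < h`:
   coefficients `Tr (c d') ∈ 𝔽_p`, not all zero for suitable `c ∈ 𝔽_P`, contradicting `Red`.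
4. So `∑_{k<h} ∑'_j [Fr (j+k) a · w_{kj}] = 0`, `w_{kj} = φ_j^(p^k) · Fr (j+k+N) (t_k (-(j+N)))`
   (`P - 1` is prime to `p`).  Take `N, μ, k₀, j₀` from `trop` (`α j = ‖φ j‖`,
   `β k s = ‖t_k (-s)‖`); `norm_lemma` (law `Gh`, field `𝔽_q`) and `sep_lemma` give
   `‖∑'_{class j₀+k₀} w‖ < μ (j₀+k₀)`, but exactly one term has norm `μ (j₀+k₀)`. -/
theorem no_rel {h r : ℕ} (hh : 1 ≤ h) (hr : 1 ≤ r)
    {Gn Gh : FormalGroup (ZMod p)} [Gn.IsComm] [Gh.IsComm]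
    (hGn : IsNormal p (h + r) Gn) (hGh : IsNormal p h Gh)
    (φ : ℤ → C) (hφ1 : ∀ j, ‖φ j‖ < 1) (hφp : ∀ j, φ (j + r) ^ p ^ h = φ j) (hφ0 : ∃ j, φ j ≠ 0)
    (Φ : PO Gn (zO p C) →+ PO Gh (zO p C)) (hΦc : Continuous Φ)
    (hΦ : ∀ x, HasSum (fun j : ℤ => pt Gh (zO p C) (φ j * Fr p j x.c)) (Φ x))
    {σ : Type} [Fintype σ] (y : σ → PO Gn (zO p C)) (hy0 : ∀ i, y i ≠ 0)
    (hred : Red p (h + r) fun i => (y i).c)
    (d : σ → PowerSeries (Fq C p h))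
    (hd : ∀ i, IsFGHom (Gh.map (zF h)) (Gh.map (zF h)) (d i))
    (hrel : ∀ (a : C) (N : ℕ), a ^ p ^ (h + r) = a →
      ∑ i, pt Gh (zO p C)
        (ev1 (FqO hh) (Φ (pt Gn (zO p C) (a * Fr p N (y i).c))).1 (d i) : O C) = 0) :
    ∀ i, d i = 0 := by
  classical
  have hp : p.Prime := Fact.out
  have hn : 1 ≤ h + r := by omega
  choose c hc hc0 hcs using fun i => exists_expands_end hGh hh (hd i)
  have hc1 : ∀ i j, ‖c i j‖ ≤ 1 := fun i j => norm_le_one_of_pow_eq hh (hc i j)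
  -- step 0
  have hrelZ : ∀ a : C, a ^ p ^ (h + r) = a → ∀ N : ℤ, ∑ i, ∑' j : ℕ, pt Gh (zO p C)
      (c i j * Fr p j (Φ (pt Gn (zO p C) (a * Fr p N (y i).c))).c) = 0 := by
    intro a ha N
    have h0 : 0 ≤ N + ((h + r : ℕ) : ℤ) * (N.natAbs : ℕ) := by
      have h1 : (1 : ℤ) ≤ ((h + r : ℕ) : ℤ) := by exact_mod_cast hn
      have h2 : (0 : ℤ) ≤ (N.natAbs : ℕ) := Int.natCast_nonneg _
      have h3 : -N ≤ (N.natAbs : ℕ) := by omega
      nlinarith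
    have h1 := hrel a (N + ((h + r : ℕ) : ℤ) * (N.natAbs : ℕ)).toNat ha
    rw [Int.toNat_of_nonneg h0] at h1
    apply rel_frP_eq_zero Gh ((h : ℤ) * (N.natAbs : ℕ))
    rw [map_sum, ← h1]
    refine Finset.sum_congr rfl fun i _ => ?_
    refine HasSum.unique ?_ (hcs i _)
    refine rel_hasSum_congr ((hcs i _).summable.hasSum.map (frP Gh ((h : ℤ) * (N.natAbs : ℕ)))
      (continuous_frP Gh _)) fun j => ?_
    simp only [Function.comp_apply]
    rw [rel_frP_pt _ _ (rel_norm_mul_lt (hc1 i j) (norm_Fr_lt_one _ (Pt.norm_c_lt _))),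
      rel_phi_pt hh hGn hGh Φ ha N _ (Pt.norm_c_lt _), map_mul, ← Fr_add, ← Fr_add,
      Fr_eq_of_modEq (hc i j) (i := (h : ℤ) * (N.natAbs : ℕ)) (j := 0) (by simp [Int.ModEq]),
      Fr_zero, add_comm]
  -- step 3
  let Y : σ × ℕ → C := fun x => (y x.1).c ^ (p ^ (h + r)) ^ x.2
  have hq : 1 < p ^ (h + r) := Nat.one_lt_pow (by omega) hp.one_lt
  have hY1 : ∀ x, ‖Y x‖ < 1 := fun x => by
    simp only [Y, norm_pow]
    exact pow_lt_one₀ (norm_nonneg _) (Pt.norm_c_lt _) (pow_ne_zero _ (by omega))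
  have hY0 : ∀ x, Y x ≠ 0 := fun x =>
    pow_ne_zero _ fun h0 => hy0 x.1 (Pt.ext_c (h0.trans Pt.zero_c.symm))
  have hYt : Tendsto Y cofinite (𝓝 0) := by
    refine rel_tendsto_prod fun i => ?_
    rw [Nat.cofinite_eq_atTop]
    exact (tendsto_pow_atTop_nhds_zero_of_norm_lt_one (Pt.norm_c_lt (y i))).comp
      (tendsto_pow_atTop_atTop_of_one_lt hq)
  have hYF : ∀ x, Y x = Fr p (((h + r : ℕ) : ℤ) * (x.2 : ℕ)) (y x.1).c := fun x => by
    rw [← Nat.cast_mul, Fr_natCast, pow_mul]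
  let d' : ℕ → σ × ℕ → C := fun k x => Fr p (-(k : ℤ)) (c x.1 (k + h * x.2))
  have hd' : ∀ k x, d' k x ^ p ^ h = d' k x := fun k x => rel_Fr_pow_eq (hc _ _) _
  choose t ht1 htp ht0 hts using fun k => rel_exists_t hh hGn Y hY1 hY0 hYt
    (fun w S a hS hlt => hred w S a (fun x hx => by rw [← hS x hx, norm_pow]) hlt) (d' k) (hd' k)
  have htr := fun (k : ℕ) (a : C) (ha : a ^ p ^ (h + r) = a) (N : ℤ) =>
    rel_transport hh hGn hGh φ hφ1 Φ hΦc hΦ (d' k) Y (hd' k) hY1 (t k) (ht1 k) (htp k) (hts k) ha N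
  by_contra hne
  refine rel_final hh hr hGh φ hφ1 hφp hφ0 t ht1 htp ?_ (fun k a ha N => (htr k a ha N).2.1) ?_
  · by_contra hall
    push Not at hall
    refine hne fun i => hc0 i fun j => ?_
    have h1 := ht0 (j % h) (hall _ (Nat.mod_lt _ hh)) (i, j / h)
    simp only [d', Nat.mod_add_div] at h1
    exact (map_eq_zero_iff _ (Fr p _).injective).1 h1
  · intro a ha N
    rw [← hrelZ a ha N]
    simp only [fun i => rel_tsum_mod (hcs i (Φ (pt Gn (zO p C) (a * Fr p N (y i).c)))).summable hh]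
    rw [Finset.sum_comm]
    refine Finset.sum_congr rfl fun k _ => ?_
    rw [← (htr k a ha N).2.2]
    have h1 := (htr k a ha N).1.hasSum.map (frP Gh (k : ℤ)) (continuous_frP Gh _)
    refine (h1.prod_fiberwise fun i => ?_).unique (hasSum_fintype _)
    have h2 : Summable fun e : ℕ => pt Gh (zO p C) (c i (k + h * e) *
        Fr p ((k + h * e : ℕ) : ℤ) (Φ (pt Gn (zO p C) (a * Fr p N (y i).c))).c) :=
      (hcs i (Φ (pt Gn (zO p C) (a * Fr p N (y i).c)))).summable.comp_injective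
        (i := fun e : ℕ => k + h * e) fun e e' he => by
          have : h * e = h * e' := Nat.add_left_cancel he
          exact Nat.eq_of_mul_eq_mul_left hh this
    refine rel_hasSum_congr h2.hasSum fun e => ?_
    simp only [Function.comp_apply]
    rw [rel_frP_pt _ _ (rel_norm_mul_lt (norm_le_one_of_pow_eq hh (hd' k _)) (Pt.norm_c_lt _)),
      hYF, ← Fr_add, rel_phi_pt hh hGn hGh Φ ha N _ (Pt.norm_c_lt _), map_mul, ← Fr_add]
    simp only [d']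
    rw [← Fr_add, add_neg_cancel, Fr_zero]
    push_cast
    rfl

end Crest.Agent.R227
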