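import Crest.Agent.R227.CP

/-!
# R227 / ST : Serre–Tate coordinates
-/

set_option autoImplicit false
set_option linter.unusedSectionVars false

namespace Crest.Agent.R227

open MvPowerSeries Filter Topology Crest.LubinTate

variable {p : ℕ} [Fact p.Prime] {k : Type} [Field k] [CharP k p] {C : Type}
  [NontriviallyNormedField C] [IsUltrametricDist C] [CompleteSpace C] [CharP C p] [IsAlgClosed C]
  {h r : ℕ}

/-- The data at a point `u` of `V(P)`. -/
structure AtPt (S : CP p k h r) (D : Data p C h r) where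
  u : MvPowerSeries (Fin r) k →+* O C
  uP : ∀ a ∈ S.P, u a = 0
  uX : ∀ i, ‖(u (X i) : C)‖ ≤ ‖(D.ϖ : C)‖
  u0 : u (X ⟨0, S.hr⟩) ≠ 0
  hH : D.H = S.H.map u
  hg : D.g = S.g.map u
  εk : PowerSeries k
  εk1 : PowerSeries.coeff 1 εk = 1
  εkhom : IsFGHom (D.Gn.map (ZMod.castHom (dvd_refl p) k)) S.Γ εk
  hε : D.ε = εk.map (u.comp MvPowerSeries.C)

variable {S : CP p k h r} {D : Data p C h r}

namespace AtPt

variable (U : AtPt S D) (T : Tors D) (B : Bott D)

/-- the Taylor map at `u` -/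
noncomputable def tayl : MvPowerSeries (Fin r) k →+* MvPowerSeries (Fin r) (O C) :=
  tay (U.u.comp MvPowerSeries.C) fun i => U.u (X i)

/-- `s_i^(k) (δ) = [p^k]_{H_{u+δ}} (t_i^(k))` -/
noncomputable def sser (i : Fin r) (κ : ℕ) : MvPowerSeries (Fin r) (O C) :=
  ev1 U.tayl (MvPowerSeries.C (T.t i κ).1) (mulSeries S.H (p ^ κ))

/-- `z_i (b) = Φ (b y_i)` -/
noncomputable def zpt (b : PowerSeries k) (i : Fin r) : PO B.Gh (zO p C) :=
  B.Φ (pt D.Gn (zO p C) (ev1 (U.u.comp MvPowerSeries.C) (T.y i).1 b : O C))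

omit [CompleteSpace C] [IsAlgClosed C] in
theorem uX_mem (i : Fin r) : U.u (X i) ∈ mO C := lt_of_le_of_lt (U.uX i) D.ϖ1

omit [IsAlgClosed C] in
theorem u_eq_ev : U.u = ev (U.u.comp MvPowerSeries.C) fun i => U.u (X i) :=
  eq_ev (mO C) _ U.uX_mem (fun _ => rfl) (fun _ => rfl)

omit [IsAlgClosed C] in
theorem const_tayl : (constantCoeff : MvPowerSeries (Fin r) (O C) →+* O C).comp U.tayl = U.u := by
  rw [tayl, constantCoeff_comp_tay (mO C) _ U.uX_mem, ← U.u_eq_ev]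

theorem pow_smul_t (i : Fin r) (κ j : ℕ) : (p ^ j) • T.t i (κ + j) = T.t i κ := by
  induction j with
  | zero => simp
  | succ j ih => rw [pow_succ, mul_smul, ← add_assoc, T.tsucc, ih]

theorem pow_smul_t_zero (i : Fin r) (κ : ℕ) : (p ^ κ) • T.t i κ = 0 := by
  have := pow_smul_t T i 0 κ
  rwa [zero_add, T.t0] at this

theorem constantCoeff_sser (i : Fin r) (κ : ℕ) : constantCoeff (U.sser T i κ) = 0 := by
  have h1 := map_ev1 (cc (Fin r) (mO C)) (mO C) (ι := U.tayl) (ι' := RingHom.id _) (ρ := U.u)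
    (ψ := constantCoeff) (by rw [const_tayl]; rfl) (x := MvPowerSeries.C (T.t i κ).1)
    (by simpa using (T.t i κ).2) (by simpa using (T.t i κ).2) (mulSeries S.H (p ^ κ))
  rw [sser, h1, constantCoeff_C, ← mulSeries_map, ← U.hH, ← Pt.nsmul_val, pow_smul_t_zero]
  rfl

section jac

variable (τ : Fin r → O C)

/-- `δ_j ↦ τ_j ε` -/
noncomputable def dir : MvPowerSeries (Fin r) (O C) →+* PowerSeries (O C) :=
  ev ((MvPowerSeries.C : O C →+* MvPowerSeries Unit (O C)).comp (RingHom.id _))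
    fun j => PowerSeries.C (τ j) * PowerSeries.X

omit [CharP C p] [IsAlgClosed C] [CompleteSpace C] in
theorem dir_cc (j : Fin r) :
    constantCoeff (PowerSeries.C (τ j) * PowerSeries.X : PowerSeries (O C)) = 0 := by
  rw [map_mul, PtAux.cc_X1, mul_zero]

omit [CharP C p] [IsAlgClosed C] [CompleteSpace C] in
theorem coeff_one_dir (f : MvPowerSeries (Fin r) (O C)) :
    PowerSeries.coeff 1 (dir τ f) = ∑ j, coeff (Finsupp.single j 1) f * τ j := by
  rw [dir, ev_eq_subst _ (dir_cc τ), MvPowerSeries.map_id, RingHom.id_apply]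
  refine (PtAux.coeff_single_subst (dir_cc τ) f ()).trans (Finset.sum_congr rfl fun j _ => ?_)
  congr 1
  show PowerSeries.coeff 1 (PowerSeries.C (τ j) * PowerSeries.X) = τ j
  simp

omit [CharP C p] [IsAlgClosed C] [CompleteSpace C] in
theorem const_dir : (constantCoeff : PowerSeries (O C) →+* O C).comp (dir τ) = constantCoeff := by
  have hX : ∀ j, dir τ (X j) = PowerSeries.C (τ j) * PowerSeries.X := fun j =>
    ev_X (cc Unit ⊥) _ (fun j => dir_cc τ j) j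
  refine hom_ext ⊥ (fun c => ?_) (fun j => ?_) (fun j => ?_)
  · rw [RingHom.comp_apply, dir, ev_C]; simp
  · rw [RingHom.comp_apply, hX, dir_cc]; simp
  · rw [RingHom.comp_apply, hX, dir_cc]; simp

/-- the first order deformation in direction `τ` -/
noncomputable def tdir : MvPowerSeries (Fin r) k →+* PowerSeries (O C) := (dir τ).comp U.tayl

omit [IsAlgClosed C] in
theorem const_tdir : (constantCoeff : PowerSeries (O C) →+* O C).comp (U.tdir τ) = U.u := by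
  rw [tdir, ← RingHom.comp_assoc, const_dir, const_tayl]

/-- points of the deformation -/
abbrev PT : Type := Pt S.H (U.tdir τ) (cc Unit (mO C))

/-- constant lifts -/
noncomputable def cst (x : D.PH) : U.PT τ :=
  ⟨(PowerSeries.C x.1 : PowerSeries (O C)), by
    show constantCoeff (MvPowerSeries.C x.1 : MvPowerSeries Unit (O C)) ∈ mO C
    rw [constantCoeff_C]; exact x.2⟩

/-- reduction -/
noncomputable def redT : U.PT τ →+ D.PH :=
  Pt.map (constantCoeff : PowerSeries (O C) →+* O C)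
    (by rw [const_tdir, fg_map_id, U.hH]) (fun _ hx => hx)

theorem redT_cst (x : D.PH) : U.redT τ (U.cst τ x) = x :=
  Pt.ext (constantCoeff_C _)

omit [IsAlgClosed C] in
theorem p_smul_val (z : U.PT τ) : (p • z).1 = ev1 (U.tdir τ) (z.1 ^ p ^ h) S.g := by
  have hP : p ^ h ≠ 0 := pow_ne_zero _ (Fact.out : p.Prime).ne_zero
  rw [Pt.nsmul_val, S.hg, ev1_subst1 (cc Unit (mO C)) _ z.2
    (by rw [map_pow, PowerSeries.constantCoeff_X, zero_pow hP]), map_pow, ev1_X _ _ z.2]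

theorem coeff_one_p_smul_congr {z z' : U.PT τ} (hz : U.redT τ z = U.redT τ z') :
    PowerSeries.coeff 1 (p • z).1 = PowerSeries.coeff 1 (p • z').1 := by
  have hP : p ^ h ≠ 0 := pow_ne_zero _ (Fact.out : p.Prime).ne_zero
  have hP2 : 2 ≤ p ^ h := by
    have := S.hh
    exact Nat.one_lt_pow (by omega) (Fact.out : p.Prime).one_lt
  have : CharP (PowerSeries (O C)) p :=
    charP_of_injective_ringHom (f := (PowerSeries.C : O C →+* _)) PowerSeries.C_injective p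
  have h1 : (PowerSeries.X : PowerSeries (O C)) ∣ z.1 - z'.1 := by
    rw [PowerSeries.X_dvd_iff, map_sub, sub_eq_zero]
    exact congrArg Subtype.val hz
  have h2 := ev1_sub_ev1_dvd (cc Unit (mO C)) (U.tdir τ)
    (Ideal.pow_mem_of_mem _ z.2 _ (Nat.pos_of_ne_zero hP))
    (Ideal.pow_mem_of_mem _ z'.2 _ (Nat.pos_of_ne_zero hP)) S.g
  rw [← sub_pow_char_pow, ← p_smul_val, ← p_smul_val] at h2
  have h3 : (PowerSeries.X : PowerSeries (O C)) ^ 2 ∣ (p • z).1 - (p • z').1 :=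
    ((pow_dvd_pow _ hP2).trans (pow_dvd_pow_of_dvd h1 _)).trans h2
  have := PowerSeries.X_pow_dvd_iff.1 h3 1 (by norm_num)
  rwa [map_sub, sub_eq_zero] at this

/-- `x ↦ g_τ (x^P)` -/
noncomputable def ell (x : D.PH) : O C := PowerSeries.coeff 1 (p • U.cst τ x).1

theorem ell_add {x y : D.PH} (hx : p • x = 0) (hy : p • y = 0) :
    U.ell τ (x + y) = U.ell τ x + U.ell τ y := by
  have h0 : ∀ x : D.PH, p • x = 0 →
      (PowerSeries.X : PowerSeries (O C)) ∣ (p • U.cst τ x).1 := fun x hx => by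
    rw [PowerSeries.X_dvd_iff]
    have : U.redT τ (p • U.cst τ x) = 0 := by rw [map_nsmul, redT_cst, hx]
    exact congrArg Subtype.val this
  rw [ell, U.coeff_one_p_smul_congr τ (z' := U.cst τ x + U.cst τ y)
    (by rw [map_add, redT_cst, redT_cst, redT_cst]), smul_add]
  obtain ⟨c, hc⟩ := Pt.add_val_eq (p • U.cst τ x) (p • U.cst τ y)
  have h2 : (PowerSeries.X : PowerSeries (O C)) ^ 2 ∣ (p • U.cst τ x).1 * (p • U.cst τ y).1 * c := by
    rw [sq]; exact (mul_dvd_mul (h0 x hx) (h0 y hy)).mul_right _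
  rw [hc, map_add, map_add, PowerSeries.X_pow_dvd_iff.1 h2 1 (by norm_num), add_zero]
  rfl

theorem ell_zero : U.ell τ 0 = 0 := by
  have := U.ell_add τ (x := 0) (y := 0) (smul_zero _) (smul_zero _)
  rw [add_zero] at this
  exact left_eq_add.1 this

theorem ell_t (i : Fin r) (κ : ℕ) :
    U.ell τ (T.t i 1) = ∑ j, coeff (Finsupp.single j 1) (U.sser T i (κ + 1)) * τ j := by
  have hC : dir τ (MvPowerSeries.C (T.t i (κ + 1)).1) = (U.cst τ (T.t i (κ + 1))).1 := ev_C _ _ _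
  have h1 := map_ev1 (cc (Fin r) (mO C)) (cc Unit (mO C)) (ι := U.tayl) (ι' := U.tdir τ)
    (ρ := RingHom.id _) (ψ := dir τ) rfl (x := MvPowerSeries.C (T.t i (κ + 1)).1)
    (by simpa using (T.t i (κ + 1)).2) (by rw [hC]; exact (U.cst τ _).2)
    (mulSeries S.H (p ^ (κ + 1)))
  rw [← coeff_one_dir, sser, h1, hC, PowerSeries.map_id, id, ← Pt.nsmul_val, pow_succ', mul_smul,
    ell]
  apply U.coeff_one_p_smul_congr τ
  rw [map_nsmul, redT_cst, redT_cst, add_comm κ 1, pow_smul_t]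

/-- the series `g_τ` -/
noncomputable def gdir : PowerSeries (O C) :=
  PowerSeries.mk fun l => PowerSeries.coeff 1 (U.tdir τ (PowerSeries.coeff l S.g))

theorem ell_eq (x : D.PH) : U.ell τ x = ev1 (RingHom.id _) (x.1 ^ p ^ h) (U.gdir τ) := by
  have hP : p ^ h ≠ 0 := pow_ne_zero _ (Fact.out : p.Prime).ne_zero
  have hy : x.1 ^ p ^ h ∈ mO C := Ideal.pow_mem_of_mem _ x.2 _ (Nat.pos_of_ne_zero hP)
  have hy' : (PowerSeries.C (x.1 ^ p ^ h) : PowerSeries (O C)) ∈ cc Unit (mO C) := by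
    show constantCoeff (MvPowerSeries.C (x.1 ^ p ^ h) : MvPowerSeries Unit (O C)) ∈ mO C
    rw [constantCoeff_C]; exact hy
  have hdec : ∀ f : PowerSeries (O C), ∃ c : PowerSeries (O C),
      f = PowerSeries.C (PowerSeries.coeff 0 f) +
        PowerSeries.X * PowerSeries.C (PowerSeries.coeff 1 f) + PowerSeries.X ^ 2 * c := fun f => by
    have : (PowerSeries.X : PowerSeries (O C)) ^ 2 ∣ f - (PowerSeries.C (PowerSeries.coeff 0 f) +
        PowerSeries.X * PowerSeries.C (PowerSeries.coeff 1 f)) := by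
      rw [PowerSeries.X_pow_dvd_iff]
      intro m hm
      interval_cases m <;> simp [PowerSeries.coeff_C]
    obtain ⟨c, hc⟩ := this
    exact ⟨c, by rw [← hc]; ring⟩
  choose c hc using hdec
  have hg : S.g.map (U.tdir τ) =
      (PowerSeries.mk fun l => PowerSeries.coeff 0 (U.tdir τ (PowerSeries.coeff l S.g))).map
        PowerSeries.C + PowerSeries.C PowerSeries.X * (U.gdir τ).map PowerSeries.C +
      PowerSeries.C (PowerSeries.X ^ 2) *
        PowerSeries.mk fun l => c (U.tdir τ (PowerSeries.coeff l S.g)) := by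
    ext1 l
    simp only [map_add, PowerSeries.coeff_C_mul, PowerSeries.coeff_map, PowerSeries.coeff_mk, gdir]
    exact hc _
  have hm : ∀ f : PowerSeries (O C), ev1 (RingHom.id _) (PowerSeries.C (x.1 ^ p ^ h))
      (f.map PowerSeries.C) = PowerSeries.C (ev1 (RingHom.id _) (x.1 ^ p ^ h) f) := fun f =>
    (map_ev1 (mO C) (cc Unit (mO C)) (ψ := PowerSeries.C) (ι := RingHom.id _)
      (ι' := RingHom.id _) (ρ := PowerSeries.C) rfl hy hy' f).symm
  have h1 : (U.cst τ x).1 ^ p ^ h = PowerSeries.C (x.1 ^ p ^ h) := (map_pow _ _ _).symm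
  have h2 : ev1 (RingHom.id _) (PowerSeries.C (x.1 ^ p ^ h)) (S.g.map (U.tdir τ)) =
      PowerSeries.C (ev1 (RingHom.id _) (x.1 ^ p ^ h)
        (PowerSeries.mk fun l => PowerSeries.coeff 0 (U.tdir τ (PowerSeries.coeff l S.g)))) +
      PowerSeries.X * PowerSeries.C (ev1 (RingHom.id _) (x.1 ^ p ^ h) (U.gdir τ)) +
      PowerSeries.X ^ 2 * ev1 (RingHom.id _) (PowerSeries.C (x.1 ^ p ^ h))
        (PowerSeries.mk fun l => c (U.tdir τ (PowerSeries.coeff l S.g))) := by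
    rw [hg, map_add, map_add, map_mul, map_mul, ev1_C, ev1_C, hm, hm]
    rfl
  rw [ell, p_smul_val, h1, ← RingHom.id_comp (U.tdir τ), ← ev1_map (cc Unit (mO C)) _ _ hy', h2]
  simp [PowerSeries.coeff_C, PowerSeries.coeff_X_pow_mul']

end jac

/-- The Jacobian of `s^(κ)` (`κ ≥ 1`) is invertible over `C`.  Its linear part is that of `s^(1)`
(`[p] = g (X^P)` only depends on the argument mod `δ` up to `δ^P`).  If `J τ = 0` with
`max ‖τ_j‖ = 1`, map `O⟦δ⟧ → O⟦ε⟧`, `δ_j ↦ τ_j ε`; let `g_τ` be the `ε`-coefficient of the image of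
`g`; `x ↦ g_τ (x^P)` is additive on `H[p]` and kills the `t_i^(1)`, so by `T.gen`, `T.roots` the
coefficients `coeff (p^j) g_τ = τ_j` lie in `mO`. -/
theorem jac_sser {κ : ℕ} (hκ : 1 ≤ κ) :
    IsUnit (Matrix.of fun i j : Fin r =>
      ((coeff (Finsupp.single j 1) (U.sser T i κ) : O C) : C)) := by
  obtain ⟨κ, rfl⟩ : ∃ κ', κ = κ' + 1 := ⟨κ - 1, by omega⟩
  rw [← Matrix.mulVec_injective_iff_isUnit]
  refine (injective_iff_map_eq_zero (Matrix.mulVecLin _)).2 fun v hv => ?_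
  by_contra hv0
  obtain ⟨j₀, -, hj₀⟩ := Finset.exists_max_image Finset.univ (fun j => ‖v j‖)
    ⟨⟨0, S.hr⟩, Finset.mem_univ _⟩
  have hvj : v j₀ ≠ 0 := by
    intro h0
    apply hv0
    funext j
    have := hj₀ j (Finset.mem_univ _)
    rw [h0, norm_zero] at this
    exact norm_le_zero_iff.1 this
  let τ : Fin r → O C := fun j => ⟨v j / v j₀, by
    rw [mem_O, norm_div]
    exact div_le_one_of_le₀ (hj₀ j (Finset.mem_univ _)) (norm_nonneg _)⟩
  have hτ : τ j₀ = 1 := Subtype.ext (div_self hvj)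
  have ht : ∀ i, U.ell τ (T.t i 1) = 0 := fun i => by
    rw [U.ell_t T τ i κ]
    apply Subtype.ext
    have := congrFun hv i
    simp only [Matrix.mulVecLin_apply, Matrix.mulVec, dotProduct, Matrix.of_apply,
      Pi.zero_apply] at this
    simp only [AddSubmonoidClass.coe_finsetSum, MulMemClass.coe_mul, ZeroMemClass.coe_zero, τ,
      ← mul_div_assoc, ← Finset.sum_div, this, zero_div]
  have hall : ∀ x : D.PH, p • x = 0 → U.ell τ x = 0 := fun x hx => by
    have : p • x = 0 ∧ U.ell τ x = 0 := by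
      refine AddSubmonoid.closure_induction (motive := fun x _ => p • x = 0 ∧ U.ell τ x = 0)
        ?_ ⟨smul_zero _, U.ell_zero τ⟩ ?_ (T.gen x hx)
      · rintro _ ⟨i, rfl⟩
        exact ⟨by rw [T.tsucc, T.t0], ht i⟩
      · rintro x y - - ⟨hx, hx'⟩ ⟨hy, hy'⟩
        exact ⟨by rw [smul_add, hx, hy, add_zero], by rw [U.ell_add τ hx hy, hx', hy', add_zero]⟩
    exact this.2
  have := T.roots (U.gdir τ) (fun x hx => by rw [← ell_eq, hall x hx]) (p ^ (j₀ : ℕ))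
    (Nat.pow_lt_pow_right (Fact.out : p.Prime).one_lt j₀.2)
  rw [gdir, PowerSeries.coeff_mk, S.gX, tdir, RingHom.comp_apply, coeff_one_dir, tayl,
    tay_X (mO C) _ U.uX_mem, Finset.sum_eq_single j₀, hτ] at this
  · simp [coeff_C, coeff_X, mem_mO] at this
  · intro j _ hj
    simp [coeff_C, coeff_X, Finsupp.single_eq_single_iff, hj]
  · simp

/-- **Point estimate.**  `u' = u ∘ φ`, `θ' = θ.map u : H_{u'} → H_u`, `b = εk ∘ b° ∘ εk⁻¹`,
`s = [p^κ]_{H_{u'}} (t_i^(κ))`.  `θ' s = p^κ • θ' t`, `θ' t = t + p^m • b t + e` with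
`‖e‖ ≤ ‖ϖ‖^(P^m)`; apply `γ` and `B.appr` (`b t ≡ b (lev κ y) = lev κ (b° y)` mod `ϖ`). -/
theorem point_estimate {b₀ b : PowerSeries k}
    (hb₀ : IsFGHom (D.Gn.map (ZMod.castHom (dvd_refl p) k))
      (D.Gn.map (ZMod.castHom (dvd_refl p) k)) b₀)
    (hb : IsFGHom S.Γ S.Γ b) (hbb : b.subst U.εk = U.εk.subst b₀) (m κ : ℕ)
    (φ : MvPowerSeries (Fin r) k →+* MvPowerSeries (Fin r) k)
    (θ : PowerSeries (MvPowerSeries (Fin r) k)) (hθ : IsFGHom (S.H.map φ) S.H θ)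
    (hθ0 : ∀ i, PowerSeries.coeff i θ -
        PowerSeries.coeff i (theta0 S.H (p ^ m) (b.map MvPowerSeries.C)) ∈
      Ideal.span (Set.range fun i : Fin r => (X i : MvPowerSeries (Fin r) k) ^ (p ^ h) ^ m))
    (i : Fin r) :
    ‖((ev1 (RingHom.id _)
        (ev1 (U.u.comp φ) (T.t i κ).1 (mulSeries S.H (p ^ κ))) (B.γ.subst (θ.map U.u)) : O C) : C) -
      (U.zpt T B b₀ i).c ^ (p ^ h) ^ m‖ ≤ (‖(D.ϖ : C)‖ ^ (p ^ h) ^ κ) ^ (p ^ h) ^ m := by
  set ι₀ : k →+* O C := U.u.comp MvPowerSeries.C with hι₀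
  set t : D.PH := T.t i κ with ht
  have hθ' : IsFGHom ((S.H.map φ).map U.u) D.H (θ.map U.u) := by
    rw [U.hH]; exact fgHom_map hθ U.u
  let t' : PO ((S.H.map φ).map U.u) (RingHom.id (O C)) := ⟨t.1, t.2⟩
  have hs : ev1 (U.u.comp φ) t.1 (mulSeries S.H (p ^ κ)) = ((p ^ κ) • t').1 := by
    rw [Pt.nsmul_val, mulSeries_map, mulSeries_map, ev1_map (mO C) _ _ t'.2,
      ev1_map (mO C) _ _ t'.2]
    rfl
  let G : D.PH →+ PO B.Gh (zO p C) :=
    (Pt.map (RingHom.id (O C)) (by rw [RingHom.comp_id, fg_map_id]) fun _ hx => hx).comp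
      (Pt.hom (RingHom.id (O C)) (mO C) B.hom)
  have hG : ∀ x : D.PH, (G x).c = (ev1 (RingHom.id (O C)) x.1 B.γ : O C) := fun x => rfl
  have hpow : ∀ (j : ℕ) (y : PO B.Gh (zO p C)), ((p ^ j) • y).c = y.c ^ (p ^ h) ^ j := by
    intro j
    induction j with
    | zero => simp
    | succ j ih => intro y; rw [pow_succ', mul_smul, p_smul_c B.normal, ih, ← pow_mul, ← pow_succ]
  let a : D.PH := Pt.hom (RingHom.id (O C)) (mO C) hθ' t'
  have hb0 : PowerSeries.constantCoeff (b.map (MvPowerSeries.C : k →+* MvPowerSeries (Fin r) k)) =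
      0 := by
    rw [← PowerSeries.coeff_zero_eq_constantCoeff_apply, PowerSeries.coeff_map,
      PowerSeries.coeff_zero_eq_constantCoeff_apply, hb.1, map_zero]
  let bt : D.PH := ⟨ev1 ι₀ t.1 b, ev1_mem (mO C) _ t.2 hb.1⟩
  have ha0 : (t + (p ^ m) • bt).1 =
      ev1 U.u t.1 (theta0 S.H (p ^ m) (b.map MvPowerSeries.C)) := by
    rw [theta0, PtAux.ev1_subst2 (mO C) _ t.2 _ PowerSeries.constantCoeff_X
      (FG_cc1 hb0 (constantCoeff_mulSeries _ _)), ev1_X _ _ t.2, ev1_subst1 (mO C) _ t.2 hb0,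
      ev1_map (mO C) _ _ t.2, Pt.add_val, Pt.nsmul_val]
    conv_lhs => rw [U.hH]
    rw [mulSeries_map, ev1_map (mO C) _ _ bt.2, FormalGroup.map_toPowerSeries,
      ev_map (mO C)]
    · rfl
    · intro j
      fin_cases j
      · exact t.2
      · exact ev1_mem (mO C) _ bt.2 (constantCoeff_mulSeries _ _)
  have h1 : ‖a.c - (t + (p ^ m) • bt).c‖ ≤ ‖(D.ϖ : C)‖ ^ (p ^ h) ^ m := by
    have h2 := ev_sub_mem_of_coeff (σ := Unit) U.u (fun _ => t.1)
      (I := Ideal.span (Set.range fun i : Fin r =>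
        (X i : MvPowerSeries (Fin r) k) ^ (p ^ h) ^ m))
      (Submodule.fg_span (Set.finite_range _)) (f := θ)
      (g := theta0 S.H (p ^ m) (b.map MvPowerSeries.C)) (fun d => by
        have hd : d = Finsupp.single () (d ()) := by ext; simp
        rw [hd]
        exact hθ0 (d ()))
    have h3 : (Ideal.span (Set.range fun i : Fin r =>
        (X i : MvPowerSeries (Fin r) k) ^ (p ^ h) ^ m)).map U.u ≤
          Ideal.span {D.ϖ ^ (p ^ h) ^ m} := by
      rw [Ideal.map_span, Ideal.span_le]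
      rintro _ ⟨_, ⟨j, rfl⟩, rfl⟩
      rw [SetLike.mem_coe, Ideal.mem_span_singleton, map_pow]
      exact pow_dvd_pow_of_dvd (O.dvd_iff.2 (U.uX j)) _
    have h4 := O.dvd_iff.1 (Ideal.mem_span_singleton.1 (h3 h2))
    rw [SubmonoidClass.coe_pow, norm_pow] at h4
    have h5 : a.1 = ev1 U.u t.1 θ := ev1_map (mO C) _ _ t.2 θ
    rw [Pt.c, Pt.c, h5, ha0]
    exact h4
  have hfin : Finite k := Nat.finite_of_card_ne_zero
    (by rw [S.card]; exact pow_ne_zero _ (Fact.out : p.Prime).ne_zero)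
  have hq : ∀ c : k, ι₀ c ^ p ^ (h + r) = ι₀ c := fun c => by
    cases nonempty_fintype k
    rw [← map_pow, ← S.card, Nat.card_eq_fintype_card, FiniteField.pow_card]
  set y : D.PX := T.y i with hy
  set x : D.PX := pt D.Gn (zO p C) (ev1 ι₀ y.1 b₀ : O C) with hx
  have hxc : x.c = (ev1 ι₀ y.1 b₀ : O C) := pt_c (ev1_mem (mO C) _ y.2 hb₀.1)
  set y' : D.PX := frP D.Gn (-((h + r : ℕ) * κ : ℤ)) y with hy'
  have h6 : (frP D.Gn (-((h + r : ℕ) * κ : ℤ)) x).1 = ev1 ι₀ y'.1 b₀ := by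
    apply Subtype.ext
    rw [Fr_ev1 ι₀ (n := h + r) (fun i => hq _) (-κ) y.2 (y := y'.1)
      (by rw [mul_neg]; exact frP_c _ _ _), mul_neg, ← hxc]
    exact frP_c _ _ _
  have h7 : D.lev κ x = (ev1 ι₀ (ev1 ι₀ y'.1 U.εk) b : O C) := by
    rw [Data.lev, h6, U.hε, ev1_map (mO C) _ _ (ev1_mem (mO C) _ y'.2 hb₀.1),
      ← ev1_subst1 (mO C) _ y'.2 U.εkhom.1, hbb, ev1_subst1 (mO C) _ y'.2 hb₀.1]
    rfl
  have h8 : D.lev κ y = (ev1 ι₀ y'.1 U.εk : O C) := by
    rw [Data.lev, U.hε, ev1_map (mO C) _ _ y'.2]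
    rfl
  have h9 : ‖bt.c - D.lev κ x‖ ≤ ‖(D.ϖ : C)‖ := by
    rw [h7]
    refine (norm_ev1_sub_ev1_le ι₀ t.2 (ev1_mem (mO C) _ y'.2 U.εkhom.1) b).trans ?_
    rw [← h8]
    exact T.appr i κ
  have h10 := B.appr x κ bt h9
  have hL : ((ev1 (RingHom.id _) (ev1 (U.u.comp φ) t.1 (mulSeries S.H (p ^ κ)))
      (B.γ.subst (θ.map U.u)) : O C) : C) = (G a).c ^ (p ^ h) ^ κ := by
    rw [← hpow, ← map_nsmul, hG, hs, ev1_subst1 (mO C) _ ((p ^ κ) • t').2 hθ'.1, ← map_nsmul]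
    rfl
  have hR : (G (t + (p ^ m) • bt)).c ^ (p ^ h) ^ κ = ((G bt).c ^ (p ^ h) ^ κ) ^ (p ^ h) ^ m := by
    rw [← hpow, ← map_nsmul, smul_add, ht, pow_smul_t_zero, zero_add, smul_comm, map_nsmul,
      map_nsmul, hpow, hpow]
  have e1 : ‖(G a).c ^ (p ^ h) ^ κ - (G (t + (p ^ m) • bt)).c ^ (p ^ h) ^ κ‖ ≤
      (‖(D.ϖ : C)‖ ^ (p ^ h) ^ κ) ^ (p ^ h) ^ m := by
    rw [pow_right_comm ‖(D.ϖ : C)‖, ← pow_mul p h κ, ← sub_pow_char_pow, norm_pow]
    refine pow_le_pow_left₀ (norm_nonneg _) (le_trans ?_ h1) _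
    exact norm_ev1_sub_ev1_le _ a.2 (t + (p ^ m) • bt).2 B.γ
  have e2 : ‖((G bt).c ^ (p ^ h) ^ κ) ^ (p ^ h) ^ m - (B.Φ x).c ^ (p ^ h) ^ m‖ ≤
      (‖(D.ϖ : C)‖ ^ (p ^ h) ^ κ) ^ (p ^ h) ^ m := by
    rw [← pow_mul p h m, ← sub_pow_char_pow, norm_pow]
    exact pow_le_pow_left₀ (norm_nonneg _) h10 _
  rw [hL]
  rw [hR] at e1
  have := IsUltrametricDist.norm_add_le_max
    ((G a).c ^ (p ^ h) ^ κ - ((G bt).c ^ (p ^ h) ^ κ) ^ (p ^ h) ^ m)
    (((G bt).c ^ (p ^ h) ^ κ) ^ (p ^ h) ^ m - (B.Φ x).c ^ (p ^ h) ^ m)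
  rw [sub_add_sub_cancel] at this
  exact this.trans (max_le e1 e2)

end AtPt

end Crest.Agent.R227
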