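import Crest.Agent.R227.Nrm

/-!
# R227 / ST2Aux : the ring of bounded sequences modulo `O (ρ^K)`, and small series lemmas
-/

set_option autoImplicit false

namespace Crest.Agent.R227.ST2

open MvPowerSeries Filter Asymptotics Crest.LubinTate

section Seq

variable (C : Type) [NontriviallyNormedField C]

/-- bounded sequences -/
def BS : Subring (ℕ → C) where
  carrier := {x | x =O[atTop] (fun _ => (1 : ℝ))}
  mul_mem' := fun {a b} ha hb => by
    have := IsBigO.mul (show a =O[atTop] (fun _ => (1 : ℝ)) from ha)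
      (show b =O[atTop] (fun _ => (1 : ℝ)) from hb)
    simpa using this
  one_mem' := isBigO_const_const (1 : C) one_ne_zero atTop
  add_mem' := fun {a b} ha hb => IsBigO.add ha hb
  zero_mem' := isBigO_zero _ _
  neg_mem' := fun {a} ha => IsBigO.neg_left ha

/-- sequences that are `O (ρ)` -/
def JS (ρ : ℕ → ℝ) : Ideal (BS C) where
  carrier := {x | (x : ℕ → C) =O[atTop] ρ}
  add_mem' := fun {a b} ha hb => IsBigO.add ha hb
  zero_mem' := isBigO_zero _ _
  smul_mem' := fun c x hx => by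
    have := IsBigO.mul (show (c : ℕ → C) =O[atTop] (fun _ => (1 : ℝ)) from c.2)
      (show (x : ℕ → C) =O[atTop] ρ from hx)
    simp only [one_mul] at this
    exact this

variable {C}

theorem mem_JS {ρ : ℕ → ℝ} {x : BS C} : x ∈ JS C ρ ↔ (x : ℕ → C) =O[atTop] ρ := Iff.rfl

theorem JS_pow_le (ρ : ℕ → ℝ) (K : ℕ) : JS C ρ ^ K ≤ JS C (fun n => ρ n ^ K) := by
  induction K with
  | zero =>
    intro x _
    rw [mem_JS]
    simp only [pow_zero]
    exact x.2
  | succ K ih =>
    rw [pow_succ]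
    refine Ideal.mul_le.2 fun a ha b hb => ?_
    have := IsBigO.mul (mem_JS.1 (ih ha)) (mem_JS.1 hb)
    rw [mem_JS]
    simp only [pow_succ]
    exact this

variable (C)

/-- constant sequences -/
def cB : C →+* BS C :=
  (Pi.constRingHom ℕ C).codRestrict (BS C) fun c => isBigO_const_const c one_ne_zero atTop

/-- the quotient ring -/
abbrev QS (ρ : ℕ → ℝ) (K : ℕ) : Type := BS C ⧸ JS C (fun n => ρ n ^ K)

/-- the nilpotent ideal -/
abbrev NS (ρ : ℕ → ℝ) (K : ℕ) : Ideal (QS C ρ K) :=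
  (JS C ρ).map (Ideal.Quotient.mk (JS C (fun n => ρ n ^ K)))

theorem NS_pow (ρ : ℕ → ℝ) (K : ℕ) : NS C ρ K ^ K = ⊥ := by
  rw [← Ideal.map_pow, Ideal.map_eq_bot_iff_le_ker, Ideal.mk_ker]
  exact JS_pow_le ρ K

instance isEv_NS (ρ : ℕ → ℝ) (K : ℕ) : IsEv (NS C ρ K) :=
  isEv_of_nil _ fun x hx => ⟨K, by
    have := Ideal.pow_mem_pow hx K
    rwa [NS_pow, Ideal.mem_bot] at this⟩

/-- constants in the quotient -/
def cQ (ρ : ℕ → ℝ) (K : ℕ) : C →+* QS C ρ K := (Ideal.Quotient.mk _).comp (cB C)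

variable [IsUltrametricDist C]

/-- sequences in `O` -/
def sB : (ℕ → O C) →+* BS C :=
  (RingHom.pi fun n => (O C).subtype.comp (Pi.evalRingHom (fun _ => O C) n)).codRestrict (BS C)
    fun x => IsBigO.of_bound 1 (Eventually.of_forall fun n => by
      show ‖(x n : C)‖ ≤ 1 * ‖(1 : ℝ)‖
      simpa using O.norm_le (x n))

/-- sequences in `O`, in the quotient -/
def sQ (ρ : ℕ → ℝ) (K : ℕ) : (ℕ → O C) →+* QS C ρ K := (Ideal.Quotient.mk _).comp (sB C)

variable {C} {ρ : ℕ → ℝ} {K : ℕ}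

theorem sQ_const (c : O C) : sQ C ρ K (fun _ => c) = cQ C ρ K (c : C) := rfl

theorem sQ_mem {x : ℕ → O C} (hx : ∀ n, ‖(x n : C)‖ ≤ ρ n) : sQ C ρ K x ∈ NS C ρ K :=
  Ideal.mem_map_of_mem _ (IsBigO.of_bound 1 (Eventually.of_forall fun n => by
    show ‖(x n : C)‖ ≤ 1 * ‖ρ n‖
    simpa using (hx n).trans (le_abs_self _)))

theorem sQ_eq {x y : ℕ → O C} (h : ∀ᶠ n in atTop, ‖(x n : C) - y n‖ ≤ ρ n ^ K) :
    sQ C ρ K x = sQ C ρ K y :=
  Ideal.Quotient.eq.2 (IsBigO.of_bound 1 (h.mono fun n hn => by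
    show ‖(x n : C) - y n‖ ≤ 1 * ‖ρ n ^ K‖
    simpa using hn.trans (le_abs_self _)))

theorem eval₂_sQ_eq_zero {σ : Type} (a : σ → ℕ → O C) (F : MvPolynomial σ C)
    (h : MvPolynomial.eval₂ (cQ C ρ K) (fun i => sQ C ρ K (a i)) F = 0) :
    (fun n => MvPolynomial.eval (fun i => (a i n : C)) F) =O[atTop] fun n => ρ n ^ K := by
  have h1 : MvPolynomial.eval₂ (cQ C ρ K) (fun i => sQ C ρ K (a i)) F =
      Ideal.Quotient.mk _ (MvPolynomial.eval₂ (cB C) (fun i => sB C (a i)) F) := by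
    rw [MvPolynomial.eval₂_comp_left]; rfl
  rw [h1, Ideal.Quotient.eq_zero_iff_mem, mem_JS] at h
  convert h using 2 with n
  have := MvPolynomial.eval₂_comp_left
    ((Pi.evalRingHom (fun _ => C) n).comp (BS C).subtype) (cB C) (fun i => sB C (a i)) F
  rw [MvPolynomial.eval, MvPolynomial.coe_eval₂Hom]
  exact this.symm

/-- evaluation in the quotient ring is termwise evaluation -/
theorem ev_sQ [CompleteSpace C] {σ R : Type} [Finite σ] [CommRing R] (ι : ℕ → R →+* O C)
    (a : σ → ℕ → O C) (ha : ∀ i n, a i n ∈ mO C) (hρ : ∀ i n, ‖(a i n : C)‖ ≤ ρ n)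
    (G : MvPowerSeries σ R) :
    ev ((sQ C ρ K).comp (RingHom.pi ι)) (fun i => sQ C ρ K (a i)) G =
      sQ C ρ K (fun n => ev (ι n) (fun i => a i n) G) := by
  have := eq_ev (NS C ρ K) ((sQ C ρ K).comp (RingHom.pi ι)) (a := fun i => sQ C ρ K (a i))
    (fun i => sQ_mem (hρ i))
    (f := (sQ C ρ K).comp (RingHom.pi fun n => ev (ι n) (fun i => a i n)))
    (fun r => by
      simp only [RingHom.comp_apply]
      congr 1
      funext n
      exact ev_C _ _ _)
    (fun i => by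
      simp only [RingHom.comp_apply]
      congr 1
      funext n
      exact ev_X (mO C) _ (fun j => ha j n) i)
  rw [← this]
  rfl

end Seq

section Series

variable {σ R B : Type} [CommRing R] [CommRing B]

theorem mem_cc_bot {x : MvPowerSeries σ B} : x ∈ cc σ (⊥ : Ideal B) ↔ constantCoeff x = 0 := by
  simp [cc]

/-- linear coefficients of a one-variable evaluation -/
theorem coeff_single_ev1 [Finite σ] (ι : R →+* MvPowerSeries σ B) {x : MvPowerSeries σ B}
    (hx : constantCoeff x = 0) {G : PowerSeries R} (hG : PowerSeries.constantCoeff G = 0)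
    (j : σ) :
    coeff (Finsupp.single j 1) (ev1 ι x G) =
      constantCoeff (ι (PowerSeries.coeff 1 G)) * coeff (Finsupp.single j 1) x := by
  have hx' : x ∈ cc σ (⊥ : Ideal B) := mem_cc_bot.2 hx
  have hxs : x ∈ Ideal.span (Set.range (X : σ → MvPowerSeries σ B)) := by
    rw [← cc_bot]; exact hx'
  have hdvd : PowerSeries.X ^ 2 ∣ G - PowerSeries.C (PowerSeries.coeff 1 G) * PowerSeries.X := by
    rw [PowerSeries.X_pow_dvd_iff]
    intro m hm
    interval_cases m
    · simp [hG]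
    · simp
  obtain ⟨y, hy⟩ := ev1_dvd (cc σ (⊥ : Ideal B)) ι hx' hdvd
  rw [map_sub, map_mul, ev1_C, ev1_X _ ι hx'] at hy
  set a := ι (PowerSeries.coeff 1 G) with ha
  have hmem : ev1 ι x G - C (constantCoeff a) * x ∈
      (Ideal.span (Set.range (X : σ → MvPowerSeries σ B))) ^ 2 := by
    have e : ev1 ι x G - C (constantCoeff a) * x = (a - C (constantCoeff a)) * x + x ^ 2 * y := by
      rw [← hy]; ring
    rw [e]
    refine Ideal.add_mem _ ?_ (Ideal.mul_mem_right _ _ (Ideal.pow_mem_pow hxs 2))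
    rw [pow_two]
    refine Ideal.mul_mem_mul ?_ hxs
    rw [← cc_bot, mem_cc_bot]
    simp
  have := mem_span_X_pow.1 hmem (Finsupp.single j 1) (by simp)
  rw [map_sub, sub_eq_zero, coeff_C_mul] at this
  exact this

/-- a series with a nonzero coefficient in degree `e` is not a substitution into a series of
order `> e` -/
theorem exists_coeff_ne_zero [Finite σ] {z : σ → MvPowerSeries σ B}
    (hz : ∀ i, constantCoeff (z i) = 0) {F : MvPowerSeries σ B} {α₀ : σ →₀ ℕ}
    (h : coeff α₀ (F.subst z) ≠ 0) : ∃ α : σ →₀ ℕ, α.degree ≤ α₀.degree ∧ coeff α F ≠ 0 := by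
  by_contra hcon
  push Not at hcon
  apply h
  have h1 := ev_mem_pow (cc σ (⊥ : Ideal B)) ((C : B →+* MvPowerSeries σ B).comp (RingHom.id B))
    (a := z) (fun i => mem_cc_bot.2 (hz i)) (f := F) (k := α₀.degree + 1)
    (fun d hd => hcon d (by omega))
  rw [ev_eq_subst _ hz, MvPowerSeries.map_id, RingHom.id_apply] at h1
  have h2 : Ideal.span (Set.range z) ≤ Ideal.span (Set.range (X : σ → MvPowerSeries σ B)) := by
    rw [Ideal.span_le]
    rintro _ ⟨i, rfl⟩
    rw [← cc_bot]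
    exact mem_cc_bot.2 (hz i)
  exact mem_span_X_pow.1 (Ideal.pow_right_mono h2 _ h1) α₀ (by omega)

/-- low coefficients of `γ ∘ θ` when `θ ≡ X` -/
theorem coeff_subst_sub_mem (I : Ideal R) {θ : PowerSeries R}
    (hθ0 : PowerSeries.constantCoeff θ = 0) {M : ℕ}
    (hθ : ∀ i < M, PowerSeries.coeff i (θ - PowerSeries.X) ∈ I) (γ : PowerSeries R) :
    ∀ i < M, PowerSeries.coeff i (γ.subst θ) - PowerSeries.coeff i γ ∈ I := by
  intro i hi
  have h1 := ev1_sub_ev1_dvd (cc Unit (⊥ : Ideal R))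
    ((C : R →+* MvPowerSeries Unit R).comp (RingHom.id R)) (x := θ) (y := PowerSeries.X)
    (mem_cc_bot.2 hθ0) (mem_cc_bot.2 PowerSeries.constantCoeff_X) γ
  rw [ev1_eq_subst _ hθ0, ev1_eq_subst _ PowerSeries.constantCoeff_X, PowerSeries.map_id,
    id, PowerSeries.X_subst] at h1
  obtain ⟨y, hy⟩ := h1
  have hy' : (γ.subst θ : PowerSeries R) - γ = (θ - PowerSeries.X) * y := hy
  rw [← map_sub, hy', PowerSeries.coeff_mul]
  refine Ideal.sum_mem _ fun c hc => Ideal.mul_mem_right _ _ (hθ _ ?_)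
  have := Finset.HasAntidiagonal.mem_antidiagonal.1 hc
  omega

end Series

section Frob

variable {p : ℕ} [Fact p.Prime] {R : Type} [CommRing R] [CharP R p]

/-- a homomorphism to a law with `[p] = X^P` intertwines `g_κ` with Frobenius -/
theorem subst_gk {F G : FormalGroup R} [G.IsComm] {h κ : ℕ}
    (hG : mulSeries G p = PowerSeries.X ^ p ^ h) {Θ gk : PowerSeries R} (hΘ : IsFGHom F G Θ)
    (hg : mulSeries F (p ^ κ) = gk.subst (PowerSeries.X ^ (p ^ h) ^ κ : PowerSeries R))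
    (hg0 : PowerSeries.constantCoeff gk = 0) :
    Θ.subst gk = Θ.map (iterateFrobenius R p (h * κ)) := by
  have hne : (p ^ h) ^ κ ≠ 0 := pow_ne_zero _ (pow_ne_zero _ (Fact.out : p.Prime).ne_zero)
  have h1 := fgHom_mulSeries_comm hΘ (p ^ κ)
  have hs : PowerSeries.HasSubst Θ := PowerSeries.HasSubst.of_constantCoeff_zero' hΘ.1
  rw [mulSeries_pow_of_pser p G hG κ, hg, PowerSeries.subst_pow hs, PowerSeries.subst_X hs,
    ← PowerSeries.subst_comp_subst_apply (PowerSeries.HasSubst.of_constantCoeff_zero' hg0)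
      (PowerSeries.HasSubst.X_pow hne)] at h1
  have h2 := pow_eq_subst_X_pow p Θ (h * κ)
  rw [pow_mul] at h2
  exact subst_X_pow_injective hne (h1.trans h2)

theorem X_pow_dvd_mulSeries (F : FormalGroup R) [F.IsComm] {h : ℕ} {g : PowerSeries R}
    (hg : mulSeries F p = g.subst (PowerSeries.X ^ p ^ h : PowerSeries R)) (m : ℕ) :
    PowerSeries.X ^ (p ^ h) ^ m ∣ mulSeries F (p ^ m) := by
  have hne : (p ^ h) ^ m ≠ 0 := pow_ne_zero _ (pow_ne_zero _ (Fact.out : p.Prime).ne_zero)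
  obtain ⟨gm, e, h1, h2, -⟩ := exists_pser_pow p F hg m
  obtain ⟨y, rfl⟩ := PowerSeries.X_dvd_iff.2 h2
  have hs : PowerSeries.HasSubst (PowerSeries.X ^ (p ^ h) ^ m : PowerSeries R) :=
    PowerSeries.HasSubst.X_pow hne
  rw [h1, PowerSeries.subst_mul hs, PowerSeries.subst_X hs]
  exact Dvd.intro _ rfl

end Frob

end Crest.Agent.R227.ST2
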