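import Crest.Agent.R227.ST
import Crest.Agent.R227.ST2Aux

/-!
# R227 / ST2 : the Serre–Tate estimate `AtPt.st'`
-/

set_option autoImplicit false
set_option linter.unusedSectionVars false

namespace Crest.Agent.R227

open MvPowerSeries Filter Topology Asymptotics Crest.LubinTate ST2

variable {p : ℕ} [Fact p.Prime] {k : Type} [Field k] [CharP k p] {C : Type}
  [NontriviallyNormedField C] [IsUltrametricDist C] [CompleteSpace C] [CharP C p] [IsAlgClosed C]
  {h r : ℕ}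

variable {S : CP p k h r} {D : Data p C h r}

theorem st2_charP (σ : Type) : CharP (MvPowerSeries σ k) p :=
  charP_of_injective_ringHom (f := (MvPowerSeries.C : k →+* MvPowerSeries σ k))
    (MvPowerSeries.C : k →+* MvPowerSeries σ k).injective p

namespace AtPt

variable (U : AtPt S D) (T : Tors D) (B : Bott D)

theorem st2_uX_mem (i : Fin r) : U.u (X i) ∈ mO C := (U.uX i).trans_lt D.ϖ1

theorem st2_norm_le {M : ℕ} {a : MvPowerSeries (Fin r) k}
    (ha : a ∈ Ideal.span (Set.range fun i : Fin r => (X i : MvPowerSeries (Fin r) k) ^ M)) :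
    U.u a ∈ Ideal.span {D.ϖ ^ M} := by
  refine (Ideal.span_le (I := (Ideal.span {D.ϖ ^ M}).comap U.u)).2 ?_ ha
  rintro _ ⟨i, rfl⟩
  show U.u (X i ^ M) ∈ Ideal.span {D.ϖ ^ M}
  rw [Ideal.mem_span_singleton, map_pow]
  exact pow_dvd_pow_of_dvd (O.dvd_iff.2 (U.uX i)) M

omit [CompleteSpace C] [CharP C p] [IsAlgClosed C] in
theorem st2_norm_of_mem {ϖ x : O C} {M : ℕ} (hx : x ∈ Ideal.span {ϖ ^ M}) :
    ‖(x : C)‖ ≤ ‖(ϖ : C)‖ ^ M := by
  have := O.dvd_iff.1 (Ideal.mem_span_singleton.1 hx)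
  rwa [Subring.coe_pow, norm_pow] at this

/-- the Taylor map with values in `C⟦δ⟧` -/
noncomputable def st2_tC : MvPowerSeries (Fin r) k →+* MvPowerSeries (Fin r) C :=
  (MvPowerSeries.map (O C).subtype).comp U.tayl

theorem st2_constantCoeff_tC_X (i : Fin r) : constantCoeff (U.st2_tC (X i)) = (U.u (X i) : C) := by
  simp only [st2_tC, tayl, RingHom.comp_apply]
  rw [tay_X (mO C) _ U.st2_uX_mem]
  simp

/-- The coordinates `z_i = γ^(σ^κ) (e_i)`, `g_κ (e_i) = s_i`. -/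
theorem st2_coords {κ : ℕ} (hκ : 1 ≤ κ) {gκ : PowerSeries (MvPowerSeries (Fin r) k)} {e' : ℕ}
    (hg0 : PowerSeries.constantCoeff gκ = 0)
    (hg1 : PowerSeries.coeff 1 gκ = PowerSeries.coeff 1 S.g ^ e') :
    ∃ ee : Fin r → MvPowerSeries (Fin r) C, (∀ i, constantCoeff (ee i) = 0) ∧
      (∀ i, ev1 U.st2_tC (ee i) gκ = (U.sser T i κ).map (O C).subtype) ∧
      IsUnit (Matrix.of fun i j : Fin r => coeff (Finsupp.single j 1)
        (ev1 ((MvPowerSeries.C : C →+* MvPowerSeries (Fin r) C).comp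
          ((O C).subtype.comp (iterateFrobenius (O C) p (h * κ)))) (ee i) B.γ)) := by
  have hg1' : PowerSeries.coeff 1 gκ = X ⟨0, S.hr⟩ ^ e' := by
    rw [hg1, ← S.gX ⟨0, S.hr⟩]; simp
  have hu0 : (U.u (X ⟨0, S.hr⟩) : C) ≠ 0 := fun h0 => U.u0 (Subtype.ext h0)
  have hc : constantCoeff (U.st2_tC (PowerSeries.coeff 1 gκ)) = (U.u (X ⟨0, S.hr⟩) : C) ^ e' := by
    rw [hg1', map_pow, map_pow, st2_constantCoeff_tC_X]
  have hunit : IsUnit (PowerSeries.coeff 1 (gκ.map U.st2_tC)) := by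
    rw [PowerSeries.coeff_map, MvPowerSeries.isUnit_iff_constantCoeff, hc]
    exact (pow_ne_zero _ hu0).isUnit
  have hg0' : PowerSeries.constantCoeff (gκ.map U.st2_tC) = 0 := by
    rw [← PowerSeries.coeff_zero_eq_constantCoeff_apply, PowerSeries.coeff_map,
      PowerSeries.coeff_zero_eq_constantCoeff_apply, hg0, map_zero]
  have hs0 : ∀ i, constantCoeff ((U.sser T i κ).map (O C).subtype) = 0 := fun i => by
    rw [constantCoeff_map, constantCoeff_sser, map_zero]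
  set ginv := (gκ.map U.st2_tC).substInvOfIsUnit hunit with hginv
  have hinv0 : PowerSeries.constantCoeff ginv = 0 :=
    PowerSeries.constantCoeff_substInvOfIsUnit _ _
  set ee : Fin r → MvPowerSeries (Fin r) C := fun i =>
    ev1 (RingHom.id _) ((U.sser T i κ).map (O C).subtype) ginv with hee
  have hee0 : ∀ i, constantCoeff (ee i) = 0 := fun i =>
    mem_cc_bot.1 (ev1_mem (cc (Fin r) (⊥ : Ideal C)) (RingHom.id _) (mem_cc_bot.2 (hs0 i)) hinv0)
  have hes : ∀ i, ev1 U.st2_tC (ee i) gκ = (U.sser T i κ).map (O C).subtype := fun i => by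
    have h1 := ev1_subst1 (cc (Fin r) (⊥ : Ideal C)) (RingHom.id _) (mem_cc_bot.2 (hs0 i)) hinv0
      (gκ.map U.st2_tC)
    rw [hginv, PowerSeries.subst_substInvOfIsUnit_right _ hg0',
      ev1_X (cc (Fin r) (⊥ : Ideal C)) _ (mem_cc_bot.2 (hs0 i)),
      ev1_map (cc (Fin r) (⊥ : Ideal C)) _ _ (mem_cc_bot.2 (hee0 i)), RingHom.id_comp] at h1
    exact h1.symm
  refine ⟨ee, hee0, hes, ?_⟩
  have hJ := U.jac_sser T hκ
  have hγ1 : ((PowerSeries.coeff 1 B.γ : O C) : C) ≠ 0 := fun h0 => B.γ1 (Subtype.ext h0)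
  set c : C := ((PowerSeries.coeff 1 B.γ : O C) : C) ^ p ^ (h * κ) /
    (U.u (X ⟨0, S.hr⟩) : C) ^ e' with hcdef
  have hc0 : c ≠ 0 := div_ne_zero (pow_ne_zero _ hγ1) (pow_ne_zero _ hu0)
  have hM : (Matrix.of fun i j : Fin r => coeff (Finsupp.single j 1)
        (ev1 ((MvPowerSeries.C : C →+* MvPowerSeries (Fin r) C).comp
          ((O C).subtype.comp (iterateFrobenius (O C) p (h * κ)))) (ee i) B.γ)) =
      c • (Matrix.of fun i j : Fin r =>
        ((coeff (Finsupp.single j 1) (U.sser T i κ) : O C) : C)) := by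
    ext i j
    have h1 := coeff_single_ev1 U.st2_tC (hee0 i) hg0 j
    rw [hes i, hc, coeff_map] at h1
    have h2 : ((coeff (Finsupp.single j 1) (U.sser T i κ) : O C) : C) =
        (U.u (X ⟨0, S.hr⟩) : C) ^ e' * coeff (Finsupp.single j 1) (ee i) := h1
    simp only [Matrix.of_apply, Matrix.smul_apply, smul_eq_mul]
    rw [coeff_single_ev1 _ (hee0 i) B.hom.1 j, h2, hcdef]
    simp only [RingHom.comp_apply, constantCoeff_C, iterateFrobenius_def, Subring.subtype_apply,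
      Subring.coe_pow]
    field_simp
  rw [hM, Matrix.isUnit_iff_isUnit_det, Matrix.det_smul]
  exact ((pow_ne_zero _ hc0).isUnit).mul ((Matrix.isUnit_iff_isUnit_det _).1 hJ)

/-- low coefficients of `γ ∘ θ` -/
theorem st2_coeff_theta {b : PowerSeries k} (hb : PowerSeries.constantCoeff b = 0) (m : ℕ)
    {θ : PowerSeries (MvPowerSeries (Fin r) k)} (hθc : PowerSeries.constantCoeff θ = 0)
    (hθ0 : ∀ i, PowerSeries.coeff i θ -
        PowerSeries.coeff i (theta0 S.H (p ^ m) (b.map MvPowerSeries.C)) ∈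
      Ideal.span (Set.range fun i : Fin r => (X i : MvPowerSeries (Fin r) k) ^ (p ^ h) ^ m))
    (γ : PowerSeries (O C)) {i : ℕ} (hi : i < (p ^ h) ^ m) :
    ‖((PowerSeries.coeff i (γ.subst (θ.map U.u)) : O C) : C) -
      (PowerSeries.coeff i γ : O C)‖ ≤ ‖(D.ϖ : C)‖ ^ (p ^ h) ^ m := by
  have hb' : PowerSeries.constantCoeff
      (b.map (MvPowerSeries.C : k →+* MvPowerSeries (Fin r) k)) = 0 := by
    rw [← PowerSeries.coeff_zero_eq_constantCoeff_apply, PowerSeries.coeff_map,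
      PowerSeries.coeff_zero_eq_constantCoeff_apply, hb, map_zero]
  have := st2_charP (p := p) (k := k) (Fin r)
  have hd := X_pow_dvd_theta0_sub S.H (p ^ m) hb' (X_pow_dvd_mulSeries S.H S.hg m)
  rw [PowerSeries.X_pow_dvd_iff] at hd
  have hθu : PowerSeries.constantCoeff (θ.map U.u) = 0 := by
    rw [← PowerSeries.coeff_zero_eq_constantCoeff_apply, PowerSeries.coeff_map,
      PowerSeries.coeff_zero_eq_constantCoeff_apply, hθc, map_zero]
  have := coeff_subst_sub_mem (Ideal.span {D.ϖ ^ (p ^ h) ^ m}) hθu (M := (p ^ h) ^ m)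
    (fun j hj => by
      have h1 := U.st2_norm_le (hθ0 j)
      have h2 := hd j hj
      rw [map_sub, sub_eq_zero] at h2
      rw [h2] at h1
      have h3 : PowerSeries.coeff j (θ.map U.u - PowerSeries.X) =
          U.u (PowerSeries.coeff j θ - PowerSeries.coeff j PowerSeries.X) := by
        rw [← PowerSeries.map_X U.u, ← map_sub, PowerSeries.coeff_map, map_sub]
      rw [h3]
      exact h1) γ i hi
  exact st2_norm_of_mem this

/-- **Serre–Tate estimate.** -/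
theorem st' {f : MvPowerSeries (Fin r) k} (hf : f ∈ S.P) (hf0 : f ≠ 0) :
    ∃ e : ℕ, ∀ N : ℕ, ∃ F : MvPowerSeries (Fin r) C,
      (∃ α : Fin r →₀ ℕ, α.degree ≤ e ∧ coeff α F ≠ 0) ∧
      ∀ b₀ : PowerSeries k, IsFGHom (D.Gn.map (ZMod.castHom (dvd_refl p) k))
          (D.Gn.map (ZMod.castHom (dvd_refl p) k)) b₀ →
        ∃ (C₀ : ℝ) (m₀ : ℕ), ∀ m ≥ m₀,
          ‖MvPolynomial.eval (fun i => (U.zpt T B b₀ i).c ^ (p ^ h) ^ m) (truncTotal (N + 1) F)‖ ≤
            C₀ * (‖(D.ϖ : C)‖ ^ (N + 1)) ^ (p ^ h) ^ m := by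
  -- a nonzero coefficient of the Taylor series of `f`
  have hinj : Function.Injective U.tayl :=
    tay_injective (mO C) (U.u.comp MvPowerSeries.C).injective U.st2_uX_mem
  have hne : U.tayl f ≠ 0 := fun h0 => hf0 (hinj (by rw [h0, map_zero]))
  obtain ⟨α₀, hα₀⟩ : ∃ α₀, coeff α₀ (U.tayl f) ≠ 0 := by
    by_contra hcon
    push Not at hcon
    exact hne (MvPowerSeries.ext fun d => by rw [hcon d, map_zero])
  refine ⟨α₀.degree, fun N => ?_⟩
  have := st2_charP (p := p) (k := k) (Fin r)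
  obtain ⟨gκ, e', hgκ, hg0, hg1⟩ := exists_pser_pow p S.H S.hg (N + 1)
  obtain ⟨ee, hee0, hes, hJ⟩ := U.st2_coords T B (κ := N + 1) (by omega) hg0 hg1
  set ιγ : O C →+* C := (O C).subtype.comp (iterateFrobenius (O C) p (h * (N + 1))) with hιγ
  set z : Fin r → MvPowerSeries (Fin r) C := fun i =>
    ev1 ((MvPowerSeries.C : C →+* MvPowerSeries (Fin r) C).comp ιγ) (ee i) B.γ with hz
  have hz0 : ∀ i, constantCoeff (z i) = 0 := fun i =>
    mem_cc_bot.1 (ev1_mem (cc (Fin r) (⊥ : Ideal C))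
      ((MvPowerSeries.C : C →+* MvPowerSeries (Fin r) C).comp ιγ) (mem_cc_bot.2 (hee0 i)) B.hom.1)
  obtain ⟨F, hF⟩ := subst_surjective hz0 hJ (U.st2_tC f)
  have hF' : F.subst z = U.st2_tC f := hF
  refine ⟨F, exists_coeff_ne_zero hz0 ?_, fun b₀ hb₀ => ?_⟩
  · rw [hF']
    show ((coeff α₀ (U.tayl f) : O C) : C) ≠ 0
    exact fun h0 => hα₀ (Subtype.ext h0)
  -- the endomorphism `b = εk ∘ b₀ ∘ εk⁻¹`
  have hεu : IsUnit (PowerSeries.coeff 1 U.εk) := by rw [U.εk1]; exact isUnit_one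
  have hb := fgHom_comp (fgHom_inv U.εkhom hεu) (fgHom_comp hb₀ U.εkhom)
  set b : PowerSeries k :=
    PowerSeries.subst (U.εk.substInvOfIsUnit hεu) (PowerSeries.subst b₀ U.εk : PowerSeries k)
    with hbdef
  have hbb : b.subst U.εk = U.εk.subst b₀ := by
    rw [hbdef, PowerSeries.subst_comp_subst_apply (PowerSeries.HasSubst.substInvOfIsUnit _ _)
      (PowerSeries.HasSubst.of_constantCoeff_zero' U.εkhom.1),
      PowerSeries.subst_substInvOfIsUnit_left _ U.εkhom.1, PowerSeries.X_subst]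
  obtain ⟨m₀, hact⟩ := S.act
  choose φ θ hφC hφP hθ hφX hθ0 using fun n : ℕ => hact (n + m₀) (Nat.le_add_left _ _) b hb
  -- sizes
  have hP2 : 2 ≤ p ^ h := by
    calc 2 ≤ p := (Fact.out : p.Prime).two_le
      _ = p ^ 1 := (pow_one p).symm
      _ ≤ p ^ h := Nat.pow_le_pow_right (Fact.out : p.Prime).pos S.hh
  have hϖ0 : 0 ≤ ‖(D.ϖ : C)‖ := norm_nonneg _
  have hϖ1 : ‖(D.ϖ : C)‖ < 1 := D.ϖ1
  set ρ : ℕ → ℝ := fun n => ‖(D.ϖ : C)‖ ^ (p ^ h) ^ (n + m₀) with hρ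
  have hρ0 : ∀ n, 0 ≤ ρ n := fun n => pow_nonneg hϖ0 _
  have hρ1 : ∀ n, ρ n < 1 := fun n => pow_lt_one₀ hϖ0 hϖ1 (by positivity)
  have hκN : N + 1 ≤ (p ^ h) ^ (N + 1) := (Nat.lt_pow_self (by omega)).le
  have hρκ : ∀ n, ρ n ^ (p ^ h) ^ (N + 1) ≤ ρ n ^ (N + 1) := fun n =>
    pow_le_pow_of_le_one (hρ0 n) (hρ1 n).le hκN
  -- the displacements
  set δ : Fin r → ℕ → O C := fun j n => U.u (φ n (X j)) - U.u (X j) with hδ
  have hδρ : ∀ j n, ‖(δ j n : C)‖ ≤ ρ n := fun j n => by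
    have := U.st2_norm_le (hφX n (X j))
    rw [map_sub] at this
    exact st2_norm_of_mem this
  have hδm : ∀ j n, δ j n ∈ mO C := fun j n => (hδρ j n).trans_lt (hρ1 n)
  set E : MvPowerSeries (Fin r) C →+* QS C ρ (N + 1) :=
    ev (cQ C ρ (N + 1)) (fun j => sQ C ρ (N + 1) (δ j)) with hE
  have hδN : ∀ j, sQ C ρ (N + 1) (δ j) ∈ NS C ρ (N + 1) := fun j => sQ_mem (hδρ j)
  have hE1 : ∀ G : MvPowerSeries (Fin r) (O C), E (G.map (O C).subtype) =
      sQ C ρ (N + 1) (fun n => ev (RingHom.id _) (fun j => δ j n) G) := fun G => by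
    rw [hE, ev_map (NS C ρ (N + 1)) _ _ hδN, ← ev_sQ (fun _ => RingHom.id _) δ hδm hδρ G]
    rfl
  have hevφ : ∀ n, (ev (RingHom.id (O C)) (fun j => δ j n)).comp U.tayl = U.u.comp (φ n) :=
    fun n => by
      rw [tayl, ev_comp_tay (mO C) _ U.st2_uX_mem (fun j => hδm j n)]
      refine (eq_ev (mO C) _ (fun j => Ideal.add_mem _ (U.st2_uX_mem j) (hδm j n))
        (fun c => ?_) (fun j => ?_)).symm
      · simp [hφC]
      · simp [hδ]
  set Φ : MvPowerSeries (Fin r) k →+* (ℕ → O C) := RingHom.pi fun n => U.u.comp (φ n) with hΦ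
  have hEt : E.comp U.st2_tC = (sQ C ρ (N + 1)).comp Φ := by
    ext1 a
    show E ((U.tayl a).map (O C).subtype) = sQ C ρ (N + 1) (Φ a)
    rw [hE1]
    congr 1
    funext n
    exact RingHom.congr_fun (hevφ n) a
  have hEf : E (U.st2_tC f) = 0 := by
    have h1 : Φ f = 0 := funext fun n => U.uP _ (hφP n f hf)
    have := RingHom.congr_fun hEt f
    simp only [RingHom.comp_apply] at this
    rw [this, h1, map_zero]
  -- the values `s'`
  set s' : Fin r → ℕ → O C := fun i n =>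
    ev1 (U.u.comp (φ n)) (T.t i (N + 1)).1 (mulSeries S.H (p ^ (N + 1))) with hs'
  have hs'ev : ∀ i n, ev (RingHom.id (O C)) (fun j => δ j n) (U.sser T i (N + 1)) = s' i n :=
    fun i n => by
      have hC : ev (RingHom.id (O C)) (fun j => δ j n)
          (MvPowerSeries.C (T.t i (N + 1)).1) = (T.t i (N + 1)).1 := ev_C _ _ _
      rw [sser, map_ev1 (cc (Fin r) (mO C)) (mO C) (ι' := U.u.comp (φ n)) (ρ := RingHom.id _)
        (by rw [hevφ n, RingHom.comp_id]) (by simp)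
        (by rw [hC]; exact (T.t i (N + 1)).2), hC, PowerSeries.map_id, id]
  have hs'ρ : ∀ i n, ‖(s' i n : C)‖ ≤ ρ n := fun i n => by
    have h1 := norm_ev_sub_ev_le (RingHom.id (O C)) (a := fun j => δ j n) (b := fun _ => 0)
      (fun j => hδm j n) (fun _ => (mO C).zero_mem) (hρ0 n) (fun j => by simpa using hδρ j n)
      (U.sser T i (N + 1))
    rw [ev_zero, constantCoeff_sser, hs'ev] at h1
    simpa using h1
  have hs'm : ∀ i n, s' i n ∈ mO C := fun i n => (hs'ρ i n).trans_lt (hρ1 n)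
  have hEs : ∀ i, E ((U.sser T i (N + 1)).map (O C).subtype) = sQ C ρ (N + 1) (s' i) :=
    fun i => by
      rw [hE1]
      congr 1
      funext n
      exact hs'ev i n
  -- the homomorphisms `Θ_n = γ ∘ θ_n`
  set Θn : ℕ → PowerSeries (O C) := fun n => B.γ.subst ((θ n).map U.u) with hΘn
  have hΘhom : ∀ n, IsFGHom (S.H.map (U.u.comp (φ n))) (B.Gh.map (zO p C)) (Θn n) := fun n => by
    have h1 := fgHom_map (hθ n) U.u
    rw [fg_map_map, ← U.hH] at h1
    exact fgHom_comp h1 B.hom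
  have hne' : (p ^ h) ^ (N + 1) ≠ 0 := by positivity
  have hΘg : ∀ n, (Θn n).subst (gκ.map (U.u.comp (φ n))) =
      (Θn n).map (iterateFrobenius (O C) p (h * (N + 1))) := fun n => by
    refine subst_gk (G := B.Gh.map (zO p C)) ?_ (hΘhom n) ?_ ?_
    · rw [mulSeries_map, B.normal.pser, map_pow, PowerSeries.map_X]
    · rw [mulSeries_map, hgκ]
      have := PowerSeries.map_subst (PowerSeries.HasSubst.X_pow (R := MvPowerSeries (Fin r) k) hne')
        (h := U.u.comp (φ n)) gκ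
      refine this.trans ?_
      congr 1
      show PowerSeries.map _ _ = _
      rw [map_pow, PowerSeries.map_X]
    · rw [← PowerSeries.coeff_zero_eq_constantCoeff_apply, PowerSeries.coeff_map,
        PowerSeries.coeff_zero_eq_constantCoeff_apply, hg0, map_zero]
  set Θ : PowerSeries (ℕ → O C) := PowerSeries.mk fun i n => PowerSeries.coeff i (Θn n) with hΘ
  have hΘev : ∀ n, Θ.map (Pi.evalRingHom (fun _ => O C) n) = Θn n := fun n => by
    ext1 i
    rw [PowerSeries.coeff_map, hΘ, PowerSeries.coeff_mk]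
    rfl
  have hgΦ0 : PowerSeries.constantCoeff (gκ.map Φ) = 0 := by
    rw [← PowerSeries.coeff_zero_eq_constantCoeff_apply, PowerSeries.coeff_map,
      PowerSeries.coeff_zero_eq_constantCoeff_apply, hg0, map_zero]
  have hΘsub : ∀ i n, PowerSeries.coeff i (Θ.subst (gκ.map Φ) : PowerSeries (ℕ → O C)) n =
      PowerSeries.coeff i (Θn n) ^ (p ^ h) ^ (N + 1) := fun i n => by
    have h1 := PowerSeries.map_subst (PowerSeries.HasSubst.of_constantCoeff_zero' hgΦ0)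
      (h := Pi.evalRingHom (fun _ => O C) n) Θ
    have h2 : PowerSeries.map (Pi.evalRingHom (fun _ => O C) n) (Θ.subst (gκ.map Φ)) =
        (Θn n).subst (gκ.map (U.u.comp (φ n))) := by
      refine h1.trans ?_
      rw [hΘev]
      rfl
    rw [hΘg] at h2
    have h3 := congrArg (PowerSeries.coeff i) h2
    rw [PowerSeries.coeff_map, PowerSeries.coeff_map, iterateFrobenius_def, pow_mul] at h3
    exact h3
  have hΘγ : PowerSeries.map (sQ C ρ (N + 1)) (Θ.subst (gκ.map Φ)) =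
      B.γ.map ((cQ C ρ (N + 1)).comp ιγ) := by
    ext1 i
    rw [PowerSeries.coeff_map, PowerSeries.coeff_map]
    show _ = cQ C ρ (N + 1)
      ((iterateFrobenius (O C) p (h * (N + 1)) (PowerSeries.coeff i B.γ) : O C) : C)
    rw [← sQ_const]
    refine sQ_eq ((eventually_ge_atTop i).mono fun n hn => ?_)
    have hi : i < (p ^ h) ^ (n + m₀) :=
      lt_of_le_of_lt (by omega) (Nat.lt_pow_self (n := n + m₀) (by omega))
    have h1 := U.st2_coeff_theta hb.1 (n + m₀) (hθ n).1 (hθ0 n) B.γ hi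
    rw [hΘsub, iterateFrobenius_def, pow_mul, Subring.coe_pow, Subring.coe_pow, ← pow_mul p,
      ← sub_pow_char_pow, norm_pow, pow_mul]
    exact (pow_le_pow_left₀ (norm_nonneg _) h1 _).trans (hρκ n)
  -- the values of the coordinates
  set ζ : Fin r → ℕ → O C := fun i n => (U.zpt T B b₀ i).1 ^ (p ^ h) ^ (n + m₀) with hζ
  have heN : ∀ i, E (ee i) ∈ NS C ρ (N + 1) := fun i => ev_mem _ _ hδN (hee0 i)
  have hEz : ∀ i, E (z i) = sQ C ρ (N + 1) (ζ i) := fun i => by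
    have h1 : E (z i) = ev1 (RingHom.id _) (E (ee i)) (B.γ.map ((cQ C ρ (N + 1)).comp ιγ)) := by
      refine map_ev1 (cc (Fin r) ⊥) (NS C ρ (N + 1)) ?_ (mem_cc_bot.2 (hee0 i)) (heN i) _
      ext1 c
      exact ev_C _ _ _
    have h2 : sQ C ρ (N + 1) (s' i) = ev1 (sQ C ρ (N + 1)) (E (ee i)) (gκ.map Φ) := by
      rw [← hEs, ← hes]
      exact map_ev1 (cc (Fin r) ⊥) (NS C ρ (N + 1)) hEt (mem_cc_bot.2 (hee0 i)) (heN i) _
    have h3 : ev1 (sQ C ρ (N + 1)) (sQ C ρ (N + 1) (s' i)) Θ =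
        sQ C ρ (N + 1) (fun n => ev1 (RingHom.id _) (s' i n) (Θn n)) := by
      have h4 := ev_sQ (K := N + 1) (σ := Unit) (fun n => Pi.evalRingHom (fun _ => O C) n)
        (fun _ => s' i) (fun _ n => hs'm i n) (fun _ n => hs'ρ i n) Θ
      refine h4.trans ?_
      congr 1
      funext n
      rw [← hΘev, ev1_map (mO C) _ _ (hs'm i n), RingHom.id_comp]
      rfl
    rw [h1, ← hΘγ, ev1_map _ _ _ (heN i), RingHom.id_comp, ev1_subst1 _ _ (heN i) hgΦ0, ← h2, h3]
    refine sQ_eq (Eventually.of_forall fun n => ?_)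
    have h5 := U.point_estimate T B hb₀ hb hbb (n + m₀) (N + 1) (φ n) (θ n) (hθ n) (hθ0 n) i
    rw [pow_right_comm ‖(D.ϖ : C)‖] at h5
    exact h5.trans (hρκ n)
  have hζN : ∀ i, sQ C ρ (N + 1) (ζ i) ∈ NS C ρ (N + 1) := fun i => by
    rw [← hEz]; exact ev_mem _ _ hδN (hz0 i)
  have hfin : MvPolynomial.eval₂ (cQ C ρ (N + 1)) (fun i => sQ C ρ (N + 1) (ζ i))
      (truncTotal (N + 1) F) = 0 := by
    have h1 := ev_sub_trunc_mem (NS C ρ (N + 1)) (cQ C ρ (N + 1)) hζN F (N + 1)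
    have h2 : Ideal.span (Set.range fun i => sQ C ρ (N + 1) (ζ i)) ≤ NS C ρ (N + 1) := by
      rw [Ideal.span_le]
      rintro _ ⟨i, rfl⟩
      exact hζN i
    have h3 := Ideal.pow_right_mono h2 (N + 1) h1
    rw [NS_pow, Ideal.mem_bot, sub_eq_zero] at h3
    have h4 := ev_subst (NS C ρ (N + 1)) (cQ C ρ (N + 1)) hδN hz0 F
    rw [hF'] at h4
    have h5 : E (U.st2_tC f) = ev (cQ C ρ (N + 1)) (fun i => E (z i)) F := h4
    simp only [hEz] at h5
    rw [← h3, ← h5, hEf]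
  obtain ⟨C₀, hC₀⟩ := (eval₂_sQ_eq_zero ζ _ hfin).bound
  obtain ⟨n₀, hn₀⟩ := eventually_atTop.1 hC₀
  refine ⟨C₀, n₀ + m₀, fun m hm => ?_⟩
  obtain ⟨n, rfl⟩ : ∃ n, m = n + m₀ := ⟨m - m₀, by omega⟩
  have h1 := hn₀ n (by omega)
  rw [Real.norm_of_nonneg (pow_nonneg (hρ0 n) _)] at h1
  have h2 : (‖(D.ϖ : C)‖ ^ (N + 1)) ^ (p ^ h) ^ (n + m₀) = ρ n ^ (N + 1) := by
    rw [pow_right_comm ‖(D.ϖ : C)‖]
  rw [h2]
  exact h1

end AtPt

end Crest.Agent.R227

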