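import Crest.Agent.R227.Dens

/-!
# R227 / SubgpAux : auxiliary lemmas for `Subgp`
-/

set_option autoImplicit false
set_option linter.unusedSectionVars false
set_option linter.unnecessarySimpa false

namespace Crest.Agent.R227.SubgpAux

open MvPowerSeries Crest.LubinTate

section General

variable {σ τ R A B B' : Type} [CommRing R] [CommRing A] [CommRing B] [CommRing B']

theorem map_ev' [Finite σ] (N : Ideal B) [IsEv N] (N' : Ideal B') [IsEv N'] (ι : R →+* B)
    (ψ : B →+* B') {a : σ → B} (ha : ∀ i, a i ∈ N) (ha' : ∀ i, ψ (a i) ∈ N')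
    (f : MvPowerSeries σ R) : ψ (ev ι a f) = ev (ψ.comp ι) (fun i => ψ (a i)) f := by
  have := map_ev N N' (ι := ι) (ι' := ψ.comp ι) (ρ := RingHom.id R) (ψ := ψ) (by simp) ha ha' f
  simpa using this

theorem exists_eq_C_add [Fintype σ] (f : MvPowerSeries σ R) :
    ∃ g : σ → MvPowerSeries σ R, f = C (constantCoeff f) + ∑ i, g i * X i := by
  have hm : f - C (constantCoeff f) ∈ Ideal.span (Set.range (X : σ → MvPowerSeries σ R)) := by
    rw [← cc_bot]
    simp
  obtain ⟨g, hg⟩ := Ideal.mem_span_range_iff_exists_fun.1 hm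
  exact ⟨g, by rw [hg]; ring⟩

/-- chain rule for `ev` and a derivation killing the coefficients -/
theorem deriv_ev [Fintype σ] [Algebra A B] (N : Ideal B) [IsEv N] (ι : R →+* B) {a : σ → B}
    (ha : ∀ i, a i ∈ N) (δ : Derivation A B B) (hδ : ∀ r, δ (ι r) = 0) (f : MvPowerSeries σ R) :
    δ (ev ι a f) = ∑ i, ev ι a (pderiv R i f) * δ (a i) := by
  classical
  obtain ⟨I, -, hI, hc⟩ := IsEv.out (N := N) (Finset.univ.image a) (by
    intro x hx
    obtain ⟨i, -, rfl⟩ := Finset.mem_image.1 hx
    exact ha i)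
  have haI : ∀ i, a i ∈ I := fun i => hI _ (Finset.mem_image_of_mem _ (Finset.mem_univ i))
  set D : MvPowerSeries σ R → B := fun f => δ (ev ι a f) - ∑ i, ev ι a (pderiv R i f) * δ (a i)
    with hD
  have hadd : ∀ f g, D (f + g) = D f + D g := by
    intro f g
    simp only [hD, map_add, add_mul, Finset.sum_add_distrib]
    ring
  have hC : ∀ r, D (C r) = 0 := by
    intro r
    simp [hD, ev_C, hδ]
  have hmulX : ∀ g i, D (g * X i) = a i * D g := by
    intro g i
    simp only [hD, map_mul, Derivation.leibniz, smul_eq_mul, map_add, ev_X N ι ha, add_mul,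
      Finset.sum_add_distrib, mul_sub, Finset.mul_sum]
    have h1 : ∑ j, ev ι a g * ev ι a (pderiv R j (X i : MvPowerSeries σ R)) * δ (a j) =
        ev ι a g * δ (a i) := by
      rw [Finset.sum_eq_single i]
      · simp
      · intro j _ hj
        rw [pderiv_X_of_ne (Ne.symm hj)]
        simp
      · simp
    rw [h1]
    simp only [mul_assoc]
    ring
  have hsum : ∀ (s : Finset σ) (g : σ → MvPowerSeries σ R),
      D (∑ i ∈ s, g i * X i) = ∑ i ∈ s, a i * D (g i) := by
    intro s g
    induction s using Finset.induction_on with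
    | empty => simpa using hC 0
    | insert i s hi ih => rw [Finset.sum_insert hi, Finset.sum_insert hi, hadd, hmulX, ih]
  have hpow : ∀ k : ℕ, ∀ f, D f ∈ I ^ k := by
    intro k
    induction k with
    | zero => simp
    | succ k ih =>
      intro f
      obtain ⟨g, hg⟩ := exists_eq_C_add f
      rw [hg, hadd, hC, zero_add, hsum, pow_succ']
      exact Ideal.sum_mem _ fun i _ => Ideal.mul_mem_mul (haI i) (ih _)
  have h0 : D f = 0 := by
    apply IsHausdorff.haus (I := I) hc.toIsHausdorff
    intro n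
    rw [SModEq.zero, smul_eq_mul, Ideal.mul_top]
    exact hpow n f
  exact sub_eq_zero.1 h0

theorem pair_mem {N : Ideal B} {x y : B} (hx : x ∈ N) (hy : y ∈ N) :
    ∀ i, (![x, y] : Fin 2 → B) i ∈ N := by
  intro i; fin_cases i
  · exact hx
  · exact hy

/-- the group law on values -/
noncomputable def ad (G : FormalGroup R) (κ : R →+* B) (x y : B) : B :=
  ev κ ![x, y] G.toPowerSeries

theorem ad_mem (G : FormalGroup R) (κ : R →+* B) (N : Ideal B) [IsEv N] {x y : B} (hx : x ∈ N)
    (hy : y ∈ N) : ad G κ x y ∈ N :=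
  ev_mem N κ (pair_mem hx hy) G.zero_constantCoeff

theorem map_ad (G : FormalGroup R) (κ : R →+* B) (N : Ideal B) [IsEv N] (N' : Ideal B') [IsEv N']
    (ψ : B →+* B') {x y : B} (hx : x ∈ N) (hy : y ∈ N) (hx' : ψ x ∈ N') (hy' : ψ y ∈ N') :
    ψ (ad G κ x y) = ad G (ψ.comp κ) (ψ x) (ψ y) := by
  unfold ad
  rw [map_ev' N N' κ ψ (pair_mem hx hy) (by
    intro i; fin_cases i
    · exact hx'
    · exact hy')]
  congr 2
  funext i
  fin_cases i <;> rfl

theorem ad_zero (G : FormalGroup R) (κ : R →+* B) : ad G κ 0 0 = 0 := by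
  unfold ad
  have : (![0, 0] : Fin 2 → B) = fun _ => 0 := by
    funext i; fin_cases i <;> rfl
  rw [this, ev_zero, G.zero_constantCoeff, map_zero]

/-- the defect of additivity of `φ` -/
noncomputable def defect (G : FormalGroup R) (φ : MvPowerSeries τ R) (κ : R →+* B)
    (x y : τ → B) : B :=
  ev κ (fun i => ad G κ (x i) (y i)) φ - ad G κ (ev κ x φ) (ev κ y φ)

theorem map_defect [Finite τ] (G : FormalGroup R) {φ : MvPowerSeries τ R}
    (hφ : constantCoeff φ = 0) (κ : R →+* B) (N : Ideal B) [IsEv N] (N' : Ideal B') [IsEv N']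
    (ψ : B →+* B') {x y : τ → B} (hx : ∀ i, x i ∈ N) (hy : ∀ i, y i ∈ N)
    (hx' : ∀ i, ψ (x i) ∈ N') (hy' : ∀ i, ψ (y i) ∈ N') :
    ψ (defect G φ κ x y) = defect G φ (ψ.comp κ) (fun i => ψ (x i)) (fun i => ψ (y i)) := by
  have hxy : ∀ i, ψ (ad G κ (x i) (y i)) = ad G (ψ.comp κ) (ψ (x i)) (ψ (y i)) :=
    fun i => map_ad G κ N N' ψ (hx i) (hy i) (hx' i) (hy' i)
  have ex := map_ev' N N' κ ψ hx hx' φ
  have ey := map_ev' N N' κ ψ hy hy' φ
  unfold defect
  rw [map_sub, map_ev' N N' κ ψ (fun i => ad_mem G κ N (hx i) (hy i))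
    (fun i => by rw [hxy]; exact ad_mem G _ N' (hx' i) (hy' i)),
    map_ad G κ N N' ψ (ev_mem N κ hx hφ) (ev_mem N κ hy hφ)
      (by rw [ex]; exact ev_mem N' _ hx' hφ) (by rw [ey]; exact ev_mem N' _ hy' hφ), ex, ey]
  simp only [hxy]

/-- the universal defect -/
noncomputable def udefect (G : FormalGroup R) (φ : MvPowerSeries τ R) :
    MvPowerSeries τ (MvPowerSeries τ R) :=
  defect G φ ((C : MvPowerSeries τ R →+* _).comp C) (fun i => C (X i)) (fun i => X i)

theorem defect_eq_zero [Finite τ] (G : FormalGroup R) {φ : MvPowerSeries τ R}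
    (hφ : constantCoeff φ = 0) (hu : udefect G φ = 0) (κ : R →+* B) (N : Ideal B) [IsEv N]
    {x y : τ → B} (hx : ∀ i, x i ∈ N) (hy : ∀ i, y i ∈ N) : defect G φ κ x y = 0 := by
  have h1 : ∀ i, ev (ev κ x) y (C (X i) : MvPowerSeries τ (MvPowerSeries τ R)) = x i := by
    intro i; rw [ev_C, ev_X N κ hx]
  have h2 : ∀ i, ev (ev κ x) y (X i : MvPowerSeries τ (MvPowerSeries τ R)) = y i :=
    fun i => ev_X N _ hy i
  have := map_defect G hφ ((C : MvPowerSeries τ R →+* MvPowerSeries τ (MvPowerSeries τ R)).comp C)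
    (cc τ (cc τ (⊥ : Ideal R))) N (ev (ev κ x) y) (x := fun i => C (X i)) (y := fun i => X i)
    (fun i => by simp) (fun i => by simp) (fun i => by rw [h1]; exact hx i)
    (fun i => by rw [h2]; exact hy i)
  have h3 : (ev (ev κ x) y).comp
      ((C : MvPowerSeries τ R →+* MvPowerSeries τ (MvPowerSeries τ R)).comp C) = κ := by
    ext r; simp [ev_C]
  simp only [h1, h2, h3] at this
  rw [← this]
  change ev (ev κ x) y (udefect G φ) = 0
  rw [hu, map_zero]

open Classical in
/-- restriction of `φ` to the `i`-th axis -/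
noncomputable def axis (φ : MvPowerSeries τ R) (i : τ) : PowerSeries R :=
  ev (PowerSeries.C : R →+* PowerSeries R) (fun j => if j = i then PowerSeries.X else 0) φ

open Classical in
theorem ev1_axis [Finite τ] (φ : MvPowerSeries τ R) (i : τ) (κ : R →+* B) (N : Ideal B) [IsEv N]
    {x : B} (hx : x ∈ N) : ev1 κ x (axis φ i) = ev κ (fun j => if j = i then x else 0) φ := by
  have h1 : ∀ j, ev1 κ x (if j = i then (PowerSeries.X : PowerSeries R) else 0) =
      if j = i then x else 0 := by
    intro j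
    split_ifs
    · exact ev1_X N κ hx
    · exact map_zero _
  unfold axis
  rw [map_ev' (Ideal.span {(PowerSeries.X : PowerSeries R)}) N _ (ev1 κ x) (by
    intro j; split_ifs
    · exact Ideal.mem_span_singleton_self _
    · exact zero_mem _) (by
    intro j; rw [h1]; split_ifs
    · exact hx
    · exact zero_mem _)]
  have h3 : (ev1 κ x).comp (PowerSeries.C : R →+* PowerSeries R) = κ := by
    ext r; simp [ev1_C]
  simp only [h1, h3]

theorem constantCoeff_axis [Finite τ] {φ : MvPowerSeries τ R} (hφ : constantCoeff φ = 0) (i : τ) :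
    PowerSeries.constantCoeff (axis φ i) = 0 := by
  classical
  rw [← PowerSeries.X_dvd_iff, ← Ideal.mem_span_singleton]
  refine ev_mem _ _ (fun j => ?_) hφ
  split_ifs
  · exact Ideal.mem_span_singleton_self _
  · exact zero_mem _

theorem ev_C_eq_subst [Finite σ] [Finite τ] {b : σ → MvPowerSeries τ R}
    (hb : ∀ i, constantCoeff (b i) = 0) (f : MvPowerSeries σ R) :
    ev (C : R →+* MvPowerSeries τ R) b f = f.subst b := by
  simpa using ev_eq_subst (RingHom.id R) hb f

theorem ev1_C_eq_subst [Finite τ] {b : MvPowerSeries τ R}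
    (hb : constantCoeff b = 0) (f : PowerSeries R) :
    ev1 (C : R →+* MvPowerSeries τ R) b f = f.subst b := by
  simpa using ev1_eq_subst (RingHom.id R) hb f

theorem ad_X (G : FormalGroup R) :
    ad G (C : R →+* MvPowerSeries (Fin 2) R) (X 0) (X 1) = G.toPowerSeries := by
  unfold ad
  have := eq_ev (cc (Fin 2) (⊥ : Ideal R)) (C : R →+* MvPowerSeries (Fin 2) R)
    (a := ![X 0, X 1]) (pair_mem (by simp) (by simp)) (f := RingHom.id _) (fun r => rfl)
    (fun i => by fin_cases i <;> rfl)
  rw [← this]; rfl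

theorem fgHom_axis [Finite τ] (G : FormalGroup R) {φ : MvPowerSeries τ R}
    (hφ : constantCoeff φ = 0) (hu : udefect G φ = 0) (i : τ) : IsFGHom G G (axis φ i) := by
  classical
  refine ⟨constantCoeff_axis hφ i, ?_⟩
  set N := cc (Fin 2) (⊥ : Ideal R)
  have hmem : ∀ b : MvPowerSeries (Fin 2) R, constantCoeff b = 0 → ∀ j,
      (if j = i then b else 0) ∈ N := by
    intro b hb j
    split_ifs
    · simpa [N] using hb
    · exact zero_mem _
  have hs : ∀ b : MvPowerSeries (Fin 2) R, constantCoeff b = 0 →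
      PowerSeries.subst b (axis φ i) = ev C (fun j => if j = i then b else 0) φ := by
    intro b hb
    rw [← ev1_C_eq_subst hb, ev1_axis φ i _ N (by simpa [N] using hb)]
  have hd := defect_eq_zero G hφ hu (C : R →+* MvPowerSeries (Fin 2) R) N
    (hmem (X 0) (by simp)) (hmem (X 1) (by simp))
  unfold defect at hd
  rw [hs _ G.zero_constantCoeff, hs (X 0) (by simp), hs (X 1) (by simp), ← ev_C_eq_subst]
  · refine Eq.trans ?_ (sub_eq_zero.1 hd)
    congr 2
    funext j
    by_cases hj : j = i
    · simp only [hj, if_true]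
      exact (ad_X G).symm
    · simp only [hj, if_false]
      exact (ad_zero G _).symm
  · intro j
    have := pair_mem (ev_mem N C (hmem (X 0) (by simp)) hφ) (ev_mem N C (hmem (X 1) (by simp)) hφ) j
    simpa [N] using this

theorem negS_ne_zero [Nontrivial R] (G : FormalGroup R) : negS G ≠ 0 := by
  intro h0
  have h1 := (negS_spec G).2
  rw [h0] at h1
  have h2 := G.Xzero_eq_X
  unfold FormalGroup.Xzero at h2
  rw [h1] at h2
  exact PowerSeries.X_ne_zero h2.symm

end General

section Points

variable {p : ℕ} [Fact p.Prime] {K : Type} [NontriviallyNormedField K] [IsUltrametricDist K]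
  [CompleteSpace K] [CharP K p] [IsAlgClosed K] {h : ℕ}
  {G : FormalGroup (ZMod p)} [G.IsComm] {τ : Type}

theorem add_val_ad (hh : 1 ≤ h) (x y : PO G (zO p K)) :
    (x + y).1 = ad (G.map (zF h)) (FqO hh) x.1 y.1 := by
  rw [Pt.add_val]
  unfold ad
  rw [FormalGroup.map_toPowerSeries, ev_map (mO K) _ _ (Pt.pair_mem x y)]
  congr 2
  exact Subsingleton.elim _ _

theorem pow_smul_val (hG : IsNormal p h G) (m : ℕ) (x : PO G (zO p K)) :
    (p ^ m • x).1 = x.1 ^ (p ^ h) ^ m := by
  induction m with
  | zero => simp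
  | succ m ih =>
    apply Subtype.ext
    have := p_smul_c hG (p ^ m • x)
    rw [pow_succ', mul_smul]
    simp only [Pt.c] at this
    rw [this, ih, Subring.coe_pow, Subring.coe_pow, ← pow_mul, ← pow_succ]

/-- a series over `O` vanishing on `S` gives series over `𝔽_P` vanishing on `S` -/
theorem lam_vanish (hh : 1 ≤ h) (hG : IsNormal p h G) [Finite τ]
    (S : AddSubmonoid (τ → PO G (zO p K))) (F : MvPowerSeries τ (O K))
    (hF : ∀ s ∈ S, ev (RingHom.id _) (fun i => (s i).1) F = 0) (l : K →ₗ[Fq K p h] Fq K p h)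
    (s : τ → PO G (zO p K)) (hs : s ∈ S) :
    ev (FqO hh) (fun i => (s i).1)
      (fun d => l ((coeff d F : O K) : K) : MvPowerSeries τ (Fq K p h)) = 0 := by
  refine ev_lam_eq_zero hh F (fun i => (s i).2) (fun m => ?_) l
  have := hF _ (S.nsmul_mem hs (p ^ m))
  simpa only [Pi.smul_apply, pow_smul_val hG] using this

/-- if the coefficient `d` of every series over `𝔽_P` vanishing on `S` is zero, the same holds over
`O` -/
theorem coeff_eq_zero (hh : 1 ≤ h) (hG : IsNormal p h G) [Finite τ]
    (S : AddSubmonoid (τ → PO G (zO p K))) (d : τ →₀ ℕ)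
    (hd : ∀ F : MvPowerSeries τ (Fq K p h), (∀ s ∈ S, ev (FqO hh) (fun i => (s i).1) F = 0) →
      coeff d F = 0)
    (F : MvPowerSeries τ (O K)) (hF : ∀ s ∈ S, ev (RingHom.id _) (fun i => (s i).1) F = 0) :
    coeff d F = 0 := by
  apply Subtype.ext
  refine (Module.forall_dual_apply_eq_zero_iff (Fq K p h) ((coeff d F : O K) : K)).1 fun l => ?_
  exact hd _ (lam_vanish hh hG S F hF l)

theorem FqO_injective (hh : 1 ≤ h) : Function.Injective (FqO (C := K) (p := p) hh) :=
  RingHom.injective _

/-- Case A: if all relations have zero linear part there is no relation. -/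
theorem caseA (hh : 1 ≤ h) (hG : IsNormal p h G) [Fintype τ]
    (S : AddSubmonoid (τ → PO G (zO p K)))
    (hlin : ∀ F : MvPowerSeries τ (Fq K p h), (∀ s ∈ S, ev (FqO hh) (fun i => (s i).1) F = 0) →
      ∀ j, coeff (Finsupp.single j 1) F = 0)
    (F : MvPowerSeries τ (Fq K p h)) (hF : ∀ s ∈ S, ev (FqO hh) (fun i => (s i).1) F = 0) :
    F = 0 := by
  classical
  have : Finite (Fq K p h) := Nat.finite_of_card_ne_zero (by
    rw [card_Fq hh]; exact pow_ne_zero _ (Fact.out : p.Prime).ne_zero)
  let J : Ideal (MvPowerSeries τ (Fq K p h)) :=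
    ⨅ s ∈ S, RingHom.ker (ev (FqO hh) (fun i => (s i).1))
  have hJ : ∀ f, f ∈ J ↔ ∀ s ∈ S, ev (FqO hh) (fun i => (s i).1) f = 0 := by
    intro f; simp [J, Ideal.mem_iInf, RingHom.mem_ker]
  have hbot : J = ⊥ := by
    refine eq_bot_of_pderiv (p := p) J ?_ ?_ ?_
    · rintro f ⟨n, hn⟩
      rw [hJ] at hn ⊢
      intro s hs
      have := hn s hs
      rw [map_pow] at this
      exact pow_eq_zero_iff'.1 this |>.1
    · intro f hf
      have := (hJ f).1 hf 0 S.zero_mem
      simp only [Pi.zero_apply, Pt.zero_val, ev_zero] at this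
      exact FqO_injective hh (by rw [this, map_zero])
    · intro f hf j
      rw [hJ] at hf ⊢
      intro s hs
      set G' := G.map (zF h : ZMod p →+* Fq K p h)
      set κ : Fq K p h →+* MvPowerSeries τ (O K) := (C : O K →+* _).comp (FqO hh) with hκ
      set N := cc τ (mO K)
      have hC : ∀ i, (C (s i).1 : MvPowerSeries τ (O K)) ∈ N := fun i => by
        simpa [N] using (s i).2
      have hX : ∀ i, (X i : MvPowerSeries τ (O K)) ∈ N := fun i => by simp [N]
      set a : τ → MvPowerSeries τ (O K) := fun i => ad G' κ (C (s i).1) (X i) with ha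
      have haN : ∀ i, a i ∈ N := fun i => ad_mem G' κ N (hC i) (hX i)
      -- `F (s + x)` vanishes on `S`
      have hvan : ∀ t ∈ S, ev (RingHom.id _) (fun i => (t i).1) (ev κ a f) = 0 := by
        intro t ht
        have ht' : ∀ i, (t i).1 ∈ mO K := fun i => (t i).2
        have hκ' : (ev (RingHom.id _) (fun i => (t i).1)).comp κ = FqO hh := by
          ext r; simp [hκ, ev_C]
        have hat : ∀ i, ev (RingHom.id _) (fun i => (t i).1) (a i) = ((s + t) i).1 := by
          intro i
          rw [ha]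
          simp only
          rw [map_ad G' κ N (mO K) _ (hC i) (hX i) (by rw [ev_C]; exact (s i).2)
            (by rw [ev_X (mO K) _ ht']; exact ht' i), hκ', ev_C, ev_X (mO K) _ ht',
            Pi.add_apply, add_val_ad hh]
          rfl
        rw [map_ev' N (mO K) κ _ haN (fun i => by rw [hat]; exact ((s + t) i).2), hκ']
        simp only [hat]
        exact hf _ (S.add_mem hs ht)
      have h1 : coeff (Finsupp.single j 1) (ev κ a f) = 0 :=
        coeff_eq_zero hh hG S _ (fun F hF => hlin F hF j) _ hvan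
      have hδ : ∀ r, pderiv (O K) j (κ r) = 0 := fun r => by simp [hκ]
      have hcκ : (constantCoeff : MvPowerSeries τ (O K) →+* O K).comp κ = FqO hh := by
        ext r; simp [hκ]
      have hca : ∀ i, constantCoeff (a i) = (s i).1 := by
        intro i
        rw [ha]
        simp only
        rw [map_ad G' κ N (mO K) _ (hC i) (hX i) (by simpa using (s i).2) (by simp), hcκ]
        have := add_val_ad hh (s i) 0
        rw [add_zero] at this
        simpa using this.symm
      -- derivative of `a i`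
      have hda : ∀ i, constantCoeff (pderiv (O K) j (a i)) =
          if i = j then ev (FqO hh) ![(s j).1, 0] (pderiv _ 1 G'.toPowerSeries) else 0 := by
        intro i
        rw [ha]
        simp only [ad]
        rw [deriv_ev N κ (pair_mem (hC i) (hX i)) _ hδ, Fin.sum_univ_two]
        simp only [Matrix.cons_val_zero, pderiv_C, mul_zero, zero_add, Matrix.cons_val_one,
          Matrix.cons_val_fin_one]
        split_ifs with hij
        · subst hij
          rw [pderiv_X_self, mul_one, map_ev' N (mO K) κ _ (pair_mem (hC i) (hX i)) (by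
            intro k; fin_cases k
            · simpa using (s i).2
            · simp), hcκ]
          congr 2
          funext k
          fin_cases k <;> simp
        · rw [pderiv_X_of_ne hij]; simp
      have hu : ev (FqO hh) ![(s j).1, 0] (pderiv _ 1 G'.toPowerSeries) ≠ 0 := by
        intro h0
        have hm : ev (FqO hh) ![(s j).1, 0] (pderiv _ 1 G'.toPowerSeries - 1) ∈ mO K := by
          refine ev_mem (mO K) _ (pair_mem (s j).2 (zero_mem _)) ?_
          rw [map_sub, map_one, ← coeff_zero_eq_constantCoeff_apply, coeff_pderiv]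
          simp [G'.lin_coeff_Y]
        rw [map_sub, h0, map_one, mem_mO] at hm
        simp at hm
      have h2 : constantCoeff (pderiv (O K) j (ev κ a f)) = 0 := by
        rw [← coeff_zero_eq_constantCoeff_apply, coeff_pderiv]
        simp [h1]
      rw [deriv_ev N κ haN _ hδ, map_sum] at h2
      simp only [map_mul, hda, mul_ite, mul_zero, Finset.sum_ite_eq', Finset.mem_univ,
        if_true] at h2
      rw [map_ev' N (mO K) κ _ haN (fun i => by rw [hca]; exact (s i).2), hcκ] at h2
      simp only [hca] at h2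
      exact (mul_eq_zero.1 h2).resolve_right hu
  have := (hJ F).2 hF
  rwa [hbot, Ideal.mem_bot] at this

/-- A series additive on a dense submonoid is additive. -/
theorem udefect_eq_zero (hh : 1 ≤ h) (hG : IsNormal p h G) [Fintype τ]
    (S : AddSubmonoid (τ → PO G (zO p K)))
    (hdense : ∀ F : MvPowerSeries τ (Fq K p h),
      (∀ s ∈ S, ev (FqO hh) (fun i => (s i).1) F = 0) → F = 0)
    {φ : MvPowerSeries τ (Fq K p h)} (hφ : constantCoeff φ = 0)
    (hadd : ∀ s ∈ S, ∀ t ∈ S,
      defect (G.map (zF h)) φ (FqO hh) (fun i => (s i).1) (fun i => (t i).1) = 0) :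
    udefect (G.map (zF h)) φ = 0 := by
  set G' := G.map (zF h : ZMod p →+* Fq K p h)
  ext1 d
  rw [map_zero]
  refine hdense _ fun s hs => ?_
  have hs' : ∀ i, (s i).1 ∈ mO K := fun i => (s i).2
  set κ : Fq K p h →+* MvPowerSeries τ (O K) := (C : O K →+* _).comp (FqO hh) with hκ
  have hC : ∀ i, (C (s i).1 : MvPowerSeries τ (O K)) ∈ cc τ (mO K) := fun i => by
    simpa using (s i).2
  have hX : ∀ i, (X i : MvPowerSeries τ (O K)) ∈ cc τ (mO K) := fun i => by simp
  have h1 : MvPowerSeries.map (ev (FqO hh) (fun i => (s i).1)) (udefect G' φ) =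
      defect G' φ κ (fun i => C (s i).1) (fun i => X i) := by
    unfold udefect
    rw [map_defect G' hφ _ (cc τ (cc τ (⊥ : Ideal (Fq K p h)))) (cc τ (mO K))
      (MvPowerSeries.map (ev (FqO hh) (fun i => (s i).1))) (fun i => by simp) (fun i => by simp)
      (fun i => by rw [map_C, ev_X (mO K) _ hs']; exact hC i) (fun i => by rw [map_X]; exact hX i)]
    congr 1
    · ext1 r; simp [hκ, ev_C]
    · funext i; rw [map_C, ev_X (mO K) _ hs']
    · funext i; rw [map_X]
  rw [← coeff_map, h1]
  refine coeff_eq_zero hh hG S d (fun F hF => by rw [hdense F hF, map_zero]) _ fun t ht => ?_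
  have ht' : ∀ i, (t i).1 ∈ mO K := fun i => (t i).2
  rw [map_defect G' hφ κ (cc τ (mO K)) (mO K) _ hC hX (fun i => by rw [ev_C]; exact hs' i)
    (fun i => by rw [ev_X (mO K) _ ht']; exact ht' i), ← hadd s hs t ht]
  congr 1
  · ext1 r; simp [hκ, ev_C]
  · funext i; rw [ev_C]; rfl
  · funext i; rw [ev_X (mO K) _ ht']

omit [G.IsComm] in
theorem pt_val (x : PO G (zO p K)) : pt G (zO p K) (x.1 : O K) = x := pt_self x

theorem sum_axis (hh : 1 ≤ h) [Fintype τ] {φ : MvPowerSeries τ (Fq K p h)}
    (hφ : constantCoeff φ = 0) (hu : udefect (G.map (zF h)) φ = 0) (x : τ → PO G (zO p K)) :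
    (∑ i, pt G (zO p K) (ev1 (FqO hh) (x i).1 (axis φ i) : O K)).1 =
      ev (FqO hh) (fun i => (x i).1) φ := by
  classical
  let Φ : (τ → PO G (zO p K)) →+ PO G (zO p K) :=
    AddMonoidHom.mk' (fun x => ⟨ev (FqO hh) (fun i => (x i).1) φ,
      ev_mem (mO K) _ (fun i => (x i).2) hφ⟩) (by
      intro x y
      apply Pt.ext
      have := defect_eq_zero _ hφ hu (FqO hh) (mO K) (fun i => (x i).2) (fun i => (y i).2)
      rw [add_val_ad hh]
      simp only [Pi.add_apply, add_val_ad hh]
      exact sub_eq_zero.1 this)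
  have hΦ : ∀ x, (Φ x).1 = ev (FqO hh) (fun i => (x i).1) φ := fun x => rfl
  have hx : Φ x = ∑ i, Φ (Pi.single i (x i)) := by
    rw [← map_sum, Finset.univ_sum_single x]
  rw [← hΦ, hx]
  refine congrArg (fun y : PO G (zO p K) => y.1) (Finset.sum_congr rfl fun i _ => ?_)
  rw [← pt_val (Φ _), hΦ, ev1_axis φ i _ (mO K) (x i).2]
  congr 4
  funext j
  by_cases hj : j = i
  · subst hj; simp
  · simp [hj]

theorem add_neg_pt (hh : 1 ≤ h) (x : PO G (zO p K)) :
    pt G (zO p K) (ev1 (FqO hh) x.1 (negS (G.map (zF h))) : O K) + x = 0 := by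
  let y : PO G (zO p K) := ⟨ev1 (FqO hh) x.1 (negS (G.map (zF h))),
    ev1_mem (mO K) _ x.2 (negS_spec _).1⟩
  have hy : pt G (zO p K) (ev1 (FqO hh) x.1 (negS (G.map (zF h))) : O K) = y := pt_val y
  rw [hy, add_comm]
  apply Pt.ext
  rw [add_val_ad hh]
  let x' : Pt (G.map (zF h)) (FqO hh) (mO K) := ⟨x.1, x.2⟩
  exact congrArg Subtype.val (Pt.add_neg' x')

/-- Case B: a relation with nonzero linear coefficient expresses one coordinate through the
others. -/
theorem exists_graph [Fintype τ] [DecidableEq τ] {k B : Type} [Field k] [CommRing B]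
    {F : MvPowerSeries τ k} (h0 : constantCoeff F = 0) {i₀ : τ}
    (hc : coeff (Finsupp.single i₀ 1) F ≠ 0) :
    ∃ φ : MvPowerSeries {i // i ≠ i₀} k, ∀ (N : Ideal B) [IsEv N] (κ : k →+* B) (s : τ → B),
      (∀ i, s i ∈ N) → ev κ s F = 0 → ev κ (fun i : {i // i ≠ i₀} => s i) φ = s i₀ := by
  let z : τ → MvPowerSeries τ k := fun i => if i = i₀ then F else X i
  have hz : ∀ i, constantCoeff (z i) = 0 := by
    intro i
    simp only [z]
    split_ifs
    · exact h0
    · simp
  have hJ : IsUnit (Matrix.of fun i j => coeff (Finsupp.single j 1) (z i)) := by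
    rw [← Matrix.mulVec_injective_iff_isUnit]
    rw [← Matrix.coe_mulVecLin, injective_iff_map_eq_zero]
    intro v hv
    have hv' : ∀ i, ∑ j, coeff (Finsupp.single j 1) (z i) * v j = 0 := fun i => congrFun hv i
    have hne : ∀ i, i ≠ i₀ → v i = 0 := by
      intro i hi
      have := hv' i
      simpa [z, hi, coeff_index_single_X] using this
    funext i
    by_cases hi : i = i₀
    · subst hi
      have := hv' i
      rw [Finset.sum_eq_single i (fun j _ hj => by rw [hne j hj, mul_zero]) (by simp)] at this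
      simp only [z, if_true] at this
      exact (mul_eq_zero.1 this).resolve_left hc
    · exact hne i hi
  obtain ⟨Ψ, hΨ⟩ := subst_surjective hz hJ (X i₀)
  let w : τ → MvPowerSeries {i // i ≠ i₀} k := fun i => if hi : i = i₀ then 0 else X ⟨i, hi⟩
  have hw : ∀ i, constantCoeff (w i) = 0 := by
    intro i
    simp only [w]
    split_ifs <;> simp
  refine ⟨Ψ.subst w, fun N _ κ s hs hF => ?_⟩
  have hs' : ∀ i : {i // i ≠ i₀}, s i ∈ N := fun i => hs i
  rw [ev_subst N κ hs' hw, ← ev_X N κ hs i₀, ← hΨ]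
  simp only
  rw [ev_subst N κ hs hz]
  congr 2
  funext i
  simp only [w, z]
  split_ifs with hi
  · rw [map_zero, hF]
  · rw [ev_X N κ hs', ev_X N κ hs]

end Points

end Crest.Agent.R227.SubgpAux
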