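import Mathlib

/-!
# R227 / TorsAlg : existence of a reduced basis (pure algebra)
-/

set_option autoImplicit false

namespace Crest.Agent.R227.TorsAlg

open Submodule

/-- `T ↠ K`, `K` an `𝔽_p`-space of dimension `r`, `v` a size function with finitely many values
outside the kernel.  A lift of a basis with minimal total size is reduced. -/
theorem exists_red_basis' {p r : ℕ} [Fact p.Prime] {T K : Type} [AddCommGroup T] [AddCommGroup K]
    [Module (ZMod p) K] [Module.Finite (ZMod p) K] (hK : Module.finrank (ZMod p) K = r)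
    (π : T →+ K) (hπ : Function.Surjective π) (v : T → ℝ) (hfin : (v '' {t | π t ≠ 0}).Finite)
    (hmono : ∀ (e : ℕ) (s t : T), v (p ^ e • s) < v (p ^ e • t) → v s < v t) :
    ∃ t : Fin r → T, ⊤ ≤ span (ZMod p) (Set.range fun i => π (t i)) ∧
      ∀ (w : ℝ) (S : Finset (Fin r × ℕ)) (a : Fin r × ℕ → ZMod p),
        (∀ x ∈ S, v (p ^ x.2 • t x.1) = w) →
        v (∑ x ∈ S, (a x).val • p ^ x.2 • t x.1) < w → ∀ x ∈ S, a x = 0 := by
  classical
  have hpK : ∀ x : K, p • x = 0 := fun x => by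
    rw [← Nat.cast_smul_eq_nsmul (ZMod p), ZMod.natCast_self, zero_smul]
  set G : Set (Fin r → T) := {t | ⊤ ≤ span (ZMod p) (Set.range fun i => π (t i))} with hG
  have hne : ∀ t ∈ G, ∀ i, π (t i) ≠ 0 := fun t ht i =>
    (linearIndependent_of_top_le_span_of_card_eq_finrank ht (by simp [hK])).ne_zero i
  have hGne : G.Nonempty := by
    let b := Module.finBasisOfFinrankEq (ZMod p) K hK
    choose s hs using hπ
    refine ⟨fun i => s (b i), ?_⟩
    simp only [hG, Set.mem_ofPred_eq, hs]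
    exact b.span_eq.ge
  let f : (Fin r → T) → ℝ := fun t => ∑ i, v (t i)
  have hff : (f '' G).Finite := by
    have h1 : {c : Fin r → ℝ | ∀ i, c i ∈ v '' {t | π t ≠ 0}}.Finite :=
      Set.Finite.pi' fun _ => hfin
    refine (h1.image fun c => ∑ i, c i).subset ?_
    rintro _ ⟨t, ht, rfl⟩
    exact ⟨fun i => v (t i), fun i => ⟨t i, hne t ht i, rfl⟩, rfl⟩
  obtain ⟨_, ⟨t, ht, rfl⟩, hmin⟩ := Set.exists_min_image (f '' G) id hff (hGne.image f)
  refine ⟨t, ht, fun w S a hS hlt => ?_⟩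
  by_contra hcon
  push Not at hcon
  set S' := S.filter fun x => a x ≠ 0 with hS'
  have hS'ne : S'.Nonempty := by
    obtain ⟨x, hx, hx'⟩ := hcon
    exact ⟨x, Finset.mem_filter.2 ⟨hx, hx'⟩⟩
  obtain ⟨x₀, hx₀, hx₀min⟩ := Finset.exists_min_image S' (fun x => x.2) hS'ne
  have ha₀ : a x₀ ≠ 0 := (Finset.mem_filter.1 hx₀).2
  set s : T := ∑ x ∈ S', (a x).val • p ^ (x.2 - x₀.2) • t x.1 with hs
  have hps : p ^ x₀.2 • s = ∑ x ∈ S, (a x).val • p ^ x.2 • t x.1 := by
    rw [hs, Finset.smul_sum, ← Finset.sum_filter_of_ne (s := S) (p := fun x => a x ≠ 0)]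
    · refine Finset.sum_congr rfl fun x hx => ?_
      rw [smul_comm, ← mul_smul (p ^ x₀.2), ← pow_add, Nat.add_sub_cancel' (hx₀min x hx)]
    · intro x _ hx h0
      exact hx (by rw [h0, ZMod.val_zero, zero_smul])
  have hvs : v s < v (t x₀.1) := by
    apply hmono x₀.2
    rw [hps, hS x₀ (Finset.mem_filter.1 hx₀).1]
    exact hlt
  set t' : Fin r → T := Function.update t x₀.1 s with ht'
  set W := span (ZMod p) (Set.range fun i => π (t' i)) with hW
  have hother : ∀ i, i ≠ x₀.1 → π (t i) ∈ W := fun i hi =>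
    subset_span ⟨i, by simp [ht', Function.update_of_ne hi]⟩
  have hsW : π s ∈ W := subset_span ⟨x₀.1, by simp [ht']⟩
  have hrest : ∑ x ∈ S'.erase x₀, π ((a x).val • p ^ (x.2 - x₀.2) • t x.1) ∈ W := by
    refine sum_mem fun x hx => ?_
    rw [map_nsmul, map_nsmul]
    refine nsmul_mem ?_ _
    by_cases hi : x.1 = x₀.1
    · have hx' := Finset.mem_erase.1 hx
      have h2 : x.2 ≠ x₀.2 := fun h2 => hx'.1 (Prod.ext hi h2)
      have h3 := hx₀min x hx'.2
      obtain ⟨d, hd⟩ : ∃ d, x.2 - x₀.2 = d + 1 := ⟨x.2 - x₀.2 - 1, by omega⟩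
      rw [hd, pow_succ, mul_smul, hpK, smul_zero]
      exact W.zero_mem
    · exact nsmul_mem (hother _ hi) _
  have h0W : π (t x₀.1) ∈ W := by
    have h1 : π s = a x₀ • π (t x₀.1) +
        ∑ x ∈ S'.erase x₀, π ((a x).val • p ^ (x.2 - x₀.2) • t x.1) := by
      rw [hs, map_sum, ← Finset.add_sum_erase _ _ hx₀]
      congr 1
      rw [Nat.sub_self, pow_zero, one_smul, map_nsmul, ← Nat.cast_smul_eq_nsmul (ZMod p),
        ZMod.natCast_zmod_val]
    have h2 : a x₀ • π (t x₀.1) ∈ W := by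
      have := W.sub_mem hsW hrest
      rwa [h1, add_sub_cancel_right] at this
    exact (W.smul_mem_iff ha₀).1 h2
  have ht'G : t' ∈ G := by
    refine le_trans ht (span_le.2 ?_)
    rintro _ ⟨i, rfl⟩
    by_cases hi : i = x₀.1
    · simpa [hi] using h0W
    · exact hother i hi
  have hle : f t ≤ f t' := hmin _ ⟨t', ht'G, rfl⟩
  have hlt' : f t' < f t := by
    refine Finset.sum_lt_sum (fun i _ => ?_) ⟨x₀.1, Finset.mem_univ _, by simpa [ht'] using hvs⟩
    by_cases hi : i = x₀.1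
    · subst hi
      simpa [ht'] using hvs.le
    · simp [ht', Function.update_of_ne hi]
  exact absurd hle (not_le.2 hlt')

theorem exists_red_basis'' {p r : ℕ} [Fact p.Prime] {T K : Type} [AddCommGroup T] [AddCommGroup K]
    [Module (ZMod p) K] (hK : Nat.card K = p ^ r)
    (π : T →+ K) (hπ : Function.Surjective π) (v : T → ℝ) (hfin : (v '' {t | π t ≠ 0}).Finite)
    (hmono : ∀ (e : ℕ) (s t : T), v (p ^ e • s) < v (p ^ e • t) → v s < v t) :
    ∃ t : Fin r → T, (∀ i, π (t i) ≠ 0) ∧ (∀ x : K, ∃ c : Fin r → ℕ, x = ∑ i, c i • π (t i)) ∧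
      ∀ (w : ℝ) (S : Finset (Fin r × ℕ)) (a : Fin r × ℕ → ZMod p),
        (∀ x ∈ S, v (p ^ x.2 • t x.1) = w) →
        v (∑ x ∈ S, (a x).val • p ^ x.2 • t x.1) < w → ∀ x ∈ S, a x = 0 := by
  have hp1 : 1 < p := (Fact.out : p.Prime).one_lt
  have : Finite K := Nat.finite_of_card_ne_zero (by rw [hK]; positivity)
  have : Module.Finite (ZMod p) K := Module.Finite.of_finite
  have hrk : Module.finrank (ZMod p) K = r := by
    have h1 := Module.natCard_eq_pow_finrank (K := ZMod p) (V := K)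
    rw [hK, Nat.card_zmod] at h1
    exact (Nat.pow_right_injective hp1 h1).symm
  obtain ⟨t, ht, hred⟩ := exists_red_basis' hrk π hπ v hfin hmono
  refine ⟨t, fun i => ?_, fun x => ?_, hred⟩
  · exact (linearIndependent_of_top_le_span_of_card_eq_finrank ht (by simp [hrk])).ne_zero i
  · obtain ⟨c, hc⟩ := (mem_span_range_iff_exists_fun (ZMod p)).1 (ht (mem_top (x := x)))
    refine ⟨fun i => (c i).val, ?_⟩
    rw [← hc]
    refine Finset.sum_congr rfl fun i _ => ?_
    rw [← Nat.cast_smul_eq_nsmul (ZMod p), ZMod.natCast_zmod_val]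

theorem exists_red_basis {p r : ℕ} [Fact p.Prime] {T K : Type} [AddCommGroup T] [AddCommGroup K]
    (hp : ∀ x : K, p • x = 0) (hK : Nat.card K = p ^ r)
    (π : T →+ K) (hπ : Function.Surjective π) (v : T → ℝ) (hfin : (v '' {t | π t ≠ 0}).Finite)
    (hmono : ∀ (e : ℕ) (s t : T), v (p ^ e • s) < v (p ^ e • t) → v s < v t) :
    ∃ t : Fin r → T, (∀ i, π (t i) ≠ 0) ∧ (∀ x : K, ∃ c : Fin r → ℕ, x = ∑ i, c i • π (t i)) ∧
      ∀ (w : ℝ) (S : Finset (Fin r × ℕ)) (a : Fin r × ℕ → ZMod p),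
        (∀ x ∈ S, v (p ^ x.2 • t x.1) = w) →
        v (∑ x ∈ S, (a x).val • p ^ x.2 • t x.1) < w → ∀ x ∈ S, a x = 0 :=
  @exists_red_basis'' p r _ T K _ _ (AddCommGroup.zmodModule hp) hK π hπ v hfin hmono

end Crest.Agent.R227.TorsAlg
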