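import Crest.Agent.R227.Data

/-!
# R227 / TorsAux : roots of series over `O`, the roots of `g`
-/

set_option autoImplicit false
set_option linter.unusedSectionVars false

namespace Crest.Agent.R227

open Filter Topology Crest.LubinTate

variable {p : ℕ} [Fact p.Prime] {C : Type} [NontriviallyNormedField C] [IsUltrametricDist C]
  [CompleteSpace C] [CharP C p] [IsAlgClosed C] {h r : ℕ}

namespace TorsAux

theorem isUnit_of_sub_mem {x u : O C} (hu : IsUnit u) (hx : x - u ∈ mO C) : IsUnit x := by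
  rw [O.isUnit_iff] at hu ⊢
  have hx' : ‖(x : C) - u‖ < 1 := by simpa using mem_mO.1 hx
  have h1 : (x : C) = u + ((x : C) - u) := by ring
  rw [h1, IsUltrametricDist.norm_add_eq_max_of_norm_ne_norm (by rw [hu]; exact hx'.ne'), hu,
    max_eq_left hx'.le]

theorem not_mem_of_isUnit {u : O C} (hu : IsUnit u) : u ∉ mO C := by
  rw [O.isUnit_iff] at hu
  rw [mem_mO, hu]
  exact lt_irrefl _

theorem coeff_zero_sub_mul (a : O C) (E : PowerSeries (O C)) :
    PowerSeries.coeff 0 ((PowerSeries.X - PowerSeries.C a) * E) = -(a * PowerSeries.coeff 0 E) := by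
  simp

theorem coeff_succ_sub_mul (a : O C) (E : PowerSeries (O C)) (l : ℕ) :
    PowerSeries.coeff (l + 1) ((PowerSeries.X - PowerSeries.C a) * E) =
      PowerSeries.coeff l E - a * PowerSeries.coeff (l + 1) E := by
  rw [sub_mul, map_sub, PowerSeries.coeff_succ_X_mul, PowerSeries.coeff_C_mul]

theorem ev1_sub_mul {b : O C} (hb : b ∈ mO C) (a : O C) (E : PowerSeries (O C)) :
    ev1 (RingHom.id _) b ((PowerSeries.X - PowerSeries.C a) * E) =
      (b - a) * ev1 (RingHom.id _) b E := by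
  rw [map_mul, map_sub, ev1_X (mO C) _ hb, ev1_C, RingHom.id_apply]

/-- a series with `N` distinct roots in the disc reduces to a multiple of `X^N` -/
theorem coeff_mem_of_roots (Z : Finset (O C)) : (∀ a ∈ Z, a ∈ mO C) →
    ∀ G : PowerSeries (O C), (∀ a ∈ Z, ev1 (RingHom.id _) a G = 0) →
      ∀ l < Z.card, PowerSeries.coeff l G ∈ mO C := by
  classical
  induction Z using Finset.induction_on with
  | empty => intro _ G _ l hl; simp at hl
  | insert a Z haZ ih =>
    intro hZ G hG l hl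
    have ha : a ∈ mO C := hZ a (Finset.mem_insert_self _ _)
    obtain ⟨E, rfl⟩ := exists_eq_sub_mul ha (hG a (Finset.mem_insert_self _ _))
    have hE : ∀ b ∈ Z, ev1 (RingHom.id _) b E = 0 := by
      intro b hb
      have h1 := hG b (Finset.mem_insert_of_mem hb)
      rw [ev1_sub_mul (hZ b (Finset.mem_insert_of_mem hb))] at h1
      refine (mul_eq_zero.1 h1).resolve_left fun h2 => haZ ?_
      rwa [← sub_eq_zero.1 h2]
    have ih' := ih (fun b hb => hZ b (Finset.mem_insert_of_mem hb)) E hE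
    rw [Finset.card_insert_of_notMem haZ] at hl
    rcases l with _ | l
    · rw [coeff_zero_sub_mul]
      exact (mO C).neg_mem ((mO C).mul_mem_right _ ha)
    · rw [coeff_succ_sub_mul]
      exact (mO C).sub_mem (ih' l (by omega)) ((mO C).mul_mem_right _ ha)

/-- a series of reduced order `N` without multiple roots has `N` roots -/
theorem exists_roots (N : ℕ) : ∀ G : PowerSeries (O C),
    (∀ i < N, PowerSeries.coeff i G ∈ mO C) → IsUnit (PowerSeries.coeff N G) →
    (∀ a ∈ mO C, ∀ E : PowerSeries (O C), G = (PowerSeries.X - PowerSeries.C a) * E →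
      ev1 (RingHom.id _) a E ≠ 0) →
    ∃ Z : Finset (O C), Z.card = N ∧ ∀ a ∈ Z, a ∈ mO C ∧ ev1 (RingHom.id _) a G = 0 := by
  classical
  induction N with
  | zero => intro G _ _ _; exact ⟨∅, rfl, by simp⟩
  | succ N ih =>
    intro G hlt hu hs
    obtain ⟨a, ha, hGa⟩ := exists_root (by omega) hlt hu
    obtain ⟨E, rfl⟩ := exists_eq_sub_mul ha hGa
    have hE : ∀ l, PowerSeries.coeff l E -
        PowerSeries.coeff (l + 1) ((PowerSeries.X - PowerSeries.C a) * E) ∈ mO C := by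
      intro l
      rw [coeff_succ_sub_mul, sub_sub_cancel]
      exact (mO C).mul_mem_right _ ha
    obtain ⟨Z, hZc, hZ⟩ := ih E
      (fun i hi => by simpa using (mO C).add_mem (hE i) (hlt (i + 1) (by omega)))
      (isUnit_of_sub_mem hu (hE N))
      (fun b hb E' hE' h0 => hs b hb ((PowerSeries.X - PowerSeries.C a) * E')
        (by rw [hE']; ring) (by rw [ev1_sub_mul hb, h0, mul_zero]))
    have haZ : a ∉ Z := fun haZ => hs a ha E rfl (hZ a haZ).2
    refine ⟨insert a Z, by rw [Finset.card_insert_of_notMem haZ, hZc], fun b hb => ?_⟩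
    rcases Finset.mem_insert.1 hb with rfl | hb
    · exact ⟨ha, hGa⟩
    · exact ⟨(hZ b hb).1, by rw [ev1_sub_mul (hZ b hb).1, (hZ b hb).2, mul_zero]⟩

end TorsAux

open TorsAux

namespace Data

variable (D : Data p C h r)

theorem span_ϖ_le : Ideal.span {D.ϖ} ≤ mO C := (Ideal.span_singleton_le_iff_mem _).2 D.ϖ1

theorem g_coeff_sub (i : ℕ) : PowerSeries.coeff i D.g -
    PowerSeries.coeff i (PowerSeries.X ^ p ^ r : PowerSeries (O C)) ∈ mO C := by
  apply D.span_ϖ_le
  apply map_mk_eq_iff'.1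
  rw [D.g_mod, map_pow, PowerSeries.map_X]

theorem g_lt (i : ℕ) (hi : i < p ^ r) : PowerSeries.coeff i D.g ∈ mO C := by
  have := D.g_coeff_sub i
  rwa [PowerSeries.coeff_X_pow, if_neg hi.ne, sub_zero] at this

theorem g_unit : IsUnit (PowerSeries.coeff (p ^ r) D.g) := by
  have := D.g_coeff_sub (p ^ r)
  rw [PowerSeries.coeff_X_pow_self] at this
  exact isUnit_of_sub_mem isUnit_one this

theorem g_hom : IsFGHom (D.H.map (iterateFrobenius (O C) p h)) D.H D.g := by
  have hp : 1 < p := (Fact.out : p.Prime).one_lt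
  have hP : p ^ h ≠ 0 := by positivity
  obtain ⟨g', hg', hhom⟩ := exists_frob_factor p (fgHom_mulSeries D.H p) h (fun i hi => by
    rw [D.hg, PowerSeries.coeff_subst_X_pow hP, if_neg]
    exact Nat.not_dvd_of_pos_of_lt (by positivity) (Nat.pow_lt_pow_right hp hi))
  rw [D.hg] at hg'
  rwa [subst_X_pow_injective hP hg']

theorem g_simple {a : O C} (ha : a ∈ mO C) (E : PowerSeries (O C))
    (hE : D.g = (PowerSeries.X - PowerSeries.C a) * E) : ev1 (RingHom.id _) a E ≠ 0 := by
  intro h0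
  have h1 := congrArg (ev1 (RingHom.id _) a) (deriv_hom D.g_hom)
  rw [map_mul, map_mul, ev1_derivative_mul ha hE, h0, zero_mul, ev1_C, RingHom.id_apply,
    ev1_subst1 (mO C) _ ha D.g0, hE, ev1_sub_mul ha, sub_self, zero_mul] at h1
  have h2 : ev1 (RingHom.id (O C)) (0 : O C) (dY D.H) = 1 := by
    have := ev_zero (σ := Unit) (RingHom.id (O C)) (dY D.H)
    rw [RingHom.id_apply] at this
    exact this.trans (constantCoeff_dY D.H)
  rw [h2, mul_one, ← hE] at h1
  exact D.g1 h1.symm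

theorem p_smul_val (x : D.PH) : (p • x).1 = ev1 (RingHom.id _) (x.1 ^ p ^ h) D.g := by
  have hP : p ^ h ≠ 0 := pow_ne_zero _ (Fact.out : p.Prime).ne_zero
  rw [Pt.nsmul_val, D.hg, ev1_subst1 (mO C) _ x.2 (by rw [map_pow, PowerSeries.constantCoeff_X, zero_pow hP]),
    map_pow, ev1_X (mO C) _ x.2]

theorem exists_pt_pow {a : O C} (ha : a ∈ mO C) : ∃ x : D.PH, x.1 ^ p ^ h = a := by
  refine ⟨pt D.H _ (Fr p (-(h : ℤ)) (a : C)), Subtype.ext ?_⟩
  have h1 := pt_c (F := D.H) (ι := RingHom.id (O C)) (norm_Fr_lt_one (p := p) (-(h : ℤ)) (mem_mO.1 ha))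
  change (pt D.H _ (Fr p (-(h : ℤ)) (a : C))).c ^ p ^ h = (a : C)
  rw [h1, ← Fr_natCast, ← Fr_add, add_neg_cancel, Fr_zero]

theorem pow_injective {x y : D.PH} (hxy : x.1 ^ p ^ h = y.1 ^ p ^ h) : x = y := by
  apply Pt.ext_c
  apply (Fr p (h : ℤ)).injective
  rw [Fr_natCast, Fr_natCast]
  exact congrArg (fun z : O C => (z : C)) hxy

theorem exists_Z : ∃ Z : Finset (O C), Z.card = p ^ r ∧
    ∀ a, a ∈ Z ↔ a ∈ mO C ∧ ev1 (RingHom.id _) a D.g = 0 := by
  classical
  obtain ⟨Z, hZc, hZ⟩ := exists_roots (p ^ r) D.g D.g_lt D.g_unit fun a ha E hE => D.g_simple ha E hE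
  refine ⟨Z, hZc, fun a => ⟨hZ a, fun ha => ?_⟩⟩
  by_contra haZ
  refine not_mem_of_isUnit D.g_unit (coeff_mem_of_roots (insert a Z) ?_ D.g ?_ _ ?_)
  · intro b hb
    rcases Finset.mem_insert.1 hb with rfl | hb
    · exact ha.1
    · exact (hZ b hb).1
  · intro b hb
    rcases Finset.mem_insert.1 hb with rfl | hb
    · exact ha.2
    · exact (hZ b hb).2
  · rw [Finset.card_insert_of_notMem haZ, hZc]
    exact Nat.lt_succ_self _

theorem p_smul_surjective' : Function.Surjective fun x : D.PH => p • x := by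
  intro c
  have hR : p ^ r ≠ 0 := pow_ne_zero _ (Fact.out : p.Prime).ne_zero
  obtain ⟨a, ha, hga⟩ := exists_root (G := D.g - PowerSeries.C c.1) (N := p ^ r)
    (Nat.one_le_iff_ne_zero.2 hR)
    (fun i hi => by
      rw [map_sub]
      refine (mO C).sub_mem (D.g_lt i hi) ?_
      rw [PowerSeries.coeff_C]
      split_ifs
      · exact c.2
      · exact (mO C).zero_mem)
    (by rw [map_sub, PowerSeries.coeff_C, if_neg hR, sub_zero]; exact D.g_unit)
  obtain ⟨x, rfl⟩ := D.exists_pt_pow ha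
  refine ⟨x, Pt.ext ?_⟩
  rw [map_sub, ev1_C, RingHom.id_apply, sub_eq_zero] at hga
  exact (D.p_smul_val x).trans hga

theorem card_torsion' : Nat.card {x : D.PH // p • x = 0} = p ^ r := by
  obtain ⟨Z, hZc, hZ⟩ := D.exists_Z
  have hP : p ^ h ≠ 0 := pow_ne_zero _ (Fact.out : p.Prime).ne_zero
  let f : {x : D.PH // p • x = 0} → {a // a ∈ Z} := fun x =>
    ⟨x.1.1 ^ p ^ h, (hZ _).2 ⟨(mO C).pow_mem_of_mem x.1.2 _ (Nat.pos_of_ne_zero hP), by
      rw [← D.p_smul_val, x.2, Pt.zero_val]⟩⟩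
  have hf : Function.Bijective f := by
    constructor
    · intro x y hxy
      exact Subtype.ext (D.pow_injective (congrArg Subtype.val hxy))
    · rintro ⟨a, ha⟩
      obtain ⟨x, rfl⟩ := D.exists_pt_pow ((hZ a).1 ha).1
      exact ⟨⟨x, Pt.ext ((D.p_smul_val x).trans ((hZ _).1 ha).2)⟩, rfl⟩
  rw [Nat.card_congr (Equiv.ofBijective f hf), Nat.card_eq_fintype_card, Fintype.card_coe, hZc]

theorem roots' (G : PowerSeries (O C))
    (hG : ∀ x : D.PH, p • x = 0 → ev1 (RingHom.id _) (x.1 ^ p ^ h) G = 0) :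
    ∀ l < p ^ r, PowerSeries.coeff l G ∈ mO C := by
  obtain ⟨Z, hZc, hZ⟩ := D.exists_Z
  rw [← hZc]
  refine coeff_mem_of_roots Z (fun a ha => ((hZ a).1 ha).1) G fun a ha => ?_
  obtain ⟨x, rfl⟩ := D.exists_pt_pow ((hZ a).1 ha).1
  exact hG x (Pt.ext ((D.p_smul_val x).trans ((hZ _).1 ha).2))

end Data

end Crest.Agent.R227
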