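import Crest.Agent.R227.TorsAux
import Crest.Agent.R227.TorsAlg

/-!
# R227 / TorsTow : towers of torsion points and their images in the universal cover
-/

set_option autoImplicit false
set_option linter.unusedSectionVars false

namespace Crest.Agent.R227

open Filter Topology Crest.LubinTate

variable {p : ℕ} [Fact p.Prime] {C : Type} [NontriviallyNormedField C] [IsUltrametricDist C]
  [CompleteSpace C] [CharP C p] [IsAlgClosed C] {h r : ℕ}

namespace Data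

variable (D : Data p C h r)

theorem w_pos : 0 < ‖(D.ϖ : C)‖ := norm_pos_iff.2 fun h0 => D.ϖ0 (Subtype.ext h0)

theorem w_lt : ‖(D.ϖ : C)‖ < 1 := D.ϖ1

theorem ε_unit : IsUnit (PowerSeries.coeff 1 D.ε) := by rw [D.ε1]; exact isUnit_one

/-- the inverse series of `ε` -/
noncomputable def εi : PowerSeries (O C) := D.ε.substInvOfIsUnit D.ε_unit

theorem εi0 : PowerSeries.constantCoeff D.εi = 0 :=
  PowerSeries.constantCoeff_substInvOfIsUnit _ _

theorem ev_ε_εi {x : O C} (hx : x ∈ mO C) :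
    ev1 (RingHom.id _) (ev1 (RingHom.id _) x D.εi) D.ε = x := by
  rw [← ev1_subst1 (mO C) _ hx D.εi0, εi, PowerSeries.subst_substInvOfIsUnit_right _ D.ε0,
    ev1_X (mO C) _ hx]

theorem ev_εi_ε {x : O C} (hx : x ∈ mO C) :
    ev1 (RingHom.id _) (ev1 (RingHom.id _) x D.ε) D.εi = x := by
  rw [← ev1_subst1 (mO C) _ hx D.ε0, εi, PowerSeries.subst_substInvOfIsUnit_left _ D.ε0,
    ev1_X (mO C) _ hx]

theorem norm_ε_sub {x y : O C} (hx : x ∈ mO C) (hy : y ∈ mO C) :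
    ‖((ev1 (RingHom.id _) x D.ε : O C) : C) - (ev1 (RingHom.id _) y D.ε : O C)‖ =
      ‖(x : C) - y‖ := by
  refine le_antisymm (norm_ev1_sub_ev1_le _ hx hy _) ?_
  have := norm_ev1_sub_ev1_le (RingHom.id (O C)) (ev1_mem (mO C) (RingHom.id _) hx D.ε0)
    (ev1_mem (mO C) (RingHom.id _) hy D.ε0) D.εi
  rwa [D.ev_εi_ε hx, D.ev_εi_ε hy] at this

theorem lev_dist (k : ℕ) (x y : D.PX) :
    ‖D.lev k x - D.lev k y‖ ^ p ^ ((h + r) * k) = ‖x.c - y.c‖ := by
  have h1 : ‖D.lev k x - D.lev k y‖ = ‖Fr p (-((h + r : ℕ) * k : ℤ)) (x.c - y.c)‖ := by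
    rw [map_sub, ← frP_c, ← frP_c]
    exact D.norm_ε_sub (frP D.Gn _ x).2 (frP D.Gn _ y).2
  rw [h1, ← norm_pow, ← Fr_natCast, ← Fr_add]
  push_cast
  rw [add_neg_cancel, Fr_zero]

theorem lev_dist_le_iff (k : ℕ) (x y : D.PX) {w : ℝ} (hw : 0 ≤ w) :
    ‖D.lev k x - D.lev k y‖ ≤ w ↔ ‖x.c - y.c‖ ≤ w ^ p ^ ((h + r) * k) := by
  rw [← D.lev_dist k x y,
    pow_le_pow_iff_left₀ (norm_nonneg _) hw (pow_ne_zero _ (Fact.out : p.Prime).ne_zero)]

theorem lev_zero (k : ℕ) : D.lev k 0 = 0 := by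
  have := norm_ev1_le (RingHom.id (O C)) (x := (frP D.Gn (-((h + r : ℕ) * k : ℤ)) (0 : D.PX)).1)
    (frP D.Gn _ 0).2 (f := D.ε) (k := 1) (by rw [pow_one, PowerSeries.X_dvd_iff]; exact D.ε0)
  rw [pow_one] at this
  have h0 : ((frP D.Gn (-((h + r : ℕ) * k : ℤ)) (0 : D.PX)).1 : C) = 0 := by
    rw [map_zero]; rfl
  rw [h0, norm_zero] at this
  exact norm_le_zero_iff.1 this

theorem norm_lev_le_iff (k : ℕ) (x : D.PX) {w : ℝ} (hw : 0 ≤ w) :
    ‖D.lev k x‖ ≤ w ↔ ‖x‖ ≤ w ^ p ^ ((h + r) * k) := by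
  have := D.lev_dist_le_iff k x 0 hw
  rwa [lev_zero, sub_zero, Pt.zero_c, sub_zero] at this

theorem exists_lev_eq (k : ℕ) (t : D.PH) : ∃ x : D.PX, D.lev k x = t.c := by
  let z : D.PX := ⟨ev1 (RingHom.id _) t.1 D.εi, ev1_mem (mO C) _ t.2 D.εi0⟩
  refine ⟨frP D.Gn ((h + r : ℕ) * k : ℤ) z, ?_⟩
  have h1 : frP D.Gn (-((h + r : ℕ) * k : ℤ)) (frP D.Gn ((h + r : ℕ) * k : ℤ) z) = z := by
    apply Pt.ext_c
    rw [frP_c, frP_c, ← Fr_add, neg_add_cancel, Fr_zero]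
  rw [lev, h1]
  exact congrArg (fun u : O C => (u : C)) (D.ev_ε_εi t.2)

theorem w_pow_le (k : ℕ) : ‖(D.ϖ : C)‖ ^ p ^ ((h + r) * k) ≤ ‖(D.ϖ : C)‖ ^ k := by
  apply pow_le_pow_of_le_one D.w_pos.le D.w_lt.le
  have h1 : (h + r) * k < p ^ ((h + r) * k) := Nat.lt_pow_self (Fact.out : p.Prime).one_lt
  have h2 : k ≤ (h + r) * k := Nat.le_mul_of_pos_left _ (by have := D.hh; omega)
  omega

theorem w_pow_anti {j k : ℕ} (hjk : j ≤ k) :
    ‖(D.ϖ : C)‖ ^ p ^ ((h + r) * k) ≤ ‖(D.ϖ : C)‖ ^ p ^ ((h + r) * j) :=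
  pow_le_pow_of_le_one D.w_pos.le D.w_lt.le
    (Nat.pow_le_pow_right (Fact.out : p.Prime).pos (Nat.mul_le_mul_left _ hjk))

/-- towers of torsion points -/
def Tow : AddSubgroup (ℕ → D.PH) where
  carrier := {t | t 0 = 0 ∧ ∀ k, p • t (k + 1) = t k}
  zero_mem' := ⟨rfl, fun _ => smul_zero _⟩
  add_mem' := fun {a b} ha hb => ⟨by simp [ha.1, hb.1], fun k => by
    simp only [Pi.add_apply, smul_add, ha.2 k, hb.2 k]⟩
  neg_mem' := fun {a} ha => ⟨by simp [ha.1], fun k => by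
    simp only [Pi.neg_apply, smul_neg, ha.2 k]⟩

/-- `y` is the limit of the tower `t` -/
def App (t : ℕ → D.PH) (y : D.PX) : Prop := ∀ k, ‖(t k).c - D.lev k y‖ ≤ ‖(D.ϖ : C)‖

theorem App.unique {t : ℕ → D.PH} {y y' : D.PX} (hy : D.App t y) (hy' : D.App t y') : y = y' := by
  have h1 : ∀ k, ‖y.c - y'.c‖ ≤ ‖(D.ϖ : C)‖ ^ k := by
    intro k
    refine le_trans ((D.lev_dist_le_iff k y y' D.w_pos.le).1 ?_) (D.w_pow_le k)
    have h2 : D.lev k y - D.lev k y' = ((t k).c - D.lev k y') + -((t k).c - D.lev k y) := by ring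
    rw [h2]
    refine (IsUltrametricDist.norm_add_le_max _ _).trans (max_le (hy' k) ?_)
    rw [norm_neg]
    exact hy k
  have h2 := ge_of_tendsto' (tendsto_pow_atTop_nhds_zero_of_lt_one D.w_pos.le D.w_lt) h1
  exact Pt.ext_c (sub_eq_zero.1 (norm_le_zero_iff.1 h2))

theorem App.add {t t' : ℕ → D.PH} {y y' : D.PX} (hy : D.App t y) (hy' : D.App t' y') :
    D.App (t + t') (y + y') := by
  intro k
  have h1 := D.norm_ε_add (frP D.Gn (-((h + r : ℕ) * k : ℤ)) y) (frP D.Gn (-((h + r : ℕ) * k : ℤ)) y')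
  rw [← map_add] at h1
  change ‖D.lev k (y + y') - (pt D.H (RingHom.id _) (D.lev k y) +
    pt D.H (RingHom.id _) (D.lev k y')).c‖ ≤ _ at h1
  set a := pt D.H (RingHom.id _) (D.lev k y) with ha
  set b := pt D.H (RingHom.id _) (D.lev k y') with hb
  have hac : a.c = D.lev k y := pt_c (D.norm_lev_lt k y)
  have hbc : b.c = D.lev k y' := pt_c (D.norm_lev_lt k y')
  have h2 : ‖(t k + t' k).c - (a + b).c‖ ≤ ‖(D.ϖ : C)‖ := by
    rw [← Pt.norm_sub_c, ← Pt.norm_def, show t k + t' k - (a + b) = (t k - a) + (t' k - b) by abel]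
    refine (IsUltrametricDist.norm_add_le_max _ _).trans (max_le ?_ ?_)
    · rw [Pt.norm_def, Pt.norm_sub_c, hac]; exact hy k
    · rw [Pt.norm_def, Pt.norm_sub_c, hbc]; exact hy' k
  have h3 : ((t + t') k).c - D.lev k (y + y') =
      ((t k + t' k).c - (a + b).c) + -(D.lev k (y + y') - (a + b).c) := by
    rw [Pi.add_apply]; ring
  rw [h3]
  refine (IsUltrametricDist.norm_add_le_max _ _).trans (max_le h2 ?_)
  rw [norm_neg]
  exact h1

theorem exists_app (t : D.Tow) : ∃ y, D.App t.1 y := by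
  choose u hu using fun k => D.exists_lev_eq k (t.1 k)
  have hstep : ∀ k, dist (u k) (u (k + 1)) ≤ ‖(D.ϖ : C)‖ ^ p ^ ((h + r) * k) := by
    intro k
    rw [Pt.dist_def, ← D.lev_dist_le_iff k _ _ D.w_pos.le, hu k, ← D.lev_succ_pow k (u (k + 1)),
      hu (k + 1), ← t.2.2 k]
    refine (D.norm_p_smul_sub _).trans ?_
    exact mul_le_of_le_one_right D.w_pos.le (t.1 (k + 1)).norm_c_lt.le
  have hcau : CauchySeq u := cauchySeq_of_le_geometric ‖(D.ϖ : C)‖ 1 D.w_lt fun k => by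
    rw [one_mul]; exact (hstep k).trans (D.w_pow_le k)
  obtain ⟨y, hy⟩ := cauchySeq_tendsto_of_complete hcau
  refine ⟨y, fun k => ?_⟩
  have h1 : ∀ m, k ≤ m → dist (u k) (u m) ≤ ‖(D.ϖ : C)‖ ^ p ^ ((h + r) * k) := by
    intro m hm
    induction m, hm using Nat.le_induction with
    | base => rw [dist_self]; exact pow_nonneg D.w_pos.le _
    | succ m hm ih =>
      exact (IsUltrametricDist.dist_triangle_max _ (u m) _).trans
        (max_le ih ((hstep m).trans (D.w_pow_anti hm)))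
  have h2 : dist (u k) y ≤ ‖(D.ϖ : C)‖ ^ p ^ ((h + r) * k) :=
    le_of_tendsto (tendsto_const_nhds.dist hy) (eventually_atTop.2 ⟨k, h1⟩)
  rw [Pt.dist_def, ← D.lev_dist_le_iff k _ _ D.w_pos.le, hu k] at h2
  exact h2

/-- the limit of a tower -/
noncomputable def Y : D.Tow →+ D.PX :=
  AddMonoidHom.mk' (fun t => (D.exists_app t).choose) fun t t' =>
    App.unique D (D.exists_app (t + t')).choose_spec
      (App.add D (D.exists_app t).choose_spec (D.exists_app t').choose_spec)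

theorem app_Y (t : D.Tow) : D.App t.1 (D.Y t) := (D.exists_app t).choose_spec

theorem norm_le_iff_Y (t : D.Tow) (k : ℕ) :
    ‖t.1 k‖ ≤ ‖(D.ϖ : C)‖ ↔ ‖D.Y t‖ ≤ ‖(D.ϖ : C)‖ ^ p ^ ((h + r) * k) := by
  rw [← D.norm_lev_le_iff k _ D.w_pos.le, Pt.norm_def]
  have h1 := D.app_Y t k
  constructor
  · intro h2
    rw [show D.lev k (D.Y t) = (t.1 k).c + -((t.1 k).c - D.lev k (D.Y t)) by ring]
    exact (IsUltrametricDist.norm_add_le_max _ _).trans (max_le h2 (by rwa [norm_neg]))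
  · intro h2
    rw [show (t.1 k).c = ((t.1 k).c - D.lev k (D.Y t)) + D.lev k (D.Y t) by ring]
    exact (IsUltrametricDist.norm_add_le_max _ _).trans (max_le h1 h2)

theorem norm_p_smul_le {x : D.PH} (hx : ‖x‖ ≤ ‖(D.ϖ : C)‖) : ‖p • x‖ ≤ ‖(D.ϖ : C)‖ * ‖x‖ := by
  rw [Pt.norm_def] at hx ⊢
  rw [Pt.norm_def, show (p • x).c = ((p • x).c - x.c ^ p ^ (h + r)) + x.c ^ p ^ (h + r) by ring]
  refine (IsUltrametricDist.norm_add_le_max _ _).trans (max_le (D.norm_p_smul_sub x) ?_)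
  have h2 : 2 ≤ p ^ (h + r) :=
    le_trans (Fact.out : p.Prime).two_le (Nat.le_self_pow (by have := D.hh; omega) p)
  rw [norm_pow]
  calc ‖x.c‖ ^ p ^ (h + r) ≤ ‖x.c‖ ^ 2 := pow_le_pow_of_le_one (norm_nonneg _) x.norm_c_lt.le h2
    _ = ‖x.c‖ * ‖x.c‖ := sq _
    _ ≤ _ := mul_le_mul_of_nonneg_right hx (norm_nonneg _)

theorem finite_torsion : {x : D.PH | p • x = 0}.Finite := by
  have : Finite {x : D.PH // p • x = 0} :=
    Nat.finite_of_card_ne_zero (by
      rw [D.card_torsion']; exact pow_ne_zero _ (Fact.out : p.Prime).ne_zero)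
  exact Set.finite_coe_iff.1 this

theorem finite_torsion_pow (M : ℕ) : {x : D.PH | p ^ M • x = 0}.Finite := by
  induction M with
  | zero => simp
  | succ M ih =>
    have h1 : {x : D.PH | p ^ (M + 1) • x = 0} =
        (fun x : D.PH => p • x) ⁻¹' {x : D.PH | p ^ M • x = 0} := by
      ext x
      simp [pow_succ, mul_smul]
    rw [h1]
    refine ih.preimage' fun b _ => ?_
    obtain ⟨c, hc⟩ := D.p_smul_surjective' b
    refine (D.finite_torsion.image fun z => z + c).subset fun x hx => ⟨x - c, ?_, by simp⟩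
    have hx' : p • x = b := hx
    have hc' : p • c = b := hc
    change p • (x - c) = 0
    rw [smul_sub, hx', hc', sub_self]

theorem pow_smul_tow (t : D.Tow) (k : ℕ) : p ^ k • t.1 k = 0 := by
  induction k with
  | zero => simpa using t.2.1
  | succ k ih => rw [pow_succ, mul_smul, t.2.2 k, ih]

theorem exists_lower : ∃ M : ℕ, ∀ t : D.Tow, t.1 1 ≠ 0 →
    ‖(D.ϖ : C)‖ ^ p ^ ((h + r) * M) < ‖D.Y t‖ := by
  have h1 : ∀ᶠ K : ℕ in atTop, ∀ x ∈ {x : D.PH | p • x = 0}, x ≠ 0 → ‖(D.ϖ : C)‖ ^ K < ‖x‖ := by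
    rw [D.finite_torsion.eventually_all]
    intro x _
    by_cases hx : x = 0
    · exact Eventually.of_forall fun _ h0 => absurd hx h0
    · exact ((tendsto_pow_atTop_nhds_zero_of_lt_one D.w_pos.le D.w_lt).eventually
        (gt_mem_nhds (norm_pos_iff.2 hx))).mono fun _ h2 _ => h2
  obtain ⟨K, hK⟩ := h1.exists
  refine ⟨K + 1, fun t ht => ?_⟩
  by_contra hcon
  rw [not_lt] at hcon
  have h2 : ∀ j ≤ K + 1, ‖t.1 j‖ ≤ ‖(D.ϖ : C)‖ := fun j hj =>
    (D.norm_le_iff_Y t j).2 (hcon.trans (D.w_pow_anti hj))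
  have h3 : ∀ i ≤ K, ‖t.1 1‖ ≤ ‖(D.ϖ : C)‖ ^ i * ‖t.1 (i + 1)‖ := by
    intro i
    induction i with
    | zero => intro _; simp
    | succ i ih =>
      intro hi
      refine (ih (by omega)).trans ?_
      rw [pow_succ, mul_assoc, ← t.2.2 (i + 1)]
      exact mul_le_mul_of_nonneg_left (D.norm_p_smul_le (h2 _ (by omega)))
        (pow_nonneg D.w_pos.le _)
  have h4 : ‖t.1 1‖ ≤ ‖(D.ϖ : C)‖ ^ K :=
    (h3 K le_rfl).trans (mul_le_of_le_one_right (pow_nonneg D.w_pos.le _)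
      (t.1 (K + 1)).norm_c_lt.le)
  exact absurd (hK (t.1 1) ((t.2.2 0).trans t.2.1) ht) (not_lt.2 h4)

theorem finite_norms : ((fun t : D.Tow => ‖D.Y t‖) '' {t | t.1 1 ≠ 0}).Finite := by
  obtain ⟨M, hM⟩ := D.exists_lower
  refine ((D.finite_torsion_pow M).image fun x =>
    ‖D.Y (Classical.epsilon fun t : D.Tow => t.1 M = x)‖).subset ?_
  rintro _ ⟨t, ht, rfl⟩
  refine ⟨t.1 M, D.pow_smul_tow t M, ?_⟩
  have h1 := Classical.epsilon_spec (p := fun s : D.Tow => s.1 M = t.1 M) ⟨t, rfl⟩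
  set s := Classical.epsilon fun s : D.Tow => s.1 M = t.1 M with hs
  have h2 : ‖D.Y (s - t)‖ < ‖D.Y t‖ := by
    refine lt_of_le_of_lt ((D.norm_le_iff_Y (s - t) M).1 ?_) (hM t ht)
    have : (s - t).1 M = 0 := by
      change s.1 M - t.1 M = 0
      rw [h1, sub_self]
    rw [this, norm_zero]
    exact D.w_pos.le
  change ‖D.Y s‖ = ‖D.Y t‖
  rw [show s = t + (s - t) by abel, map_add,
    IsUltrametricDist.norm_add_eq_max_of_norm_ne_norm h2.ne', max_eq_left h2.le]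

theorem pow_smul_c (e : ℕ) (y : D.PX) : (p ^ e • y).c = y.c ^ (p ^ (h + r)) ^ e := by
  induction e with
  | zero => simp
  | succ e ih => rw [pow_succ', mul_smul, p_smul_c D.normal, ih, ← pow_mul, ← pow_succ]

/-- the `p`-torsion subgroup -/
def Kp : AddSubgroup D.PH where
  carrier := {x | p • x = 0}
  zero_mem' := smul_zero _
  add_mem' := fun {a b} ha hb => by
    have ha' : p • a = 0 := ha
    have hb' : p • b = 0 := hb
    change p • (a + b) = 0
    rw [smul_add, ha', hb', add_zero]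
  neg_mem' := fun {a} ha => by
    have ha' : p • a = 0 := ha
    change p • (-a) = 0
    rw [smul_neg, ha', neg_zero]

/-- first level of a tower -/
noncomputable def lv1 : D.Tow →+ D.Kp :=
  AddMonoidHom.mk' (fun t => ⟨t.1 1, (t.2.2 0).trans t.2.1⟩) fun _ _ => rfl

theorem lv1_surjective : Function.Surjective D.lv1 := by
  intro x
  choose σ hσ using D.p_smul_surjective'
  refine ⟨⟨fun k => p • σ^[k] x.1, x.2, fun k => ?_⟩, Subtype.ext (hσ x.1)⟩
  have : p • σ^[k + 1] x.1 = σ^[k] x.1 := by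
    rw [Function.iterate_succ_apply']
    exact hσ _
  simp only [this]

theorem red_of_group {σ : Type} (y : σ → D.PX)
    (hy : ∀ (w : ℝ) (S : Finset (σ × ℕ)) (a : σ × ℕ → ZMod p),
      (∀ x ∈ S, ‖p ^ x.2 • y x.1‖ = w) →
      ‖∑ x ∈ S, (a x).val • p ^ x.2 • y x.1‖ < w → ∀ x ∈ S, a x = 0) :
    Red p (h + r) fun i => (y i).c := by
  intro w S a hS hlt x₀ hx₀
  have hS' : ∀ x ∈ S, ‖p ^ x.2 • y x.1‖ = w := fun x hx => by
    rw [Pt.norm_def, D.pow_smul_c, norm_pow]; exact hS x hx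
  have hw0 : 0 < w := lt_of_le_of_lt (norm_nonneg _) hlt
  have hw1 : w < 1 := by rw [← hS' x₀ hx₀]; exact Pt.norm_c_lt _
  have hw2 : w ^ 2 < w := by nlinarith
  refine hy w S a hS' ?_ x₀ hx₀
  have h1 := Pt.norm_sum_c_sub S (fun x => (a x).val • p ^ x.2 • y x.1) hw0.le fun x hx =>
    (IsUltrametricDist.norm_nsmul_le _ _).trans (hS' x hx).le
  have h2 : ‖∑ x ∈ S, ((a x).val • p ^ x.2 • y x.1).c -
      ∑ x ∈ S, (ZMod.castHom (dvd_refl p) C (a x)) * (y x.1).c ^ (p ^ (h + r)) ^ x.2‖ ≤ w ^ 2 := by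
    rw [← Finset.sum_sub_distrib]
    refine IsUltrametricDist.norm_sum_le_of_forall_le_of_nonneg (by positivity) fun x hx => ?_
    have h3 := Pt.norm_nsmul_c_sub (a x).val (p ^ x.2 • y x.1)
    rw [← Pt.norm_def, hS' x hx, D.pow_smul_c] at h3
    rw [ZMod.castHom_apply, ZMod.cast_eq_val]
    exact h3
  rw [Pt.norm_def]
  set A := (∑ x ∈ S, (a x).val • p ^ x.2 • y x.1).c
  set B := ∑ x ∈ S, ((a x).val • p ^ x.2 • y x.1).c
  set E := ∑ x ∈ S, (ZMod.castHom (dvd_refl p) C (a x)) * (y x.1).c ^ (p ^ (h + r)) ^ x.2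
  rw [show A = (A - B) + ((B - E) + E) by ring]
  refine (IsUltrametricDist.norm_add_le_max _ _).trans_lt (max_lt (h1.trans_lt hw2) ?_)
  exact (IsUltrametricDist.norm_add_le_max _ _).trans_lt (max_lt (h2.trans_lt hw2) hlt)

theorem exists_tors' : Nonempty (Tors D) := by
  obtain ⟨M, hM⟩ := D.exists_lower
  obtain ⟨t, ht0, hgen, hred⟩ := TorsAlg.exists_red_basis (p := p) (r := r) (T := D.Tow) (K := D.Kp)
    (fun x => Subtype.ext x.2) D.card_torsion' D.lv1 D.lv1_surjective (fun t => ‖D.Y t‖)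
    (D.finite_norms.subset (Set.image_mono fun t ht h0 => ht (Subtype.ext h0)))
    (fun e s t hst => by
      simp only [map_nsmul, Pt.norm_def, D.pow_smul_c, norm_pow] at hst
      exact lt_of_pow_lt_pow_left₀ _ (norm_nonneg _) hst)
  refine ⟨⟨fun i => (t i).1, fun i => (t i).2.1, fun i => (t i).2.2, fun i => D.Y (t i),
    fun i h0 => ?_, ?_, fun i => D.app_Y (t i), fun x hx => ?_, D.roots'⟩⟩
  · have := hM (t i) fun h1 => ht0 i (Subtype.ext h1)
    rw [h0, norm_zero] at this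
    exact absurd this (not_lt.2 (pow_nonneg D.w_pos.le _))
  · refine D.red_of_group _ fun w S a hS hlt => hred w S a ?_ ?_
    · simpa only [map_nsmul] using hS
    · simpa only [map_sum, map_nsmul] using hlt
  · obtain ⟨c, hc⟩ := hgen ⟨x, hx⟩
    have h1 : x = ∑ i, c i • (t i).1 1 := by
      have := congrArg D.Kp.subtype hc
      rw [map_sum] at this
      exact this
    rw [h1]
    exact sum_mem fun i _ => nsmul_mem (AddSubmonoid.subset_closure (Set.mem_range_self i)) _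

end Data

end Crest.Agent.R227
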